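import Mathlib
import Crest.Prelude.Def_Amenable

/-!
# Row 189, task Amen1: invariant means from almost invariant vectors, subgroups, locally finite groups
-/

set_option autoImplicit false

namespace Crest.Agent.R189

open Crest.GroupTheory
open scoped Pointwise ENNReal

/-- the action has an invariant finitely additive probability measure -/
def HasIM (Γ Y : Type) [Group Γ] [MulAction Γ Y] : Prop :=
  ∃ m : Set Y → ℝ≥0∞, m Set.univ = 1 ∧ (∀ s t : Set Y, Disjoint s t → m (s ∪ t) = m s + m t) ∧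
    ∀ (g : Γ) (s : Set Y), m (g • s) = m s

variable {Γ Γ' Y : Type} [Group Γ] [Group Γ']

theorem amenable_iff_hasIM : Amenable Γ ↔ HasIM Γ Γ := Iff.rfl

/-- approximately invariant finitely additive probability measures give an invariant one -/
theorem amen1_of_approx [MulAction Γ Y]
    (h : ∀ (S : Finset Γ) (δ : ℝ), 0 < δ → ∃ μ : Set Y → ℝ, (∀ A, 0 ≤ μ A) ∧ (∀ A, μ A ≤ 1) ∧
      μ Set.univ = 1 ∧ (∀ A B, Disjoint A B → μ (A ∪ B) = μ A + μ B) ∧
      ∀ s ∈ S, ∀ A, |μ (s • A) - μ A| ≤ δ) : HasIM Γ Y := by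
  classical
  have h' : ∀ i : Finset Γ × ℕ, ∃ μ : Set Y → ℝ, (∀ A, 0 ≤ μ A) ∧ (∀ A, μ A ≤ 1) ∧
      μ Set.univ = 1 ∧ (∀ A B, Disjoint A B → μ (A ∪ B) = μ A + μ B) ∧
      ∀ s ∈ i.1, ∀ A, |μ (s • A) - μ A| ≤ 1 / ((i.2 : ℝ) + 1) :=
    fun i => h i.1 _ (by positivity)
  choose μ h0 h1 huniv hadd hinv using h'
  let U : Ultrafilter (Finset Γ × ℕ) := Ultrafilter.of Filter.atTop
  have hU : (U : Filter (Finset Γ × ℕ)) ≤ Filter.atTop := Ultrafilter.of_le _
  have hlim : ∀ A : Set Y, ∃ l : ℝ, Filter.Tendsto (fun i => μ i A) U (nhds l) := by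
    intro A
    obtain ⟨l, -, hl⟩ := (isCompact_Icc (a := (0 : ℝ)) (b := 1)).ultrafilter_le_nhds
      (U.map fun i => μ i A) (by
        rw [Filter.le_principal_iff, Ultrafilter.coe_map, Filter.mem_map]
        exact Filter.Eventually.of_forall fun i => ⟨h0 i A, h1 i A⟩)
    exact ⟨l, hl⟩
  choose L hL using hlim
  have hL0 : ∀ A, 0 ≤ L A := fun A => ge_of_tendsto' (hL A) fun i => h0 i A
  refine ⟨fun A => ENNReal.ofReal (L A), ?_, ?_, ?_⟩
  · have : L Set.univ = 1 := by
      refine tendsto_nhds_unique (hL Set.univ) ?_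
      simp only [huniv]
      exact tendsto_const_nhds
    simp [this]
  · intro A B hAB
    have : L (A ∪ B) = L A + L B := by
      refine tendsto_nhds_unique (hL (A ∪ B)) ?_
      simp only [hadd _ A B hAB]
      exact (hL A).add (hL B)
    simp only [this]
    exact ENNReal.ofReal_add (hL0 A) (hL0 B)
  · intro g A
    have h2 : Filter.Tendsto (fun i : Finset Γ × ℕ => μ i (g • A) - μ i A) Filter.atTop
        (nhds 0) := by
      have h3 : Filter.Tendsto (fun i : Finset Γ × ℕ => 1 / ((i.2 : ℝ) + 1)) Filter.atTop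
          (nhds 0) := by
        refine tendsto_one_div_add_atTop_nhds_zero_nat.comp ?_
        rw [← Filter.prod_atTop_atTop_eq]
        exact Filter.tendsto_snd
      refine squeeze_zero_norm' ?_ h3
      filter_upwards [Filter.eventually_ge_atTop (({g} : Finset Γ), 0)] with i hi
      exact hinv i g (hi.1 (Finset.mem_singleton_self g)) A
    have h4 : L (g • A) - L A = 0 :=
      tendsto_nhds_unique ((hL (g • A)).sub (hL A)) (h2.mono_left hU)
    have h5 : L (g • A) = L A := by linarith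
    simp only [h5]

theorem amen1_ineq {ι : Type} (T : Finset ι) (a b : ι → ℝ) (p : ι → Prop) [DecidablePred p]
    {δ : ℝ} (hδ : 0 < δ) (ha : ∑ y ∈ T, a y ^ 2 = 1) (hb : ∑ y ∈ T, b y ^ 2 = 1)
    (hab : 1 - δ ^ 2 ≤ ∑ y ∈ T, a y * b y) :
    |∑ y ∈ T, (if p y then b y ^ 2 else 0) - ∑ y ∈ T, (if p y then a y ^ 2 else 0)| ≤ 3 * δ := by
  rw [← Finset.sum_sub_distrib]
  refine (Finset.abs_sum_le_sum_abs _ _).trans ?_
  have h1 : ∀ y ∈ T, |(if p y then b y ^ 2 else 0) - (if p y then a y ^ 2 else 0)| ≤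
      (a y ^ 2 + b y ^ 2 - 2 * (a y * b y)) / (2 * δ) + δ * (a y ^ 2 + b y ^ 2) := by
    intro y _
    have h2 : 0 ≤ (a y ^ 2 + b y ^ 2 - 2 * (a y * b y)) / (2 * δ) := by
      apply div_nonneg _ (by positivity)
      nlinarith [sq_nonneg (a y - b y)]
    split_ifs
    · have h3 : (a y ^ 2 + b y ^ 2 - 2 * (a y * b y)) / (2 * δ) =
          (b y - a y) ^ 2 / (2 * δ) := by ring
      rw [h3, abs_le]
      constructor
      · have : 0 ≤ (b y - a y) ^ 2 / (2 * δ) + δ * (a y ^ 2 + b y ^ 2) + (b y ^ 2 - a y ^ 2) := by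
          have e : (b y - a y) ^ 2 / (2 * δ) + δ * (a y ^ 2 + b y ^ 2) + (b y ^ 2 - a y ^ 2) =
              (((b y - a y) + δ * (a y + b y)) ^ 2 + δ ^ 2 * (a y - b y) ^ 2) / (2 * δ) := by
            field_simp
            ring
          rw [e]
          positivity
        linarith
      · have : 0 ≤ (b y - a y) ^ 2 / (2 * δ) + δ * (a y ^ 2 + b y ^ 2) - (b y ^ 2 - a y ^ 2) := by
          have e : (b y - a y) ^ 2 / (2 * δ) + δ * (a y ^ 2 + b y ^ 2) - (b y ^ 2 - a y ^ 2) =
              (((b y - a y) - δ * (a y + b y)) ^ 2 + δ ^ 2 * (a y - b y) ^ 2) / (2 * δ) := by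
            field_simp
            ring
          rw [e]
          positivity
        linarith
    · simp only [sub_zero, abs_zero]
      positivity
  refine (Finset.sum_le_sum h1).trans ?_
  rw [Finset.sum_add_distrib, ← Finset.sum_div, ← Finset.mul_sum, Finset.sum_sub_distrib,
    Finset.sum_add_distrib, ← Finset.mul_sum, ha, hb]
  have h4 : (1 + 1 - 2 * ∑ y ∈ T, a y * b y) / (2 * δ) ≤ δ := by
    rw [div_le_iff₀ (by positivity)]
    nlinarith
  linarith

/-- For `ξ` as in the hypothesis put `μ A = ∑ y ∈ A, ξ y ^ 2`. Then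
`|μ (s • A) - μ A| ≤ ∑ |ξ (s • y) ^ 2 - ξ y ^ 2| ≤ ‖ξ ∘ s - ξ‖₂ ‖ξ ∘ s + ξ‖₂ ≤ 2 √(2 ε)`. Take the
limit along an ultrafilter on `Finset Γ × ℕ` finer than `atTop` (`[0, 1]` or `ℝ≥0∞` is compact). -/
theorem im_of_l2 [MulAction Γ Y]
    (h : ∀ (S : Finset Γ) (ε : ℝ), 0 < ε → ∃ ξ : Y →₀ ℝ, ∑ y ∈ ξ.support, ξ y ^ 2 = 1 ∧
      ∀ s ∈ S, 1 - ε ≤ ∑ y ∈ ξ.support, ξ y * ξ (s • y)) : HasIM Γ Y := by
  classical
  refine amen1_of_approx fun S δ hδ => ?_
  obtain ⟨ξ, h1, h2⟩ := h S ((δ / 3) ^ 2) (by positivity)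
  refine ⟨fun A => ∑ y ∈ ξ.support, if y ∈ A then ξ y ^ 2 else 0, fun A => ?_, fun A => ?_, ?_,
    fun A B hAB => ?_, fun s hs A => ?_⟩
  · exact Finset.sum_nonneg fun y _ => by split_ifs <;> positivity
  · rw [← h1]
    exact Finset.sum_le_sum fun y _ => by split_ifs <;> [exact le_rfl; positivity]
  · simpa using h1
  · simp only
    rw [← Finset.sum_add_distrib]
    refine Finset.sum_congr rfl fun y _ => ?_
    by_cases hA : y ∈ A
    · have hB : y ∉ B := Set.disjoint_left.1 hAB hA
      simp [hA, hB]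
    · by_cases hB : y ∈ B <;> simp [hA, hB]
  · let T : Finset Y := ξ.support ∪ ξ.support.image fun y => s⁻¹ • y
    have hsub : ξ.support ⊆ T := Finset.subset_union_left
    have hA : ∀ F : Y → ℝ → ℝ, (∀ y, F y 0 = 0) →
        ∑ y ∈ ξ.support, F y (ξ y) = ∑ y ∈ T, F y (ξ y) := by
      intro F hF
      refine Finset.sum_subset hsub fun y _ hy => ?_
      rw [Finsupp.notMem_support_iff.1 hy, hF]
    have hB : ∀ F : Y → ℝ → ℝ, (∀ y, F y 0 = 0) →
        ∑ y ∈ ξ.support, F y (ξ y) = ∑ y ∈ T, F (s • y) (ξ (s • y)) := by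
      intro F hF
      have e1 : ∑ y ∈ ξ.support.image (fun y => s⁻¹ • y), F (s • y) (ξ (s • y)) =
          ∑ y ∈ ξ.support, F y (ξ y) := by
        rw [Finset.sum_image fun x _ y _ hxy => MulAction.injective s⁻¹ hxy]
        simp
      rw [← e1]
      refine Finset.sum_subset Finset.subset_union_right fun y _ hy => ?_
      have : s • y ∉ ξ.support := fun hm => hy (Finset.mem_image.2 ⟨s • y, hm, by simp⟩)
      rw [Finsupp.notMem_support_iff.1 this, hF]
    have e1 := hA (fun _ x => x ^ 2) (by simp)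
    have e2 := hB (fun _ x => x ^ 2) (by simp)
    have e3 := hA (fun y x => x * ξ (s • y)) (by simp)
    have e4 := hA (fun y x => if y ∈ A then x ^ 2 else 0) (by simp)
    have e5 := hB (fun y x => if y ∈ s • A then x ^ 2 else 0) (by simp)
    simp only [Set.smul_mem_smul_set_iff] at e5
    have key := amen1_ineq T (fun y => ξ y) (fun y => ξ (s • y)) (fun y => y ∈ A)
      (δ := δ / 3) (by positivity) (e1 ▸ h1) (e2 ▸ h1) (e3 ▸ h2 s hs)
    simp only
    rw [e4, e5]
    linarith

/-- Choose a set `R` of representatives of the right cosets of the range, and put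
`m' A = m {f a * r | a ∈ A, r ∈ R}`. -/
theorem amen_of_injective (f : Γ' →* Γ) (hf : Function.Injective f) (h : Amenable Γ) :
    Amenable Γ' := by
  classical
  obtain ⟨m, h1, h2, h3⟩ := h
  let r : Γ → Γ := fun x => Quotient.out (Quotient.mk (QuotientGroup.rightRel f.range) x)
  have hr : ∀ x, x * (r x)⁻¹ ∈ f.range := fun x =>
    QuotientGroup.rightRel_apply.1 (Quotient.exact (Quotient.out_eq
      (Quotient.mk (QuotientGroup.rightRel f.range) x)))
  have hr' : ∀ (g : Γ') (x : Γ), r (f g * x) = r x := by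
    intro g x
    have : Quotient.mk (QuotientGroup.rightRel f.range) (f g * x) =
        Quotient.mk (QuotientGroup.rightRel f.range) x := by
      apply Quotient.sound
      refine QuotientGroup.rightRel_apply.2 ⟨g⁻¹, ?_⟩
      simp
    simp only [r, this]
  choose π hπ using hr
  have hπ' : ∀ (g : Γ') (x : Γ), π (f g * x) = g * π x := by
    intro g x
    apply hf
    rw [map_mul, hπ, hπ, hr', mul_assoc]
  refine ⟨fun A => m (π ⁻¹' A), by simpa using h1, fun A B hAB => ?_, fun g A => ?_⟩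
  · simp only [Set.preimage_union]
    exact h2 _ _ (hAB.preimage π)
  · have : π ⁻¹' (g • A) = f g • π ⁻¹' A := by
      ext x
      rw [Set.mem_preimage, Set.mem_smul_set_iff_inv_smul_mem, Set.mem_smul_set_iff_inv_smul_mem,
        Set.mem_preimage, smul_eq_mul, smul_eq_mul, ← map_inv, hπ']
    simp only [this]
    exact h3 _ _

/-- `im_of_l2` with the normalised indicator function of a finite subgroup -/
theorem amen_locfin
    (h : ∀ S : Finset Γ, ((Subgroup.closure (S : Set Γ) : Subgroup Γ) : Set Γ).Finite) :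
    Amenable Γ := by
  rw [amenable_iff_hasIM]
  refine amen1_of_approx fun S δ hδ => ?_
  have hfin := h S
  set H : Subgroup Γ := Subgroup.closure (S : Set Γ) with hH
  have hpos : (0 : ℝ) < ((H : Set Γ).ncard : ℝ) := by
    have : 0 < (H : Set Γ).ncard := (Set.ncard_pos hfin).2 ⟨1, H.one_mem⟩
    exact_mod_cast this
  refine ⟨fun A => ((A ∩ (H : Set Γ)).ncard : ℝ) / ((H : Set Γ).ncard : ℝ), fun A => by positivity,
    fun A => ?_, ?_, fun A B hAB => ?_, fun s hs A => ?_⟩
  · rw [div_le_one hpos]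
    exact_mod_cast Set.ncard_le_ncard Set.inter_subset_right hfin
  · simp only [Set.univ_inter]
    exact div_self hpos.ne'
  · simp only
    rw [Set.union_inter_distrib_right, Set.ncard_union_eq
      (hAB.mono Set.inter_subset_left Set.inter_subset_left)
      (hfin.subset Set.inter_subset_right) (hfin.subset Set.inter_subset_right), Nat.cast_add,
      add_div]
  · have hs' : s ∈ H := Subgroup.subset_closure hs
    have e : s • A ∩ (H : Set Γ) = s • (A ∩ (H : Set Γ)) := by
      ext x
      simp only [Set.mem_inter_iff, Set.mem_smul_set_iff_inv_smul_mem, smul_eq_mul, SetLike.mem_coe]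
      rw [H.mul_mem_cancel_left (H.inv_mem hs')]
    simp only
    rw [e, Set.ncard_smul_set]
    simpa using hδ.le

/-- A finitely generated subgroup of a power of a finite group is finite: the map
`y ↦ (s ↦ s y) ∈ (S → F)` takes finitely many values, and all elements of the closure are constant
on its fibres. -/
theorem finite_closure_pi {F : Type} [Group F] [Finite F] (S : Finset (Y → F)) :
    ((Subgroup.closure (S : Set (Y → F)) : Subgroup (Y → F)) : Set (Y → F)).Finite := by
  classical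
  let φ : Y → (S → F) := fun y s => (s : Y → F) y
  let K : Subgroup (Y → F) :=
    { carrier := {g | ∀ y y', φ y = φ y' → g y = g y'}
      one_mem' := fun _ _ _ => rfl
      mul_mem' := fun {a b} ha hb y y' hy => by
        simp only [Pi.mul_apply]
        rw [ha y y' hy, hb y y' hy]
      inv_mem' := fun {a} ha y y' hy => by
        simp only [Pi.inv_apply]
        rw [ha y y' hy] }
  have hle : Subgroup.closure (S : Set (Y → F)) ≤ K := by
    rw [Subgroup.closure_le]
    intro s hs y y' hy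
    exact congrFun hy ⟨s, hs⟩
  refine (Set.finite_range fun e : (S → F) → F => e ∘ φ).subset fun g hg => ?_
  have hg' : Function.FactorsThrough g φ := fun y y' hy => hle hg y y' hy
  exact ⟨Function.extend φ g fun _ => 1, hg'.extend_comp _⟩

end Crest.Agent.R189
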