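import Crest.Agent.R189.Grp

/-!
# Row 189, task Cell: dyadic cells and the locally finite group `LT` of cell exchanges
-/

set_option autoImplicit false

namespace Crest.Agent.R189

open Equiv

variable {ι : Type}

theorem deg_cm (w : List Bool) : (cm w).deg = w.length := by
  induction w with
  | nil => exact deg_one
  | cons β w ih => rw [cm, deg_hm, ih]; cases β <;> rfl

theorem cf_child (c : Cell ι) (β : Bool) (y : Om) :
    cf (child c β) y = cf c (he .T .a β y) := by
  simp only [cf, child, cm, app_hm]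

private theorem cell_he (y : Om) : ∃ β y', y = he .T .a β y' := by
  obtain ⟨β, y', -, h⟩ := exists_he (t := .T) (d := .a) rfl (Set.mem_univ y)
  exact ⟨β, y', h⟩

private theorem cell_he_eq {β β' : Bool} {y y' : Om} (h : he .T .a β y = he .T .a β' y') :
    β = β' := by
  have h1 := he_ix (t := .T) (d := .a) rfl β (y := y) (by cases β <;> exact Set.mem_univ _)
  have h2 := he_ix (t := .T) (d := .a) rfl β' (y := y') (by cases β' <;> exact Set.mem_univ _)
  rw [h, h2] at h1
  cases β <;> cases β' <;> simp_all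

private theorem cell_root (i : ι) (y : Om) : cf (i, []) y = (i, y) := by
  simp only [cf, cm, app_one]

private theorem cell_append (w : List Bool) :
    ∃ f : Om → Om, ∀ (c : Cell ι) (y : Om), cf (c.1, w ++ c.2) y = cf c (f y) := by
  induction w with
  | nil => exact ⟨id, fun _ _ => rfl⟩
  | cons β w ih =>
    obtain ⟨f, hf⟩ := ih
    exact ⟨fun y => f (he .T .a β y), fun c y => (cf_child (c.1, w ++ c.2) β y).trans (hf _ _)⟩

private theorem cell_split (c : Cell ι) {L : ℕ} (h : L ≤ c.2.length) :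
    ∃ (w : List Bool) (e : Cell ι), e.2.length = L ∧ c = (e.1, w ++ e.2) :=
  ⟨c.2.take (c.2.length - L), (c.1, c.2.drop (c.2.length - L)), by
    simp only [List.length_drop]; omega, by simp⟩

theorem cset_root (i : ι) : cset (i, []) = {x | x.1 = i} := by
  ext ⟨j, y⟩
  constructor
  · rintro ⟨z, hz⟩
    exact (congrArg Prod.fst hz).symm
  · rintro (rfl : j = i)
    exact ⟨y, cell_root _ _⟩

theorem fst_of_mem_cset {c : Cell ι} {x : ι × Om} (h : x ∈ cset c) : x.1 = c.1 := by
  obtain ⟨y, rfl⟩ := h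
  rfl

theorem cset_child_subset (c : Cell ι) (β : Bool) : cset (child c β) ⊆ cset c := by
  rintro _ ⟨y, rfl⟩
  exact ⟨_, (cf_child c β y).symm⟩

theorem cset_child_union (c : Cell ι) : cset (child c true) ∪ cset (child c false) = cset c := by
  refine Set.Subset.antisymm (Set.union_subset (cset_child_subset c _) (cset_child_subset c _)) ?_
  rintro _ ⟨y, rfl⟩
  obtain ⟨β, y', rfl⟩ := cell_he y
  cases β
  · exact Or.inr ⟨y', cf_child _ _ _⟩
  · exact Or.inl ⟨y', cf_child _ _ _⟩

theorem cset_nonempty (c : Cell ι) : (cset c).Nonempty := by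
  exact ⟨_, fun _ => .inl 0, rfl⟩

theorem exists_cell (L : ℕ) (x : ι × Om) :
    ∃ (c : Cell ι) (y : Om), c.2.length = L ∧ x = cf c y := by
  induction L with
  | zero => exact ⟨(x.1, []), x.2, rfl, (cell_root _ _).symm⟩
  | succ L ih =>
    obtain ⟨c, y, hc, rfl⟩ := ih
    obtain ⟨β, y', rfl⟩ := cell_he y
    exact ⟨child c β, y', by simp [child, hc], (cf_child _ _ _).symm⟩

theorem cf_eq {c c' : Cell ι} {y y' : Om} (hl : c'.2.length = c.2.length)
    (h : cf c y = cf c' y') : c = c' ∧ y = y' := by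
  obtain ⟨i, w⟩ := c
  obtain ⟨i', w'⟩ := c'
  induction w generalizing w' y y' with
  | nil =>
    obtain rfl : w' = [] := List.length_eq_zero_iff.1 hl
    rw [cell_root, cell_root, Prod.mk.injEq] at h
    exact ⟨by rw [h.1], h.2⟩
  | cons β w ih =>
    obtain _ | ⟨β', w'⟩ := w'
    · simp at hl
    · have h' : cf (i, w) (he .T .a β y) = cf (i', w') (he .T .a β' y') :=
        (cf_child (i, w) β y).symm.trans (h.trans (cf_child (i', w') β' y'))
      obtain ⟨h1, h2⟩ := ih w' (by simpa using hl) h'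
      obtain rfl := cell_he_eq h2
      cases h1
      exact ⟨rfl, he_injective _ _ _ h2⟩

theorem cset_disjoint {c c' : Cell ι} (hl : c'.2.length = c.2.length) (h : c ≠ c') :
    Disjoint (cset c) (cset c') := by
  rw [Set.disjoint_left]
  rintro _ ⟨y, rfl⟩ ⟨y', hy⟩
  exact h (cf_eq hl hy.symm).1

private theorem cell_append_subset (c : Cell ι) (w : List Bool) :
    cset (c.1, w ++ c.2) ⊆ cset c := by
  obtain ⟨f, hf⟩ := cell_append (ι := ι) w
  rintro _ ⟨y, rfl⟩
  exact ⟨_, (hf c y).symm⟩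

private theorem cell_nested {c c' : Cell ι} (hl : c.2.length ≤ c'.2.length) :
    (∃ w, c' = (c.1, w ++ c.2)) ∨ Disjoint (cset c') (cset c) := by
  obtain ⟨w, e, he, rfl⟩ := cell_split c' hl
  by_cases h : e = c
  · exact Or.inl ⟨w, by rw [h]⟩
  · exact Or.inr ((cset_disjoint he.symm h).mono_left (cell_append_subset e w))

/-- two cells are nested or disjoint -/
theorem cset_subset_or_disjoint {c c' : Cell ι} (hl : c.2.length ≤ c'.2.length) :
    cset c' ⊆ cset c ∨ Disjoint (cset c') (cset c) := by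
  rcases cell_nested hl with ⟨w, rfl⟩ | h
  · exact Or.inl (cell_append_subset c w)
  · exact Or.inr h

/-- a point of a cell lies in a subcell of any deeper level, with a parametrisation which only
depends on the address -/
theorem exists_subcell (k : ℕ) (y : Om) : ∃ (w : List Bool) (y' : Om), w.length = k ∧
    ∀ c : Cell ι, cf c y = cf (c.1, w ++ c.2) y' := by
  induction k with
  | zero => exact ⟨[], y, rfl, fun _ => rfl⟩
  | succ k ih =>
    obtain ⟨w, y', hw, h⟩ := ih
    obtain ⟨β, y'', rfl⟩ := cell_he y'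
    exact ⟨β :: w, y'', by simp [hw], fun c =>
      (h c).trans (cf_child (c.1, w ++ c.2) β y'').symm⟩

theorem Rig.child {g : ι × Om → ι × Om} {c c' : Cell ι} (h : Rig g c c') (β : Bool) :
    Rig g (child c β) (child c' β) := by
  refine ⟨congrArg (· + 1) h.1, fun y => ?_⟩
  rw [cf_child, cf_child, h.2]

theorem Rig.append {g : ι × Om → ι × Om} {c c' : Cell ι} (h : Rig g c c') (w : List Bool) :
    Rig g (c.1, w ++ c.2) (c'.1, w ++ c'.2) := by
  obtain ⟨f, hf⟩ := cell_append (ι := ι) w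
  refine ⟨by simp [h.1], fun y => ?_⟩
  rw [hf, hf, h.2]

theorem Rig.unique {g : ι × Om → ι × Om} {c c₁ c₂ : Cell ι} (h₁ : Rig g c c₁) (h₂ : Rig g c c₂) :
    c₁ = c₂ := by
  exact (cf_eq (h₂.1.trans h₁.1.symm) ((h₁.2 fun _ => .inl 0).symm.trans (h₂.2 _))).1

theorem Rig.mul {g h : Perm (ι × Om)} {c c' c'' : Cell ι} (h₁ : Rig h c c') (h₂ : Rig g c' c'') :
    Rig (g * h : Perm (ι × Om)) c c'' := by
  exact ⟨h₂.1.trans h₁.1, fun y => by rw [Perm.mul_apply, h₁.2, h₂.2]⟩

theorem Rig.inv {g : Perm (ι × Om)} {c c' : Cell ι} (h : Rig g c c') :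
    Rig (g⁻¹ : Perm (ι × Om)) c' c := by
  exact ⟨h.1.symm, fun y => by rw [Perm.inv_eq_iff_eq, h.2]⟩

theorem rig_of_fix {g : ι × Om → ι × Om} {c : Cell ι} (h : ∀ x ∈ cset c, g x = x) :
    Rig g c c := by
  exact ⟨rfl, fun y => h _ ⟨y, rfl⟩⟩

instance finite_cellL [Finite ι] (L : ℕ) : Finite (CellL ι L) := by
  refine Finite.of_injective (β := ι × List.Vector Bool L)
    (fun c : CellL ι L => (c.1.1, ⟨c.1.2, c.2⟩)) fun c c' h => ?_
  have h' := Prod.ext_iff.1 h
  exact Subtype.ext (Prod.ext h'.1 (congrArg Subtype.val h'.2))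

theorem decL_bijective (L : ℕ) :
    Function.Bijective (fun p : CellL ι L × Om => cf p.1.1 p.2) := by
  constructor
  · rintro ⟨c, y⟩ ⟨c', y'⟩ h
    obtain ⟨h1, h2⟩ := cf_eq (c'.2.trans c.2.symm) h
    exact Prod.ext (Subtype.ext h1) h2
  · intro x
    obtain ⟨c, y, hc, rfl⟩ := exists_cell L x
    exact ⟨(⟨c, hc⟩, y), rfl⟩

/-- the space is the product of the set of cells of level `L` with `Om` -/
noncomputable def decL (ι : Type) (L : ℕ) : CellL ι L × Om ≃ ι × Om :=
  Equiv.ofBijective _ (decL_bijective L)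

/-- exchange of the cells of level `L` -/
noncomputable def vL (L : ℕ) : Perm (CellL ι L) →* Perm (ι × Om) where
  toFun π := (decL ι L).permCongr (Equiv.prodCongr π (Equiv.refl Om))
  map_one' := by ext1 x; simp
  map_mul' π ρ := by ext1 x; simp [Prod.map_map]

theorem vL_apply (L : ℕ) (π : Perm (CellL ι L)) (c : CellL ι L) (y : Om) :
    vL L π (cf c.1 y) = cf (π c).1 y := by
  change decL ι L (Equiv.prodCongr π (Equiv.refl Om) ((decL ι L).symm (decL ι L (c, y)))) = _
  rw [symm_apply_apply]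
  rfl

theorem vL_injective (L : ℕ) : Function.Injective (vL (ι := ι) L) := by
  intro π ρ h
  ext1 c
  have h1 := vL_apply L π c fun _ => .inl 0
  rw [h, vL_apply] at h1
  exact Subtype.ext (cf_eq ((π c).2.trans (ρ c).2.symm) h1).1.symm

private theorem cell_rig_vL (L : ℕ) (π : Perm (CellL ι L)) (c : CellL ι L) :
    Rig (vL L π) c.1 (π c).1 :=
  ⟨(π c).2.trans c.2.symm, vL_apply L π c⟩

theorem mem_range_vL [Finite ι] {L : ℕ} {g : Perm (ι × Om)} :
    g ∈ (vL L).range ↔ ∀ c : Cell ι, c.2.length = L → ∃ c', Rig g c c' := by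
  constructor
  · rintro ⟨π, rfl⟩ c hc
    exact ⟨_, cell_rig_vL L π ⟨c, hc⟩⟩
  · intro h
    choose F hF using h
    let F' : CellL ι L → CellL ι L := fun c => ⟨F c.1 c.2, (hF c.1 c.2).1.trans c.2⟩
    have hinj : Function.Injective F' := fun c c' e => by
      have e' : F c.1 c.2 = F c'.1 c'.2 := congrArg Subtype.val e
      exact Subtype.ext ((hF c.1 c.2).inv.unique (e' ▸ (hF c'.1 c'.2).inv))
    refine ⟨Equiv.ofBijective F' (Finite.injective_iff_bijective.1 hinj), ?_⟩
    ext1 x
    obtain ⟨c, y, hc, rfl⟩ := exists_cell L x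
    exact (vL_apply L _ ⟨c, hc⟩ y).trans ((hF c hc).2 y).symm

theorem range_vL_mono [Finite ι] {L L' : ℕ} (h : L ≤ L') :
    (vL (ι := ι) L).range ≤ (vL L').range := by
  intro g hg
  rw [mem_range_vL] at hg ⊢
  intro c hc
  obtain ⟨w, e, he, rfl⟩ := cell_split c (h.trans hc.ge)
  obtain ⟨e', he'⟩ := hg e he
  exact ⟨_, he'.append w⟩

/-- cell exchanges -/
def LT (ι : Type) [Finite ι] : Subgroup (Perm (ι × Om)) where
  carrier := {g | ∃ L, g ∈ (vL L).range}
  mul_mem' := by
    rintro g h ⟨L, hg⟩ ⟨L', hh⟩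
    exact ⟨max L L', mul_mem (range_vL_mono (le_max_left _ _) hg)
      (range_vL_mono (le_max_right _ _) hh)⟩
  one_mem' := ⟨0, one_mem _⟩
  inv_mem' := by
    rintro g ⟨L, hg⟩
    exact ⟨L, inv_mem hg⟩

theorem LT_le_G [Finite ι] : LT ι ≤ G ι := by
  have key : ∀ (L : ℕ) (g : Perm (ι × Om)), g ∈ (vL L).range → PC g := fun L g hg i => by
    rw [mem_range_vL] at hg
    have : ∀ (k : ℕ) (w : List Bool), w.length + k = L → Fine (Can g i) ⟨cm w, .T⟩ := by
      intro k
      induction k with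
      | zero =>
        intro w hw
        obtain ⟨c', hc'⟩ := hg (i, w) hw
        exact .base ⟨c'.1, cm c'.2, by rw [deg_cm, deg_cm, hc'.1], fun y _ => hc'.2 y⟩
      | succ k ih =>
        intro w hw
        exact .split .a rfl (ih (true :: w) (by simp only [List.length_cons]; omega))
          (ih (false :: w) (by simp only [List.length_cons]; omega))
    exact this L [] (Nat.zero_add L)
  rintro g ⟨L, hg⟩
  exact ⟨key L g hg, key L _ (inv_mem hg)⟩

/-- an element which is rigid on the cells of a finite covering is a cell exchange -/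
theorem mem_LT_of_rig [Finite ι] {g : Perm (ι × Om)} {I : Finset ι} (hg : g ∈ Fix I)
    (cs : Finset (Cell ι)) (hcov : ∀ x : ι × Om, x.1 ∈ I → ∃ c ∈ cs, x ∈ cset c)
    (h : ∀ c ∈ cs, ∃ c', Rig g c c') : g ∈ LT ι := by
  refine ⟨cs.sup fun c => c.2.length, mem_range_vL.2 fun c hc => ?_⟩
  by_cases hI : c.1 ∈ I
  · obtain ⟨x, hx⟩ := cset_nonempty c
    obtain ⟨e, he, hxe⟩ := hcov x (by rwa [fst_of_mem_cset hx])
    have hl : e.2.length ≤ c.2.length := hc ▸ Finset.le_sup (f := fun c : Cell ι => c.2.length) he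
    obtain ⟨e', he'⟩ := h e he
    rcases cell_nested hl with ⟨w, hw⟩ | hd
    · exact ⟨_, hw ▸ he'.append w⟩
    · exact absurd hxe (Set.disjoint_left.1 hd hx)
  · exact ⟨c, rig_of_fix fun x hx => hg x (by rwa [fst_of_mem_cset hx])⟩

open Classical in
/-- exchange of two cells of the same level -/
noncomputable def sw (c c' : Cell ι) : Perm (ι × Om) :=
  if h : c'.2.length = c.2.length then vL c.2.length (swap ⟨c, rfl⟩ ⟨c', h⟩) else 1

theorem sw_mem_LT [Finite ι] (c c' : Cell ι) : sw c c' ∈ LT ι := by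
  unfold sw
  split_ifs
  · exact ⟨_, _, rfl⟩
  · exact one_mem _

theorem rig_sw_left {c c' : Cell ι} (h : c'.2.length = c.2.length) : Rig (sw c c') c c' := by
  classical
  rw [sw, dif_pos h]
  have := cell_rig_vL c.2.length (swap ⟨c, rfl⟩ ⟨c', h⟩) ⟨c, rfl⟩
  rwa [swap_apply_left] at this

theorem rig_sw_right {c c' : Cell ι} (h : c'.2.length = c.2.length) : Rig (sw c c') c' c := by
  classical
  rw [sw, dif_pos h]
  have := cell_rig_vL c.2.length (swap ⟨c, rfl⟩ ⟨c', h⟩) ⟨c', h⟩
  rwa [swap_apply_right] at this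

theorem sw_apply_of_notMem {c c' : Cell ι} {x : ι × Om} (h : x ∉ cset c) (h' : x ∉ cset c') :
    sw c c' x = x := by
  classical
  unfold sw
  split_ifs with hl
  · obtain ⟨e, y, he, rfl⟩ := exists_cell c.2.length x
    refine (vL_apply _ _ ⟨e, he⟩ y).trans ?_
    rw [swap_apply_of_ne_of_ne]
    · intro e'
      obtain rfl : e = c := congrArg Subtype.val e'
      exact h ⟨y, rfl⟩
    · intro e'
      obtain rfl : e = c' := congrArg Subtype.val e'
      exact h' ⟨y, rfl⟩
  · rfl

private theorem cell_sw_ext {g : Perm (ι × Om)} {c c' : Cell ι} (h₁ : Rig g c c') (h₂ : Rig g c' c)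
    (h₃ : ∀ x, x ∉ cset c → x ∉ cset c' → g x = x) : g = sw c c' := by
  ext1 x
  by_cases h : x ∈ cset c
  · obtain ⟨y, rfl⟩ := h
    rw [h₁.2, (rig_sw_left h₁.1).2]
  · by_cases h' : x ∈ cset c'
    · obtain ⟨y, rfl⟩ := h'
      rw [h₂.2, (rig_sw_right h₁.1).2]
    · rw [h₃ x h h', sw_apply_of_notMem h h']

theorem sw_self (c : Cell ι) : sw c c = 1 := by
  exact (cell_sw_ext (rig_of_fix fun _ _ => rfl) (rig_of_fix fun _ _ => rfl) fun _ _ _ => rfl).symm

theorem sw_comm (c c' : Cell ι) : sw c c' = sw c' c := by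
  by_cases h : c'.2.length = c.2.length
  · exact cell_sw_ext (rig_sw_right h) (rig_sw_left h) fun x h1 h2 => sw_apply_of_notMem h2 h1
  · rw [sw, sw, dif_neg h, dif_neg (Ne.symm h)]

theorem sw_mul_self (c c' : Cell ι) : sw c c' * sw c c' = 1 := by
  classical
  unfold sw
  split_ifs
  · rw [← map_mul, swap_mul_self, map_one]
  · exact mul_one _

theorem sw_mem_Fix {c c' : Cell ι} {I : Finset ι} (h : c.1 ∈ I) (h' : c'.1 ∈ I) :
    sw c c' ∈ Fix I := by
  intro x hx
  exact sw_apply_of_notMem (fun e => hx (fst_of_mem_cset e ▸ h)) fun e => hx (fst_of_mem_cset e ▸ h')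

private theorem cell_child_notMem {c c' : Cell ι} (h : c'.2.length = c.2.length) {β β' : Bool}
    (hβ : β ≠ β') (y : Om) : cf (child c β) y ∉ cset (child c' β') :=
  Set.disjoint_left.1 (cset_disjoint (c := child c β) (c' := child c' β') (congrArg (· + 1) h)
    fun e => hβ (List.cons.inj (congrArg Prod.snd e)).1) ⟨y, rfl⟩

private theorem cell_rig_child {c c' : Cell ι} (h : c'.2.length = c.2.length) :
    Rig (sw (child c true) (child c' true) * sw (child c false) (child c' false) : Perm (ι × Om))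
      c c' := by
  refine ⟨h, fun y => ?_⟩
  obtain ⟨β, y', rfl⟩ := cell_he y
  rw [← cf_child, ← cf_child, Perm.mul_apply]
  cases β
  · rw [(rig_sw_left (c := child c false) (c' := child c' false) (congrArg (· + 1) h)).2,
      sw_apply_of_notMem (cell_child_notMem h.symm (by simp) _) (cell_child_notMem rfl (by simp) _)]
  · rw [sw_apply_of_notMem (cell_child_notMem rfl (by simp) _) (cell_child_notMem h (by simp) _),
      (rig_sw_left (c := child c true) (c' := child c' true) (congrArg (· + 1) h)).2]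

theorem sw_child {c c' : Cell ι} (h : c'.2.length = c.2.length) :
    sw c c' = sw (child c true) (child c' true) * sw (child c false) (child c' false) := by
  refine (cell_sw_ext (cell_rig_child h) ?_ fun x h1 h2 => ?_).symm
  · rw [sw_comm (child c true), sw_comm (child c false)]
    exact cell_rig_child h.symm
  · rw [Perm.mul_apply, sw_apply_of_notMem (fun e => h1 (cset_child_subset _ _ e))
      fun e => h2 (cset_child_subset _ _ e), sw_apply_of_notMem
      (fun e => h1 (cset_child_subset _ _ e)) fun e => h2 (cset_child_subset _ _ e)]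

theorem conj_sw {g : Perm (ι × Om)} {c c' e e' : Cell ι} (hl : c'.2.length = c.2.length)
    (h : Rig g c e) (h' : Rig g c' e') : g * sw c c' * g⁻¹ = sw e e' := by
  refine cell_sw_ext (h.inv.mul ((rig_sw_left hl).mul h')) (h'.inv.mul ((rig_sw_right hl).mul h))
    fun x h1 h2 => ?_
  have e0 : g (g⁻¹ x) = x := g.apply_symm_apply x
  rw [Perm.mul_apply, Perm.mul_apply, sw_apply_of_notMem, e0]
  · rintro ⟨y, hy⟩
    exact h1 ⟨y, by rw [← h.2, hy, e0]⟩
  · rintro ⟨y, hy⟩
    exact h2 ⟨y, by rw [← h'.2, hy, e0]⟩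

open Classical in
theorem vL_swap (L : ℕ) (c c' : CellL ι L) : vL L (swap c c') = sw c.1 c'.1 := by
  obtain ⟨c, rfl⟩ := c
  rw [sw, dif_pos c'.2]

/-- A cell exchange supported in `U` is a product of exchanges of two cells contained in `U` (all
of the same level, which can be taken as large as we like). -/
theorem mem_closure_sw [Finite ι] {g : Perm (ι × Om)} (hg : g ∈ LT ι) (U : Set (ι × Om))
    (hU : ∀ x, x ∉ U → g x = x) (n : ℕ) :
    g ∈ Subgroup.closure {s | ∃ c c' : Cell ι, n ≤ c.2.length ∧ c'.2.length = c.2.length ∧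
      c ≠ c' ∧ cset c ⊆ U ∧ cset c' ⊆ U ∧ s = sw c c'} := by
  classical
  obtain ⟨L, hL⟩ := hg
  obtain ⟨π, rfl⟩ := range_vL_mono (le_max_left L n) hL
  have h₂ : ∀ c : CellL ι (max L n), π c ≠ c → cset c.1 ⊆ U := fun c hc x hx => by
    by_contra hx'
    obtain ⟨y, rfl⟩ := hx
    have := hU _ hx'
    rw [vL_apply] at this
    exact hc (Subtype.ext (cf_eq (c.2.trans (π c).2.symm) this).1)
  have h₁ : ∀ c : CellL ι (max L n), cset (π c).1 ⊆ U ↔ cset c.1 ⊆ U := fun c => by
    by_cases hc : π c = c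
    · rw [hc]
    · exact iff_of_true (h₂ _ fun e => hc (π.injective e)) (h₂ c hc)
  rw [← Perm.ofSubtype_subtypePerm (p := fun c : CellL ι (max L n) => cset c.1 ⊆ U) h₁ h₂]
  generalize π.subtypePerm (p := fun c : CellL ι (max L n) => cset c.1 ⊆ U) h₁ = ρ
  induction ρ using Perm.swap_induction_on with
  | one => rw [map_one, map_one]; exact one_mem _
  | swap_mul ρ a b hab ih =>
    rw [map_mul, map_mul]
    refine mul_mem (Subgroup.subset_closure ⟨a.1.1, b.1.1, a.1.2.ge.trans' (le_max_right L n),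
      b.1.2.trans a.1.2.symm, fun e => hab (Subtype.ext (Subtype.ext e)), a.2, b.2, ?_⟩) ih
    rw [← vL_swap, ← Perm.ofSubtype_swap_eq]

end Crest.Agent.R189
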