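import Crest.Agent.R189.Lev

/-!
# Row 189, task LevS: the projection of a piece is the sum of the projections of its halves
-/

set_option autoImplicit false

namespace Crest.Agent.R189

open Equiv Proj

variable {ι : Type} [Fintype ι] [DecidableEq ι] {B : Type} [Group B]
variable {κ : B →* alternatingGroup ι} {H : Type} [Group H] {Φ : Frame κ H} {P Q R : Proj Φ}

section Aux

variable {p q r s x a c : Proj Φ}

theorem levs_sum_meet (h : IsSum r p q) (hp : Comm p s) (hq : Comm q s) :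
    IsSum (meet r s) (meet p s) (meet q s) := by
  obtain ⟨p₂, hps, hp₁, hp₂⟩ := proj_meet_spec hp
  obtain ⟨q₂, hqs, hq₁, hq₂⟩ := proj_meet_spec hq
  have o : ∀ {x y : Proj Φ}, Le x p → Le y q → Orth x y := fun hx hy =>
    hx.orth (hy.orth h.1.symm).symm
  obtain ⟨r₁, hr₁⟩ := (o hps.le_left hqs.le_left).exists_sum
  obtain ⟨r₂, hr₂⟩ := (o hps.le_right hqs.le_right).exists_sum
  have hr : IsSum r r₁ r₂ := by
    refine ⟨?_, fun a => ?_⟩
    · exact hr₁.orth (hr₂.orth hps.1.symm (o hps.le_left hqs.le_right).symm).symm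
        (hr₂.orth (o hps.le_right hqs.le_left) hqs.1.symm).symm
    · rw [h.2 a, hps.2 a, hqs.2 a, hr₁.2 a, hr₂.2 a]
      exact (o hps.le_right hqs.le_left a a).mul_mul_mul_comm _ _
  rw [meet_eq hr (hr₁.le hp₁ hq₁) (hr₂.orth hp₂ hq₂)]
  exact hr₁

theorem levs_comm_right (h : IsSum r p q) (hr : Comm r s) (hp : Comm p s) : Comm q s := by
  have h1 : Comm r p := (Comm.of_le h.le_left).symm
  have h2 := h1.isSum
  rw [h1.meet_comm, h.le_left.meet_eq] at h2
  rw [h.unique_right h2]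
  exact h1.compl.meet hr hp.symm.compl.symm

theorem levs_meet_meet (h : Le x a) (hx : Comm x c) (ha : Comm a c) :
    Comm x (meet a c) ∧ meet x (meet a c) = meet x c := by
  have h1 : Comm x (meet a c) := (ha.meet (Comm.of_le h).symm hx.symm).symm
  exact ⟨h1, (hx.le_meet h1.meet_le_left (h1.meet_le_right.trans ha.meet_le_right)).antisymm
    (h1.le_meet hx.meet_le_left (ha.le_meet (hx.meet_le_left.trans h) hx.meet_le_right))⟩

/-- two words act in the same way below `q` -/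
def levsEqv (γ δ : FG) (q : Proj Φ) : Prop := Triv (γ⁻¹ * δ) q

variable {γ δ ε : FG}

theorem levsEqv.of_eq (h : γ = δ) (q : Proj Φ) : levsEqv γ δ q := by
  subst h
  unfold levsEqv
  rw [inv_mul_cancel]
  exact triv_one q

theorem levsEqv.symm (h : levsEqv γ δ q) : levsEqv δ γ q := by
  have := Triv.inv h
  rwa [mul_inv_rev, inv_inv] at this

theorem levsEqv.trans (h : levsEqv γ δ q) (h' : levsEqv δ ε q) : levsEqv γ ε q := by
  have := Triv.mul h h'
  rwa [mul_assoc, mul_inv_cancel_left] at this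

theorem levsEqv.left (h : levsEqv γ δ q) (η : FG) : levsEqv (η * γ) (η * δ) q := by
  unfold levsEqv
  rwa [mul_inv_rev, mul_assoc, inv_mul_cancel_left]

theorem levsEqv.right (h : levsEqv γ δ q) {η : FG} (hη : Le (act η p) q) :
    levsEqv (γ * η) (δ * η) p := by
  have h1 := Triv.conj h η⁻¹
  have h2 := hη.act η⁻¹
  rw [act_inv_act] at h2
  have h3 : η⁻¹ * (γ⁻¹ * δ) * η⁻¹⁻¹ = (γ * η)⁻¹ * (δ * η) := by group
  rw [h3] at h1
  exact h1.mono h2

theorem levsEqv.mono (h : levsEqv γ δ q) (hp : Le p q) : levsEqv γ δ p := Triv.mono h hp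

theorem levsEqv.act_eq (h : levsEqv γ δ q) : act γ q = act δ q := by
  have := Triv.act_eq h
  rw [← mul_inv_cancel_left γ δ, act_mul γ, this]

end Aux

theorem levs_u (Q : Proj Φ) (n : ℕ) : act lu⁻¹ (Pn Q (n + 1)) = meet (Pn Q n) Q :=
  act_inv_act _ _

theorem Base.levs_yw (b : Base P Q R) (n : ℕ) : act yw (Pn Q (n + 1)) = meet (Pn Q n) R := by
  rw [yw, act_mul, levs_u, ← (b.levI n).2.2.1, act_inv_act]

theorem Base.levs_EQ (b : Base P Q R) (n : ℕ) : Comm (act (Vw n) (Pn Q (n + 1))) Q :=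
  levs_comm_right (b.levJ n).1 (b.levI n).1 (b.levI (n + 1)).1

theorem Base.levs_ER (b : Base P Q R) (n : ℕ) : Comm (act (Vw n) (Pn Q (n + 1))) R :=
  levs_comm_right (b.levJ n).1 (b.levI n).2.1 (b.levI (n + 1)).2.1

theorem Base.levs_VV (b : Base P Q R) (n : ℕ) :
    act (Vw n) (act (Vw (n + 1)) (Pn Q (n + 2))) = meet (act (Vw n) (Pn Q (n + 1))) Q.compl := by
  have h := (b.levJ (n + 1)).1.act (Vw n)
  rw [(b.levJ n).2.2.2] at h
  exact h.unique_right (b.levs_EQ n).isSum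

theorem Base.levs_VY (b : Base P Q R) (n : ℕ) :
    act (Vw n) (meet (Pn Q (n + 1)) Q.compl) = meet (act (Vw n) (Pn Q (n + 1))) R.compl := by
  have h := (b.levI (n + 1)).1.isSum.act (Vw n)
  rw [(b.levJ n).2.1] at h
  exact h.unique_right (b.levs_ER n).isSum

theorem Base.levs_VVV (b : Base P Q R) (n : ℕ) :
    act (Vw n) (act (Vw (n + 1)) (act (Vw (n + 2)) (Pn Q (n + 3)))) =
      meet (meet (act (Vw n) (Pn Q (n + 1))) Q.compl) R.compl := by
  have h1 := levs_meet_meet (b.levJ (n + 1)).1.le_right (b.levs_EQ (n + 1)).compl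
    (b.levI (n + 1)).1.compl
  have hc : Comm (meet (act (Vw n) (Pn Q (n + 1))) Q.compl) R.compl :=
    ((b.levs_EQ n).compl.meet (b.levs_ER n) b.cQR.symm.compl.symm).compl
  have h2 := levs_meet_meet (b.levs_EQ n).compl.meet_le_left hc (b.levs_ER n).compl
  rw [b.levs_VV (n + 1), ← h1.2, h1.1.act_meet, b.levs_VV n, b.levs_VY n, h2.2]

theorem Base.levs_ywY (b : Base P Q R) (n : ℕ) :
    act yw (meet (Pn Q (n + 1)) Q.compl) = meet (meet (Pn Q n) Q.compl) R := by
  have h := (b.levI (n + 1)).1.isSum.act yw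
  have e : yw = (lu * lw)⁻¹ := by rw [yw, mul_inv_rev]
  rw [b.levs_yw, ← b.act_uw_QR n, e, act_inv_act, ← e] at h
  exact h.unique_right (levs_sum_meet (b.levI n).1.isSum
    ((b.levI n).1.meet (b.levI n).2.1 b.cQR)
    ((b.levI n).1.compl.meet (b.levI n).2.1 b.cQR.symm.compl.symm))

theorem Base.levs_uZ (b : Base P Q R) (n : ℕ) :
    act lu⁻¹ (meet (Pn Q (n + 1)) R.compl) = meet (meet (Pn Q n) Q) R.compl := by
  have h := (b.levI (n + 1)).2.1.isSum.act lu⁻¹
  rw [levs_u, ← b.act_u_QR n, act_inv_act] at h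
  exact h.unique_right ((b.levI n).1.meet (b.levI n).2.1 b.cQR).isSum

theorem Base.levs_uyw (b : Base P Q R) : levsEqv (lu⁻¹ * yw) (yw * lu⁻¹) (Pn Q 2) := by
  have h1 := b.tuw.conj (lu * lw)
  rw [b.uwQR] at h1
  have h2 : levsEqv (lw * lu)⁻¹ (lu * lw)⁻¹ (meet P Q) := by
    unfold levsEqv
    convert h1 using 1
    group
  have h3 : Le (act lu⁻¹ (Pn Q 2)) (meet P Q) := by
    rw [levs_u, b.pn_one]
    exact le_refl _
  convert h2.right h3 using 1 <;> rw [yw] <;> group

theorem Base.levs_ywk (b : Base P Q R) (k : ℕ) :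
    levsEqv (lu⁻¹ * yw ^ k) (yw ^ k * lu⁻¹) (Pn Q (k + 1)) := by
  induction k with
  | zero => exact .of_eq (by simp) _
  | succ k ih =>
    have h1 : Le (act yw (Pn Q (k + 1 + 1))) (Pn Q (k + 1)) := by
      rw [b.levs_yw]
      exact (b.levI _).2.1.meet_le_left
    have h2 := ih.right h1
    have h3 := (b.levs_uyw.mono (b.pn_le (show 2 ≤ k + 1 + 1 by omega))).left (yw ^ k)
    rw [← mul_assoc] at h3
    rw [pow_succ, ← mul_assoc, mul_assoc (yw ^ k)]
    exact h2.trans h3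

theorem levs_gamp_append (a : ℕ) (p : List ℕ) (i : ℕ) :
    gamp a (p ++ [i]) = gamp a p * Vw (a + pdeg p + i) := by
  induction p generalizing a with
  | nil => simp [gamp, pdeg]
  | cons x p ih =>
    have : pdeg (x :: p) = x + 1 + pdeg p := by simp [pdeg]
    rw [List.cons_append, gamp, gamp, ih, this, mul_assoc]
    congr 3
    omega

theorem levs_uV (a j : ℕ) : lu⁻¹ ^ j * Vw (a + j) = Vw a := by
  rw [Vw, Vw, add_comm, pow_add, inv_pow]
  group

theorem Base.levs_ywV (b : Base P Q R) (n : ℕ) :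
    levsEqv (Vw n * lu⁻¹) (yw * Vw (n + 1)) (Pn Q (n + 2)) := by
  have h1 : levsEqv (lw * Vw n) (Vw n * lu) (meet (Pn Q (n + 1)) Q) := (b.levJ n).2.2.1
  have h2 : Le (act lu⁻¹ (Pn Q (n + 2))) (meet (Pn Q (n + 1)) Q) := by
    rw [levs_u]
    exact le_refl _
  have h3 := (h1.right h2).left lw⁻¹
  have h4 := levs_uV n 1
  rw [pow_one] at h4
  convert h3 using 1
  · group
  · rw [yw, mul_assoc, h4]; group

theorem Base.levs_ywkV (b : Base P Q R) (n k : ℕ) :
    levsEqv (Vw n * lu⁻¹ ^ k) (yw ^ k * Vw (n + k)) (Pn Q (n + k + 1)) := by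
  induction k with
  | zero => exact .of_eq (by simp) _
  | succ k ih =>
    have h1 : Le (act lu⁻¹ (Pn Q (n + k + 1 + 1))) (Pn Q (n + k + 1)) := by
      rw [levs_u]
      exact (b.levI _).1.meet_le_left
    have h2 := ih.right h1
    have h3 := (b.levs_ywV (n + k)).left (yw ^ k)
    rw [← mul_assoc] at h3
    rw [pow_succ, pow_succ, ← mul_assoc, mul_assoc (yw ^ k)]
    exact h2.trans h3

theorem Base.levs_C (b : Base P Q R) (m : Mk) :
    levsEqv (gam m.C) (gam m * Vw m.deg) (Pn Q (m.deg + 1)) := by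
  have h := (b.levs_ywkV (pdeg m.p + m.i + m.j) m.k).left (gamp 0 m.p * lu⁻¹ ^ m.j)
  convert h using 1
  · rw [mul_assoc, ← mul_assoc (lu⁻¹ ^ m.j), levs_uV, gam]
    simp only [Mk.C, levs_gamp_append, pow_zero, mul_one, zero_add, mul_assoc]
  · rw [gam, mul_assoc]; rfl
  · rfl

theorem Base.levs_rep (b : Base P Q R) (c n : ℕ) :
    Le (act (gamp n (List.replicate c 0)) (Pn Q (n + c))) (Pn Q n) := by
  induction c generalizing n with
  | zero =>
    rw [List.replicate_zero, gamp, act_one]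
    exact le_refl _
  | succ c ih =>
    rw [List.replicate_succ, gamp, act_mul, add_zero, show n + (c + 1) = n + 1 + c by omega]
    exact ((ih (n + 1)).act _).trans (b.levJ n).1.le_right

theorem Base.levs_Ck (b : Base P Q R) (c : ℕ) (m : Mk) :
    levsEqv (gam (Mk.C^[c] m)) (gam m * gamp m.deg (List.replicate c 0)) (Pn Q (m.deg + c)) := by
  induction c generalizing m with
  | zero => exact .of_eq (by simp [gamp]) _
  | succ c ih =>
    have hd : m.C.deg = m.deg + 1 := deg_hm .T .a false m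
    have h1 := ih m.C
    rw [hd] at h1
    have h2 := (b.levs_C m).right (b.levs_rep c (m.deg + 1))
    rw [Function.iterate_succ_apply, List.replicate_succ, gamp, add_zero, ← mul_assoc,
      show m.deg + (c + 1) = m.deg + 1 + c by omega]
    exact h1.trans h2

/-- Eight cases. Write `P n = Pn Q n`, `V n = Vw n`, `E n = V n • P (n+1) = P n - P (n+1)`.
All the projections `P n`, `E n`, `Q`, `R` and their meets commute (`Comm.meet`, `Comm.compl`); it
is convenient to prove first: if `r = p + q` and `p, q` commute with `s` then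
`meet r s = meet p s + meet q s`.
* `(T, a)`: `levJ`. `(T, b)`: `u⁻¹ • P (n+1) = P n Q`. `(T, c)`: `w⁻¹ • (P n Q) = P n R`.
* `(Y, a)`: `V n V (n+1) • P (n+2) = V n • (P (n+1) - P (n+2)) = E n - E n Q`.
* `(Y, c)`: `yw • (P (n+1) Qᶜ) = P n R - P n Q R` (`act_uw_QR`).
* `(Z, a)`: `V n • (P (n+1) Qᶜ) = E n - E n R`.
* `(Z, b)`: `u⁻¹ • (P (n+1) Rᶜ) = P n Q - P n Q R` (`act_u_QR`).
* `(W, a)`: `V (n+1) V (n+2) • P (n+3) = E (n+1) Qᶜ = E (n+1) ∧ P (n+1) Qᶜ`, and
  `V n • E (n+1) = E n Qᶜ`, `V n • (P (n+1) Qᶜ) = E n Rᶜ`. -/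
theorem Base.isSum_tau (b : Base P Q R) (n : ℕ) {t : Ty} {d : Dir} (h : valid t d = true) :
    IsSum (tau Q R n t) (act (xh n t d true) (tau Q R (n + dg t d true) (ht t d true)))
      (act (xh n t d false) (tau Q R (n + dg t d false) (ht t d false))) := by
  have hI := b.levI n
  have hI' := b.levI (n + 1)
  have hJ := (b.levJ n).1
  cases t <;> cases d <;> first | exact absurd h (by decide) | skip
  all_goals simp only [tau, xh, dg, ht, nC, List.replicate, gamp, act_one, act_mul, add_zero]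
  · exact hJ
  · rw [levs_u]; exact hI.1.isSum
  · rw [b.levs_yw]; exact hI.2.1.isSum
  · rw [b.levs_VV]
    exact levs_sum_meet hJ hI'.1.compl (b.levs_EQ n).compl
  · rw [b.levs_ywY]
    exact (hI.1.compl.meet hI.2.1 b.cQR.symm.compl.symm).isSum
  · rw [b.levs_VY]
    exact levs_sum_meet hJ hI'.2.1.compl (b.levs_ER n).compl
  · rw [b.levs_uZ]
    exact levs_sum_meet hI.1.isSum (hI.1.meet hI.2.1 b.cQR).compl
      (hI.1.compl.meet hI.2.1 b.cQR.symm.compl.symm).compl
  · rw [b.levs_VVV]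
    exact levs_sum_meet (levs_sum_meet hJ hI'.1.compl (b.levs_EQ n).compl)
      (hI'.1.compl.meet hI'.2.1 b.cQR.symm.compl.symm).compl
      ((b.levs_EQ n).compl.meet (b.levs_ER n) b.cQR.symm.compl.symm).compl

/-- It is enough to prove triviality on `P (deg m')` (`tau_le`).
* `A a`, `A c` and `β = false` with `d ≠ a`: the two words are equal.
* `A b`: `u⁻¹ yw ~ yw u⁻¹` on `P 2` (on `P Q = u⁻¹ • P 2`, `(u w)⁻¹ ~ (w u)⁻¹` by `tuw`), and
  `u⁻¹ • P (N+1) ≤ P N`, `yw • P (N+1) ≤ P N`; so `yw ^ k u⁻¹ ~ u⁻¹ yw ^ k` on `P (k+1)`.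
* `C`: `gamp a (p ++ [i]) = gamp a p * V (a + pdeg p + i)`, `u⁻¹ V (N+1) = V N`,
  `yw V (N+1) = w⁻¹ V N ~ V N u⁻¹` on `P (N+2)` (`levJ`), so
  `yw ^ k V (N+k) ~ V N u⁻¹ ^ k` on `P (N+k+1)`; thus `gam m.C ~ gam m * V (deg m)` on
  `P (deg m + 1)`. Iterate (`gam m.C.C ~ gam m.C * V (n+1)` on `P (n+2)` and
  `V (n+1) • P (n+2) ≤ P (n+1)`). -/
theorem Base.triv_gam (b : Base P Q R) (m : Mk) (t : Ty) (d : Dir) (β : Bool) :
    Triv ((gam (hm t d β m))⁻¹ * (gam m * xh m.deg t d β))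
      (tau Q R (hm t d β m).deg (ht t d β)) := by
  refine levsEqv.mono (q := Pn Q (hm t d β m).deg) ?_ (b.tau_le _ _)
  rw [deg_hm]
  cases β <;> cases d
  · exact b.levs_Ck (nC t) m
  · exact .of_eq (by cases t <;> simp [hm, xh]) _
  · exact .of_eq (by cases t <;> simp [hm, xh]) _
  · exact .of_eq (by simp [hm, xh, gam, Mk.A]) _
  · have h := ((b.levs_ywk m.k).mono (b.pn_le (n' := m.deg + 1)
      (by unfold Mk.deg; omega))).left (gamp 0 m.p * lu⁻¹ ^ m.j)
    convert h using 1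
    · simp only [hm, gam, Mk.A, pow_succ, mul_assoc]
    · simp only [xh, gam, mul_assoc]
    · rfl
  · exact .of_eq (by simp only [hm, xh, gam, Mk.A, pow_succ, mul_assoc]) _

theorem Base.act_xh_le (b : Base P Q R) (n : ℕ) {t : Ty} {d : Dir} (h : valid t d = true)
    (β : Bool) : Le (act (xh n t d β) (tau Q R (n + dg t d β) (ht t d β))) (tau Q R n t) := by
  cases β
  · exact (b.isSum_tau n h).le_right
  · exact (b.isSum_tau n h).le_left

theorem Base.isSum_pr (b : Base P Q R) {x : Pc} {d : Dir} (h : valid x.t d = true) :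
    IsSum (pr Q R x) (pr Q R (x.half d true)) (pr Q R (x.half d false)) := by
  have key : ∀ β, pr Q R (x.half d β) = act (gam x.m) (act (xh x.m.deg x.t d β)
      (tau Q R (x.m.deg + dg x.t d β) (ht x.t d β))) := fun β => by
    rw [← act_mul, ← deg_hm]
    exact levsEqv.act_eq (b.triv_gam x.m x.t d β)
  rw [key, key]
  exact (b.isSum_tau x.m.deg h).act _

theorem pr_root (Q R : Proj Φ) : pr Q R Pc.root = Proj.one Φ := by
  exact act_unit _

theorem Base.pr_a (b : Base P Q R) : pr Q R (Pc.root.half .a true) = P := by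
  have : pr Q R (Pc.root.half .a true) = act (1 * lu⁻¹ ^ 0 * yw ^ 0) (Pn Q 1) := rfl
  rw [this, b.pn_one]
  simp [act_one]

theorem Base.pr_b (b : Base P Q R) : pr Q R (Pc.root.half .b true) = Q := by
  have : pr Q R (Pc.root.half .b true) = act (1 * lu⁻¹ ^ 1 * yw ^ 0) (Pn Q 1) := rfl
  rw [this, b.pn_one, ← b.uQ, pow_one, pow_zero, one_mul, mul_one, act_inv_act]

theorem Base.pr_c (b : Base P Q R) : pr Q R (Pc.root.half .c true) = R := by
  have : pr Q R (Pc.root.half .c true) = act (1 * lu⁻¹ ^ 0 * yw ^ 1) (Pn Q 1) := rfl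
  rw [this, b.pn_one, ← b.uQ, pow_one, pow_zero, one_mul, one_mul, yw, act_mul, act_inv_act,
    ← b.wR, act_inv_act]

end Crest.Agent.R189
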