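import Crest.Agent.R189.Model
import Crest.Agent.R189.LevS

/-!
# Row 189, task Central: the kernel of the local part of a model is central
-/

set_option autoImplicit false

namespace Crest.Agent.R189

open Equiv Proj

variable {ι : Type} [Fintype ι] [DecidableEq ι] {B : Type} [Group B]
variable {κ : B →* alternatingGroup ι} {H : Type} [Group H]

/-- tokens -/
def Model.tok (M : Model κ H) (i : ι) (γ : FG) (q : Proj M.Φ) (a : B) : H :=
  M.Φ.d i γ * q.s a * (M.Φ.d i γ)⁻¹

/-- conjugation by `h` moves the tokens on the piece `z` of the copy `i` as `p h` moves the piece -/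
def Model.Track (M : Model κ H) (I : Finset ι) (h : H) (i : ι) (z : Pc) : Prop :=
  ∃ (m' : Mk) (b : B), κ b ∈ AI I ∧ m'.deg = z.m.deg ∧
    (∀ y ∈ z.t.set, M.p h (i, z.m.app y) = ((κ b).1 i, m'.app y)) ∧
    ∀ q, Le q (M.tau z.m.deg z.t) → ∀ a ∈ Bs κ (insert i Iᶜ),
      h * M.tok i (gam z.m) q a * h⁻¹ = M.tok ((κ b).1 i) (gam m') q (b * a * b⁻¹)

variable {M : Model κ H} {I : Finset ι}

theorem central_card (hI : 5 ≤ Iᶜ.card) (i : ι) : 5 ≤ (insert i Iᶜ).card :=
  hI.trans (Finset.card_le_card (Finset.subset_insert i _))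

theorem central_mem {π : alternatingGroup ι} (hπ : π ∈ AI I) {i : ι} (hi : i ∈ I) :
    π.1 i ∈ I := by
  by_contra h
  have h1 := π.1.injective (hπ _ h)
  exact h (h1.symm ▸ hi)

theorem central_conj_mem {b a : B} (hb : κ b ∈ AI I) {i : ι} (ha : a ∈ Bs κ (insert i Iᶜ)) :
    b * a * b⁻¹ ∈ Bs κ (insert ((κ b).1 i) Iᶜ) := by
  refine Bs_mono ?_ (conj_mem_Bs ha b)
  intro j hj
  obtain ⟨l, hl, rfl⟩ := Finset.mem_image.1 hj
  rcases Finset.mem_insert.1 hl with rfl | hl
  · exact Finset.mem_insert_self _ _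
  · rw [hb l (Finset.mem_compl.1 hl)]
    exact Finset.mem_insert_of_mem hl

theorem central_commute {h : H} (hh : h ∈ M.Φ.HI I) (δ : FG) : Commute h (M.Φ.dI Iᶜ δ) :=
  M.Φ.comm I Iᶜ disjoint_compl_right _ hh _ (M.Φ.dI_mem _ δ)

theorem central_conj {h D x y : H} (hc : Commute h D) (e : h * x * h⁻¹ = y) :
    h * (D⁻¹ * x * D) * h⁻¹ = D⁻¹ * y * D := by
  have h1 : h * D⁻¹ = D⁻¹ * h := hc.inv_right.eq
  have h2 : D * h⁻¹ = h⁻¹ * D := hc.inv_left.eq.symm
  calc h * (D⁻¹ * x * D) * h⁻¹ = (h * D⁻¹) * x * (D * h⁻¹) := by group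
    _ = D⁻¹ * (h * x * h⁻¹) * D := by rw [h1, h2]; group
    _ = D⁻¹ * y * D := by rw [e]

theorem central_tok_mem (hI : 5 ≤ Iᶜ.card) (i : ι) (γ : FG) (q : Proj M.Φ) {a : B}
    (ha : a ∈ Bs κ (insert i Iᶜ)) : M.tok i γ q a ∈ M.Φ.HI (insert i Iᶜ) := by
  have h1 : M.Φ.d i γ ∈ M.Φ.HI (insert i Iᶜ) :=
    M.Φ.mono {i} _ (Finset.singleton_subset_iff.2 (Finset.mem_insert_self _ _)) (M.Φ.d_loc i γ)
  exact mul_mem (mul_mem h1 (q.loc _ (central_card hI i) a ha)) (inv_mem h1)

/-- `dI_conj`, `dI_union`: `q.s a ∈ HI (insert i Iᶜ)` -/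
theorem Model.tok_mul (hI : 5 ≤ Iᶜ.card) {i : ι} (hi : i ∈ I) (γ δ : FG) (q : Proj M.Φ) {a : B}
    (ha : a ∈ Bs κ (insert i Iᶜ)) :
    M.tok i (γ * δ) q a = (M.Φ.dI Iᶜ δ)⁻¹ * M.tok i γ (act δ q) a * M.Φ.dI Iᶜ δ := by
  have hi' : i ∉ Iᶜ := fun h => Finset.mem_compl.1 h hi
  have h1 : (act δ q).s a = M.Φ.d i δ * M.Φ.dI Iᶜ δ * q.s a * (M.Φ.d i δ * M.Φ.dI Iᶜ δ)⁻¹ := by
    rw [act_s, M.Φ.dI_conj δ (q.loc _ (central_card hI i) a ha), Finset.univ_inter,
      M.Φ.frame_dI_insert hi']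
  have h2 : Commute (M.Φ.d i γ * M.Φ.d i δ) (M.Φ.dI Iᶜ δ) :=
    (M.Φ.frame_commute hi' γ δ).mul_left (M.Φ.frame_commute hi' δ δ)
  unfold Model.tok
  rw [h1, map_mul]
  calc M.Φ.d i γ * M.Φ.d i δ * q.s a * (M.Φ.d i γ * M.Φ.d i δ)⁻¹
      = (M.Φ.dI Iᶜ δ)⁻¹ * ((M.Φ.dI Iᶜ δ * (M.Φ.d i γ * M.Φ.d i δ)) * q.s a *
          (M.Φ.dI Iᶜ δ * (M.Φ.d i γ * M.Φ.d i δ))⁻¹) * M.Φ.dI Iᶜ δ := by group
    _ = _ := by rw [← h2.eq]; group

theorem Model.tok_congr {i : ι} {γ δ : FG} {q : Proj M.Φ} (h : Triv (γ⁻¹ * δ) q) (a : B) :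
    M.tok i γ q a = M.tok i δ q a := by
  have h1 : M.Φ.d i δ = M.Φ.d i γ * M.Φ.d i (γ⁻¹ * δ) := by
    rw [← map_mul, mul_inv_cancel_left]
  unfold Model.tok
  rw [h1, mul_assoc (M.Φ.d i γ) _ (q.s a), (h i a).eq]
  group

/-- a token on the trivial word -/
theorem central_tok_eq (hI : 5 ≤ Iᶜ.card) {i : ι} (hi : i ∈ I) (γ : FG) (q : Proj M.Φ) {a : B}
    (ha : a ∈ Bs κ (insert i Iᶜ)) :
    M.tok i γ q a = (M.Φ.dI Iᶜ γ)⁻¹ * (act γ q).s a * M.Φ.dI Iᶜ γ := by
  have h := Model.tok_mul hI hi 1 γ q ha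
  rw [one_mul] at h
  rw [h]
  simp [Model.tok]

/-- `Track` with explicit witnesses -/
def Model.centralW (M : Model κ H) (I : Finset ι) (h : H) (i : ι) (b : B) (t : Ty) (m m' : Mk) :
    Prop :=
  m'.deg = m.deg ∧ (∀ y ∈ t.set, M.p h (i, m.app y) = ((κ b).1 i, m'.app y)) ∧
    ∀ q, Le q (M.tau m.deg t) → ∀ a ∈ Bs κ (insert i Iᶜ),
      h * M.tok i (gam m) q a * h⁻¹ = M.tok ((κ b).1 i) (gam m') q (b * a * b⁻¹)

theorem central_half (hb : M.IsBase) (hI : 5 ≤ Iᶜ.card) {h : H} (hh : h ∈ M.Φ.HI I) {i : ι}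
    (hi : i ∈ I) {b : B} (hbI : κ b ∈ AI I) (t : Ty) (d : Dir) (β : Bool) (m m' : Mk)
    (hd : valid t d = true) (hW : M.centralW I h i b t m m') :
    M.centralW I h i b (ht t d β) (hm t d β m) (hm t d β m') := by
  obtain ⟨h1, h2, h3⟩ := hW
  have hdeg : (hm t d β m').deg = (hm t d β m).deg := by rw [deg_hm, deg_hm, h1]
  refine ⟨hdeg, fun y hy => ?_, fun q hq a ha => ?_⟩
  · rw [app_hm, app_hm]
    exact h2 _ (he_mem hd β hy)
  · have t1 := (Base.triv_gam hb m t d β).mono hq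
    have t2 := (Base.triv_gam hb m' t d β).mono (by rw [hdeg]; exact hq)
    rw [h1] at t2
    have hq' : Le (act (xh m.deg t d β) q) (M.tau m.deg t) := by
      refine (hq.act _).trans ?_
      rw [deg_hm]
      exact Base.act_xh_le hb m.deg hd β
    rw [Model.tok_congr t1, Model.tok_congr t2, Model.tok_mul hI hi _ _ _ ha,
      Model.tok_mul hI (central_mem hbI hi) _ _ _ (central_conj_mem hbI ha)]
    exact central_conj (central_commute hh _) (h3 _ hq' a ha)

/-- `triv_gam`, `act_xh_le`, `tok_mul`, `tok_congr`; `h` commutes with `dI Iᶜ _`. In fact the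
witnesses for the half are `hm t d β m'` and the same `b` (this stronger form is needed for
`Fine.transport` in `track_mul`). -/
theorem Model.her_track (hb : M.IsBase) (hI : 5 ≤ Iᶜ.card) {h : H} (hh : h ∈ M.Φ.HI I) {i : ι}
    (hi : i ∈ I) : Her (M.Track I h i) := by
  rintro z d β hd ⟨m', b, hbI, hW⟩
  exact ⟨hm z.t d β m', b, hbI, central_half hb hI hh hi hbI z.t d β z.m m' hd hW⟩

/-- `Fine.bind` on `h'`; for a leaf `⟨m, t⟩` with witnesses `m', b`, `Fine.of_root` gives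
`Fine (Track I h ((κ b).1 i)) ⟨m', t⟩`, then `Fine.transport`; `conj_mem_Bs`. -/
theorem Model.track_mul (hb : M.IsBase) (hI : 5 ≤ Iᶜ.card) {h h' : H} (hh : h ∈ M.Φ.HI I)
    (hh' : h' ∈ M.Φ.HI I) (t : ∀ i ∈ I, Fine (M.Track I h i) Pc.root)
    (t' : ∀ i ∈ I, Fine (M.Track I h' i) Pc.root) :
    ∀ i ∈ I, Fine (M.Track I (h * h') i) Pc.root := by
  intro i hi
  refine (t' i hi).bind ?_
  rintro z ⟨m', b, hbI, hW⟩
  have hi' := central_mem hbI hi
  have h1 := Fine.transport (M.centralW I h' i b) (central_half hb hI hh' hi hbI)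
    ((t _ hi').of_root (Model.her_track hb hI hh hi') ⟨m', z.t⟩) hW
  refine h1.mono ?_
  rintro w ⟨m'', ⟨a1, a2, a3⟩, m₃, b', hb'I, b1, b2, b3⟩
  refine ⟨m₃, b' * b, ?_, b1.trans a1, fun y hy => ?_, fun q hq a ha => ?_⟩
  · rw [map_mul]
    exact mul_mem hb'I hbI
  · rw [map_mul, Perm.mul_apply, a2 y hy, b2 y hy, map_mul]
    rfl
  · have e := b3 q (by rw [a1]; exact hq) _ (central_conj_mem hbI ha)
    rw [← a3 q hq a ha] at e
    have e1 : (κ (b' * b)).1 i = (κ b').1 ((κ b).1 i) := by rw [map_mul]; rfl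
    have e2 : b' * b * a * (b' * b)⁻¹ = b' * (b * a * b⁻¹) * b'⁻¹ := by group
    rw [e1, e2, ← e]
    group

/-- an element which fixes the piece and commutes with the tokens -/
theorem central_track_fix {h : H} {i : ι} {z : Pc}
    (h1 : ∀ y ∈ z.t.set, M.p h (i, z.m.app y) = (i, z.m.app y))
    (h2 : ∀ q, Le q (M.tau z.m.deg z.t) → ∀ a ∈ Bs κ (insert i Iᶜ),
      Commute h (M.tok i (gam z.m) q a)) : M.Track I h i z := by
  refine ⟨z.m, 1, by rw [_root_.map_one]; exact one_mem _, rfl, fun y hy => ?_, fun q hq a ha => ?_⟩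
  · rw [h1 y hy, _root_.map_one]
    rfl
  · rw [(h2 q hq a ha).eq, mul_inv_cancel_right, _root_.map_one, inv_one, one_mul, mul_one]
    rfl

/-- For `j ≠ i`, `d j x` commutes with the tokens, which lie in `HI (insert i Iᶜ)`. -/
theorem Model.track_d (hI : 5 ≤ Iᶜ.card) {j : ι} (hj : j ∈ I) {x : FG}
    (hx : Fine (M.CanW x) Pc.root) : ∀ i ∈ I, Fine (M.Track I (M.Φ.d j x) i) Pc.root := by
  intro i hi
  by_cases hij : i = j
  · subst hij
    refine hx.mono ?_
    rintro z ⟨m', a1, a2, a3⟩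
    refine ⟨m', 1, by rw [_root_.map_one]; exact one_mem _, a1, fun y hy => ?_, fun q hq a _ => ?_⟩
    · rw [M.p_d, loc_root_apply, a2 y hy, _root_.map_one]
      rfl
    · rw [_root_.map_one, inv_one, one_mul, mul_one]
      change _ = M.tok i (gam m') q a
      rw [Model.tok_congr (a3.mono hq)]
      unfold Model.tok
      rw [map_mul]
      group
  · refine Fine.base (central_track_fix (fun y _ => ?_) fun q _ a ha => ?_)
    · rw [M.p_d, loc_root_apply_of_ne hij]
    · refine M.Φ.comm {j} (insert i Iᶜ) ?_ _ (M.Φ.d_loc j x) _ (central_tok_mem hI i _ q ha)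
      rw [Finset.disjoint_singleton_left, Finset.mem_insert, Finset.mem_compl]
      rintro (h | h)
      · exact hij h.symm
      · exact h hj

theorem central_half_set (d : Dir) : (Pc.root.half d true).set = bset (some d) := by
  rw [← range_Aom]
  change (Mk.one.A d).app '' Set.univ = _
  rw [Set.image_univ]
  congr 1
  funext y
  rw [app_A, app_one]

theorem central_pr_half (hb : M.IsBase) (d : Dir) :
    pr (M.U (some .b)) (M.U (some .c)) (Pc.root.half d true) = M.U (some d) := by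
  cases d
  · exact Base.pr_a hb
  · exact Base.pr_b hb
  · exact Base.pr_c hb

theorem central_valid_root (d : Dir) : valid Pc.root.t d = true := by
  cases d <;> rfl

theorem central_U_in (hI : 5 ≤ Iᶜ.card) {o : Option Dir} {b : B} (hbI : κ b ∈ AI I) {i : ι}
    (hi : i ∈ I) {z : Pc} (h1 : z.set ⊆ bset o)
    (h2 : Le (pr (M.U (some .b)) (M.U (some .c)) z) (M.U o)) :
    M.Track I ((M.U o).s b) i z := by
  refine ⟨z.m, b, hbI, rfl, fun y hy => ?_, fun q hq a ha => ?_⟩
  · rw [M.p_U, sig_apply, if_pos (h1 ⟨y, hy, rfl⟩)]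
  · rw [central_tok_eq hI hi _ _ ha,
      central_tok_eq hI (central_mem hbI hi) _ _ (central_conj_mem hbI ha)]
    exact central_conj (central_commute (M.U_loc o I b hbI) _) (((hq.act _).trans h2).conj b a)

theorem central_U_out (hI : 5 ≤ Iᶜ.card) {o : Option Dir} {b : B} (hbI : κ b ∈ AI I) {i : ι}
    (hi : i ∈ I) {z : Pc} (h1 : Disjoint (bset o) z.set)
    (h2 : Orth (pr (M.U (some .b)) (M.U (some .c)) z) (M.U o)) :
    M.Track I ((M.U o).s b) i z := by
  refine central_track_fix (fun y hy => ?_) fun q hq a ha => ?_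
  · rw [M.p_U, sig_apply, if_neg (fun h => Set.disjoint_left.1 h1 h ⟨y, hy, rfl⟩)]
  · have hc := central_commute (M.U_loc o I b hbI) (gam z.m)
    rw [central_tok_eq hI hi _ _ ha]
    exact (hc.inv_right.mul_right (((hq.act _).orth h2) a b).symm).mul_right hc

/-- By `tok_mul` (with `γ = 1`) a token is `D⁻¹ * (act γ q).s a * D` with `D = dI Iᶜ γ`, which
commutes with `(U o).s b`. For `o = none` the root is a leaf; for `o = some d` cut the root in the
direction `d`: `pr (root.half d true) = U o`, and `pr (root.half d false)` is orthogonal to it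
(`isSum_pr`); use `Le.conj`, resp. the witness `b = 1`. -/
theorem Model.track_U (hb : M.IsBase) (hI : 5 ≤ Iᶜ.card) (o : Option Dir) {b : B}
    (hbI : κ b ∈ AI I) : ∀ i ∈ I, Fine (M.Track I ((M.U o).s b) i) Pc.root := by
  intro i hi
  cases o with
  | none =>
    refine Fine.base (central_U_in hI hbI hi (Set.subset_univ _) ?_)
    rw [M.U_none]
    exact le_one _
  | some d =>
    refine Fine.split d (central_valid_root d) (Fine.base (central_U_in hI hbI hi ?_ ?_))
      (Fine.base (central_U_out hI hbI hi ?_ ?_))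
    · rw [central_half_set]
    · rw [central_pr_half hb]
      exact le_refl _
    · rw [← central_half_set]
      exact half_disjoint (central_valid_root d)
    · rw [← central_pr_half hb d]
      exact (Base.isSum_pr hb (central_valid_root d)).1.symm

/-- `Subgroup.closure_induction''`-like argument: the elements `h ∈ HI I` which are tracked form a
submonoid containing the generators and their inverses. -/
theorem Model.track (hb : M.IsBase) (ht : M.Tables) (hI : 5 ≤ Iᶜ.card) {h : H}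
    (hh : h ∈ M.Φ.HI I) : ∀ i ∈ I, Fine (M.Track I h i) Pc.root := by
  have key : ∀ g ∈ Subgroup.closure ({h | ∃ i ∈ I, ∃ x : Lt, h = M.Φ.d i (FreeGroup.of x)} ∪
      {h | ∃ o b, κ b ∈ AI I ∧ h = (M.U o).s b}),
      g ∈ M.Φ.HI I ∧ ∀ i ∈ I, Fine (M.Track I g i) Pc.root := by
    intro g hg
    have hd : ∀ j ∈ I, ∀ γ, M.Φ.d j γ ∈ M.Φ.HI I := fun j hj γ =>
      M.Φ.mono {j} I (Finset.singleton_subset_iff.2 hj) (M.Φ.d_loc j γ)
    induction hg using Subgroup.closure_induction'' with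
    | mem g hg =>
      rcases hg with ⟨j, hj, x, rfl⟩ | ⟨o, b, hbI, rfl⟩
      · exact ⟨hd j hj _, Model.track_d hI hj (ht x).1⟩
      · exact ⟨M.U_loc o I b hbI, Model.track_U hb hI o hbI⟩
    | inv_mem g hg =>
      rcases hg with ⟨j, hj, x, rfl⟩ | ⟨o, b, hbI, rfl⟩
      · rw [← map_inv]
        exact ⟨hd j hj _, Model.track_d hI hj (ht x).2⟩
      · have hbI' : κ b⁻¹ ∈ AI I := by
          rw [map_inv]
          exact inv_mem hbI
        rw [← map_inv]
        exact ⟨M.U_loc o I _ hbI', Model.track_U hb hI o hbI'⟩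
    | one =>
      refine ⟨one_mem _, fun i _ => Fine.base (central_track_fix (fun y _ => ?_) fun q _ a _ => ?_)⟩
      · rw [_root_.map_one]
        rfl
      · exact Commute.one_left _
    | mul g g' _ _ ih ih' =>
      exact ⟨mul_mem ih.1 ih'.1, Model.track_mul hb hI ih.1 ih'.1 ih.2 ih'.2⟩
  exact (key h (M.HI_le I hh)).2

theorem central_leaf (hI : 5 ≤ Iᶜ.card) {k : H} (hk : k ∈ M.Φ.HI I) (h1 : M.p k = 1) {i : ι}
    (hi : i ∈ I) {z : Pc} (hz : M.Track I k i z) {a : B} (ha : a ∈ Bs κ (insert i Iᶜ)) :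
    Commute k ((pr (M.U (some .b)) (M.U (some .c)) z).s a) := by
  obtain ⟨m', b, hbI, -, a2, a3⟩ := hz
  rw [h1] at a2
  have e1 : (κ b).1 i = i := (congrArg Prod.fst (a2 _ (pc_pt_mem z.t (.inl 0)))).symm
  have e2 : z.m = m' := mk_eq_of_app fun y hy => congrArg Prod.snd (a2 y hy)
  have hbI' : κ b ∈ AI (I.erase i) := by
    intro j hj
    by_cases hji : j = i
    · rw [hji, e1]
    · exact hbI j fun h => hj (Finset.mem_erase.2 ⟨hji, h⟩)
  have hdisj : Disjoint (insert i Iᶜ) (I.erase i) := by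
    rw [Finset.disjoint_left]
    intro j hj hj'
    rcases Finset.mem_insert.1 hj with h | h
    · exact (Finset.mem_erase.1 hj').1 h
    · exact Finset.mem_compl.1 h (Finset.mem_erase.1 hj').2
  have e3 : b * a * b⁻¹ = a := by
    rw [← (commute_of_Bs M.Φ.uce hdisj ha hbI').eq, mul_inv_cancel_right]
  have e4 := a3 _ (le_refl _) a ha
  rw [e1, e3, ← e2] at e4
  have hc : Commute k (M.tok i (gam z.m) (M.tau z.m.deg z.t) a) := mul_inv_eq_iff_eq_mul.1 e4
  have hD := central_commute hk (gam z.m)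
  have e5 : (pr (M.U (some .b)) (M.U (some .c)) z).s a =
      M.Φ.dI Iᶜ (gam z.m) * M.tok i (gam z.m) (M.tau z.m.deg z.t) a * (M.Φ.dI Iᶜ (gam z.m))⁻¹ := by
    rw [central_tok_eq hI hi _ _ ha]
    change (act (gam z.m) (M.tau z.m.deg z.t)).s a = _
    group
  rw [e5]
  exact (hD.mul_right hc).mul_right hD.inv_right

theorem central_piece (hb : M.IsBase) (hI : 5 ≤ Iᶜ.card) {k : H} (hk : k ∈ M.Φ.HI I)
    (h1 : M.p k = 1) {i : ι} (hi : i ∈ I) {z : Pc} (hz : Fine (M.Track I k i) z) {a : B}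
    (ha : a ∈ Bs κ (insert i Iᶜ)) :
    Commute k ((pr (M.U (some .b)) (M.U (some .c)) z).s a) := by
  induction hz with
  | base h => exact central_leaf hI hk h1 hi h ha
  | split d hd _ _ ih1 ih0 =>
    rw [(Base.isSum_pr hb hd).2 a]
    exact ih1.mul_right ih0

/-- Let `i ∈ I`. On a leaf `z = ⟨m, t⟩` of `Track I k i` we get `(κ b).1 i = i`, `m' = m`
(`mk_eq_of_app`), `κ b ∈ AI (I.erase i)` so `b` commutes with `a ∈ Bs κ (insert i Iᶜ)`
(`commute_of_Bs`): `k` commutes with `tok i (gam m) (tau _ t) a`, hence with `(pr z).s a`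
(`tok_mul`). By induction on `Fine` and `isSum_pr`, `k` commutes with `(pr x).s a` for every piece
`x` (`Fine.of_root`, `her_track`), in particular with `(U o).s a`. For `i ∉ I` this holds by
locality. By `eq_top_of_insert`, `k` commutes with all `(U o).s b`; it commutes with `d j γ` for
`j ∉ I`, and `d i γ` is conjugate to `d j γ` by some `io b` (`d_conj`, a 3-cycle). Conclude with
`HI_univ` and `HI_le`. -/
theorem Model.central (hb : M.IsBase) (ht : M.Tables) (hI : 5 ≤ Iᶜ.card) {k : H}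
    (hk : k ∈ M.Φ.HI I) (h1 : M.p k = 1) : k ∈ Subgroup.center H := by
  have hU : ∀ o b, Commute k ((M.U o).s b) := by
    intro o b
    have hM : (Subgroup.centralizer {k}).comap (M.U o).s = ⊤ := by
      refine eq_top_of_insert M.Φ.uce hI _ fun i a ha => ?_
      rw [Subgroup.mem_comap, Subgroup.mem_centralizer_singleton_iff]
      refine Commute.eq (Commute.symm ?_)
      by_cases hi : i ∈ I
      · have hx : ∃ x, pr (M.U (some .b)) (M.U (some .c)) x = M.U o := by
          cases o with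
          | none => exact ⟨Pc.root, by rw [pr_root, M.U_none]⟩
          | some d => exact ⟨_, central_pr_half hb d⟩
        obtain ⟨x, hx⟩ := hx
        rw [← hx]
        exact central_piece hb hI hk h1 hi
          ((Model.track hb ht hI hk i hi).of_root (Model.her_track hb hI hk hi) x) ha
      · rw [Finset.insert_eq_of_mem (Finset.mem_compl.2 hi)] at ha
        exact M.Φ.comm I Iᶜ disjoint_compl_right _ hk _ ((M.U o).loc _ hI a ha)
    have hb' : b ∈ (Subgroup.centralizer {k}).comap (M.U o).s := hM ▸ Subgroup.mem_top b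
    rw [Subgroup.mem_comap, Subgroup.mem_centralizer_singleton_iff] at hb'
    exact Commute.symm hb'
  have hd : ∀ i γ, Commute k (M.Φ.d i γ) := by
    intro i γ
    obtain ⟨j, hj⟩ : Iᶜ.Nonempty := Finset.card_pos.1 (by omega)
    have hj' : Commute k (M.Φ.d j γ) :=
      M.Φ.comm I {j} (Finset.disjoint_singleton_right.2 (Finset.mem_compl.1 hj)) _ hk _
        (M.Φ.d_loc j γ)
    have := alternatingGroup.isPretransitive_of_three_le_card ι (by
      have := M.Φ.card
      rw [Nat.card_eq_fintype_card]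
      omega)
    obtain ⟨π, hπ⟩ := MulAction.exists_smul_eq (alternatingGroup ι) j i
    obtain ⟨b, rfl⟩ := M.Φ.uce.surj π
    have e : (κ b).1 j = i := hπ
    have hio : Commute k (M.Φ.io b) := by
      have := hU none b
      rwa [M.U_none] at this
    rw [← e, ← M.Φ.d_conj]
    exact (hio.mul_right hj').mul_right hio.inv_right
  rw [Subgroup.mem_center_iff]
  intro g
  have hg := M.HI_le Finset.univ (M.HI_univ ▸ Subgroup.mem_top g)
  have hle : Subgroup.closure ({h | ∃ i ∈ (Finset.univ : Finset ι), ∃ x : Lt,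
      h = M.Φ.d i (FreeGroup.of x)} ∪ {h | ∃ o b, κ b ∈ AI Finset.univ ∧ h = (M.U o).s b}) ≤
      Subgroup.centralizer {k} := by
    rw [Subgroup.closure_le]
    rintro g (⟨i, -, x, rfl⟩ | ⟨o, b, -, rfl⟩)
    · exact Subgroup.mem_centralizer_singleton_iff.2 (hd i _).symm.eq
    · exact Subgroup.mem_centralizer_singleton_iff.2 (hU o b).symm.eq
  exact Subgroup.mem_centralizer_singleton_iff.1 (hle hg)

end Crest.Agent.R189
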