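import Crest.Agent.R189.Path

/-!
# Row 189, task Common: common refinements of states
-/

set_option autoImplicit false

namespace Crest.Agent.R189

open Equiv

variable {ι : Type} [Fintype ι] [DecidableEq ι] {H : Type} [Group H]
variable {I : Finset ι} {σ σ' : St ι}

/-- Refinement of a single cell; the other entries are unchanged. -/
theorem common_one (J : Interp ι H) {𝒜 : Pc → Prop} {x : Pc} (hx : Fine 𝒜 x) :
    ∀ (σ : St ι) (c : Cell ι) (i : ι), σ.Valid I → σ.At c i x →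
      ∃ σ' h, Path I J σ σ' h ∧
        (∀ c' i' x', σ'.At c' i' x' → (i' = i ∧ 𝒜 x') ∨ (c' ≠ c ∧ σ.At c' i' x')) ∧
        ∀ c' i' x', c' ≠ c → σ.At c' i' x' → σ'.At c' i' x' := by
  induction hx with
  | @base x hA =>
    intro σ c i hσ hc
    refine ⟨σ, 1, Path.refl σ, fun c' i' x' h' => ?_, fun _ _ _ _ h' => h'⟩
    by_cases hcc : c' = c
    · subst hcc
      obtain ⟨rfl, rfl⟩ := h'.unique hc
      exact Or.inl ⟨rfl, hA⟩
    · exact Or.inr ⟨hcc, h'⟩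
  | @split x d hd _ _ ih₁ ih₂ =>
    intro σ c i hσ hc
    have hσ₁ := hσ.exp hc hd
    have hne : child c false ≠ child c true := by
      intro h
      have := congrArg Prod.snd h
      simp [child] at this
    have a₁ : (σ.exp c x.t d).At (child c true) i (x.half d true) :=
      (St.at_exp hσ hc hd).2 (Or.inl ⟨true, rfl, rfl, rfl⟩)
    have a₂ : (σ.exp c x.t d).At (child c false) i (x.half d false) :=
      (St.at_exp hσ hc hd).2 (Or.inl ⟨false, rfl, rfl, rfl⟩)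
    obtain ⟨σ₂, h₂, p₂, b₂, k₂⟩ := ih₁ _ _ _ hσ₁ a₁
    have hσ₂ := p₂.toValid hσ₁
    obtain ⟨σ₃, h₃, p₃, b₃, k₃⟩ := ih₂ _ _ _ hσ₂ (k₂ _ _ _ hne a₂)
    refine ⟨σ₃, _, Path.exp hc hd (p₂.trans p₃), fun c' i' x' h' => ?_, fun c' i' x' hcc h' => ?_⟩
    · rcases b₃ c' i' x' h' with h | ⟨n₃, h⟩
      · exact Or.inl h
      · rcases b₂ c' i' x' h with h | ⟨n₂, h⟩
        · exact Or.inl h
        · rcases (St.at_exp hσ hc hd).1 h with ⟨β, rfl, -, -⟩ | h
          · cases β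
            · exact absurd rfl n₃
            · exact absurd rfl n₂
          · exact Or.inr h
    · have n : ∀ β, c' ≠ child c β := fun β e => hσ.child_notMem hc.1 β (e ▸ h'.1)
      exact k₃ _ _ _ (n false) (k₂ _ _ _ (n true) ((St.at_exp hσ hc hd).2 (Or.inr ⟨hcc, h'⟩)))

theorem common_finset (J : Interp ι H) (𝒜 : ι → Pc → Prop) (S : Finset (Cell ι)) :
    ∀ σ : St ι, σ.Valid I → (∀ c i x, σ.At c i x → 𝒜 i x ∨ (c ∈ S ∧ Fine (𝒜 i) x)) →
      ∃ σ' h, Path I J σ σ' h ∧ ∀ c i x, σ'.At c i x → 𝒜 i x := by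
  induction S using Finset.induction_on with
  | empty =>
    intro σ _ h
    exact ⟨σ, 1, Path.refl σ, fun c i x hc => (h c i x hc).resolve_right (by simp)⟩
  | insert c₀ S _ ih =>
    intro σ hσ h
    by_cases hc₀ : ∃ i x, σ.At c₀ i x
    · obtain ⟨i₀, x₀, hc₀⟩ := hc₀
      have hf : Fine (𝒜 i₀) x₀ := (h c₀ i₀ x₀ hc₀).elim Fine.base (fun h => h.2)
      obtain ⟨σ₁, h₁, p₁, b₁, -⟩ := common_one J hf σ c₀ i₀ hσ hc₀
      obtain ⟨σ₂, h₂, p₂, b₂⟩ := ih σ₁ (p₁.toValid hσ) (fun c i x hc => by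
        rcases b₁ c i x hc with ⟨rfl, hA⟩ | ⟨hne, hc'⟩
        · exact Or.inl hA
        · exact (h c i x hc').imp_right fun hh =>
            ⟨(Finset.mem_insert.1 hh.1).resolve_left hne, hh.2⟩)
      exact ⟨σ₂, _, p₁.trans p₂, b₂⟩
    · refine ih σ hσ fun c i x hc => (h c i x hc).imp_right fun hh =>
        ⟨(Finset.mem_insert.1 hh.1).resolve_left ?_, hh.2⟩
      rintro rfl
      exact hc₀ ⟨i, x, hc⟩

/-- Refine a state until all pieces are in prescribed classes. First one cell (induction on `Fine`,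
for all states; the other entries are unchanged, `St.at_exp`), then induction on the finite set
of cells still to be treated. -/
theorem St.Valid.refine (J : Interp ι H) (hσ : σ.Valid I) (𝒜 : ι → Pc → Prop)
    (h : ∀ c i x, σ.At c i x → Fine (𝒜 i) x) :
    ∃ σ' h, Path I J σ σ' h ∧ ∀ c i x, σ'.At c i x → 𝒜 i x :=
  common_finset J 𝒜 σ.cs σ hσ fun c i x hc => Or.inr ⟨hc.1, h c i x hc⟩

/-- Two valid states with the same pieces differ by a cell exchange: `g = σ'.th⁻¹ * σ.th` is rigid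
on the cells of `σ` (`mem_LT_of_rig`); every piece of `σ'` is a piece of `σ` since the pieces of
`σ` cover and those of `σ'` are disjoint and nonempty. -/
theorem St.Valid.path_of_pieces (J : Interp ι H) (hσ : σ.Valid I) (hσ' : σ'.Valid I)
    (h : ∀ c i x, σ.At c i x → ∃ c', σ'.At c' i x) : ∃ h, Path I J σ' σ h := by
  have hrig : ∀ {c c' : Cell ι} {i : ι} {x : Pc}, σ.At c i x → σ'.At c' i x →
      Rig (σ'.th⁻¹ * σ.th : Perm (ι × Om)) c c' := by
    intro c c' i x hc hc'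
    refine ⟨hc'.2.1.symm.trans hc.2.1, fun y => ?_⟩
    rw [Perm.mul_apply, hc.2.2 y, Perm.inv_eq_iff_eq, hc'.2.2 y]
  have hfix : σ'.th⁻¹ * σ.th ∈ Fix I := mul_mem (inv_mem hσ'.fix) hσ.fix
  have h₁ : ∀ c ∈ σ.cs, ∃ c' ∈ σ'.cs, Rig (σ'.th⁻¹ * σ.th : Perm (ι × Om)) c c' := by
    intro c hc
    obtain ⟨i, x, hx⟩ := hσ.piece c hc
    obtain ⟨c', hc'⟩ := h c i x hx
    exact ⟨c', hc'.1, hrig hx hc'⟩
  have h₂ : ∀ c' ∈ σ'.cs, ∃ c ∈ σ.cs, Rig (σ'.th⁻¹ * σ.th : Perm (ι × Om)) c c' := by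
    intro c' hc'
    obtain ⟨i, x', hx'⟩ := hσ'.piece c' hc'
    obtain ⟨y, hy⟩ := set_nonempty x'
    obtain ⟨c, x, hx, hyx⟩ := hσ.cover_piece (hx'.mem hσ') y
    obtain ⟨c'', hc''⟩ := h c i x hx
    have e : c'' = c' := by
      by_contra hne
      exact Set.disjoint_left.1 (hσ'.disj_piece hc'' hx' hne) hyx hy
    exact ⟨c, hx.1, e ▸ hrig hx hc''⟩
  have hLT : σ'.th⁻¹ * σ.th ∈ LT ι :=
    mem_LT_of_rig hfix σ.cs hσ.cover fun c hc => (h₁ c hc).imp fun _ h => h.2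
  have e : (⟨σ.cs, σ'.th * (σ'.th⁻¹ * σ.th)⟩ : St ι) = σ := by
    rw [mul_inv_cancel_left]
  have p : Path I J (⟨σ.cs, σ'.th * (σ'.th⁻¹ * σ.th)⟩ : St ι) σ 1 := by
    rw [e]; exact Path.refl σ
  exact ⟨_, Path.perm ⟨_, hLT⟩ σ.cs hfix h₁ h₂ p⟩

/-- A reachable state and a valid state have a common refinement. Take the classes `𝒜_x` of
`exists_nbhd` for the finitely many pieces `x` of `σ₂`; refine `σ₁` to `σ'` with all pieces in all
these classes (`Fine.finset`, `Fine.of_root`); the root pieces are `Fine` for the pieces of `σ'`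
(`Path.fine`), hence so are the pieces of `σ₂`; refine `σ₂` and use `path_of_pieces`. -/
theorem Path.common {J : Interp ι H} {σ₁ σ₂ : St ι} {h₁ : H} (p : Path I J (St.root I) σ₁ h₁)
    (hσ₂ : σ₂.Valid I) : ∃ σ h h', Path I J σ₁ σ h ∧ Path I J σ₂ σ h' := by
  choose 𝒜 hher hroot hnb using exists_nbhd
  have hσ₁ := p.toValid (St.valid_root I)
  have hC : ∀ k ∈ σ₂.cs, Her (fun z => ∀ i x, σ₂.At k i x → 𝒜 x z) :=
    fun k _ z d β hd hz i x hx => hher x z d β hd (hz i x hx)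
  have hD : Fine (fun z => ∀ k ∈ σ₂.cs, ∀ i x, σ₂.At k i x → 𝒜 x z) Pc.root := by
    refine Fine.finset σ₂.cs (fun k z => ∀ i x, σ₂.At k i x → 𝒜 x z) hC fun k hk => ?_
    obtain ⟨i, x, hx⟩ := hσ₂.piece k hk
    refine (hroot x).mono fun z hz i' x' hx' => ?_
    obtain ⟨-, rfl⟩ := hx.unique hx'
    exact hz
  have hDher : Her (fun z => ∀ k ∈ σ₂.cs, ∀ i x, σ₂.At k i x → 𝒜 x z) :=
    fun z d β hd hz k hk => hC k hk z d β hd (hz k hk)
  obtain ⟨σ', h', p', b'⟩ := hσ₁.refine J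
    (fun _ z => ∀ k ∈ σ₂.cs, ∀ i x, σ₂.At k i x → 𝒜 x z) (fun _ _ x _ => hD.of_root hDher x)
  obtain ⟨σ'', h'', p'', b''⟩ := hσ₂.refine J (fun i z => ∃ c', σ'.At c' i z) (fun c i x hx => by
    refine hnb x _ (fun z hz => ?_)
      ((p.trans p').fine (St.valid_root I) (St.at_root.2 ⟨hx.mem hσ₂, rfl, rfl⟩))
    obtain ⟨c', hc'⟩ := hz
    exact b' c' i z hc' c hx.1 i x hx)
  obtain ⟨h₃, p₃⟩ := (p''.toValid hσ₂).path_of_pieces J (p'.toValid hσ₁) b''
  exact ⟨σ'', _, _, p'.trans p₃, p''⟩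

end Crest.Agent.R189
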