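import Crest.Agent.R189.Path

/-!
# Row 189, task Cube: the fifth square relation follows from the other four
-/

set_option autoImplicit false
set_option linter.unusedSectionVars false

namespace Crest.Agent.R189

open Equiv

variable {ι : Type} [Fintype ι] [DecidableEq ι] {H : Type} [Group H]

/-- two successive moves -/
def mv2 (μ : Cell ι → Ty → Dir → H) (c : Cell ι) (t : Ty) (d d' : Dir) : H :=
  μ c t d * μ (child c true) (ht t d true) (tr t d true d') *
    μ (child c false) (ht t d false) (tr t d false d')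

/-- the exchange of the two mixed quarters -/
noncomputable def swq (c : Cell ι) : LT ι :=
  ⟨sw (child (child c true) false) (child (child c false) true), sw_mem_LT _ _⟩

/-- the square relation -/
def Sq (v : LT ι →* H) (μ : Cell ι → Ty → Dir → H) (c : Cell ι) (t : Ty) (d d' : Dir) : Prop :=
  mv2 μ c t d d' = mv2 μ c t d' d * v (swq c)

theorem Sq.symm {v : LT ι →* H} {μ : Cell ι → Ty → Dir → H} {c : Cell ι} {t : Ty} {d d' : Dir}
    (h : Sq v μ c t d d') : Sq v μ c t d' d := by
  unfold Sq at h ⊢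
  have e : swq c * swq c = 1 := Subtype.ext (sw_mul_self _ _)
  rw [h, mul_assoc, ← map_mul, e, map_one, mul_one]

theorem cube_mv2_conj {v : LT ι →* H} {μ : Cell ι → Ty → Dir → H}
    (conj : ∀ (g : LT ι) (c c' : Cell ι) (t : Ty) (d : Dir), Rig g.1 c c' →
      v g * μ c t d * (v g)⁻¹ = μ c' t d) {g : LT ι} {c c' : Cell ι} (hr : Rig g.1 c c')
    (t : Ty) (d d' : Dir) : v g * mv2 μ c t d d' * (v g)⁻¹ = mv2 μ c' t d d' := by
  unfold mv2
  rw [← conj g c c' t d hr, ← conj g _ _ _ _ (hr.child true), ← conj g _ _ _ _ (hr.child false)]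
  group

/-- conjugate by `v (sw c c')` (`rig_sw_left`, `Rig.child`, `conj_sw`) -/
theorem Sq.move {v : LT ι →* H} {μ : Cell ι → Ty → Dir → H}
    (conj : ∀ (g : LT ι) (c c' : Cell ι) (t : Ty) (d : Dir), Rig g.1 c c' →
      v g * μ c t d * (v g)⁻¹ = μ c' t d)
    {c c' : Cell ι} (hl : c'.2.length = c.2.length) {t : Ty} {d d' : Dir} (h : Sq v μ c t d d') :
    Sq v μ c' t d d' := by
  unfold Sq at h ⊢
  set g : LT ι := ⟨sw c c', sw_mem_LT _ _⟩ with hg
  have hr : Rig g.1 c c' := rig_sw_left hl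
  have e : g * swq c * g⁻¹ = swq c' :=
    Subtype.ext (conj_sw (by simp [child]) ((hr.child true).child false)
      ((hr.child false).child true))
  rw [← cube_mv2_conj conj hr, ← cube_mv2_conj conj hr, h, ← e, map_mul, map_mul, map_inv]
  group

theorem cube_disj (c : Cell ι) : Disjoint (cset (child c true)) (cset (child c false)) :=
  cset_disjoint (by simp [child]) (by simp [child])

theorem cube_disj2 (c : Cell ι) {β₁ β₂ β₃ β₄ : Bool} (h : β₁ ≠ β₃ ∨ β₂ ≠ β₄) :
    Disjoint (cset (child (child c β₁) β₂)) (cset (child (child c β₃) β₄)) := by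
  refine cset_disjoint (by simp [child]) ?_
  intro e
  have := congrArg Prod.snd e
  simp only [child, List.cons.injEq, and_true] at this
  tauto

/-- the exchange of two cells fixes a cell disjoint from both -/
theorem cube_rig_sw {c₁ c₂ c : Cell ι} (h₁ : Disjoint (cset c) (cset c₁))
    (h₂ : Disjoint (cset c) (cset c₂)) : Rig (sw c₁ c₂) c c :=
  rig_of_fix fun _ hx =>
    sw_apply_of_notMem (Set.disjoint_left.1 h₁ hx) (Set.disjoint_left.1 h₂ hx)

theorem cube_comm_swq {v : LT ι →* H} {μ : Cell ι → Ty → Dir → H}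
    (conj : ∀ (g : LT ι) (c c' : Cell ι) (t : Ty) (d : Dir), Rig g.1 c c' →
      v g * μ c t d * (v g)⁻¹ = μ c' t d) (c : Cell ι) (t : Ty) (d d' : Dir) :
    v (swq (child c true)) * mv2 μ (child c false) t d d' =
      mv2 μ (child c false) t d d' * v (swq (child c true)) := by
  have hd : ∀ β β', Disjoint (cset (child c false)) (cset (child (child (child c true) β) β')) :=
    fun β β' => (cube_disj c).symm.mono_right
      ((cset_child_subset _ _).trans (cset_child_subset _ _))
  have hr : Rig (swq (child c true)).1 (child c false) (child c false) :=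
    cube_rig_sw (hd _ _) (hd _ _)
  exact mul_inv_eq_iff_eq_mul.1 (cube_mv2_conj conj hr t d d')

/-- exchange of the last two directions -/
theorem cube_s2 {v : LT ι →* H} {μ : Cell ι → Ty → Dir → H}
    (conj : ∀ (g : LT ι) (c c' : Cell ι) (t : Ty) (d : Dir), Rig g.1 c c' →
      v g * μ c t d * (v g)⁻¹ = μ c' t d) {c : Cell ι} {t₁ t₂ : Ty} {d₁ d₁' d₂ d₂' : Dir}
    (h₁ : Sq v μ (child c true) t₁ d₁ d₁') (h₂ : Sq v μ (child c false) t₂ d₂ d₂') (A : H) :
    A * mv2 μ (child c true) t₁ d₁ d₁' * mv2 μ (child c false) t₂ d₂ d₂' =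
      A * mv2 μ (child c true) t₁ d₁' d₁ * mv2 μ (child c false) t₂ d₂' d₂ *
        v (swq (child c true) * swq (child c false)) := by
  unfold Sq at h₁ h₂
  rw [h₁, h₂, map_mul]
  have := cube_comm_swq conj c t₂ d₂' d₂
  simp only [mul_assoc]
  rw [← mul_assoc (v _), this, mul_assoc]

/-- exchange of the first two directions -/
theorem cube_s1 {v : LT ι →* H} {μ : Cell ι → Ty → Dir → H}
    (conj : ∀ (g : LT ι) (c c' : Cell ι) (t : Ty) (d : Dir), Rig g.1 c c' →
      v g * μ c t d * (v g)⁻¹ = μ c' t d)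
    (comm : ∀ (c c' : Cell ι) (t t' : Ty) (d d' : Dir), Disjoint (cset c) (cset c') →
      Commute (μ c t d) (μ c' t' d'))
    {c : Cell ι} {t : Ty} {d d' : Dir} (h : Sq v μ c t d d') (t₁ t₂ t₃ t₄ : Ty)
    (e₁ e₂ e₃ e₄ : Dir) :
    μ c t d * (μ (child c true) (ht t d true) (tr t d true d') *
        μ (child (child c true) true) t₁ e₁ * μ (child (child c true) false) t₂ e₂) *
      (μ (child c false) (ht t d false) (tr t d false d') *
        μ (child (child c false) true) t₃ e₃ * μ (child (child c false) false) t₄ e₄) =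
    μ c t d' * (μ (child c true) (ht t d' true) (tr t d' true d) *
        μ (child (child c true) true) t₁ e₁ * μ (child (child c true) false) t₃ e₃) *
      (μ (child c false) (ht t d' false) (tr t d' false d) *
        μ (child (child c false) true) t₂ e₂ * μ (child (child c false) false) t₄ e₄) *
      v (swq c) := by
  have hd : ∀ β, Disjoint (cset (child (child c true) β)) (cset (child c false)) :=
    fun β => (cube_disj c).mono_left (cset_child_subset _ _)
  have key : ∀ (A B B' P₁ P₂ P₃ P₄ : H), Commute P₁ B' → Commute P₂ B' →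
      A * (B * P₁ * P₂) * (B' * P₃ * P₄) = A * B * B' * (P₁ * P₂ * P₃ * P₄) := by
    intro A B B' P₁ P₂ P₃ P₄ h₁ h₂
    have := (h₁.mul_left h₂).eq
    simp only [mul_assoc] at this ⊢
    rw [← mul_assoc P₂ B', ← mul_assoc P₁, this]
    simp only [mul_assoc]
  rw [key _ _ _ _ _ _ _ (comm _ _ _ _ _ _ (hd true)) (comm _ _ _ _ _ _ (hd false)),
    key _ _ _ _ _ _ _ (comm _ _ _ _ _ _ (hd true)) (comm _ _ _ _ _ _ (hd false))]
  unfold Sq mv2 at h
  rw [h]
  have hl : (child (child c false) true).2.length = (child (child c true) false).2.length := by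
    simp [child]
  have r₁ : Rig (swq c).1 (child (child c true) true) (child (child c true) true) :=
    cube_rig_sw (cube_disj2 c (by simp)) (cube_disj2 c (by simp))
  have r₂ : Rig (swq c).1 (child (child c true) false) (child (child c false) true) :=
    rig_sw_left hl
  have r₃ : Rig (swq c).1 (child (child c false) true) (child (child c true) false) :=
    rig_sw_right hl
  have r₄ : Rig (swq c).1 (child (child c false) false) (child (child c false) false) :=
    cube_rig_sw (cube_disj2 c (by simp)) (cube_disj2 c (by simp))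
  have hc : Commute (μ (child (child c true) false) t₃ e₃) (μ (child (child c false) true) t₂ e₂) :=
    comm _ _ _ _ _ _ (cube_disj2 c (by simp))
  rw [mul_assoc (μ (child (child c true) true) t₁ e₁) (μ (child (child c true) false) t₃ e₃), hc.eq]
  conv_rhs => rw [← conj _ _ _ t₁ e₁ r₁, ← conj _ _ _ t₂ e₂ r₂, ← conj _ _ _ t₃ e₃ r₃,
    ← conj _ _ _ t₄ e₄ r₄]
  group

/-- three successive moves -/
def cubeX (μ : Cell ι → Ty → Dir → H) (c : Cell ι) (d d' d'' : Dir) : H :=
  μ c .T d * mv2 μ (child c true) (ht .T d true) (tr .T d true d') (tr .T d true d'') *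
    mv2 μ (child c false) (ht .T d false) (tr .T d false d') (tr .T d false d'')

/-- Proof. For an ordering `d, d', d''` of `a, b, c` put
`X d d' d'' = μ c T d * mv2 μ c⁺ T (tr T d true d') (tr T d true d'') *
  mv2 μ c⁻ (ht T d false) (tr T d false d') (tr T d false d'')`.
Let `s₁ = v (swq c)`, `s₂ = v (swq c⁺) * v (swq c⁻)`. Using `comm`, `X d d' d''` is
`mv2 μ c T d d'` times the product of four moves on the quarters, so that the squares of type `T`
at `c` and `conj` give `X d d' d'' = X d' d d'' * s₁`. The squares at `c⁺`, `c⁻` give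
`X a b c = X a c b * s₂` (`(T; b, c)`, `(T; a, b)`) and `X b a c = X b c a * s₂` (`(T; a, c)`,
`(Y; a, c)`); here `v (swq c⁺)` commutes with the moves on cells inside `c⁻` (`conj`, `rig_of_fix`).
Hence `X c a b = X c b a * v g` with `g = σ₁ σ₂ σ₁ σ₂⁻¹ σ₁⁻¹` in `LT`. Applying `π` and using `mu_sq`
(which gives `π (X c a b) = π (X c b a) * σ₂`) we get `g = σ₂`. Cancel `μ c T c` and the square
`(T; a, b)` at `c⁺`. -/
theorem sq_Z {v : LT ι →* H} {μ : Cell ι → Ty → Dir → H}
    (conj : ∀ (g : LT ι) (c c' : Cell ι) (t : Ty) (d : Dir), Rig g.1 c c' →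
      v g * μ c t d * (v g)⁻¹ = μ c' t d)
    (comm : ∀ (c c' : Cell ι) (t t' : Ty) (d d' : Dir), Disjoint (cset c) (cset c') →
      Commute (μ c t d) (μ c' t' d'))
    (π : H →* Perm (ι × Om)) (hv : ∀ g, π (v g) = g.1) (hμ : ∀ c t d, π (μ c t d) = mu c t d)
    (ab : ∀ c, Sq v μ c .T .a .b) (ac : ∀ c, Sq v μ c .T .a .c) (bc : ∀ c, Sq v μ c .T .b .c)
    (c : Cell ι) (hY : Sq v μ (child c false) .Y .a .c) : Sq v μ (child c false) .Z .a .b := by
  set σ₁ := swq c with hσ₁
  set σ₂ := swq (child c true) * swq (child c false) with hσ₂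
  have h1 : cubeX μ c .a .b .c = cubeX μ c .b .a .c * v σ₁ := cube_s1 conj comm (ab c) _ _ _ _ _ _ _ _
  have h2 : cubeX μ c .a .c .b = cubeX μ c .c .a .b * v σ₁ := cube_s1 conj comm (ac c) _ _ _ _ _ _ _ _
  have h3 : cubeX μ c .b .c .a = cubeX μ c .c .b .a * v σ₁ := cube_s1 conj comm (bc c) _ _ _ _ _ _ _ _
  have h4 : cubeX μ c .a .b .c = cubeX μ c .a .c .b * v σ₂ := cube_s2 conj (bc _) (ab _) _
  have h5 : cubeX μ c .b .a .c = cubeX μ c .b .c .a * v σ₂ := cube_s2 conj (ac _) hY _
  have h6 : cubeX μ c .c .a .b = cubeX μ c .c .b .a * v (σ₁ * σ₂ * σ₁ * σ₂⁻¹ * σ₁⁻¹) := by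
    rw [h5, h3, h4, h2] at h1
    simp only [map_mul (f := v) _ σ₁⁻¹, map_mul (f := v) _ σ₂⁻¹, map_mul (f := v) _ σ₁,
      map_mul (f := v) _ σ₂, map_inv]
    rw [← mul_assoc, ← mul_assoc, ← mul_assoc, ← mul_assoc, ← h1]
    group
  have hX : ∀ d d' d'', π (cubeX μ c d d' d'') = cubeX mu c d d' d'' := by
    intro d d' d''
    simp only [cubeX, mv2, map_mul, hμ]
  have h7 : cubeX mu c .c .a .b = cubeX mu c .c .b .a * σ₂.1 :=
    cube_s2 (v := (LT ι).subtype) (gInterp ι).conj (mu_sq _ rfl rfl (by decide))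
      (mu_sq _ rfl rfl (by decide)) _
  have h8 : σ₁ * σ₂ * σ₁ * σ₂⁻¹ * σ₁⁻¹ = σ₂ := by
    have := congrArg π h6
    rw [map_mul, hX, hX, hv, h7] at this
    exact Subtype.ext (mul_left_cancel this).symm
  rw [h8, hσ₂, map_mul] at h6
  have h9 : μ c .T .c * mv2 μ (child c true) .T .a .b * mv2 μ (child c false) .Z .a .b =
      μ c .T .c * mv2 μ (child c true) .T .b .a * mv2 μ (child c false) .Z .b .a *
        (v (swq (child c true)) * v (swq (child c false))) := h6
  have h10 := ab (child c true)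
  unfold Sq at h10 ⊢
  rw [h10] at h9
  simp only [mul_assoc, mul_right_inj] at h9
  rw [← mul_assoc, ← cube_comm_swq conj, mul_assoc, mul_right_inj] at h9
  exact h9

/-- Assembly (`Sq.symm`, `Sq.move`, `sq_Z`; the type `W` has only one valid direction). -/
theorem exists_interp_of_sq (v : LT ι →* H) (μ : Cell ι → Ty → Dir → H)
    (conj : ∀ (g : LT ι) (c c' : Cell ι) (t : Ty) (d : Dir), Rig g.1 c c' →
      v g * μ c t d * (v g)⁻¹ = μ c' t d)
    (comm : ∀ (c c' : Cell ι) (t t' : Ty) (d d' : Dir), Disjoint (cset c) (cset c') →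
      Commute (μ c t d) (μ c' t' d'))
    (π : H →* Perm (ι × Om)) (hv : ∀ g, π (v g) = g.1) (hμ : ∀ c t d, π (μ c t d) = mu c t d)
    (ab : ∀ c, Sq v μ c .T .a .b) (ac : ∀ c, Sq v μ c .T .a .c) (bc : ∀ c, Sq v μ c .T .b .c)
    (hY : ∀ c, Sq v μ (child c false) .Y .a .c) : ∃ J : Interp ι H, J.v = v ∧ J.mu = μ := by
  have hlen : ∀ c : Cell ι, 1 ≤ c.2.length →
      ∃ c₀ : Cell ι, c.2.length = (child c₀ false).2.length := by
    rintro ⟨i, w⟩ hw
    cases w with
    | nil => simp at hw
    | cons β w => exact ⟨(i, w), by simp [child]⟩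
  have hY' : ∀ c : Cell ι, 1 ≤ c.2.length → Sq v μ c .Y .a .c := by
    intro c hc
    obtain ⟨c₀, h₀⟩ := hlen c hc
    exact Sq.move conj h₀ (hY c₀)
  have hZ' : ∀ c : Cell ι, 1 ≤ c.2.length → Sq v μ c .Z .a .b := by
    intro c hc
    obtain ⟨c₀, h₀⟩ := hlen c hc
    exact Sq.move conj h₀ (sq_Z conj comm π hv hμ ab ac bc c₀ (hY c₀))
  have hsq : ∀ (c : Cell ι) (t : Ty) (d d' : Dir), t.sz ≤ c.2.length → valid t d = true →
      valid t d' = true → d ≠ d' → Sq v μ c t d d' := by
    intro c t d d' hc hd hd' hne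
    cases t <;> cases d <;> cases d' <;>
      first
        | exact absurd rfl hne
        | exact absurd hd (by decide)
        | exact absurd hd' (by decide)
        | exact ab c
        | exact ac c
        | exact bc c
        | exact (ab c).symm
        | exact (ac c).symm
        | exact (bc c).symm
        | exact hY' c hc
        | exact (hY' c hc).symm
        | exact hZ' c hc
        | exact (hZ' c hc).symm
  exact ⟨⟨v, μ, conj, comm, hsq⟩, rfl, rfl⟩

end Crest.Agent.R189
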