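import Mathlib
import Crest.Prelude.Def_Amenable

/-!
# Row 189 (an infinite finitely presented simple amenable group): basic definitions

Points are sequences `y 0, y 1, …` with values in `V = ℕ ⊔ (ω + ℤ)`.  `Aom d` adds `1` to the
coordinate `0, 1, 2`; `Com` prepends a `0`.  They generate a monoid with normal forms `Mk`
(a prefix and three offsets).  A *piece* is `m (t)` with `m : Mk` and `t` one of four types.
The group consists of the permutations of `ι × Om` which are piecewise `m' m⁻¹` with
`deg m = deg m'`.
-/

set_option autoImplicit false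

namespace Crest.Agent.R189

open Equiv

/-- values: natural numbers and infinite values `ω + z` -/
abbrev V := ℕ ⊕ ℤ

/-- add a natural number -/
def V.add : V → ℕ → V
  | .inl a, n => .inl (a + n)
  | .inr z, n => .inr (z + n)

/-- points -/
abbrev Om := ℕ → V

/-- prepend a value -/
def cons (v : V) (y : Om) : Om
  | 0 => v
  | n + 1 => y n

/-- add offsets to the first three coordinates -/
def bump (i j k : ℕ) (y : Om) : Om
  | 0 => (y 0).add i
  | 1 => (y 1).add j
  | 2 => (y 2).add k
  | n + 3 => y (n + 3)

/-- prepend a list of natural numbers -/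
def pre : List ℕ → Om → Om
  | [], y => y
  | a :: p, y => cons (.inl a) (pre p y)

/-- degree of a prefix -/
def pdeg (p : List ℕ) : ℕ := (p.map (· + 1)).sum

/-- normal forms of the monoid -/
@[ext] structure Mk where
  p : List ℕ
  i : ℕ
  j : ℕ
  k : ℕ
  deriving DecidableEq

/-- the three directions -/
inductive Dir | a | b | c
  deriving DecidableEq

instance : Fintype Dir := ⟨{.a, .b, .c}, fun d => by cases d <;> simp⟩

/-- the coordinate of a direction -/
def Dir.ix : Dir → ℕ
  | .a => 0
  | .b => 1
  | .c => 2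

namespace Mk

/-- the embedding `Om → Om` of a normal form -/
def app (m : Mk) (y : Om) : Om := pre m.p (bump m.i m.j m.k y)

/-- degree -/
def deg (m : Mk) : ℕ := pdeg m.p + m.i + m.j + m.k

/-- the identity -/
def one : Mk := ⟨[], 0, 0, 0⟩

/-- right multiplication by `Aom d` -/
def A (m : Mk) : Dir → Mk
  | .a => ⟨m.p, m.i + 1, m.j, m.k⟩
  | .b => ⟨m.p, m.i, m.j + 1, m.k⟩
  | .c => ⟨m.p, m.i, m.j, m.k + 1⟩

/-- right multiplication by `Com` -/
def C (m : Mk) : Mk := ⟨m.p ++ [m.i], m.j, m.k, 0⟩

end Mk

/-- add `1` to one coordinate -/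
def Aom : Dir → Om → Om
  | .a => bump 1 0 0
  | .b => bump 0 1 0
  | .c => bump 0 0 1

/-- prepend `0` -/
def Com (y : Om) : Om := cons (.inl 0) y

/-- the four types: no condition, `y 1 = 0`, `y 2 = 0`, both -/
inductive Ty | T | Y | Z | W
  deriving DecidableEq

instance : Fintype Ty := ⟨{.T, .Y, .Z, .W}, fun d => by cases d <;> simp⟩

/-- the set of points of a type -/
def Ty.set : Ty → Set Om
  | .T => Set.univ
  | .Y => {y | y 1 = .inl 0}
  | .Z => {y | y 2 = .inl 0}
  | .W => {y | y 1 = .inl 0 ∧ y 2 = .inl 0}

/-- number of conditions -/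
def Ty.sz : Ty → ℕ
  | .T => 0
  | .Y => 1
  | .Z => 1
  | .W => 2

/-- is the coordinate `1` (resp. `2`) forced to vanish -/
def Ty.z1 : Ty → Bool
  | .Y => true
  | .W => true
  | _ => false

def Ty.z2 : Ty → Bool
  | .Z => true
  | .W => true
  | _ => false

/-- directions in which a type can be split -/
def valid : Ty → Dir → Bool
  | _, .a => true
  | t, .b => !t.z1
  | t, .c => !t.z2

/-- number of leading zeros of the half `y 0 = 0` -/
def nC : Ty → ℕ
  | .T => 1
  | .Z => 1
  | .Y => 2
  | .W => 3

/-- type of a half (`true`: the coordinate is nonzero, `false`: it vanishes) -/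
def ht : Ty → Dir → Bool → Ty
  | t, _, true => t
  | .T, .a, false => .T
  | .Z, .a, false => .Y
  | .Y, .a, false => .T
  | .W, .a, false => .T
  | .T, .b, false => .Y
  | .Z, .b, false => .W
  | .T, .c, false => .Z
  | .Y, .c, false => .W
  | t, _, false => t

/-- marking of a half -/
def hm : Ty → Dir → Bool → Mk → Mk
  | _, d, true, m => m.A d
  | t, .a, false, m => Mk.C^[nC t] m
  | _, _, false, m => m

/-- embedding of a half -/
def he : Ty → Dir → Bool → Om → Om
  | _, d, true, y => Aom d y
  | t, .a, false, y => Com^[nC t] y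
  | _, _, false, y => y

/-- degree of the embedding of a half -/
def dg : Ty → Dir → Bool → ℕ
  | _, _, true => 1
  | t, .a, false => nC t
  | _, _, false => 0

/-- the direction `d'` seen in the half `β` of the splitting of `t` in the direction `d` -/
def tr : Ty → Dir → Bool → Dir → Dir
  | .T, .a, false, .b => .a
  | .T, .a, false, .c => .b
  | .Z, .a, false, .b => .a
  | .Y, .a, false, .c => .a
  | _, _, _, d' => d'

/-- pieces -/
@[ext] structure Pc where
  m : Mk
  t : Ty
  deriving DecidableEq

namespace Pc

/-- the set of a piece -/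
def set (x : Pc) : Set Om := x.m.app '' x.t.set

/-- the level of a piece (its measure is `2 ^ (- lvl)`) -/
def lvl (x : Pc) : ℕ := x.m.deg + x.t.sz

/-- the halves of a piece -/
def half (x : Pc) (d : Dir) (β : Bool) : Pc := ⟨hm x.t d β x.m, ht x.t d β⟩

/-- the whole space -/
def root : Pc := ⟨Mk.one, .T⟩

end Pc

/-- the piece can be cut (by successive halvings) into pieces of the class `𝒜` -/
inductive Fine (𝒜 : Pc → Prop) : Pc → Prop
  | base {x : Pc} : 𝒜 x → Fine 𝒜 x
  | split {x : Pc} (d : Dir) : valid x.t d = true → Fine 𝒜 (x.half d true) →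
      Fine 𝒜 (x.half d false) → Fine 𝒜 x

/-- hereditary classes of pieces -/
def Her (𝒜 : Pc → Prop) : Prop := ∀ x d β, valid x.t d = true → 𝒜 x → 𝒜 (x.half d β)

/-- descendants -/
inductive Desc (x : Pc) : Pc → Prop
  | refl : Desc x x
  | half {y : Pc} (d : Dir) (β : Bool) : valid y.t d = true → Desc x y → Desc x (y.half d β)

/-- `f` is canonical on the piece `x`, with degree shift `s` -/
def Can1 (f : Om → Om) (s : ℤ) (x : Pc) : Prop :=
  ∃ m' : Mk, (m'.deg : ℤ) = x.m.deg + s ∧ ∀ y ∈ x.t.set, f (x.m.app y) = m'.app y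

/-- clopen sets -/
def Clopen (U : Set Om) : Prop := Fine (fun x => x.set ⊆ U ∨ Disjoint x.set U) Pc.root

section Index

variable {ι : Type}

/-- `g` is canonical on the piece `x` of the copy `i` -/
def Can (g : ι × Om → ι × Om) (i : ι) (x : Pc) : Prop :=
  ∃ (i' : ι) (m' : Mk), m'.deg = x.m.deg ∧ ∀ y ∈ x.t.set, g (i, x.m.app y) = (i', m'.app y)

/-- piecewise canonical maps -/
def PC (g : ι × Om → ι × Om) : Prop := ∀ i, Fine (Can g i) Pc.root

/-- the permutations fixing every point outside the copies in `I` -/
def Fix (I : Finset ι) : Subgroup (Perm (ι × Om)) where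
  carrier := {g | ∀ x : ι × Om, x.1 ∉ I → g x = x}
  mul_mem' := fun {g h} hg hh x hx => by
    rw [Perm.mul_apply, hh x hx, hg x hx]
  one_mem' := fun _ _ => rfl
  inv_mem' := fun {g} hg x hx => by
    rw [Perm.inv_eq_iff_eq, hg x hx]

/-- permute the copies over the set `U` -/
noncomputable def sig (U : Set Om) : Perm ι →* Perm (ι × Om) where
  toFun π := Equiv.prodCongrLeft (fun y => by classical exact if y ∈ U then π else 1)
  map_one' := by
    ext x <;> simp [Equiv.prodCongrLeft]
  map_mul' π ρ := by
    ext x <;> simp only [Equiv.prodCongrLeft, Equiv.coe_fn_mk, Perm.coe_mul, Function.comp_apply]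
    split_ifs <;> rfl

open Classical in
lemma sig_apply (U : Set Om) (π : Perm ι) (i : ι) (y : Om) :
    sig U π (i, y) = (if y ∈ U then π i else i, y) := by
  simp only [sig, MonoidHom.coe_mk, OneHom.coe_mk, Equiv.prodCongrLeft, Equiv.coe_fn_mk]
  split_ifs <;> rfl

/-- the basic sets: everything, or one coordinate is nonzero -/
def bset : Option Dir → Set Om
  | none => Set.univ
  | some d => {y | y d.ix ≠ .inl 0}

/-- the letters `c = Com (Aom a)⁻¹`, `u = Aom a (Aom b)⁻¹`, `w = Aom b (Aom c)⁻¹` -/
inductive Lt | c | u | w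
  deriving DecidableEq

instance : Fintype Lt := ⟨{.c, .u, .w}, fun d => by cases d <;> simp⟩

/-- the free group on the letters -/
abbrev FG := FreeGroup Lt

/-- dyadic cells: a copy and an address (last halving first) -/
abbrev Cell (ι : Type) := ι × List Bool

/-- the marking of a dyadic cell -/
def cm : List Bool → Mk
  | [] => Mk.one
  | β :: w => hm .T .a β (cm w)

/-- parametrisation of a cell -/
def cf (c : Cell ι) (y : Om) : ι × Om := (c.1, (cm c.2).app y)

/-- the set of a cell -/
def cset (c : Cell ι) : Set (ι × Om) := Set.range (cf c)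

/-- the halves of a cell -/
def child (c : Cell ι) (β : Bool) : Cell ι := (c.1, β :: c.2)

/-- `g` maps the cell `c` rigidly onto the cell `c'` -/
def Rig (g : ι × Om → ι × Om) (c c' : Cell ι) : Prop :=
  c'.2.length = c.2.length ∧ ∀ y, g (cf c y) = cf c' y

/-- cells of level `L` -/
abbrev CellL (ι : Type) (L : ℕ) := {c : Cell ι // c.2.length = L}

end Index

end Crest.Agent.R189
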