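import Crest.Agent.R189.GenFGAux1

/-!
# Row 189, task GenFG, auxiliary file: the 3-cycles of pieces
-/

set_option autoImplicit false

namespace Crest.Agent.R189.GenFG

open Equiv

variable {ι : Type} {κ : Type}

/-- the standard 3-cycle -/
def rot : Perm (Fin 3) := swap 0 1 * swap 1 2

/-- a family of sheets -/
def sh (i : κ → ι) (m : κ → Mk) : κ → Om → ι × Om := fun k y => (i k, (m k).app y)

/-- the 3-cycles of disjoint pieces -/
def Cyc (I : Finset ι) : Set (Perm (ι × Om)) :=
  {g | ∃ (t : Ty) (n : ℕ) (i : Fin 3 → ι) (m : Fin 3 → Mk), (∀ k, i k ∈ I) ∧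
    (∀ k, (m k).deg = n) ∧ Inj t.set (sh i m) ∧ Ms t.set (sh i m) rot g}

variable {I : Finset ι}

theorem mem_Cyc {t : Ty} {n : ℕ} {i : κ → ι} {m : κ → Mk} (hi : ∀ k, i k ∈ I)
    (hm : ∀ k, (m k).deg = n) (hinj : Inj t.set (sh i m)) {π : Perm κ} {g : Perm (ι × Om)}
    (hg : Ms t.set (sh i m) π g) (e : Fin 3 → κ) (he : Function.Injective e)
    (h1 : ∀ k, π (e k) = e (rot k)) (h2 : ∀ k, (∀ k', e k' ≠ k) → π k = k) : g ∈ Cyc I :=
  ⟨t, n, fun k => i (e k), fun k => m (e k), fun _ => hi _, fun _ => hm _, hinj.comp he,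
    hg.restrict h1 h2⟩

/-- the exchange of two cells is a product of two 3-cycles -/
theorem sw_mem {c c' : Cell ι} (hl : c'.2.length = c.2.length) (hne : c ≠ c') (hc : c.1 ∈ I)
    (hc' : c'.1 ∈ I) : sw c c' ∈ Subgroup.closure (Cyc I) := by
  let C : Bool × Bool → Cell ι := fun p => child (if p.1 then c else c') p.2
  have hlen : ∀ p, (C p).2.length = c.2.length + 1 := by
    rintro ⟨a, b⟩
    cases a <;> simp [C, child, hl]
  have hCI : ∀ p, (C p).1 ∈ I := by
    rintro ⟨a, b⟩
    cases a <;> simp [C, child, hc, hc']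
  have hCinj : Function.Injective C := by
    rintro ⟨a, b⟩ ⟨a', b'⟩ h
    simp only [C, child, Prod.mk.injEq, List.cons.injEq] at h
    obtain ⟨h1, rfl, h3⟩ := h
    have := Prod.ext h1 h3
    cases a <;> cases a' <;> simp_all
  have hsh : sh (fun p => (C p).1) (fun p => cm (C p).2) = fun p y => cf (C p) y := rfl
  have hdeg : ∀ p, (cm (C p).2).deg = c.2.length + 1 := fun p => by rw [deg_cm, hlen]
  have hinj : Inj Ty.T.set (sh (fun p => (C p).1) (fun p => cm (C p).2)) := by
    rw [hsh]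
    intro p p' y y' _ _ h
    obtain ⟨h1, h2⟩ := cf_eq (by rw [hlen, hlen]) h
    exact ⟨hCinj h1, h2⟩
  let τ : Perm (Bool × Bool) := swap (true, true) (false, true) * swap (true, false) (false, false)
  have hsw : Ms Ty.T.set (sh (fun p => (C p).1) (fun p => cm (C p).2)) τ (sw c c') := by
    rw [hsh]
    refine ⟨?_, fun x hx => sw_apply_of_notMem ?_ ?_⟩
    · rintro ⟨a, b⟩ y -
      cases a
      · have e : τ (false, b) = (true, b) := by cases b <;> decide
        rw [e]
        exact ((rig_sw_right hl).child b).2 y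
      · have e : τ (true, b) = (false, b) := by cases b <;> decide
        rw [e]
        exact ((rig_sw_left hl).child b).2 y
    · rw [← cset_child_union]
      rintro (⟨y, rfl⟩ | ⟨y, rfl⟩)
      · exact hx (true, true) y trivial rfl
      · exact hx (true, false) y trivial rfl
    · rw [← cset_child_union]
      rintro (⟨y, rfl⟩ | ⟨y, rfl⟩)
      · exact hx (false, true) y trivial rfl
      · exact hx (false, false) y trivial rfl
  let π₁ : Perm (Bool × Bool) := swap (true, true) (false, true) * swap (false, true) (true, false)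
  let π₂ : Perm (Bool × Bool) :=
    swap (false, true) (true, false) * swap (true, false) (false, false)
  obtain ⟨g₁, h₁⟩ := hinj.exists π₁
  obtain ⟨g₂, h₂⟩ := hinj.exists π₂
  have e : τ = π₁ * π₂ := by decide
  rw [e] at hsw
  rw [hsw.unique (h₁.mul h₂)]
  refine mul_mem (Subgroup.subset_closure ?_) (Subgroup.subset_closure ?_)
  · exact mem_Cyc hCI hdeg hinj h₁ ![(true, true), (false, true), (true, false)] (by decide)
      (by decide) (by decide)
  · exact mem_Cyc hCI hdeg hinj h₂ ![(false, true), (true, false), (false, false)] (by decide)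
      (by decide) (by decide)

theorem LT_le [Finite ι] {g : Perm (ι × Om)} (hg : g ∈ LT ι) (hI : g ∈ Fix I) :
    g ∈ Subgroup.closure (Cyc I) := by
  have h := mem_closure_sw hg {x | x.1 ∈ I} (fun x hx => hI x hx) 0
  refine (Subgroup.closure_le _).2 ?_ h
  rintro _ ⟨c, c', -, hl, hne, h1, h2, rfl⟩
  obtain ⟨x, hx⟩ := cset_nonempty c
  obtain ⟨x', hx'⟩ := cset_nonempty c'
  exact sw_mem hl hne (fst_of_mem_cset hx ▸ h1 hx) (fst_of_mem_cset hx' ▸ h2 hx')

/-- `g` is canonical on the piece `z` seen in the sheet `(i, m)` -/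
def CanS (g : Perm (ι × Om)) (i : ι) (m : Mk) (z : Pc) : Prop :=
  ∃ (i' : ι) (m' : Mk), m'.deg = m.deg + z.m.deg ∧
    ∀ y ∈ z.t.set, g (i, m.app (z.m.app y)) = (i', m'.app y)

theorem her_CanS (g : Perm (ι × Om)) (i : ι) (m : Mk) : Her (CanS g i m) := by
  rintro z d β hd ⟨i', m', h1, h2⟩
  refine ⟨i', hm z.t d β m', ?_, fun y hy => ?_⟩
  · simp only [Pc.half, deg_hm, h1, add_assoc]
  · simp only [Pc.half, app_hm]
    exact h2 _ (he_mem hd β hy)

theorem fine_CanS {g : Perm (ι × Om)} (hg : g ∈ G ι) (i : ι) (m : Mk) (t : Ty) :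
    Fine (CanS g i m) ⟨Mk.one, t⟩ := by
  have h1 : Fine (Can g i) ⟨m, t⟩ := Fine.of_root (her_can g i) (hg.1 i) _
  have h2 := Fine.transport
    (fun _ μ m'' => m''.deg = m.deg + μ.deg ∧ ∀ y, m''.app y = m.app (μ.app y))
    (fun t d β μ m'' _ h => ⟨by rw [deg_hm, deg_hm, h.1, add_assoc],
      fun y => by rw [app_hm, app_hm, h.2]⟩) (m := Mk.one) h1
    ⟨by rw [deg_one, add_zero], fun y => by rw [app_one]⟩
  refine h2.mono ?_
  rintro z ⟨m'', ⟨e1, e2⟩, i', m', e3, e4⟩
  exact ⟨i', m', e3.trans e1, fun y hy => by rw [← e2]; exact e4 y hy⟩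

theorem conj_mem_aux {g : Perm (ι × Om)} (hg : g ∈ Fix I) {n : ℕ} {i : Fin 3 → ι}
    {m : Fin 3 → Mk} (hi : ∀ k, i k ∈ I) (hm : ∀ k, (m k).deg = n) {z : Pc}
    (hz : Fine (fun z => ∀ k ∈ (Finset.univ : Finset (Fin 3)), CanS g (i k) (m k) z) z)
    (hinj : Inj z.set (sh i m)) {c : Perm (ι × Om)} (hc : Ms z.set (sh i m) rot c) :
    g * c * g⁻¹ ∈ Subgroup.closure (Cyc I) := by
  induction hz generalizing c with
  | @base z h =>
    choose i' m' h1 h2 using fun k => h k (Finset.mem_univ k)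
    refine Subgroup.subset_closure ⟨z.t, n + z.m.deg, i', m', fun k => ?_,
      fun k => by rw [h1, hm], ?_, ?_⟩
    · obtain ⟨_, y, hy, -⟩ := set_nonempty z
      by_contra hk
      have e := (h2 k y hy).trans (hg (i' k, (m' k).app y) hk).symm
      have : i k = i' k := congrArg Prod.fst (g.injective e)
      exact hk (this ▸ hi k)
    · intro k k' y y' hy hy' e
      have e' : sh i m k (z.m.app y) = sh i m k' (z.m.app y') :=
        g.injective ((h2 k y hy).trans (e.trans (h2 k' y' hy').symm))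
      obtain ⟨e1, e2⟩ := hinj k k' _ _ ⟨y, hy, rfl⟩ ⟨y', hy', rfl⟩ e'
      exact ⟨e1, app_injective _ e2⟩
    · exact (Ms.reparam (hc.conj g)).congr h2
  | @split z d hd _ _ ih₁ ih₂ =>
    have i₁ := hinj.mono (half_subset hd true)
    have i₂ := hinj.mono (half_subset hd false)
    obtain ⟨c₁, h₁⟩ := i₁.exists rot
    obtain ⟨c₂, h₂⟩ := i₂.exists rot
    have h := Ms.union (by rwa [half_union hd]) (half_disjoint hd) h₁ h₂
    rw [half_union hd] at h
    have e : g * c * g⁻¹ = (g * c₁ * g⁻¹) * (g * c₂ * g⁻¹) := by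
      rw [hc.unique h]
      group
    rw [e]
    exact mul_mem (ih₁ i₁ h₁) (ih₂ i₂ h₂)

theorem conj_mem {g : Perm (ι × Om)} (hg : g ∈ GI I) {c : Perm (ι × Om)}
    (hc : c ∈ Subgroup.closure (Cyc I)) : g * c * g⁻¹ ∈ Subgroup.closure (Cyc I) := by
  have : Subgroup.closure (Cyc I) ≤
      (Subgroup.closure (Cyc I)).comap (MulAut.conj g).toMonoidHom := by
    rw [Subgroup.closure_le]
    rintro c ⟨t, n, i, m, hi, hm, hinj, hc⟩
    have e : (⟨Mk.one, t⟩ : Pc).set = t.set := by
      ext y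
      simp [Pc.set, app_one]
    exact conj_mem_aux hg.2 hi hm (z := ⟨Mk.one, t⟩)
      (Fine.finset _ _ (fun k _ => her_CanS g (i k) (m k)) fun k _ => fine_CanS hg.1 _ _ t)
      (by rwa [e]) (by rwa [e])
  exact this hc

variable [Fintype ι] [DecidableEq ι] {M : Subgroup (Perm (ι × Om))}

/-- three pieces in three different copies -/
theorem Has.mem_of_inj (H : Has I M) {t : Ty} {n : ℕ} {i : Fin 3 → ι} {m : Fin 3 → Mk}
    (hi : ∀ k, i k ∈ I) (hm : ∀ k, (m k).deg = n) (hinj : Function.Injective i)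
    {g : Perm (ι × Om)} (hg : Ms t.set (sh i m) rot g) : g ∈ M := by
  choose γ hγ using fun k => rch (m k)
  obtain ⟨h, hM, hh⟩ := H.diag (Function.extend i γ 1) I subset_rfl
  let π : Perm ι := swap (i 0) (i 1) * swap (i 1) (i 2)
  have hπ1 : ∀ k, π (i k) = i (rot k) := fun k => by
    simp only [π, rot, Perm.mul_apply, hinj.swap_apply]
  have hπ2 : ∀ j, (∀ k, i k ≠ j) → π j = j := fun j hj => by
    simp only [π, Perm.mul_apply]
    rw [swap_apply_of_ne_of_ne (hj 1).symm (hj 2).symm,
      swap_apply_of_ne_of_ne (hj 0).symm (hj 1).symm]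
  have hπ3 : π ∈ alternatingGroup ι := by
    rw [Perm.mem_alternatingGroup, map_mul, Perm.sign_swap (hinj.ne (by decide)),
      Perm.sign_swap (hinj.ne (by decide))]
    simp
  have hπ4 : (⟨π, hπ3⟩ : alternatingGroup ι) ∈ AI I := fun j hj =>
    hπ2 j fun k e => hj (e ▸ hi k)
  have h1 := H.good_image n t _ hπ4
  have h2 : Ms t.set (fun k y => (i k, (Aom .a)^[n] y)) rot (R189.sig ((Aom .a)^[n] '' t.set) π) := by
    refine ⟨fun k y hy => ?_, ?_⟩
    · rw [sig_apply, if_pos ⟨y, hy, rfl⟩, hπ1]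
    · rintro ⟨j, z⟩ hx
      rw [sig_apply]
      split_ifs with hz
      · obtain ⟨y, hy, rfl⟩ := hz
        rw [hπ2 j fun k e => hx k y hy (Prod.ext e.symm rfl)]
      · rfl
  have h3 := (h2.conj h).congr (F' := sh i m) fun k y _ => by
    rw [hh, if_pos (hi k), hinj.extend_apply, ← hm k, hγ]
    rfl
  rw [hg.unique h3]
  exact mul_mem (mul_mem hM h1) (inv_mem hM)

theorem Has.Cyc_subset (H : Has I M) : Cyc I ⊆ M := by
  rintro g ⟨t, n, i, m, hi, hm, hinj, hg⟩
  have hc : 1 < (I \ Finset.univ.image i).card := by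
    have h1 := Finset.le_card_sdiff (Finset.univ.image i) I
    have h2 : (Finset.univ.image i).card ≤ 3 := Finset.card_image_le.trans (by simp)
    have := H.card
    omega
  obtain ⟨j, hj, j', hj', hjj⟩ := Finset.one_lt_card.1 hc
  simp only [Finset.mem_sdiff, Finset.mem_image, Finset.mem_univ, true_and, not_exists] at hj hj'
  let jb : Bool → ι := fun b => if b then j else j'
  have hjb : Function.Injective jb := by
    intro a b h
    cases a <;> cases b <;> simp_all [jb]
  have hjI : ∀ b, jb b ∈ I := fun b => by cases b <;> simp [jb, hj.1, hj'.1]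
  have hji : ∀ k b, i k ≠ jb b := fun k b => by cases b <;> simp [jb, hj.2, hj'.2]
  let i5 : Fin 3 ⊕ Bool → ι := Sum.elim i jb
  let m5 : Fin 3 ⊕ Bool → Mk := Sum.elim m fun _ => m 0
  have hi5 : ∀ k, i5 k ∈ I := by
    rintro (k | b)
    · exact hi k
    · exact hjI b
  have hm5 : ∀ k, (m5 k).deg = n := by
    rintro (k | b)
    · exact hm k
    · exact hm 0
  have hinj5 : Inj t.set (sh i5 m5) := by
    rintro (k | b) (k' | b') y y' hy hy' e
    · obtain ⟨e1, e2⟩ := hinj k k' y y' hy hy' e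
      exact ⟨congrArg _ e1, e2⟩
    · exact absurd (congrArg Prod.fst e) (hji k b')
    · exact absurd (congrArg Prod.fst e).symm (hji k' b)
    · exact ⟨congrArg _ (hjb (congrArg Prod.fst e)), app_injective _ (congrArg Prod.snd e)⟩
  let π : Fin 3 → Perm (Fin 3 ⊕ Bool) := fun k =>
    swap (.inl k) (.inr true) * swap (.inr true) (.inr false)
  choose c hc using fun k => hinj5.exists (π k)
  have hcM : ∀ k, c k ∈ M := by
    intro k
    let e : Fin 3 → Fin 3 ⊕ Bool := ![.inl k, .inr true, .inr false]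
    have h1 : ∀ k', π k (e k') = e (rot k') := by
      revert k
      decide
    have h2 : ∀ p, (∀ k', e k' ≠ p) → π k p = p := by
      revert k
      decide
    refine H.mem_of_inj (t := t) (i := fun k' => i5 (e k')) (m := fun k' => m5 (e k'))
      (fun _ => hi5 _) (fun _ => hm5 _) ?_ ((hc k).restrict h1 h2)
    have a1 := hji k true
    have a2 := hji k false
    have a3 : jb true ≠ jb false := hjb.ne (by decide)
    intro a b hab
    fin_cases a <;> fin_cases b <;> first
      | rfl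
      | exact absurd hab a1
      | exact absurd hab a2
      | exact absurd hab a3
      | exact absurd hab a1.symm
      | exact absurd hab a2.symm
      | exact absurd hab a3.symm
  have h := (((hc 0).mul (hc 2).inv).mul (hc 1)).mul (hc 0).inv
  have h' := h.restrict (e := Sum.inl) (π' := rot) (by decide) (by decide)
  rw [SetLike.mem_coe, hg.unique h']
  exact mul_mem (mul_mem (mul_mem (hcM 0) (inv_mem (hcM 2))) (hcM 1)) (inv_mem (hcM 0))

theorem Has.GI_le (H : Has I M) : GI I ≤ M :=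
  (GI_le_of_LT (le_trans (by norm_num) H.card) (Subgroup.closure (Cyc I))
    (fun _ hg hI => LT_le hg hI) fun _ hg _ hc => conj_mem hg hc).trans
    ((Subgroup.closure_le _).2 H.Cyc_subset)

end Crest.Agent.R189.GenFG
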