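import Crest.Agent.R189.Gen
import Crest.Agent.R189.GenFGAux2

/-!
# Row 189, task GenFG: a finite generating set of `GI I`
-/

set_option autoImplicit false

namespace Crest.Agent.R189

open Equiv

variable {ι : Type} [Fintype ι] [DecidableEq ι]

/-- the generators living on the copies in `I` -/
def gens (I : Finset ι) : Set (Perm (ι × Om)) :=
  {g | ∃ i ∈ I, ∃ x : Lt, g = loc (i, []) (hat x)} ∪
    {g | ∃ (o : Option Dir) (π : Perm ι), π ∈ alternatingGroup ι ∧ (∀ i, i ∉ I → π i = i) ∧
      g = sig (bset o) π}

theorem closure_gens_le (I : Finset ι) : Subgroup.closure (gens I) ≤ GI I := by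
  rw [Subgroup.closure_le]
  rintro _ (⟨i, hi, x, rfl⟩ | ⟨o, π, -, hπ, rfl⟩)
  · exact ⟨loc_mem _ (hat_mem x), loc_mem_Fix _ _ hi⟩
  · exact ⟨sig_mem (clopen_bset o) π, sig_mem_Fix _ hπ⟩

/-- Proof. Let `M` be the closure, `AI` the even permutations fixing the complement of `I`
(a perfect group, generated by its 3-cycles).
(1) The class of `U` with `sig U π ∈ M` for all `π ∈ AI` contains the `bset o`, and is closed under
complement, intersection (`⁅sig U π, sig U' ρ⁆ = sig (U ∩ U') ⁅π, ρ⁆`) and images by `hatF γ`
(conjugate by `∏ i ∈ I, loc (i, []) (hatF γ)`).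
(2) For every marking `m` there is a word `γ` with `hatF γ (A0^n y) = m.app y`, `n = deg m`
(induction along `desc_root`: for `A0` nothing, for `A1` multiply by `u⁻¹`, for `A2` by `w⁻¹ u⁻¹`,
for `C` by `u ^ n c`); the sets `P n = A0^n Om` are in the class (`P (n+1) = u (Q ∩ P n)`), hence
all pieces are: `⟨m, t⟩.set = hatF γ '' (P n ∩ t.set)`.
(3) For three pieces `⟨m₁, t⟩, ⟨m₂, t⟩, ⟨m₃, t⟩` of the same degree in three *different* copies of
`I`, the canonical 3-cycle is in `M` (conjugate `sig (P n ∩ t.set) (i₁ i₂ i₃)` by the three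
`loc (i, []) (hatF γ)`). For three disjoint pieces in arbitrary copies of `I` use two auxiliary
pieces in two other copies `j, j'`: the 3-cycles `(x j j')` generate the alternating group on the
five sheets.
(4) Let `M'` be the subgroup generated by all such 3-cycles of disjoint pieces; `M' ≤ M`. It is
normalised by `GI I` (cut the type `t` until `g` is canonical on the three pieces: a 3-cycle is the
product of the 3-cycles of the two halves; `Fine.transport`, `Fine.inter`) and contains
`sw c c' = sw c⁺ c'⁺ * sw c⁻ c'⁻` (a product of two 3-cycles of cells), so `LT ⊓ Fix I ≤ M'` by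
`mem_closure_sw`. Conclude by `GI_le_of_LT`. -/
theorem closure_gens {I : Finset ι} (hI : 5 ≤ I.card) : Subgroup.closure (gens I) = GI I := by
  refine le_antisymm (closure_gens_le I) (GenFG.Has.GI_le ⟨hI, fun i hi x => ?_, fun o π hπ => ?_⟩)
  · exact Subgroup.subset_closure (Or.inl ⟨i, hi, x, rfl⟩)
  · exact Subgroup.subset_closure (Or.inr ⟨o, π.1, π.2, hπ, rfl⟩)

end Crest.Agent.R189
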