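import Crest.Agent.R189.Model

/-!
# Row 189, task Geo: the basic relations and the tables hold in a quotient
-/

set_option autoImplicit false

namespace Crest.Agent.R189

open Equiv Proj

variable {ι : Type} [Fintype ι] [DecidableEq ι] {B : Type} [Group B]
variable {κ : B →* alternatingGroup ι} {H : Type} [Group H]

/-- the projection `q` lies over the set `U` -/
def Model.Geo (M : Model κ H) (q : Proj M.Φ) (U : Set Om) : Prop :=
  ∀ b, M.p (q.s b) = sig U (κ b).1

variable {M : Model κ H} {q q' : Proj M.Φ} {U U' : Set Om}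

theorem Model.geo_U (M : Model κ H) (o : Option Dir) : M.Geo (M.U o) (bset o) := M.p_U o

theorem Model.geo_one (M : Model κ H) : M.Geo (Proj.one M.Φ) Set.univ := by
  have := M.geo_U none
  rwa [M.U_none] at this

theorem Model.Geo.compl (h : M.Geo q U) : M.Geo q.compl Uᶜ := by
  intro b
  rw [compl_s, map_mul, map_inv, h b, ← map_inv]
  have h1 : M.p (M.Φ.io b) = sig Set.univ (κ b).1 := M.geo_one b
  rw [h1]
  ext1 ⟨i, y⟩
  by_cases hy : y ∈ U <;> simp [sig_apply, hy, -map_inv]

private theorem geo_p_dI (M : Model κ H) (γ : FG) (I : Finset ι) (i : ι) (y : Om) :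
    M.p (M.Φ.dI I γ) (i, y) = (i, if i ∈ I then hatF γ y else y) := by
  induction I using Finset.induction_on with
  | empty => simp [M.Φ.frame_dI_empty]
  | insert j I h ih =>
    rw [M.Φ.frame_dI_insert h, map_mul, Perm.mul_apply, ih, M.p_d]
    by_cases hij : i = j
    · subst hij
      rw [loc_root_apply, if_neg h, if_pos (Finset.mem_insert_self _ _)]
    · rw [loc_root_apply_of_ne hij]
      simp [hij]

theorem Model.p_dI (M : Model κ H) (γ : FG) (i : ι) (y : Om) :
    M.p (M.Φ.dI Finset.univ γ) (i, y) = (i, hatF γ y) := by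
  rw [geo_p_dI, if_pos (Finset.mem_univ i)]

theorem Model.Geo.act (h : M.Geo q U) (γ : FG) : M.Geo (Proj.act γ q) (hatF γ '' U) := by
  intro b
  rw [act_s, map_mul, map_mul, map_inv, h b, mul_inv_eq_iff_eq_mul]
  ext1 ⟨i, y⟩
  rw [Perm.mul_apply, Perm.mul_apply, sig_apply, M.p_dI, M.p_dI, sig_apply]
  by_cases hy : y ∈ U <;> simp [hy]

omit [Fintype ι] [DecidableEq ι] in
open scoped commutatorElement in
private theorem geo_sig_comm (U U' : Set Om) (π ρ : Perm ι) :
    ⁅sig U π, sig U' ρ⁆ = sig (U ∩ U') ⁅π, ρ⁆ := by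
  rw [commutatorElement_def, commutatorElement_def, ← map_inv, ← map_inv]
  ext1 ⟨i, y⟩
  by_cases hy : y ∈ U <;> by_cases hy' : y ∈ U' <;> simp [sig_apply, hy, hy', -map_inv]

/-- `ext_of_comm`, `Comm.meet_s` -/
theorem Model.Geo.meet (h : M.Geo q U) (h' : M.Geo q' U') (hc : Comm q q') :
    M.Geo (Proj.meet q q') (U ∩ U') := by
  have := ext_of_comm M.Φ.uce.perfect (f := M.p.comp (Proj.meet q q').s)
    (g := (sig (U ∩ U')).comp ((alternatingGroup ι).subtype.comp κ)) fun a b => by
      rw [MonoidHom.comp_apply, hc.meet_s, map_commutatorElement, h a, h' b, geo_sig_comm,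
        MonoidHom.comp_apply, map_commutatorElement ((alternatingGroup ι).subtype.comp κ)]
      rfl
  exact fun b => DFunLike.congr_fun this b

theorem Model.Geo.commute (h : M.Geo q U) {η : FG} (hη : ∀ y ∈ U, hatF η y = y) (i : ι) (b : B) :
    Commute (M.p (M.Φ.d i η)) (M.p (q.s b)) := by
  rw [h b, M.p_d]
  have h1 : ∀ j y, loc (i, []) (hatF η) (j, y) = (j, if j = i then hatF η y else y) := fun j y => by
    split_ifs with hj
    · rw [hj, loc_root_apply]
    · exact loc_root_apply_of_ne hj _ _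
  ext1 ⟨j, y⟩
  rw [Perm.mul_apply, Perm.mul_apply, sig_apply, h1, h1, sig_apply]
  by_cases hy : y ∈ U
  · simp [hy, hη y hy]
  · have h2 : hatF η y ∉ U := fun h2 => hy ((hatF η).injective (hη _ h2) ▸ h2)
    by_cases hj : j = i <;> simp [hy, h2, hj]

private theorem geo_add_zero (v : V) : v.add 0 = v := by
  cases v <;> simp [V.add]

private theorem geo_add_add (v : V) (a b : ℕ) : (v.add a).add b = v.add (b + a) := by
  cases v <;> simp only [V.add, Sum.inl.injEq, Sum.inr.injEq] <;> omega

private theorem geo_bump_zero (y : Om) : bump 0 0 0 y = y := by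
  funext n
  match n with
  | 0 | 1 | 2 => exact geo_add_zero _
  | n + 3 => rfl

private theorem geo_bump_bump (i j k i' j' k' : ℕ) (y : Om) :
    bump i j k (bump i' j' k' y) = bump (i + i') (j + j') (k + k') y := by
  funext n
  match n with
  | 0 | 1 | 2 => exact geo_add_add _ _ _
  | n + 3 => rfl

private theorem geo_bump_cons (i j k : ℕ) (v : V) (y : Om) :
    bump i j k (cons v y) = cons (v.add i) (bump j k 0 y) := by
  funext n
  match n with
  | 0 | 1 | 2 => rfl
  | 3 => exact (geo_add_zero _).symm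
  | n + 4 => rfl

private theorem geo_u (i j k : ℕ) (y : Om) :
    hatF lu (bump i (j + 1) k y) = bump (i + 1) j k y := by
  have := hat_u (bump i j k y)
  simp only [Aom, geo_bump_bump, zero_add, add_comm 1] at this
  rw [lu, hatF, FreeGroup.lift_apply_of, this]

private theorem geo_w (i j k : ℕ) (y : Om) :
    hatF lw (bump i j (k + 1) y) = bump i (j + 1) k y := by
  have := hat_w (bump i j k y)
  simp only [Aom, geo_bump_bump, zero_add, add_comm 1] at this
  rw [lw, hatF, FreeGroup.lift_apply_of, this]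

private theorem geo_c (i j k : ℕ) (y : Om) :
    hatF lc (bump (i + 1) j k y) = bump 0 i j (Com (bump 0 0 k y)) := by
  have := hat_c_A (bump i j k y)
  simp only [Aom, geo_bump_bump, zero_add, add_comm 1] at this
  rw [lc, hatF, FreeGroup.lift_apply_of, this, Com, Com, geo_bump_cons, geo_bump_bump, zero_add k]
  rfl

private theorem geo_ne (v : V) (n : ℕ) : v.add (n + 1) ≠ .inl 0 := by
  cases v <;> simp [V.add]

/-- the points with prescribed nonzero coordinates -/
private theorem geo_range (i j k : ℕ) {d : Dir} {i' j' k' : ℕ} (hd : Aom d = bump i' j' k')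
    (h0 : ∀ y, bump i j k y d.ix = y d.ix) :
    Set.range (bump i j k) ∩ bset (some d) = Set.range (bump (i + i') (j + j') (k + k')) := by
  ext z
  constructor
  · rintro ⟨⟨y, rfl⟩, hz⟩
    have : y ∈ bset (some d) := fun e => hz ((h0 y).trans e)
    rw [← range_Aom, hd] at this
    obtain ⟨y, rfl⟩ := this
    exact ⟨y, (geo_bump_bump ..).symm⟩
  · rintro ⟨y, rfl⟩
    refine ⟨⟨_, geo_bump_bump ..⟩, ?_⟩
    rw [← range_Aom, hd]
    exact ⟨bump i j k y, by rw [geo_bump_bump, add_comm i, add_comm j, add_comm k]⟩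

private theorem geo_a : bset (some .a) = Set.range (bump 1 0 0) := (range_Aom .a).symm
private theorem geo_b : bset (some .b) = Set.range (bump 0 1 0) := (range_Aom .b).symm
private theorem geo_c' : bset (some .c) = Set.range (bump 0 0 1) := (range_Aom .c).symm

private theorem geo_ab : bset (some .a) ∩ bset (some .b) = Set.range (bump 1 1 0) := by
  rw [geo_a]; exact geo_range 1 0 0 (d := .b) rfl fun _ => geo_add_zero _

private theorem geo_ac : bset (some .a) ∩ bset (some .c) = Set.range (bump 1 0 1) := by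
  rw [geo_a]; exact geo_range 1 0 0 (d := .c) rfl fun _ => geo_add_zero _

private theorem geo_bc : bset (some .b) ∩ bset (some .c) = Set.range (bump 0 1 1) := by
  rw [geo_b]; exact geo_range 0 1 0 (d := .c) rfl fun _ => geo_add_zero _

private theorem geo_com : (bset (some .a))ᶜ = Set.range Com := by
  ext z
  constructor
  · intro hz
    have hz' : z 0 = .inl 0 := not_not.1 hz
    refine ⟨fun n => z (n + 1), funext fun n => ?_⟩
    cases n
    · exact hz'.symm
    · rfl
  · rintro ⟨y, rfl⟩ h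
    exact h rfl

private theorem geo_com_c : (bset (some .a))ᶜ ∩ bset (some .c) =
    Set.range fun y => bump 0 0 1 (Com y) := by
  rw [geo_com]
  ext z
  constructor
  · rintro ⟨⟨y, rfl⟩, hz⟩
    have : y ∈ bset (some .b) := hz
    rw [geo_b] at this
    obtain ⟨y, rfl⟩ := this
    exact ⟨y, geo_bump_cons ..⟩
  · rintro ⟨y, rfl⟩
    exact ⟨⟨bump 0 1 0 y, (geo_bump_cons 0 0 1 (.inl 0) y).symm⟩, geo_ne _ 0⟩

private theorem geo_image {f : Perm Om} {g g' : Om → Om} (h : ∀ y, f (g y) = g' y) :
    f '' Set.range g = Set.range g' := by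
  rw [← Set.range_comp]
  exact congrArg _ (funext h)

/-- `exists_quot'`; the sets are `A0 Om`, `A1 Om`, `A2 Om` (`range_Aom`), their intersections
`Ai Aj Om`, `C Om = (A0 Om)ᶜ`, and `A1 C = C A0`, `A2 C = C A1`. -/
theorem Model.exists_base (M : Model κ H) :
    ∃ (H' : Type) (_ : Group H') (N : Model κ H'), N.IsBase := by
  have hP := M.geo_U (some .a)
  have hQ := M.geo_U (some .b)
  have hR := M.geo_U (some .c)
  have cPQ := M.U_comm (some .a) (some .b)
  have cQR := M.U_comm (some .b) (some .c)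
  have cPR := M.U_comm (some .a) (some .c)
  have cP'R := cPR.symm.compl.symm
  have hPQ := hP.meet hQ cPQ
  have hQR := hQ.meet hR cQR
  have hPR := hP.meet hR cPR
  have hP'R := hP.compl.meet hR cP'R
  have hP' := hP.compl
  rw [geo_ab] at hPQ
  rw [geo_bc] at hQR
  rw [geo_ac] at hPR
  rw [geo_com_c] at hP'R
  rw [geo_com] at hP'
  rw [geo_a] at hP
  rw [geo_b] at hQ
  rw [geo_c'] at hR
  have key : ∀ {q q' : Proj M.Φ} {g g' : Om → Om} {γ : FG}, M.Geo q (Set.range g) →
      M.Geo q' (Set.range g') → (∀ y, hatF γ (g y) = g' y) →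
      ∀ b, M.p ((act γ q).s b) = M.p (q'.s b) := fun h h' e b => by
    rw [h.act _ b, h' b, geo_image e]
  obtain ⟨H', _, N, f, hE, hT⟩ := M.exists_quot'
    {(act lu (M.U (some .b)), M.U (some .a)), (act lw (M.U (some .c)), M.U (some .b)),
      (act lc (M.U (some .a)), (M.U (some .a)).compl),
      (act lu (meet (M.U (some .b)) (M.U (some .c))), meet (M.U (some .a)) (M.U (some .c))),
      (act (lu * lw) (meet (M.U (some .b)) (M.U (some .c))), meet (M.U (some .a)) (M.U (some .b))),
      (act lc (meet (M.U (some .a)) (M.U (some .b))), meet (M.U (some .a)).compl (M.U (some .c)))}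
    (Set.toFinite _) (by
      rintro _ (rfl | rfl | rfl | rfl | rfl | rfl)
      · exact key hQ hP (geo_u 0 0 0)
      · exact key hR hQ (geo_w 0 0 0)
      · exact key hP hP' fun y => by rw [geo_c, geo_bump_zero, geo_bump_zero]
      · exact key hQR hPR (geo_u 0 0 1)
      · exact key hQR hPQ fun y => by rw [map_mul, Perm.mul_apply, geo_w, geo_u]
      · exact key hPQ hP'R fun y => by rw [geo_c, geo_bump_zero])
    {((lu * lw)⁻¹ * (lw * lu), meet (M.U (some .b)) (M.U (some .c))),
      ((lw * lc)⁻¹ * (lc * lu), meet (M.U (some .a)) (M.U (some .b)))} (Set.toFinite _) (by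
      rintro _ (rfl | rfl)
      · refine hQR.commute ?_
        rintro _ ⟨y, rfl⟩
        rw [map_mul, map_inv, Perm.mul_apply, Perm.inv_eq_iff_eq, map_mul, map_mul, Perm.mul_apply,
          Perm.mul_apply, geo_u, geo_w, geo_w, geo_u]
      · refine hPQ.commute ?_
        rintro _ ⟨y, rfl⟩
        rw [map_mul, map_inv, Perm.mul_apply, Perm.inv_eq_iff_eq, map_mul, map_mul, Perm.mul_apply,
          Perm.mul_apply, geo_u, geo_c, geo_c, geo_w])
  simp only [Set.mem_insert_iff, Set.mem_singleton_iff, forall_eq_or_imp, forall_eq, Proj.map_act,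
    Proj.map_compl, cPQ.map_meet, cQR.map_meet, cPR.map_meet, cP'R.map_meet, f.U] at hE hT
  obtain ⟨e1, e2, e3, e4, e5, e6⟩ := hE
  exact ⟨H', _, N, N.U_comm _ _, N.U_comm _ _, N.U_comm _ _, e1, e2, e3, e4, e5, e6, hT.1, hT.2⟩

private theorem geo_pow {γ : FG} {f : ℕ → ℕ → Om} (h : ∀ a b, hatF γ (f (a + 1) b) = f a (b + 1))
    (n a b : ℕ) : hatF (γ ^ n) (f (a + n) b) = f a (b + n) := by
  induction n generalizing b with
  | zero => simp
  | succ n ih =>
    rw [pow_succ, map_mul, Perm.mul_apply, ← add_assoc, h, ih, add_right_comm, add_assoc]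

private theorem geo_V (n : ℕ) (y : Om) :
    hatF (Vw n) (bump (n + 1) 0 0 y) = bump n 0 0 (Com y) := by
  have := geo_pow (γ := lu) (f := fun a b => bump b a 0 (Com y)) (fun a b => geo_u b a 0 _) n 0 0
  simp only [zero_add] at this
  rw [Vw, map_mul, Perm.mul_apply, geo_c, geo_bump_zero, this]

theorem hatF_gamp (a : ℕ) (p : List ℕ) (y : Om) :
    hatF (gamp a p) (bump (a + pdeg p) 0 0 y) = bump a 0 0 (pre p y) := by
  induction p generalizing a with
  | nil => simp [gamp, pdeg, pre]
  | cons x p ih =>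
    rw [gamp, map_mul, Perm.mul_apply,
      show a + pdeg (x :: p) = a + x + 1 + pdeg p by simp [pdeg]; omega, ih, geo_V, pre, Com,
      geo_bump_cons, geo_bump_cons]
    simp only [V.add, add_zero, add_comm]

theorem hatF_gam (m : Mk) (y : Om) : hatF (gam m) (bump m.deg 0 0 y) = m.app y := by
  have h1 : ∀ i j k, hatF lu⁻¹ (bump (i + 1) j k y) = bump i (j + 1) k y := fun i j k => by
    rw [map_inv, Perm.inv_eq_iff_eq, geo_u]
  have h2 : ∀ i j k, hatF yw (bump (i + 1) j k y) = bump i j (k + 1) y := fun i j k => by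
    rw [yw, map_mul, Perm.mul_apply, h1, map_inv, Perm.inv_eq_iff_eq, geo_w]
  have h3 := geo_pow (γ := yw) (f := fun a b => bump a 0 b y) (fun a b => h2 a 0 b) m.k
    (pdeg m.p + m.i + m.j) 0
  have h4 := geo_pow (γ := lu⁻¹) (f := fun a b => bump a b m.k y) (fun a b => h1 a b m.k) m.j
    (pdeg m.p + m.i) 0
  have h5 := hatF_gamp 0 m.p (bump m.i m.j m.k y)
  simp only [zero_add, geo_bump_bump, geo_bump_zero] at h3 h4 h5
  rw [gam, map_mul, map_mul, Perm.mul_apply, Perm.mul_apply, Mk.deg, h3, h4, h5, Mk.app]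

theorem Model.IsBase.geo_tau (b : M.IsBase) (n : ℕ) (t : Ty) :
    M.Geo (M.tau n t) (bump n 0 0 '' t.set) := by
  have hP : ∀ n, M.Geo (Pn (M.U (some .b)) n) (Set.range (bump n 0 0)) := fun n => by
    induction n with
    | zero =>
      rw [show Set.range (bump 0 0 0) = Set.univ from
        Set.range_eq_univ.2 fun y => ⟨y, geo_bump_zero y⟩]
      exact M.geo_one
    | succ n ih =>
      have := (ih.meet (M.geo_U (some .b)) (Base.levI b n).1).act lu
      rwa [geo_range n 0 0 (d := .b) rfl fun _ => geo_add_zero _, geo_image (geo_u _ 0 _)] at this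
  obtain ⟨c1, c2, -⟩ := Base.levI b n
  have hY := (hP n).meet (M.geo_U (some .b)).compl c1.compl
  have e1 : ∀ y, bump n 0 0 y 1 = y 1 := fun _ => geo_add_zero _
  have e2 : ∀ y, bump n 0 0 y 2 = y 2 := fun _ => geo_add_zero _
  cases t
  · rw [Ty.set, Set.image_univ]
    exact hP n
  · convert hY using 1
    · rfl
    rw [← Set.image_preimage_eq_range_inter]
    congr 1
    ext y
    simp [Ty.set, bset, Dir.ix, e1]
  · convert (hP n).meet (M.geo_U (some .c)).compl c2.compl using 1
    · rfl
    rw [← Set.image_preimage_eq_range_inter]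
    congr 1
    ext y
    simp [Ty.set, bset, Dir.ix, e2]
  · convert hY.meet (M.geo_U (some .c)).compl
      (c1.compl.meet c2.compl b.cQR.compl.symm.compl.symm) using 1
    · rfl
    rw [Set.inter_assoc, ← Set.image_preimage_eq_range_inter]
    congr 1
    ext y
    simp [Ty.set, bset, Dir.ix, e1, e2]

/-- For each of the six words `x = of l, (of l)⁻¹`, `hatF x ∈ G1` is canonical on finitely many
pieces (`Fine.exists_finset`); for each of them choose `m'`; apply `exists_quot'`, `Base.map`,
`Base.map_tau`. -/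
theorem Model.IsBase.exists_tables (b : M.IsBase) :
    ∃ (H' : Type) (_ : Group H') (N : Model κ H'), N.IsBase ∧ N.Tables := by
  classical
  have key : ∀ x : FG, ∃ S : Finset (Pc × Mk), (∀ e ∈ S, e.2.deg = e.1.m.deg ∧
      ∀ y ∈ e.1.t.set, hatF x (e.1.m.app y) = e.2.app y) ∧
      Fine (fun z => ∃ m', (z, m') ∈ S) Pc.root := fun x => by
    obtain ⟨T, h1, h2⟩ := (hatF_mem x).1.exists_finset
    choose m' h3 h4 using h1
    refine ⟨T.attach.image fun z => (z.1, m' z.1 z.2), fun e he => ?_, h2.mono fun z hz =>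
      ⟨m' z hz, Finset.mem_image.2 ⟨⟨z, hz⟩, Finset.mem_attach _ _, rfl⟩⟩⟩
    obtain ⟨z, -, rfl⟩ := Finset.mem_image.1 he
    exact ⟨by simpa using h3 z.1 z.2, h4 z.1 z.2⟩
  choose S hS hS' using key
  let W : Set FG := Set.range FreeGroup.of ∪ Set.range fun x => (FreeGroup.of x)⁻¹
  have hW : W.Finite := (Set.finite_range _).union (Set.finite_range _)
  obtain ⟨H', _, N, f, -, hT⟩ := M.exists_quot' ∅ Set.finite_empty (fun _ h => h.elim)
    (⋃ x ∈ W, (fun e : Pc × Mk => ((gam e.2)⁻¹ * (x * gam e.1.m), M.tau e.1.m.deg e.1.t)) '' S x)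
    (hW.biUnion fun x _ => (S x).finite_toSet.image _) (by
      simp only [Set.mem_iUnion]
      rintro _ ⟨x, -, e, he, rfl⟩
      refine (b.geo_tau _ _).commute ?_
      rintro _ ⟨y, hy, rfl⟩
      rw [map_mul, map_inv, Perm.mul_apply, Perm.inv_eq_iff_eq, map_mul, Perm.mul_apply, hatF_gam,
        (hS x e he).2 y hy, ← (hS x e he).1, hatF_gam])
  have h1 : ∀ x ∈ W, Fine (N.CanW x) Pc.root := fun x hx => (hS' x).mono (by
    rintro z ⟨m', hm⟩
    refine ⟨m', (hS x _ hm).1, (hS x _ hm).2, ?_⟩
    have := hT _ (Set.mem_biUnion hx ⟨_, hm, rfl⟩)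
    simp only [Model.tau, Base.map_tau f.toFHom b, f.U] at this
    exact this)
  refine ⟨H', _, N, ?_, fun x => ⟨h1 _ (Or.inl ⟨x, rfl⟩), h1 _ (Or.inr ⟨x, rfl⟩)⟩⟩
  have := Base.map f.toFHom b
  rwa [f.U, f.U, f.U] at this

end Crest.Agent.R189
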