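import Crest.Agent.R189.Cell

/-!
# Row 189: local data (definitions), task Loc: elementary properties
-/

set_option autoImplicit false

namespace Crest.Agent.R189

open Equiv
open scoped commutatorElement

/-- a group over `G` whose local subgroups are central extensions -/
structure LocData (ι : Type) [Fintype ι] [DecidableEq ι] (H : Type) [Group H] where
  card : 100 ≤ Fintype.card ι
  p : H →* Perm (ι × Om)
  HI : Finset ι → Subgroup H
  mono : ∀ I J, I ⊆ J → HI I ≤ HI J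
  comm : ∀ I J, Disjoint I J → ∀ a ∈ HI I, ∀ b ∈ HI J, Commute a b
  map_HI : ∀ I, 5 ≤ I.card → (HI I).map p = GI I
  central : ∀ I : Finset ι, I.card ≤ 90 → ∀ k ∈ HI I, p k = 1 → k ∈ Subgroup.center H
  gen : ∀ M : Subgroup H, (∀ I : Finset ι, I.card = 5 → HI I ≤ M) → M = ⊤

variable {ι : Type} [Fintype ι] [DecidableEq ι] {H : Type} [Group H]

namespace LocData

variable (L : LocData ι H)

/-- the central part of the kernel -/
def Kc : Subgroup H := L.p.ker ⊓ Subgroup.center H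

/-- local elements up to the central kernel -/
def Loc (I : Finset ι) : Subgroup H := L.HI I ⊔ L.Kc

variable {L} {I J : Finset ι} {h h' h₁ h₂ : H}

theorem loc_Kc_normal : L.Kc.Normal :=
  ⟨fun k hk g => by
    rw [Subgroup.mem_center_iff.1 hk.2 g, mul_inv_cancel_right]
    exact hk⟩

theorem mem_Loc_iff : h ∈ L.Loc I ↔ ∃ a ∈ L.HI I, ∃ k ∈ L.Kc, h = a * k := by
  have := loc_Kc_normal (L := L)
  rw [Loc, Subgroup.mem_sup_of_normal_right]
  simp only [eq_comm]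

theorem Loc_mono (hIJ : I ⊆ J) : L.Loc I ≤ L.Loc J :=
  sup_le_sup_right (L.mono I J hIJ) _

theorem loc_commute_Kc {k : H} (hk : k ∈ L.Kc) (g : H) : Commute g k :=
  Subgroup.mem_center_iff.1 hk.2 g

theorem commute_Loc (hIJ : Disjoint I J) (h₁I : h₁ ∈ L.Loc I) (h₂J : h₂ ∈ L.Loc J) :
    Commute h₁ h₂ := by
  obtain ⟨a, ha, k, hk, rfl⟩ := mem_Loc_iff.1 h₁I
  obtain ⟨b, hb, l, hl, rfl⟩ := mem_Loc_iff.1 h₂J
  exact ((L.comm I J hIJ a ha b hb).mul_left (loc_commute_Kc hk b).symm).mul_right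
    (loc_commute_Kc hl _)

theorem p_mem (hI : 5 ≤ I.card) (hh : h ∈ L.Loc I) : L.p h ∈ GI I := by
  obtain ⟨a, ha, k, hk, rfl⟩ := mem_Loc_iff.1 hh
  have h1 : L.p k = 1 := hk.1
  rw [map_mul, h1, mul_one, ← L.map_HI I hI]
  exact ⟨a, ha, rfl⟩

theorem exists_lift (hI : 5 ≤ I.card) {g : Perm (ι × Om)} (hg : g ∈ GI I) :
    ∃ h ∈ L.Loc I, L.p h = g := by
  rw [← L.map_HI I hI] at hg
  obtain ⟨a, ha, rfl⟩ := hg
  exact ⟨a, Subgroup.mem_sup_left ha, rfl⟩

theorem mem_Kc (hI : I.card ≤ 90) (hh : h ∈ L.Loc I) (h1 : L.p h = 1) : h ∈ L.Kc := by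
  obtain ⟨a, ha, k, hk, rfl⟩ := mem_Loc_iff.1 hh
  have h2 : L.p k = 1 := hk.1
  rw [map_mul, h2, mul_one] at h1
  exact mul_mem ⟨h1, L.central I hI a ha h1⟩ hk

/-- two local lifts differ by a central element -/
theorem exists_Kc (hIJ : I.card + J.card ≤ 90) (hh : h ∈ L.Loc I) (hh' : h' ∈ L.Loc J)
    (e : L.p h = L.p h') : ∃ k ∈ L.Kc, h' = h * k := by
  refine ⟨h⁻¹ * h', mem_Kc (I := I ∪ J) ((Finset.card_union_le I J).trans hIJ)
    (mul_mem (inv_mem (Loc_mono Finset.subset_union_left hh))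
      (Loc_mono Finset.subset_union_right hh')) ?_, (mul_inv_cancel_left _ _).symm⟩
  rw [map_mul, map_inv, e, inv_mul_cancel]

/-- Lift `p h ∈ GI I` to `Loc I` (enlarge `J` to `I ∪ J` to see that `p h ∈ G`). -/
theorem reloc (hI : 5 ≤ I.card) (hIJ : I.card + J.card ≤ 90) (hh : h ∈ L.Loc J)
    (hf : L.p h ∈ Fix I) : h ∈ L.Loc I := by
  have h1 : L.p h ∈ GI (I ∪ J) :=
    p_mem (hI.trans (Finset.card_le_card Finset.subset_union_left))
      (Loc_mono Finset.subset_union_right hh)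
  obtain ⟨a, ha, e⟩ := exists_lift (L := L) hI (g := L.p h) ⟨h1.1, hf⟩
  obtain ⟨k, hk, rfl⟩ := exists_Kc hIJ ha hh e
  exact mul_mem ha (Subgroup.mem_sup_right hk)

/-- every finite set of at most `5` indices is contained in a set with `5` elements -/
theorem exists_five (L : LocData ι H) (s : Finset ι) (hs : s.card ≤ 5) :
    ∃ I : Finset ι, s ⊆ I ∧ I.card = 5 :=
  Finset.exists_superset_card_eq hs (le_trans (by norm_num) L.card)

theorem loc_exists_move {c c' : Cell ι} (hc : c = c' ∨ Disjoint (cset c) (cset c'))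
    {K : Finset ι} (hJ : J.card = 5) (hKJ : Disjoint K J) (hcK : c.1 ∈ K) (hcK' : c'.1 ∈ K) :
    ∃ g ∈ GI (K ∪ J), (∀ x, x ∈ cset c ∨ x ∈ cset c' → (g x).1 ∈ J) ∧
      ∀ x, x ∉ cset c → x ∉ cset c' → x.1 ∉ J → g x = x := by
  obtain ⟨j, hj, j', hj', hjj⟩ := Finset.one_lt_card.1 (show 1 < J.card by omega)
  have hG : ∀ (a : Cell ι) (i : ι), a.1 ∈ K → i ∈ J → sw a (i, a.2) ∈ GI (K ∪ J) :=
    fun a i ha hi => ⟨LT_le_G (sw_mem_LT _ _),
      sw_mem_Fix (Finset.mem_union_left _ ha) (Finset.mem_union_right _ hi)⟩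
  have hr : ∀ (a : Cell ι) (i : ι) (y : Om), sw a (i, a.2) (cf a y) = cf (i, a.2) y :=
    fun a i y => (rig_sw_left (c := a) (c' := (i, a.2)) rfl).2 y
  have hn : ∀ (a : Cell ι) (x : ι × Om), x.1 ≠ a.1 → x ∉ cset a :=
    fun a x hx hxa => hx (fst_of_mem_cset hxa)
  have hne : ∀ a ∈ K, ∀ i ∈ J, a ≠ i := fun a ha i hi e =>
    Finset.disjoint_left.1 hKJ ha (e ▸ hi)
  rcases hc with rfl | hc
  · refine ⟨sw c (j, c.2), hG c j hcK hj, fun x hx => ?_, fun x h1 _ h3 =>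
      sw_apply_of_notMem h1 (hn _ x fun e => h3 (e ▸ hj))⟩
    obtain ⟨y, rfl⟩ := (or_self_iff.1 hx)
    rw [hr]
    exact hj
  · refine ⟨sw c (j, c.2) * sw c' (j', c'.2), mul_mem (hG c j hcK hj) (hG c' j' hcK' hj'),
      fun x hx => ?_, fun x h1 h2 h3 => ?_⟩
    · rw [Perm.mul_apply]
      rcases hx with hx | ⟨y, rfl⟩
      · rw [sw_apply_of_notMem (Set.disjoint_left.1 hc hx)
          (hn _ x (by rw [fst_of_mem_cset hx]; exact hne _ hcK _ hj'))]
        obtain ⟨y, rfl⟩ := hx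
        rw [hr]
        exact hj
      · rw [hr, sw_apply_of_notMem (hn _ _ (hne _ hcK _ hj').symm) (hn _ _ hjj.symm)]
        exact hj'
    · rw [Perm.mul_apply, sw_apply_of_notMem h2 (hn _ x fun e => h3 (e ▸ hj')),
        sw_apply_of_notMem h1 (hn _ x fun e => h3 (e ▸ hj))]

/-- Let `J` be a set of `5` indices disjoint from `I ∪ {c.1, c'.1}`, `j ≠ j'` in `J`,
`e = (j, c.2)`, `e' = (j', c'.2)`, `g = sw c e * sw c' e'` (or `sw c e` when `c = c'`) and `x` a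
lift of `g` in `Loc (I ∪ J ∪ {c.1, c'.1})`. Then `p (x h₁ x⁻¹) ∈ Fix J`, so `x h₁ x⁻¹ ∈ Loc J`
commutes with `h₂`; `g` commutes with `p h₂` (enlarge `I` to `5` elements: `p h₂ ∈ Fix I`), so
`x⁻¹ h₂ x = h₂ k` with `k` central. -/
theorem commute_of_cells (hI : I.card ≤ 35) (h₁I : h₁ ∈ L.Loc I) (h₂I : h₂ ∈ L.Loc I)
    {c c' : Cell ι} (hc : c = c' ∨ Disjoint (cset c) (cset c'))
    (s₁ : ∀ x, x ∉ cset c → x ∉ cset c' → L.p h₁ x = x)
    (s₂ : ∀ x, x ∈ cset c ∨ x ∈ cset c' → L.p h₂ x = x) : Commute h₁ h₂ := by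
  obtain ⟨I', hII', h5, h35⟩ : ∃ I' : Finset ι, I ⊆ I' ∧ 5 ≤ I'.card ∧ I'.card ≤ 35 := by
    by_cases h : 5 ≤ I.card
    · exact ⟨I, subset_rfl, h, hI⟩
    · obtain ⟨I', h1, h2⟩ := L.exists_five I (by omega)
      exact ⟨I', h1, by omega, by omega⟩
  replace h₁I := Loc_mono hII' h₁I
  replace h₂I := Loc_mono hII' h₂I
  let K : Finset ι := insert c.1 (insert c'.1 I')
  have hK : K.card ≤ 37 :=
    (Finset.card_insert_le _ _).trans (by have := Finset.card_insert_le c'.1 I'; omega)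
  have hIK : I' ⊆ K := (Finset.subset_insert _ _).trans (Finset.subset_insert _ _)
  obtain ⟨J, hJK, hJ⟩ := Finset.exists_subset_card_eq (s := Kᶜ) (n := 5) (by
    have := L.card
    rw [Finset.card_compl]; omega)
  have hKJ : Disjoint K J := Finset.disjoint_left.2 fun a ha haJ =>
    Finset.mem_compl.1 (hJK haJ) ha
  have hIJ : Disjoint I' J := hKJ.mono_left hIK
  obtain ⟨g, hg, hg1, hg2⟩ := loc_exists_move hc hJ hKJ (Finset.mem_insert_self _ _)
    (Finset.mem_insert_of_mem (Finset.mem_insert_self _ _))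
  have hc1 : (K ∪ J).card ≤ 42 := (Finset.card_union_le K J).trans (by omega)
  have hc2 : 5 ≤ (K ∪ J).card := hJ.ge.trans (Finset.card_le_card Finset.subset_union_right)
  obtain ⟨x, hx, rfl⟩ := exists_lift (L := L) hc2 hg
  have hsub : I' ⊆ K ∪ J := hIK.trans Finset.subset_union_left
  have h3 : x * h₁ * x⁻¹ ∈ L.Loc J := by
    refine reloc hJ.ge (by omega) (mul_mem (mul_mem hx (Loc_mono hsub h₁I)) (inv_mem hx))
      fun z hz => ?_
    have e0 : L.p x ((L.p x)⁻¹ z) = z := (L.p x).apply_symm_apply z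
    have h4 : ¬ ((L.p x)⁻¹ z ∈ cset c ∨ (L.p x)⁻¹ z ∈ cset c') := fun h => hz (e0 ▸ hg1 _ h)
    rw [not_or] at h4
    rw [map_mul, map_mul, map_inv, Perm.mul_apply, Perm.mul_apply, s₁ _ h4.1 h4.2, e0]
  have h4 : Commute (x * h₁ * x⁻¹) h₂ := commute_Loc hIJ.symm h3 h₂I
  have h6 : Commute (L.p x) (L.p h₂) := commute_of_disjoint fun z => by
    by_cases hz : z ∈ cset c ∨ z ∈ cset c'
    · exact Or.inr (s₂ z hz)
    · rw [not_or] at hz
      by_cases hzJ : z.1 ∈ J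
      · exact Or.inr ((p_mem h5 h₂I).2 z fun h => Finset.disjoint_left.1 hIJ h hzJ)
      · exact Or.inl (hg2 z hz.1 hz.2 hzJ)
  obtain ⟨k, hk, e⟩ := exists_Kc (I := I') (J := K ∪ J) (h' := x⁻¹ * h₂ * x) (by omega) h₂I
    (mul_mem (mul_mem (inv_mem hx) (Loc_mono hsub h₂I)) hx)
    (by rw [map_mul, map_mul, map_inv, mul_assoc, ← h6.eq, inv_mul_cancel_left])
  have h7 : Commute h₁ (x⁻¹ * h₂ * x) := by
    have := h4.map (MulAut.conj x⁻¹)
    simpa [mul_assoc] using this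
  rw [e] at h7
  have h8 := h7.mul_right (loc_commute_Kc hk h₁).inv_right
  rwa [mul_inv_cancel_right] at h8

end LocData

end Crest.Agent.R189
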