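import Crest.Agent.R189.Init
import Crest.Agent.R189.Geo
import Crest.Agent.R189.Central
import Crest.Agent.R189.GenFG
import Crest.Agent.R189.Loc

/-!
# Row 189, task Inst: existence of finitely presented local data
-/

set_option autoImplicit false

namespace Crest.Agent.R189

open Equiv

variable {ι : Type} [Fintype ι] [DecidableEq ι]

theorem inst_map_HI {B : Type} [Group B] {κ : B →* alternatingGroup ι} {H : Type} [Group H]
    (M : Model κ H) (I : Finset ι) (hI : 5 ≤ I.card) : (M.Φ.HI I).map M.p = GI I := by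
  have hd : ∀ i x, M.p (M.Φ.d i (FreeGroup.of x)) = loc (i, []) (hat x) := fun i x => by
    rw [M.p_d, hatF, FreeGroup.lift_apply_of]
  rw [← closure_gens hI]
  refine le_antisymm ?_ ?_
  · refine (Subgroup.map_mono (M.HI_le I)).trans ?_
    rw [MonoidHom.map_closure]
    refine Subgroup.closure_mono ?_
    rintro _ ⟨_, ⟨i, hi, x, rfl⟩ | ⟨o, b, hb, rfl⟩, rfl⟩
    · exact Or.inl ⟨i, hi, x, hd i x⟩
    · exact Or.inr ⟨o, (κ b).1, (κ b).2, hb, M.p_U o b⟩
  · rw [Subgroup.closure_le]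
    rintro _ (⟨i, hi, x, rfl⟩ | ⟨o, π, hπ, hπI, rfl⟩)
    · exact ⟨M.Φ.d i (FreeGroup.of x),
        M.Φ.mono {i} I (Finset.singleton_subset_iff.2 hi) (M.Φ.d_loc i _), hd i x⟩
    · obtain ⟨b, hb⟩ := M.Φ.uce.surj ⟨π, hπ⟩
      refine ⟨(M.U o).s b, M.U_loc o I b ?_, ?_⟩
      · rw [hb]; exact hπI
      · rw [M.p_U, hb]

theorem inst_gen {B : Type} [Group B] {κ : B →* alternatingGroup ι} {H : Type} [Group H]
    (M : Model κ H) (N : Subgroup H) (h : ∀ I : Finset ι, I.card = 5 → M.Φ.HI I ≤ N) :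
    N = ⊤ := by
  have hc : 5 ≤ Fintype.card ι := le_trans (by norm_num) M.Φ.card
  rw [eq_top_iff, ← M.HI_univ]
  refine (M.HI_le _).trans ?_
  rw [Subgroup.closure_le]
  rintro _ (⟨i, -, x, rfl⟩ | ⟨o, b, -, rfl⟩)
  · obtain ⟨I, hi, hI⟩ := Finset.exists_superset_card_eq (s := ({i} : Finset ι)) (n := 5)
      (by simp) hc
    exact h I hI (M.Φ.mono _ _ hi (M.Φ.d_loc i _))
  · have : N.comap (M.U o).s = ⊤ := eq_top_of_Bs M.Φ.uce hc _ fun I hI c hcI =>
      h I hI ((M.U o).loc I hI.ge c hcI)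
    have hb : b ∈ N.comap (M.U o).s := this ▸ Subgroup.mem_top b
    exact hb

/-- `exists_uce`, `exists_model`, `exists_base`, `exists_tables`, `Model.central`. For `map_HI`:
`≤` by `HI_le` and `closure_gens_le`, `≥` by `closure_gens`, `d_loc`, `mono`, `U_loc` and the
surjectivity of `κ`. For `gen`: `HI_univ`, `HI_le`, `eq_top_of_Bs`. -/
theorem exists_locData (hι : 100 ≤ Fintype.card ι) :
    ∃ (H : Type) (_ : Group H), Group.IsFinitelyPresented H ∧ Nonempty (LocData ι H) := by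
  obtain ⟨B, _, κ, hκ⟩ := exists_uce (alternatingGroup ι) (commutator_alt (by omega))
  obtain ⟨H₀, _, ⟨M₀⟩⟩ := exists_model hκ (by omega)
  obtain ⟨H₁, _, M₁, hb₁⟩ := M₀.exists_base
  obtain ⟨H, _, M, hb, ht⟩ := hb₁.exists_tables
  refine ⟨H, inferInstance, M.fp, ⟨
    { card := hι
      p := M.p
      HI := M.Φ.HI
      mono := M.Φ.mono
      comm := M.Φ.comm
      map_HI := inst_map_HI M
      central := fun I hI k hk h1 => Model.central hb ht ?_ hk h1
      gen := inst_gen M }⟩⟩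
  rw [Finset.card_compl]
  omega

end Crest.Agent.R189
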