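import Crest.Agent.R189.Uniq
import Crest.Agent.R189.Common

/-!
# Row 189, task Sect: an interpretation defines a homomorphism on `G`
-/

set_option autoImplicit false
set_option linter.unusedSectionVars false

namespace Crest.Agent.R189

open Equiv

variable {ι : Type} [Fintype ι] [DecidableEq ι] {H : Type} [Group H]

/-- `h` is the value of `g` -/
def Val (I : Finset ι) (J : Interp ι H) (g : Perm (ι × Om)) (h : H) : Prop :=
  ∃ σ h₁ h₂, Path I J (St.root I) σ h₁ ∧ Path I J (St.root I) (σ.lmul g) h₂ ∧ σ.Match g ∧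
    h = h₂ * h₁⁻¹

variable {I : Finset ι} {J : Interp ι H} {g g' : Perm (ι × Om)} {h h' : H}

theorem sect_lmul_lmul (σ : St ι) (a b : Perm (ι × Om)) :
    (σ.lmul a).lmul b = σ.lmul (b * a) := by
  simp only [St.lmul, mul_assoc]

theorem sect_lmul_one (σ : St ι) : σ.lmul 1 = σ := by
  simp only [St.lmul, one_mul]

theorem sect_match_inv {σ : St ι} (hσ : σ.Valid I) (hm : σ.Match g) :
    (σ.lmul g).Match g⁻¹ := by
  intro c i x hx
  obtain ⟨i₀, x₀, h₀⟩ := hσ.piece c hx.1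
  obtain ⟨i', m', h'⟩ := hm c i₀ x₀ h₀
  obtain ⟨-, rfl⟩ := hx.unique h'
  refine ⟨i₀, x₀.m, ?_⟩
  rw [sect_lmul_lmul, inv_mul_cancel, sect_lmul_one]
  exact h₀

theorem sect_match_mul {σ : St ι} (hm' : σ.Match g') (hm : (σ.lmul g').Match g) :
    σ.Match (g * g') := by
  intro c i x hx
  obtain ⟨i', m', h'⟩ := hm' c i x hx
  obtain ⟨i'', m'', h''⟩ := hm c i' _ h'
  rw [sect_lmul_lmul] at h''
  exact ⟨i'', m'', h''⟩

theorem sect_par_mem (t : Ty) (y : Om) : par t y ∈ t.set := by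
  rw [← (isPar_par t).2.1]
  exact ⟨y, rfl⟩

theorem sect_match_of_can {σ : St ι} (hc : ∀ c i x, σ.At c i x → Can g i x) : σ.Match g := by
  intro c i x hx
  obtain ⟨i', m', hd, hy⟩ := hc c i x hx
  refine ⟨i', m', hx.1, ?_, fun y => ?_⟩
  · rw [← hx.2.1]
    simp only [Pc.lvl, hd]
  · change g (σ.th (cf c y)) = _
    rw [hx.2.2 y]
    exact hy _ (sect_par_mem _ _)

/-- add the root cells of the copies outside `I` -/
def sectExt (I : Finset ι) (σ : St ι) : St ι :=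
  ⟨σ.cs ∪ (Finset.univ \ I).image (fun i => ((i, []) : Cell ι)), σ.th⟩

theorem sect_mem_ext {σ : St ι} {c : Cell ι} :
    c ∈ (sectExt I σ).cs ↔ c ∈ σ.cs ∨ (c.1 ∉ I ∧ c.2 = []) := by
  simp only [sectExt, Finset.mem_union, Finset.mem_image, Finset.mem_sdiff, Finset.mem_univ,
    true_and]
  refine or_congr Iff.rfl ⟨?_, ?_⟩
  · rintro ⟨i, hi, rfl⟩
    exact ⟨hi, rfl⟩
  · rintro ⟨hi, h2⟩
    exact ⟨c.1, hi, Prod.ext rfl h2.symm⟩

theorem sect_ext_root : sectExt I (St.root I) = St.root Finset.univ := by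
  refine St.ext ?_ rfl
  ext c
  rw [sect_mem_ext]
  simp only [St.root, Finset.mem_image, Finset.mem_univ, true_and]
  constructor
  · rintro (⟨i, -, rfl⟩ | ⟨-, h2⟩)
    · exact ⟨i, rfl⟩
    · exact ⟨c.1, Prod.ext rfl h2.symm⟩
  · rintro ⟨i, rfl⟩
    by_cases hi : i ∈ I
    · exact Or.inl ⟨i, hi, rfl⟩
    · exact Or.inr ⟨hi, rfl⟩

theorem sect_ext_exp {σ : St ι} {c : Cell ι} (hc : c.1 ∈ I) (t : Ty) (d : Dir) :
    (sectExt I σ).exp c t d = sectExt I (σ.exp c t d) := by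
  refine St.ext ?_ rfl
  ext e
  rw [sect_mem_ext]
  simp only [St.exp, Finset.mem_insert, Finset.mem_erase, sect_mem_ext]
  constructor
  · rintro (h | h | ⟨hne, h | h⟩)
    · exact Or.inl (Or.inl h)
    · exact Or.inl (Or.inr (Or.inl h))
    · exact Or.inl (Or.inr (Or.inr ⟨hne, h⟩))
    · exact Or.inr h
  · rintro ((h | h | ⟨hne, h⟩) | h)
    · exact Or.inl h
    · exact Or.inr (Or.inl h)
    · exact Or.inr (Or.inr ⟨hne, Or.inl h⟩)
    · refine Or.inr (Or.inr ⟨?_, Or.inr h⟩)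
      rintro rfl
      exact h.1 hc

theorem sect_mem_Fix_univ (a : Perm (ι × Om)) : a ∈ Fix (Finset.univ : Finset ι) :=
  fun x hx => absurd (Finset.mem_univ x.1) hx

theorem sect_path_ext {σ σ' : St ι} (p : Path I J σ σ' h) (hσ : σ.Valid I) :
    Path Finset.univ J (sectExt I σ) (sectExt I σ') h := by
  induction p with
  | refl σ => exact Path.refl _
  | @exp σ σ' c i x d h hx hd _ ih =>
    refine Path.exp (i := i) ⟨sect_mem_ext.2 (Or.inl hx.1), hx.2.1, hx.2.2⟩ hd ?_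
    rw [sect_ext_exp (hσ.mem c hx.1)]
    exact ih (hσ.exp hx hd)
  | @perm σ σ' a cs' h ha h₁ h₂ _ ih =>
    have hr : ∀ c : Cell ι, c.1 ∉ I → Rig a.1 c c := fun c hc =>
      rig_of_fix fun x hx => ha x (by rw [fst_of_mem_cset hx]; exact hc)
    refine Path.perm a (sectExt I ⟨cs', σ.th * a.1⟩).cs (sect_mem_Fix_univ _) ?_ ?_
      (ih (hσ.perm ha h₁ h₂))
    · intro c' hc'
      rcases sect_mem_ext.1 hc' with h | h
      · obtain ⟨c, hc, hrc⟩ := h₁ c' h
        exact ⟨c, sect_mem_ext.2 (Or.inl hc), hrc⟩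
      · exact ⟨c', sect_mem_ext.2 (Or.inr h), hr c' h.1⟩
    · intro c hc
      rcases sect_mem_ext.1 hc with h | h
      · obtain ⟨c', hc', hrc⟩ := h₂ c h
        exact ⟨c', sect_mem_ext.2 (Or.inl hc'), hrc⟩
      · exact ⟨c, sect_mem_ext.2 (Or.inr h), hr c h.1⟩

theorem sect_val_one (v : Val I J 1 h) : h = 1 := by
  obtain ⟨σ, h₁, h₂, p₁, p₂, -, rfl⟩ := v
  rw [sect_lmul_one] at p₂
  rw [p₁.unique p₂ (St.valid_root I), mul_inv_cancel]

/-- Refine the root so that `g` is canonical on the pieces (`St.Valid.refine` with `Can g`; a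
canonical map matches parametrisations since `par t y ∈ t.set`); `σ.lmul g` is valid; take a common
refinement `τ` of the root and `σ.lmul g` (`Path.common` with `Path.refl`) and transport the path
`σ.lmul g → τ` by `g⁻¹` (`Path.lmul`; `Match g⁻¹` on `σ.lmul g`, and conversely). -/
theorem exists_val (J : Interp ι H) (hg : g ∈ GI I) : ∃ h, Val I J g h := by
  have hr := St.valid_root I
  obtain ⟨σ, h₁, p₁, hc⟩ := hr.refine J (fun i => Can g i) (by
    intro c i x hx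
    obtain ⟨-, -, rfl⟩ := St.at_root.1 hx
    exact hg.1.1 i)
  have hσ := p₁.toValid hr
  have hm : σ.Match g := sect_match_of_can hc
  have hσg : (σ.lmul g).Valid I := hσ.lmul hg.2 hm
  obtain ⟨τ, k, k', q, q'⟩ := (Path.refl (I := I) (J := J) (St.root I)).common hσg
  obtain ⟨r, hτ⟩ := q'.lmul hσg (sect_match_inv hσ hm)
  rw [sect_lmul_lmul, inv_mul_cancel, sect_lmul_one] at r
  refine ⟨_, τ.lmul g⁻¹, h₁ * k', k, p₁.trans r, ?_, ?_, rfl⟩
  · rw [sect_lmul_lmul, mul_inv_cancel, sect_lmul_one]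
    exact q
  · have := sect_match_inv (q.toValid hr) hτ
    rwa [inv_inv] at this

/-- Common refinement of the source of `g` and the target of `g'`, `Path.lmul`, `Path.unique`. -/
theorem Val.mul (v : Val I J g h) (v' : Val I J g' h') : Val I J (g * g') (h * h') := by
  have hr := St.valid_root I
  obtain ⟨σ, h₁, h₂, p₁, p₂, hm, rfl⟩ := v
  obtain ⟨σ', h₁', h₂', p₁', p₂', hm', rfl⟩ := v'
  have hσ := p₁.toValid hr
  have hσ' := p₁'.toValid hr
  have hσg' := p₂'.toValid hr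
  obtain ⟨τ, k, k', q, q'⟩ := p₁.common hσg'
  have e : h₁ * k = h₂' * k' := (p₁.trans q).unique (p₂'.trans q') hr
  obtain ⟨r, hτ⟩ := q.lmul hσ hm
  obtain ⟨r', hτ'⟩ := q'.lmul hσg' (sect_match_inv hσ' hm')
  rw [sect_lmul_lmul, inv_mul_cancel, sect_lmul_one] at r'
  have hτv := q.toValid hσ
  refine ⟨τ.lmul g'⁻¹, h₁' * k', h₂ * k, p₁'.trans r', ?_, ?_, ?_⟩
  · rw [sect_lmul_lmul, mul_inv_cancel_right]
    exact p₂.trans r
  · refine sect_match_mul ?_ ?_
    · have := sect_match_inv hτv hτ'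
      rwa [inv_inv] at this
    · rw [sect_lmul_lmul, mul_inv_cancel, sect_lmul_one]
      exact hτ
  · have e' : h₂' = h₁ * k * k'⁻¹ := by rw [e, mul_inv_cancel_right]
    rw [e']
    group

theorem Val.inv (v : Val I J g h) : Val I J g⁻¹ h⁻¹ := by
  obtain ⟨σ, h₁, h₂, p₁, p₂, hm, rfl⟩ := v
  refine ⟨σ.lmul g, h₂, h₁, p₂, ?_, sect_match_inv (p₁.toValid (St.valid_root I)) hm, ?_⟩
  · rw [sect_lmul_lmul, inv_mul_cancel, sect_lmul_one]
    exact p₁
  · rw [mul_inv_rev, inv_inv]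

theorem Val.unique (v : Val I J g h) (v' : Val I J g h') : h = h' := by
  have w := v.mul v'.inv
  rw [mul_inv_cancel] at w
  exact mul_inv_eq_one.1 (sect_val_one w)

theorem Val.lift (v : Val I J g h) (π : H →* Perm (ι × Om)) (hv : ∀ g, π (J.v g) = g.1)
    (hmu : ∀ c t d, π (J.mu c t d) = mu c t d) : π h = g := by
  obtain ⟨σ, h₁, h₂, p₁, p₂, -, rfl⟩ := v
  have e₁ := p₁.th π hv hmu
  have e₂ := p₂.th π hv hmu
  simp only [St.root, St.lmul, one_mul] at e₁ e₂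
  rw [map_mul, map_inv, ← e₂, ← e₁, mul_inv_cancel_right]

theorem Val.mem (v : Val I J g h) (M : Subgroup H)
    (hv : ∀ g : LT ι, g.1 ∈ Fix I → J.v g ∈ M) (hmu : ∀ c t d, c.1 ∈ I → J.mu c t d ∈ M) :
    h ∈ M := by
  obtain ⟨σ, h₁, h₂, p₁, p₂, -, rfl⟩ := v
  exact M.mul_mem (p₂.mem (St.valid_root I) M hv hmu)
    (M.inv_mem (p₁.mem (St.valid_root I) M hv hmu))

/-- Add the root cells of the copies outside `I` to all states. -/
theorem Val.univ (v : Val I J g h) (hg : g ∈ Fix I) : Val Finset.univ J g h := by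
  have hr := St.valid_root I
  obtain ⟨σ, h₁, h₂, p₁, p₂, hm, rfl⟩ := v
  have hσ := p₁.toValid hr
  have q₁ := sect_path_ext p₁ hr
  have q₂ := sect_path_ext p₂ hr
  rw [sect_ext_root] at q₁ q₂
  refine ⟨sectExt I σ, h₁, h₂, q₁, q₂, ?_, rfl⟩
  intro c i x hx
  rcases sect_mem_ext.1 hx.1 with hc | hc
  · obtain ⟨i', m', h'⟩ := hm c i x ⟨hc, hx.2.1, hx.2.2⟩
    exact ⟨i', m', hx.1, h'.2.1, h'.2.2⟩
  · refine ⟨i, x.m, hx.1, hx.2.1, fun y => ?_⟩
    have e : σ.th (cf c y) = cf c y := hσ.fix _ hc.1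
    have e' : σ.th (cf c y) = kap i x y := hx.2.2 y
    change g (σ.th (cf c y)) = kap i x y
    rw [← e', e]
    exact hg _ hc.1

theorem exists_sect (J : Interp ι H) :
    ∃ s : G ι →* H, ∀ g : G ι, Val Finset.univ J g.1 (s g) := by
  have hex : ∀ g : G ι, ∃ h, Val Finset.univ J g.1 h := fun g =>
    exists_val J ⟨g.2, sect_mem_Fix_univ _⟩
  choose s hs using hex
  exact ⟨MonoidHom.mk' s fun a b => (hs (a * b)).unique ((hs a).mul (hs b)), hs⟩

end Crest.Agent.R189
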