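import Crest.Agent.R189.LiftMu
import Crest.Agent.R189.Sect
import Crest.Agent.R189.Inst

/-!
# Row 189, task FP: `G` is finitely presented
-/

set_option autoImplicit false

namespace Crest.Agent.R189

open Equiv

variable {ι : Type} [Fintype ι] [DecidableEq ι]

/-- abstract form: a section of a central extension splits it -/
theorem fp_abstract {H Q : Type} [Group H] [Group Q] (hH : Group.IsFinitelyPresented H)
    (f : H →* Q) (s : Q →* H) (hs : ∀ g, f (s g) = g) (hk : f.ker ≤ Subgroup.center H) :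
    Group.IsFinitelyPresented Q := by
  have hc : ∀ h : H, (s (f h))⁻¹ * h ∈ f.ker := fun h => by
    rw [MonoidHom.mem_ker, map_mul, map_inv, hs, inv_mul_cancel]
  let φ : H →* H := MonoidHom.mk' (fun h => (s (f h))⁻¹ * h) (fun a b => by
    have e := Subgroup.mem_center_iff.1 (hk (hc a)) (s (f b))⁻¹
    rw [map_mul, map_mul, mul_inv_rev]
    calc (s (f b))⁻¹ * (s (f a))⁻¹ * (a * b) = (s (f b))⁻¹ * ((s (f a))⁻¹ * a) * b := by group
      _ = (s (f a))⁻¹ * a * (s (f b))⁻¹ * b := by rw [e]
      _ = _ := by group)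
  have hr : φ.range = f.ker := by
    ext k
    constructor
    · rintro ⟨h, rfl⟩
      exact hc h
    · intro hk'
      refine ⟨k, ?_⟩
      change (s (f k))⁻¹ * k = k
      rw [MonoidHom.mem_ker.1 hk', map_one, inv_one, one_mul]
  have hfg : Group.FG H := by
    obtain ⟨n, ψ, hψ, -⟩ := hH.out
    exact Group.fg_of_surjective hψ
  have hfk : Group.FG f.ker := by
    rw [← hr]
    infer_instance
  exact Group.IsFinitelyPresented.of_surjective f (fun g => ⟨s g, hs g⟩)
    (Subgroup.IsFinitelyNormallyGenerated.of_FG _)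

/-- Take `J` from `exists_interp`, `s` from `exists_sect`; `p (s g) = g` (`Val.lift`). For
`h ∈ HI I`, `I.card = 5`, `g = p h`: `exists_val` gives `h'` with `Val I J g h'`, `h' ∈ Loc I`
(`Val.mem`), `p h' = g`, `h' = s g` (`Val.univ`, `Val.unique`), so `h ∈ s.range ⊔ Kc`. By `gen`,
`H = s.range ⊔ Kc`, so `p` takes values in `G`, and `ker p = Kc` is central. The map
`h ↦ (s (p h))⁻¹ * h` is a homomorphism from the finitely generated group `H` onto `ker p`, which is
therefore finitely (normally) generated: `Group.IsFinitelyPresented.of_surjective`. -/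
theorem LocData.isFinitelyPresented {H : Type} [Group H] (L : LocData ι H)
    (hH : Group.IsFinitelyPresented H) : Group.IsFinitelyPresented (G ι) := by
  obtain ⟨J, hv, hmu, hvI, hmuI⟩ := L.exists_interp
  obtain ⟨s, hs⟩ := exists_sect J
  have hps : ∀ g : G ι, L.p (s g) = g.1 := fun g => (hs g).lift L.p hv hmu
  let M : Subgroup H :=
    { carrier := {h | ∃ g : G ι, ∃ k ∈ L.Kc, h = s g * k}
      mul_mem' := by
        rintro _ _ ⟨g, k, hk, rfl⟩ ⟨g', k', hk', rfl⟩
        refine ⟨g * g', k * k', L.Kc.mul_mem hk hk', ?_⟩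
        have e := Subgroup.mem_center_iff.1 hk.2 (s g')
        rw [map_mul]
        calc s g * k * (s g' * k') = s g * (k * s g') * k' := by group
          _ = s g * (s g' * k) * k' := by rw [e]
          _ = _ := by group
      one_mem' := ⟨1, 1, L.Kc.one_mem, by simp⟩
      inv_mem' := by
        rintro _ ⟨g, k, hk, rfl⟩
        refine ⟨g⁻¹, k⁻¹, L.Kc.inv_mem hk, ?_⟩
        have e := Subgroup.mem_center_iff.1 (L.Kc.inv_mem hk).2 (s g)⁻¹
        rw [map_inv, mul_inv_rev, e] }
  have hM : M = ⊤ := by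
    refine L.gen M fun I hI h hh => ?_
    have hh' : h ∈ L.Loc I := Subgroup.mem_sup_left hh
    have hg : L.p h ∈ GI I := LocData.p_mem hI.ge hh'
    obtain ⟨h', v⟩ := exists_val J hg
    have h'I : h' ∈ L.Loc I :=
      v.mem _ (fun g hg => hvI I g hI hg) (fun c t d hc => hmuI I c t d hI hc)
    have e₁ : L.p h' = L.p h := v.lift L.p hv hmu
    have e₂ : h' = s ⟨L.p h, hg.1⟩ := (v.univ hg.2).unique (hs ⟨L.p h, hg.1⟩)
    obtain ⟨k, hk, e⟩ := LocData.exists_Kc (by omega) h'I hh' e₁
    exact ⟨⟨L.p h, hg.1⟩, k, hk, by rw [← e₂, ← e]⟩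
  have hall : ∀ h : H, ∃ g : G ι, ∃ k ∈ L.Kc, h = s g * k := fun h => by
    have : h ∈ M := hM ▸ Subgroup.mem_top h
    exact this
  have hG : ∀ h : H, L.p h ∈ G ι := fun h => by
    obtain ⟨g, k, hk, rfl⟩ := hall h
    rw [map_mul, hps, MonoidHom.mem_ker.1 hk.1, mul_one]
    exact g.2
  refine fp_abstract hH (L.p.codRestrict (G ι) hG) s (fun g => Subtype.ext (hps g)) ?_
  intro h hh
  have h1 : L.p h = 1 := congrArg Subtype.val (MonoidHom.mem_ker.1 hh)
  obtain ⟨g, k, hk, rfl⟩ := hall h
  rw [map_mul, hps, MonoidHom.mem_ker.1 hk.1, mul_one] at h1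
  have : g = 1 := Subtype.ext h1
  rw [this, map_one, one_mul]
  exact hk.2

theorem isFinitelyPresented_G (hι : 100 ≤ Fintype.card ι) : Group.IsFinitelyPresented (G ι) := by
  obtain ⟨H, _, hH, ⟨L⟩⟩ := exists_locData hι
  exact L.isFinitelyPresented hH

end Crest.Agent.R189
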