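import Crest.Agent.R189.Pc

/-!
# Row 189, task Fine: the predicate `Fine`
-/

set_option autoImplicit false

namespace Crest.Agent.R189

variable {𝒜 ℬ : Pc → Prop} {x : Pc}

theorem Fine.mono (h : Fine 𝒜 x) (hAB : ∀ z, 𝒜 z → ℬ z) : Fine ℬ x := by
  induction h with
  | base h => exact .base (hAB _ h)
  | split d hd _ _ ih1 ih0 => exact .split d hd ih1 ih0

theorem Fine.bind (h : Fine 𝒜 x) (hAB : ∀ z, 𝒜 z → Fine ℬ z) : Fine ℬ x := by
  induction h with
  | base h => exact hAB _ h
  | split d hd _ _ ih1 ih0 => exact .split d hd ih1 ih0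

theorem Desc.subset {y : Pc} (h : Desc x y) : y.set ⊆ x.set := by
  induction h with
  | refl => exact subset_rfl
  | half d β hd _ ih => exact (half_subset hd β).trans ih

theorem Desc.trans {y z : Pc} (h : Desc x y) (h' : Desc y z) : Desc x z := by
  induction h' with
  | refl => exact h
  | half d β hd _ ih => exact .half d β hd ih

theorem Her.desc (hA : Her 𝒜) {y : Pc} (h : Desc x y) (hx : 𝒜 x) : 𝒜 y := by
  induction h with
  | refl => exact hx
  | half d β hd _ ih => exact hA _ d β hd ih

/-- Induction on `Fine`; when the two directions differ use `half_half`. -/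
theorem Fine.half (hA : Her 𝒜) (h : Fine 𝒜 x) (d : Dir) (β : Bool) (hd : valid x.t d = true) :
    Fine 𝒜 (x.half d β) := by
  induction h generalizing d β with
  | base h => exact .base (hA _ d β hd h)
  | split d0 hd0 h1 h0 ih1 ih0 =>
    by_cases hne : d = d0
    · subst hne
      cases β
      · exact h0
      · exact h1
    · refine .split _ (valid_tr hd hd0 hne β) ?_ ?_
      · rw [half_half hd hd0 hne]
        exact ih1 _ _ (valid_tr hd0 hd (Ne.symm hne) true)
      · rw [half_half hd hd0 hne]
        exact ih0 _ _ (valid_tr hd0 hd (Ne.symm hne) false)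

theorem Fine.desc (hA : Her 𝒜) (h : Fine 𝒜 x) {y : Pc} (hy : Desc x y) : Fine 𝒜 y := by
  induction hy with
  | refl => exact h
  | half d β hd _ ih => exact ih.half hA d β hd

theorem Fine.of_root (hA : Her 𝒜) (h : Fine 𝒜 Pc.root) (y : Pc) : Fine 𝒜 y := by
  exact h.desc hA (desc_root y)

theorem fine_and_desc (h : Fine 𝒜 x) : Fine (fun z => 𝒜 z ∧ Desc x z) x := by
  induction h with
  | base h => exact .base ⟨h, .refl⟩
  | split d hd _ _ ih1 ih0 =>
    exact .split d hd (ih1.mono fun z hz => ⟨hz.1, (Desc.half d true hd .refl).trans hz.2⟩)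
      (ih0.mono fun z hz => ⟨hz.1, (Desc.half d false hd .refl).trans hz.2⟩)

theorem Fine.inter (hA : Her 𝒜) (hB : Her ℬ) (h : Fine 𝒜 x) (h' : Fine ℬ x) :
    Fine (fun z => 𝒜 z ∧ ℬ z) x := by
  induction h with
  | base h =>
    exact (fine_and_desc h').mono fun z hz => ⟨hA.desc hz.2 h, hz.1⟩
  | split d hd _ _ ih1 ih0 =>
    exact .split d hd (ih1 (h'.half hB d true hd)) (ih0 (h'.half hB d false hd))

theorem Fine.finset {κ : Type*} (s : Finset κ) (𝒞 : κ → Pc → Prop) (hC : ∀ k ∈ s, Her (𝒞 k))
    (h : ∀ k ∈ s, Fine (𝒞 k) x) : Fine (fun z => ∀ k ∈ s, 𝒞 k z) x := by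
  classical
  induction s using Finset.induction_on with
  | empty => exact .base (by simp)
  | insert k s hk ih =>
    have h1 := ih (fun j hj => hC j (Finset.mem_insert_of_mem hj))
      (fun j hj => h j (Finset.mem_insert_of_mem hj))
    have h2 : Her (fun z => ∀ j ∈ s, 𝒞 j z) := fun y d β hd hy j hj =>
      hC j (Finset.mem_insert_of_mem hj) y d β hd (hy j hj)
    refine ((h k (Finset.mem_insert_self k s)).inter (hC k (Finset.mem_insert_self k s)) h2
      h1).mono fun z hz j hj => ?_
    rcases Finset.mem_insert.1 hj with rfl | hj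
    · exact hz.1
    · exact hz.2 j hj

/-- the leaves are descendants -/
theorem Fine.and_desc (h : Fine 𝒜 x) : Fine (fun z => 𝒜 z ∧ Desc x z) x := by
  exact fine_and_desc h

/-- transport along a relation between markings which passes to halves -/
theorem Fine.transport (R : Ty → Mk → Mk → Prop)
    (hR : ∀ t d β m m', valid t d = true → R t m m' → R (ht t d β) (hm t d β m) (hm t d β m'))
    {m m' : Mk} {t : Ty} (h : Fine ℬ ⟨m', t⟩) (hm : R t m m') :
    Fine (fun z => ∃ m'', R z.t z.m m'' ∧ ℬ ⟨m'', z.t⟩) ⟨m, t⟩ := by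
  have key : ∀ x, Fine ℬ x → ∀ m, R x.t m x.m →
      Fine (fun z => ∃ m'', R z.t z.m m'' ∧ ℬ ⟨m'', z.t⟩) ⟨m, x.t⟩ := by
    intro x hx
    induction hx with
    | base h => exact fun m hm => .base ⟨_, hm, h⟩
    | @split x d hd _ _ ih1 ih0 =>
      intro m hm
      exact .split d hd (ih1 _ (hR _ d true _ _ hd hm)) (ih0 _ (hR _ d false _ _ hd hm))
  exact key _ h m hm

theorem Fine.exists_mem (h : Fine 𝒜 x) {y : Om} (hy : y ∈ x.set) :
    ∃ z, 𝒜 z ∧ Desc x z ∧ y ∈ z.set := by
  induction h with
  | base h => exact ⟨_, h, .refl, hy⟩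
  | split d hd _ _ ih1 ih0 =>
    rw [← half_union hd] at hy
    rcases hy with hy | hy
    · obtain ⟨z, h1, h2, h3⟩ := ih1 hy
      exact ⟨z, h1, (Desc.half d true hd .refl).trans h2, h3⟩
    · obtain ⟨z, h1, h2, h3⟩ := ih0 hy
      exact ⟨z, h1, (Desc.half d false hd .refl).trans h2, h3⟩

theorem Fine.exists_finset (h : Fine 𝒜 x) :
    ∃ T : Finset Pc, (∀ z ∈ T, 𝒜 z) ∧ Fine (fun z => z ∈ T) x := by
  induction h with
  | @base x h => exact ⟨{x}, by simpa using h, .base (Finset.mem_singleton_self x)⟩
  | split d hd _ _ ih1 ih0 =>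
    obtain ⟨T1, a1, b1⟩ := ih1
    obtain ⟨T0, a0, b0⟩ := ih0
    refine ⟨T1 ∪ T0, fun z hz => (Finset.mem_union.1 hz).elim (a1 z) (a0 z),
      .split d hd (b1.mono fun z hz => Finset.mem_union_left _ hz)
        (b0.mono fun z hz => Finset.mem_union_right _ hz)⟩

theorem her_desc_or_disjoint (x : Pc) : Her (fun z => Desc x z ∨ Disjoint z.set x.set) := by
  rintro y d β hd (h | h)
  · exact Or.inl (h.half d β hd)
  · exact Or.inr (h.mono_left (half_subset hd β))

/-- Induction on `desc_root x` (cut along the path from the root to `x`). -/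
theorem fine_desc_or_disjoint (x : Pc) :
    Fine (fun z => Desc x z ∨ Disjoint z.set x.set) Pc.root := by
  induction desc_root x with
  | refl => exact .base (Or.inl .refl)
  | @half y d β hd _ ih =>
    refine ih.bind fun z hz => ?_
    rcases hz with hz | hz
    · refine Fine.desc (her_desc_or_disjoint _) (Fine.split d hd ?_ ?_) hz
      · cases β
        · exact .base (Or.inr (half_disjoint hd))
        · exact .base (Or.inl .refl)
      · cases β
        · exact .base (Or.inl .refl)
        · exact .base (Or.inr (half_disjoint hd).symm)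
    · exact .base (Or.inr (hz.mono_right (half_subset hd β)))

theorem Fine.of_subset (hA : Her 𝒜) (h : Fine 𝒜 x) {y : Pc} (hy : y.set ⊆ x.set) :
    Fine 𝒜 y := by
  refine ((fine_desc_or_disjoint x).of_root (her_desc_or_disjoint x) y).and_desc.bind
    fun z hz => ?_
  rcases hz with ⟨hz | hz, hz'⟩
  · exact h.desc hA hz
  · obtain ⟨p, hp⟩ := set_nonempty z
    exact absurd (hy (hz'.subset hp)) (Set.disjoint_left.1 hz hp)

theorem her_respect (U : Set Om) : Her (fun z => z.set ⊆ U ∨ Disjoint z.set U) := by
  rintro y d β hd (h | h)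
  · exact Or.inl ((half_subset hd β).trans h)
  · exact Or.inr (h.mono_left (half_subset hd β))

theorem clopen_pc (x : Pc) : Clopen x.set := by
  exact (fine_desc_or_disjoint x).mono fun z hz => hz.imp Desc.subset id

theorem clopen_univ : Clopen Set.univ := by
  exact .base (Or.inl (Set.subset_univ _))

theorem clopen_bset (o : Option Dir) : Clopen (bset o) := by
  cases o with
  | none => exact clopen_univ
  | some d =>
    have : (Pc.root.half d true).set = bset (some d) := by
      rw [← range_Aom]
      change (Mk.one.A d).app '' Set.univ = _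
      rw [Set.image_univ]
      congr 1
      funext y
      rw [app_A, app_one]
    rw [← this]
    exact clopen_pc _

theorem Clopen.compl {U : Set Om} (h : Clopen U) : Clopen Uᶜ := by
  refine Fine.mono h fun z hz => ?_
  rcases hz with hz | hz
  · exact Or.inr (Set.disjoint_left.2 fun p hp hp' => hp' (hz hp))
  · exact Or.inl fun p hp => Set.disjoint_left.1 hz hp

theorem Clopen.inter {U U' : Set Om} (h : Clopen U) (h' : Clopen U') : Clopen (U ∩ U') := by
  refine (Fine.inter (her_respect U) (her_respect U') h h').mono fun z hz => ?_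
  rcases hz with ⟨h1 | h1, h2 | h2⟩
  · exact Or.inl (Set.subset_inter h1 h2)
  · exact Or.inr (h2.mono_right Set.inter_subset_right)
  · exact Or.inr (h1.mono_right Set.inter_subset_left)
  · exact Or.inr (h1.mono_right Set.inter_subset_left)

/-- Change of the first cut, without refinement. Induction on `Fine` (generalising `d`, `β`): a
leaf is impossible (both halves are nonempty); same direction: clear; otherwise apply the induction
hypothesis to the two halves with `tr` (`half_inter`) and use `half_half`. -/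
theorem Fine.rc (h : Fine 𝒜 x) (A : Set Om) (hA : ∀ z, 𝒜 z → z.set ⊆ A ∨ Disjoint z.set A)
    (d : Dir) (hd : valid x.t d = true) (hx : A ∩ x.set = (x.half d true).set) (β : Bool) :
    Fine 𝒜 (x.half d β) := by
  induction h generalizing d β with
  | @base x h =>
    exfalso
    rcases hA x h with h | h
    · obtain ⟨p, hp⟩ := set_nonempty (x.half d false)
      have h1 := half_subset hd false hp
      have h2 : p ∈ (x.half d true).set := hx ▸ ⟨h h1, h1⟩
      exact Set.disjoint_left.1 (half_disjoint hd) h2 hp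
    · obtain ⟨p, hp⟩ := set_nonempty (x.half d true)
      rw [← hx] at hp
      exact Set.disjoint_left.1 h hp.2 hp.1
  | @split x d0 hd0 h1 h0 ih1 ih0 =>
    by_cases hne : d = d0
    · subst hne
      cases β
      · exact h0
      · exact h1
    · have key : ∀ β', A ∩ (x.half d0 β').set =
          ((x.half d0 β').half (tr x.t d0 β' d) true).set := fun β' => by
        rw [← half_inter hd0 hd (Ne.symm hne), ← hx, Set.inter_assoc,
          Set.inter_eq_right.2 (half_subset hd0 β')]
      refine .split _ (valid_tr hd hd0 hne β) ?_ ?_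
      · rw [half_half hd hd0 hne]
        exact ih1 _ (valid_tr hd0 hd (Ne.symm hne) true) (key true) _
      · rw [half_half hd hd0 hne]
        exact ih0 _ (valid_tr hd0 hd (Ne.symm hne) false) (key false) _

/-- Every sufficiently fine cutting of the root induces a cutting of `x`. Induction on
`desc_root x`, with `Fine.rc`, `clopen_pc`, `her_respect`. -/
theorem exists_nbhd (x : Pc) : ∃ 𝒜 : Pc → Prop, Her 𝒜 ∧ Fine 𝒜 Pc.root ∧
    ∀ ℬ : Pc → Prop, (∀ z, ℬ z → 𝒜 z) → Fine ℬ Pc.root → Fine ℬ x := by
  induction desc_root x with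
  | refl => exact ⟨fun _ => True, fun _ _ _ _ _ => trivial, .base trivial, fun _ _ h => h⟩
  | @half y d β hd _ ih =>
    obtain ⟨𝒜, h1, h2, h3⟩ := ih
    refine ⟨fun z => 𝒜 z ∧ (z.set ⊆ (y.half d true).set ∨ Disjoint z.set (y.half d true).set),
      fun z d' β' hd' hz => ⟨h1 z d' β' hd' hz.1, her_respect _ z d' β' hd' hz.2⟩,
      h2.inter h1 (her_respect _) (clopen_pc _), fun ℬ hB hF => ?_⟩
    exact (h3 ℬ (fun z hz => (hB z hz).1) hF).rc _ (fun z hz => (hB z hz).2) d hd
      (Set.inter_eq_left.2 (half_subset hd true)) β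

/-- cut only in the direction `a` until the level is at least `n` -/
theorem fine_lvl (n : ℕ) (x : Pc) : Fine (fun z => n ≤ z.lvl) x := by
  induction n with
  | zero => exact .base (Nat.zero_le _)
  | succ n ih =>
    refine ih.bind fun z hz => ?_
    have hv : valid z.t .a = true := by cases z.t <;> rfl
    refine .split .a hv (.base ?_) (.base ?_) <;>
    · show n + 1 ≤ _
      rw [lvl_half hv]
      exact Nat.succ_le_succ hz

end Crest.Agent.R189
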