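import Mathlib

/-!
# Row 189, task UC: the universal central extension of the alternating group
-/

set_option autoImplicit false

namespace Crest.Agent.R189

open Equiv
open scoped commutatorElement

/-- `κ : B →* A` is a universal central extension -/
structure IsUCE {B A : Type} [Group B] [Group A] (κ : B →* A) : Prop where
  surj : Function.Surjective κ
  central : κ.ker ≤ Subgroup.center B
  perfect : commutator B = ⊤
  lift : ∀ (E : Type) [Group E] (q : E →* A), Function.Surjective q →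
    q.ker ≤ Subgroup.center E → ∃ ψ : B →* E, q.comp ψ = κ

theorem uc_comm_eq {E A : Type*} [Group E] [Group A] {q : E →* A}
    (hq : q.ker ≤ Subgroup.center E) {a a' b b' : E} (ha : q a = q a') (hb : q b = q b') :
    ⁅a, b⁆ = ⁅a', b'⁆ := by
  have h1 : a'⁻¹ * a ∈ Subgroup.center E := hq (by simp [MonoidHom.mem_ker, ha])
  have h2 : b'⁻¹ * b ∈ Subgroup.center E := hq (by simp [MonoidHom.mem_ker, hb])
  obtain ⟨z, hz, rfl⟩ : ∃ z ∈ Subgroup.center E, a = a' * z := ⟨_, h1, by simp⟩
  obtain ⟨w, hw, rfl⟩ : ∃ w ∈ Subgroup.center E, b = b' * w := ⟨_, h2, by simp⟩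
  have hz' := Subgroup.mem_center_iff.1 hz
  have hw' := Subgroup.mem_center_iff.1 hw
  simp only [commutatorElement_def, mul_inv_rev]
  calc a' * z * (b' * w) * (z⁻¹ * a'⁻¹) * (w⁻¹ * b'⁻¹)
      = a' * (z * (b' * w)) * z⁻¹ * a'⁻¹ * w⁻¹ * b'⁻¹ := by group
    _ = a' * ((b' * w) * z) * z⁻¹ * a'⁻¹ * w⁻¹ * b'⁻¹ := by rw [hz' (b' * w)]
    _ = a' * b' * (w * a'⁻¹) * w⁻¹ * b'⁻¹ := by group
    _ = a' * b' * (a'⁻¹ * w) * w⁻¹ * b'⁻¹ := by rw [hw' a'⁻¹]
    _ = a' * b' * a'⁻¹ * b'⁻¹ := by group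

theorem uc_comm_le {E A : Type*} [Group E] [Group A] {q : E →* A}
    (hq : q.ker ≤ Subgroup.center E) {K M : Subgroup E} (h : ∀ x ∈ K, q x ∈ M.map q) :
    ⁅K, K⁆ ≤ ⁅M, M⁆ := by
  refine Subgroup.commutator_le.2 fun x hx y hy => ?_
  obtain ⟨m, hm, hmx⟩ := h x hx
  obtain ⟨m', hm', hmy⟩ := h y hy
  rw [← uc_comm_eq hq hmx hmy]
  exact Subgroup.commutator_mem_commutator hm hm'

/-- For `F = FreeGroup A`, `R = ker (F → A)`: `B = [F, F] / [F, R]` (the commutator subgroup of
`F ⧸ ⁅⊤, R⁆`). Perfect: `F = [F, F] R`. Lifting: lift the generators of `F` to `E`; the lift kills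
`[F, R]`. -/
theorem exists_uce (A : Type) [Group A] (hA : commutator A = ⊤) :
    ∃ (B : Type) (_ : Group B) (κ : B →* A), IsUCE κ := by
  let π : FreeGroup A →* A := FreeGroup.lift id
  have hπ : Function.Surjective π := fun a => ⟨FreeGroup.of a, by simp [π]⟩
  let N : Subgroup (FreeGroup A) := ⁅(⊤ : Subgroup (FreeGroup A)), π.ker⁆
  have hN : N ≤ π.ker := Subgroup.commutator_le_right _ _
  let π' : FreeGroup A ⧸ N →* A := QuotientGroup.lift N π hN
  have hπ' : Function.Surjective π' := fun a => by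
    obtain ⟨x, rfl⟩ := hπ a
    exact ⟨x, rfl⟩
  have hcen : π'.ker ≤ Subgroup.center (FreeGroup A ⧸ N) := by
    intro z hz
    obtain ⟨r, rfl⟩ := QuotientGroup.mk_surjective z
    rw [Subgroup.mem_center_iff]
    intro g
    obtain ⟨x, rfl⟩ := QuotientGroup.mk_surjective g
    have h1 : ⁅x, r⁆ ∈ N := Subgroup.commutator_mem_commutator (Subgroup.mem_top x) hz
    have h2 : (QuotientGroup.mk' N) ⁅x, r⁆ = 1 := (QuotientGroup.eq_one_iff _).2 h1
    rw [map_commutatorElement, commutatorElement_eq_one_iff_mul_comm] at h2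
    exact h2
  have hmap : (commutator (FreeGroup A ⧸ N)).map π' = ⊤ := by
    rw [map_commutator_eq, MonoidHom.range_eq_top.2 hπ', ← commutator_def, hA]
  refine ⟨commutator (FreeGroup A ⧸ N), inferInstance,
    π'.comp (commutator (FreeGroup A ⧸ N)).subtype, fun a => ?_, fun z hz => ?_, ?_,
    fun E _ q hq hqc => ?_⟩
  · obtain ⟨x, hx, rfl⟩ : a ∈ (commutator (FreeGroup A ⧸ N)).map π' := hmap ▸ Subgroup.mem_top a
    exact ⟨⟨x, hx⟩, rfl⟩
  · rw [Subgroup.mem_center_iff]
    intro g
    exact Subtype.ext (Subgroup.mem_center_iff.1 (hcen hz) g)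
  · apply Subgroup.map_injective (commutator (FreeGroup A ⧸ N)).subtype_injective
    rw [Subgroup.map_subtype_commutator, ← MonoidHom.range_eq_map, Subgroup.range_subtype]
    refine le_antisymm (Subgroup.commutator_le_self _) ?_
    exact uc_comm_le hcen fun x _ => hmap ▸ Subgroup.mem_top _
  · choose s hs using hq
    let φ : FreeGroup A →* E := FreeGroup.lift s
    have hφ : q.comp φ = π := by
      ext a
      simp [φ, π, hs]
    have hφN : N ≤ φ.ker := by
      refine Subgroup.commutator_le.2 fun x _ r hr => ?_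
      rw [MonoidHom.mem_ker, map_commutatorElement, commutatorElement_eq_one_iff_mul_comm]
      refine Subgroup.mem_center_iff.1 (hqc ?_) _
      rw [MonoidHom.mem_ker, ← MonoidHom.comp_apply, hφ]
      exact hr
    refine ⟨(QuotientGroup.lift N φ hφN).comp (commutator (FreeGroup A ⧸ N)).subtype, ?_⟩
    ext ⟨z, hz⟩
    obtain ⟨x, rfl⟩ := QuotientGroup.mk_surjective z
    exact DFunLike.congr_fun hφ x

/-- two homomorphisms out of a perfect group which agree on commutators are equal -/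
theorem ext_of_comm {B K : Type*} [Group B] [Group K] (hB : commutator B = ⊤) {f g : B →* K}
    (h : ∀ a b : B, f ⁅a, b⁆ = g ⁅a, b⁆) : f = g := by
  refine MonoidHom.eq_of_eqOn_dense (s := commutatorSet B) (by rw [← commutator_eq_closure, hB]) ?_
  rintro _ ⟨a, b, rfl⟩
  exact h a b

variable {ι : Type} [Fintype ι] [DecidableEq ι]

/-- even permutations supported in `I` -/
def AI (I : Finset ι) : Subgroup (alternatingGroup ι) where
  carrier := {π | ∀ i, i ∉ I → π.1 i = i}
  mul_mem' := fun {π ρ} hπ hρ i hi => by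
    rw [Subgroup.coe_mul, Perm.mul_apply, hρ i hi, hπ i hi]
  one_mem' := fun _ _ => rfl
  inv_mem' := fun {π} hπ i hi => by
    rw [Subgroup.coe_inv, Perm.inv_eq_iff_eq, hπ i hi]

theorem AI_mono {I J : Finset ι} (h : I ⊆ J) : AI I ≤ AI J :=
  fun _ hπ i hi => hπ i fun h' => hi (h h')

theorem uc_mem_AI {I : Finset ι} {π : alternatingGroup ι} : π ∈ AI I ↔ π.1.support ⊆ I := by
  constructor
  · intro h i hi
    by_contra hI
    exact Perm.mem_support.1 hi (h i hI)
  · intro h i hi
    by_contra hne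
    exact hi (h (Perm.mem_support.2 hne))

theorem uc_AI_eq (I : Finset ι) : AI I = (alternatingGroup.ofSubtype I).range := by
  ext π
  rw [alternatingGroup.mem_range_ofSubtype_iff, uc_mem_AI]

theorem uc_conj_AI {I : Finset ι} {π : alternatingGroup ι} (h : π ∈ AI I)
    (τ : alternatingGroup ι) : τ * π * τ⁻¹ ∈ AI (I.image τ.1) := by
  intro i hi
  have h1 : τ.1⁻¹ i ∉ I := fun h' => hi (Finset.mem_image.2 ⟨_, h', by simp⟩)
  rw [Subgroup.coe_mul, Subgroup.coe_mul, Subgroup.coe_inv, Perm.mul_apply, Perm.mul_apply,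
    h _ h1]
  simp

theorem uc_commute_AI {I J : Finset ι} (hd : Disjoint I J) {π ρ : alternatingGroup ι}
    (hπ : π ∈ AI I) (hρ : ρ ∈ AI J) : π * ρ = ρ * π := by
  refine Subtype.ext (Perm.Disjoint.commute fun i => ?_).eq
  by_cases hi : i ∈ I
  · exact Or.inr (hρ i (Finset.disjoint_left.1 hd hi))
  · exact Or.inl (hπ i hi)

/-- `AI I` is generated by its 3-cycles -/
theorem AI_le_of_threeCycle (I : Finset ι) (M : Subgroup (alternatingGroup ι))
    (h : ∀ π ∈ AI I, π.1.IsThreeCycle → π ∈ M) : AI I ≤ M := by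
  rw [uc_AI_eq, MonoidHom.range_eq_map, Subgroup.map_le_iff_le_comap,
    ← alternatingGroup.closure_isThreeCycles_eq_top, Subgroup.closure_le]
  intro k hk
  refine h _ (by rw [uc_AI_eq]; exact ⟨k, rfl⟩) ?_
  rw [alternatingGroup.coe_ofSubtype, Perm.IsThreeCycle, Perm.cycleType_ofSubtype]
  exact hk

theorem commutator_AI {I : Finset ι} (hI : 5 ≤ I.card) : ⁅AI I, AI I⁆ = AI I := by
  rw [uc_AI_eq, ← map_commutator_eq, commutator_alternatingGroup_eq_top (by simpa using hI),
    MonoidHom.range_eq_map]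

theorem commutator_alt (hι : 5 ≤ Fintype.card ι) : commutator (alternatingGroup ι) = ⊤ :=
  commutator_alternatingGroup_eq_top (by simpa using hι)

theorem uc_AI_ne_bot {I : Finset ι} (hI : 5 ≤ I.card) : AI I ≠ ⊥ := by
  have : Nontrivial (alternatingGroup I) :=
    alternatingGroup.nontrivial_of_three_le_card (by simpa using le_trans (by norm_num) hI)
  obtain ⟨k, hk⟩ := exists_ne (1 : alternatingGroup I)
  intro h
  have h1 : alternatingGroup.ofSubtype I k ∈ AI I := by rw [uc_AI_eq]; exact ⟨k, rfl⟩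
  rw [h, Subgroup.mem_bot] at h1
  exact hk (alternatingGroup.ofSubtype_injective (h1.trans (map_one _).symm))

theorem uc_top_of_three (M : Subgroup (alternatingGroup ι))
    (h : ∀ T : Finset ι, T.card = 3 → AI T ≤ M) : M = ⊤ := by
  rw [eq_top_iff, ← alternatingGroup.closure_isThreeCycles_eq_top, Subgroup.closure_le]
  intro π hπ
  exact h π.1.support (Perm.IsThreeCycle.card_support hπ) (uc_mem_AI.2 subset_rfl)

theorem uc_top_of_insert {J : Finset ι} (hJ : 5 ≤ J.card) (M : Subgroup (alternatingGroup ι))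
    (h : ∀ i, AI (insert i J) ≤ M) : M = ⊤ := by
  refine uc_top_of_three M ?_
  suffices H : ∀ (n : ℕ) (T : Finset ι), (T \ J).card ≤ n → T.card = 3 → AI T ≤ M from
    fun T hT => H _ T le_rfl hT
  intro n
  induction n with
  | zero =>
    intro T hT _
    obtain ⟨j, -⟩ : J.Nonempty := Finset.card_pos.1 (by omega)
    refine (AI_mono ?_).trans (h j)
    rw [Nat.le_zero, Finset.card_eq_zero, Finset.sdiff_eq_empty_iff_subset] at hT
    exact hT.trans (Finset.subset_insert _ _)
  | succ n ih =>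
    intro T hT h3
    by_cases hn : (T \ J).card ≤ n
    · exact ih T hn h3
    obtain ⟨a, ha⟩ : (T \ J).Nonempty := Finset.card_pos.1 (by omega)
    have h2 : 1 < (J \ T).card := by
      have := Finset.le_card_sdiff T J
      omega
    obtain ⟨j, hj, j', hj', hjj⟩ := Finset.one_lt_card.1 h2
    rw [Finset.mem_sdiff] at ha hj hj'
    have haj : a ≠ j := fun e => ha.2 (e ▸ hj.1)
    have haj' : a ≠ j' := fun e => ha.2 (e ▸ hj'.1)
    let τ : alternatingGroup ι := ⟨swap j j' * swap a j,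
      Perm.mul_mem_alternatingGroup_of_isSwap ⟨_, _, hjj, rfl⟩ ⟨_, _, haj, rfl⟩⟩
    have hτ : ∀ i, i ≠ a → i ≠ j → i ≠ j' → τ.1 i = i := fun i h1 h2 h3 => by
      simp only [τ, Perm.mul_apply]
      rw [swap_apply_of_ne_of_ne h1 h2, swap_apply_of_ne_of_ne h2 h3]
    have hτa : τ.1 a = j' := by simp [τ]
    have hτM : τ ∈ M := h a fun i hi => by
      rw [Finset.mem_insert, not_or] at hi
      exact hτ i hi.1 (fun e => hi.2 (e ▸ hj.1)) fun e => hi.2 (e ▸ hj'.1)
    have hsub : T.image τ.1 \ J ⊆ (T \ J).erase a := by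
      intro x hx
      rw [Finset.mem_sdiff, Finset.mem_image] at hx
      obtain ⟨⟨y, hy, rfl⟩, hx⟩ := hx
      have hya : y ≠ a := fun e => hx (by rw [e, hτa]; exact hj'.1)
      have e := hτ y hya (fun e => hj.2 (e ▸ hy)) fun e => hj'.2 (e ▸ hy)
      rw [e] at hx ⊢
      exact Finset.mem_erase.2 ⟨hya, Finset.mem_sdiff.2 ⟨hy, hx⟩⟩
    have hcard : (T.image τ.1 \ J).card ≤ n := by
      have := Finset.card_le_card hsub
      rw [Finset.card_erase_of_mem (Finset.mem_sdiff.2 ha)] at this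
      omega
    intro π hπ
    have h4 := ih _ hcard (by rw [Finset.card_image_of_injective _ τ.1.injective, h3])
      (uc_conj_AI hπ τ)
    have h5 := M.mul_mem (M.mul_mem (M.inv_mem hτM) h4) hτM
    simpa [mul_assoc] using h5

variable {B : Type} [Group B] {κ : B →* alternatingGroup ι}

/-- the perfect subgroup above `AI I` -/
def Bs (κ : B →* alternatingGroup ι) (I : Finset ι) : Subgroup B :=
  ⁅(AI I).comap κ, (AI I).comap κ⁆

theorem Bs_mono {I J : Finset ι} (h : I ⊆ J) : Bs κ I ≤ Bs κ J :=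
  Subgroup.commutator_mono (Subgroup.comap_mono (AI_mono h)) (Subgroup.comap_mono (AI_mono h))

theorem kap_mem_AI {I : Finset ι} {b : B} (hb : b ∈ Bs κ I) : κ b ∈ AI I :=
  Subgroup.commutator_le_self ((AI I).comap κ) hb

theorem map_Bs (hκ : IsUCE κ) {I : Finset ι} (hI : 5 ≤ I.card) : (Bs κ I).map κ = AI I := by
  rw [Bs, Subgroup.map_commutator, Subgroup.map_comap_eq_self_of_surjective hκ.surj,
    commutator_AI hI]

/-- a subgroup which maps onto `AI I` contains `Bs κ I` (the preimage of `AI I` is contained in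
`M · ker κ`, and the kernel is central) -/
theorem Bs_le_of_map (hκ : IsUCE κ) {I : Finset ι} (M : Subgroup B) (h : AI I ≤ M.map κ) :
    Bs κ I ≤ M :=
  (uc_comm_le hκ.central fun _ hx => h hx).trans (Subgroup.commutator_le_self M)

theorem eq_top_of_map (hκ : IsUCE κ) (M : Subgroup B) (h : M.map κ = ⊤) : M = ⊤ := by
  rw [eq_top_iff, ← hκ.perfect, commutator_def]
  exact (uc_comm_le hκ.central fun _ _ => h ▸ Subgroup.mem_top _).trans
    (Subgroup.commutator_le_self M)

theorem commutator_Bs (hκ : IsUCE κ) {I : Finset ι} (hI : 5 ≤ I.card) :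
    ⁅Bs κ I, Bs κ I⁆ = Bs κ I :=
  le_antisymm (Subgroup.commutator_le_self _)
    (uc_comm_le hκ.central fun _ hx => by rw [map_Bs hκ hI]; exact hx)

/-- `x ↦ ⁅x, b⁆` is a homomorphism from the preimage of `AI I` to the centre -/
theorem commute_of_Bs (hκ : IsUCE κ) {I J : Finset ι} (hd : Disjoint I J) {a b : B}
    (ha : a ∈ Bs κ I) (hb : κ b ∈ AI J) : Commute a b := by
  have key : ∀ x ∈ (AI I).comap κ, κ (b * x * b⁻¹) = κ x := fun x hx => by
    rw [map_mul, map_mul, map_inv, ← uc_commute_AI hd hx hb, mul_inv_cancel_right]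
  have hle : Bs κ I ≤ Subgroup.centralizer {b} := by
    refine Subgroup.commutator_le.2 fun x hx y hy => ?_
    rw [Subgroup.mem_centralizer_singleton_iff, eq_comm, ← mul_inv_eq_iff_eq_mul,
      conjugate_commutatorElement]
    exact uc_comm_eq hκ.central (key x hx) (key y hy)
  exact Subgroup.mem_centralizer_singleton_iff.1 (hle ha)

theorem conj_mem_Bs {I : Finset ι} {a : B} (ha : a ∈ Bs κ I) (b : B) :
    b * a * b⁻¹ ∈ Bs κ (I.image (κ b).1) := by
  have key : ∀ x ∈ (AI I).comap κ, b * x * b⁻¹ ∈ (AI (I.image (κ b).1)).comap κ := fun x hx => by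
    rw [Subgroup.mem_comap, map_mul, map_mul, map_inv]
    exact uc_conj_AI hx _
  have hle : Bs κ I ≤ (Bs κ (I.image (κ b).1)).comap (MulAut.conj b).toMonoidHom := by
    refine Subgroup.commutator_le.2 fun x hx y hy => ?_
    change b * ⁅x, y⁆ * b⁻¹ ∈ Bs κ (I.image (κ b).1)
    rw [conjugate_commutatorElement]
    exact Subgroup.commutator_mem_commutator (key x hx) (key y hy)
  exact hle ha

/-- induction principle: the `Bs κ I` with `5` points generate -/
theorem eq_top_of_Bs (hκ : IsUCE κ) (hι : 5 ≤ Fintype.card ι) (M : Subgroup B)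
    (h : ∀ I : Finset ι, I.card = 5 → Bs κ I ≤ M) : M = ⊤ := by
  refine eq_top_of_map hκ M (uc_top_of_three _ fun T hT => ?_)
  obtain ⟨I, hTI, hI⟩ := Finset.exists_superset_card_eq (s := T) (n := 5) (by omega) hι
  refine (AI_mono hTI).trans ?_
  rw [← map_Bs hκ hI.ge]
  exact Subgroup.map_mono (h I hI)

/-- the commutators `⁅x, y⁆`, `y ∈ Bs κ I`, generate (their images generate a non-trivial normal
subgroup of the alternating group; or directly: every 3-cycle is conjugate to one in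
`AI I = ⁅AI I, AI I⁆`) -/
theorem eq_top_of_comm (hκ : IsUCE κ) {I : Finset ι} (hI : 5 ≤ I.card) (M : Subgroup B)
    (h : ∀ x : B, ∀ y ∈ Bs κ I, ⁅x, y⁆ ∈ M) : M = ⊤ := by
  refine eq_top_of_map hκ M ?_
  have hn : (⁅(⊤ : Subgroup (alternatingGroup ι)), AI I⁆).Normal :=
    Subgroup.normalizer_eq_top_iff.1 (top_le_iff.1 (Subgroup.normalizer_commutator_ge_left _ _))
  have hι : 5 ≤ Nat.card ι := by
    rw [Nat.card_eq_fintype_card]
    exact hI.trans I.card_le_univ
  have htop : ⁅(⊤ : Subgroup (alternatingGroup ι)), AI I⁆ = ⊤ := by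
    refine (alternatingGroup.normal_subgroup_eq_bot_or_eq_top hι).resolve_left fun hb => ?_
    refine uc_AI_ne_bot hI (le_bot_iff.1 ?_)
    rw [← hb]
    exact (commutator_AI hI).ge.trans (Subgroup.commutator_mono le_top le_rfl)
  rw [eq_top_iff, ← htop]
  refine Subgroup.commutator_le.2 fun x _ y hy => ?_
  obtain ⟨x, rfl⟩ := hκ.surj x
  rw [← map_Bs hκ hI] at hy
  obtain ⟨y, hy, rfl⟩ := hy
  exact ⟨_, h x y hy, map_commutatorElement κ x y⟩

/-- the 3-cycles with at most one point outside `J` generate -/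
theorem eq_top_of_insert (hκ : IsUCE κ) {J : Finset ι} (hJ : 5 ≤ J.card) (M : Subgroup B)
    (h : ∀ i, Bs κ (insert i J) ≤ M) : M = ⊤ := by
  refine eq_top_of_map hκ M (uc_top_of_insert hJ _ fun i => ?_)
  rw [← map_Bs hκ (hJ.trans (Finset.card_le_card (Finset.subset_insert i J)))]
  exact Subgroup.map_mono (h i)

theorem exists_finset_closure (hκ : IsUCE κ) : ∃ S : Finset B, Subgroup.closure (S : Set B) = ⊤ := by
  classical
  choose s hs using hκ.surj
  refine ⟨Finset.univ.image s, eq_top_of_map hκ _ (eq_top_iff.2 fun a _ => ?_)⟩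
  exact ⟨s a, Subgroup.subset_closure (by simp), hs a⟩

end Crest.Agent.R189
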