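import Crest.Agent.R189.Defs
import Crest.Agent.R189.UC

/-!
# Row 189: frames and projections (definitions), task Frame: the action of words
-/

set_option autoImplicit false

namespace Crest.Agent.R189

open Equiv
open scoped commutatorElement

variable {ι : Type} [Fintype ι] [DecidableEq ι] {B : Type} [Group B]

/-- a group `H` with local subgroups `HI I`, constants `io` and diagonal elements `d i γ` -/
structure Frame (κ : B →* alternatingGroup ι) (H : Type) [Group H] where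
  uce : IsUCE κ
  card : 15 ≤ Fintype.card ι
  HI : Finset ι → Subgroup H
  mono : ∀ I J, I ⊆ J → HI I ≤ HI J
  comm : ∀ I J, Disjoint I J → ∀ a ∈ HI I, ∀ b ∈ HI J, Commute a b
  io : B →* H
  io_loc : ∀ I, 5 ≤ I.card → ∀ b ∈ Bs κ I, io b ∈ HI I
  d : ι → FG →* H
  d_loc : ∀ i γ, d i γ ∈ HI {i}
  d_conj : ∀ b i γ, io b * d i γ * (io b)⁻¹ = d ((κ b).1 i) γ

variable {κ : B →* alternatingGroup ι} {H : Type} [Group H]

/-- a projection: "permute the copies over a clopen set" -/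
@[ext] structure Proj (Φ : Frame κ H) where
  s : B →* H
  eqv : ∀ c b, Φ.io c * s b * (Φ.io c)⁻¹ = s (c * b * c⁻¹)
  loc : ∀ I, 5 ≤ I.card → ∀ b ∈ Bs κ I, s b ∈ Φ.HI I

namespace Frame

variable (Φ : Frame κ H)

theorem d_commute {i j : ι} (h : i ≠ j) (γ δ : FG) : Commute (Φ.d i γ) (Φ.d j δ) :=
  Φ.comm {i} {j} (Finset.disjoint_singleton.2 h) _ (Φ.d_loc i γ) _ (Φ.d_loc j δ)

/-- the diagonal element over the copies in `I` -/
noncomputable def dI (I : Finset ι) (γ : FG) : H :=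
  I.noncommProd (fun i => Φ.d i γ) (fun _ _ _ _ h => Φ.d_commute h γ γ)

theorem frame_dI_empty (γ : FG) : Φ.dI ∅ γ = 1 := Finset.noncommProd_empty _ _

theorem frame_dI_insert {I : Finset ι} {i : ι} (h : i ∉ I) (γ : FG) :
    Φ.dI (insert i I) γ = Φ.d i γ * Φ.dI I γ :=
  Finset.noncommProd_insert_of_notMem _ _ _ _ h

theorem frame_dI_mem (I : Finset ι) (γ : FG) : Φ.dI I γ ∈ Φ.HI I :=
  Subgroup.noncommProd_mem _ _ fun i hi =>
    Φ.mono {i} I (Finset.singleton_subset_iff.2 hi) (Φ.d_loc i γ)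

theorem frame_commute {I : Finset ι} {i : ι} (h : i ∉ I) (γ δ : FG) :
    Commute (Φ.d i γ) (Φ.dI I δ) :=
  Φ.comm {i} I (Finset.disjoint_singleton_left.2 h) _ (Φ.d_loc i γ) _ (Φ.frame_dI_mem I δ)

theorem dI_one (I : Finset ι) : Φ.dI I 1 = 1 := by
  induction I using Finset.induction_on with
  | empty => exact Φ.frame_dI_empty 1
  | insert i I h ih => rw [Φ.frame_dI_insert h, ih, map_one, mul_one]

theorem dI_mul (I : Finset ι) (γ δ : FG) : Φ.dI I (γ * δ) = Φ.dI I γ * Φ.dI I δ := by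
  induction I using Finset.induction_on with
  | empty => simp only [Φ.frame_dI_empty, mul_one]
  | insert i I h ih =>
    rw [Φ.frame_dI_insert h, Φ.frame_dI_insert h, Φ.frame_dI_insert h, ih, map_mul]
    exact (Φ.frame_commute h δ γ).mul_mul_mul_comm _ _

theorem dI_inv (I : Finset ι) (γ : FG) : Φ.dI I γ⁻¹ = (Φ.dI I γ)⁻¹ := by
  rw [eq_inv_iff_mul_eq_one, ← Φ.dI_mul, inv_mul_cancel, Φ.dI_one]

theorem dI_mem (I : Finset ι) (γ : FG) : Φ.dI I γ ∈ Φ.HI I := by
  exact Φ.frame_dI_mem I γ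

theorem dI_singleton (i : ι) (γ : FG) : Φ.dI {i} γ = Φ.d i γ := by
  exact Finset.noncommProd_singleton _ _

theorem dI_union {I J : Finset ι} (h : Disjoint I J) (γ : FG) :
    Φ.dI (I ∪ J) γ = Φ.dI I γ * Φ.dI J γ := by
  exact Finset.noncommProd_union_of_disjoint h _ _

/-- only the indices in `K` matter when conjugating an element of `HI K` -/
theorem dI_conj {I K : Finset ι} (γ : FG) {a : H} (ha : a ∈ Φ.HI K) :
    Φ.dI I γ * a * (Φ.dI I γ)⁻¹ = Φ.dI (I ∩ K) γ * a * (Φ.dI (I ∩ K) γ)⁻¹ := by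
  have h1 : Φ.dI I γ = Φ.dI (I ∩ K) γ * Φ.dI (I \ K) γ := by
    rw [← Φ.dI_union (Finset.disjoint_sdiff_inter I K).symm, Finset.union_comm,
      Finset.sdiff_union_inter]
  have h2 : Commute (Φ.dI (I \ K) γ) a :=
    Φ.comm _ _ Finset.sdiff_disjoint _ (Φ.dI_mem _ γ) _ ha
  rw [h1, mul_inv_rev, mul_assoc (Φ.dI (I ∩ K) γ), h2.eq]
  group

theorem dI_conj_mem (I : Finset ι) {K : Finset ι} (γ : FG) {a : H} (ha : a ∈ Φ.HI K) :
    Φ.dI I γ * a * (Φ.dI I γ)⁻¹ ∈ Φ.HI K := by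
  rw [Φ.dI_conj γ ha]
  have h := Φ.mono _ _ (Finset.inter_subset_right (s₁ := I) (s₂ := K)) (Φ.dI_mem _ γ)
  exact mul_mem (mul_mem h ha) (inv_mem h)

theorem frame_io_conj (b : B) (γ : FG) (I : Finset ι) :
    Φ.io b * Φ.dI I γ * (Φ.io b)⁻¹ = Φ.dI (I.image (κ b).1) γ := by
  induction I using Finset.induction_on with
  | empty => simp [Φ.frame_dI_empty]
  | insert i I h ih =>
    rw [Finset.image_insert, Φ.frame_dI_insert h, Φ.frame_dI_insert
      (fun h' => h ((κ b).1.injective.mem_finset_image.1 h')), ← ih, ← Φ.d_conj]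
    group

theorem io_commute_dI (b : B) (γ : FG) : Commute (Φ.io b) (Φ.dI Finset.univ γ) := by
  have h := Φ.frame_io_conj b γ Finset.univ
  rw [Finset.image_univ_equiv] at h
  exact mul_inv_eq_iff_eq_mul.1 h

theorem dI_univ_conj_d (i : ι) (γ η : FG) :
    Φ.dI Finset.univ γ * Φ.d i η * (Φ.dI Finset.univ γ)⁻¹ = Φ.d i (γ * η * γ⁻¹) := by
  rw [Φ.dI_conj γ (Φ.d_loc i η), Finset.univ_inter, Φ.dI_singleton, map_mul, map_mul, map_inv]

end Frame

namespace Proj

variable {Φ : Frame κ H}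

/-- the unit -/
def one (Φ : Frame κ H) : Proj Φ where
  s := Φ.io
  eqv := fun c b => by simp
  loc := Φ.io_loc

theorem commute_compl (p : Proj Φ) (b b' : B) : Commute (p.s b') ((p.s b)⁻¹ * Φ.io b) := by
  have h := p.eqv b b'
  rw [map_mul, map_mul, map_inv] at h
  have h2 : Φ.io b * p.s b' = p.s b * p.s b' * (p.s b)⁻¹ * Φ.io b := mul_inv_eq_iff_eq_mul.1 h
  change p.s b' * ((p.s b)⁻¹ * Φ.io b) = (p.s b)⁻¹ * Φ.io b * p.s b'
  rw [mul_assoc (p.s b)⁻¹, h2]
  group

/-- the complement -/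
def compl (p : Proj Φ) : Proj Φ where
  s := MonoidHom.mk' (fun b => (p.s b)⁻¹ * Φ.io b) (by
    intro a b
    have h := (p.commute_compl a b).inv_left.eq
    rw [map_mul, map_mul, mul_inv_rev, ← mul_assoc ((p.s a)⁻¹ * Φ.io a), ← h]
    group)
  eqv := by
    intro c b
    change Φ.io c * ((p.s b)⁻¹ * Φ.io b) * (Φ.io c)⁻¹ =
      (p.s (c * b * c⁻¹))⁻¹ * Φ.io (c * b * c⁻¹)
    rw [← p.eqv, map_mul, map_mul, map_inv]
    group
  loc := fun I hI b hb => mul_mem (inv_mem (p.loc I hI b hb)) (Φ.io_loc I hI b hb)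

theorem compl_s (p : Proj Φ) (b : B) : p.compl.s b = (p.s b)⁻¹ * Φ.io b := rfl

/-- the action of a word -/
noncomputable def act (γ : FG) (p : Proj Φ) : Proj Φ where
  s := (MulAut.conj (Φ.dI Finset.univ γ)).toMonoidHom.comp p.s
  eqv := by
    intro c b
    change Φ.io c * (Φ.dI Finset.univ γ * p.s b * (Φ.dI Finset.univ γ)⁻¹) * (Φ.io c)⁻¹ =
      Φ.dI Finset.univ γ * p.s (c * b * c⁻¹) * (Φ.dI Finset.univ γ)⁻¹
    have h := Φ.io_commute_dI c γ
    rw [← p.eqv, ← mul_assoc, ← mul_assoc, h.eq, mul_assoc _ (Φ.dI Finset.univ γ)⁻¹,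
      ← h.inv_inv.eq]
    group
  loc := fun I hI b hb => Φ.dI_conj_mem _ γ (p.loc I hI b hb)

theorem act_s (γ : FG) (p : Proj Φ) (b : B) :
    (act γ p).s b = Φ.dI Finset.univ γ * p.s b * (Φ.dI Finset.univ γ)⁻¹ := rfl

/-- orthogonal projections -/
def Orth (p q : Proj Φ) : Prop := ∀ a b, Commute (p.s a) (q.s b)

/-- the order -/
def Le (p q : Proj Φ) : Prop := Orth p q.compl

/-- `r` is the orthogonal sum of `p` and `q` -/
def IsSum (r p q : Proj Φ) : Prop := Orth p q ∧ ∀ a, r.s a = p.s a * q.s a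

/-- commuting projections -/
def Comm (p q : Proj Φ) : Prop := ∃ p₁ p₂, IsSum p p₁ p₂ ∧ Le p₁ q ∧ Orth p₂ q

open Classical in
/-- the meet of commuting projections -/
noncomputable def meet (p q : Proj Φ) : Proj Φ := if h : Comm p q then h.choose else p

/-- the word `η` acts trivially on `p` -/
def Triv (η : FG) (p : Proj Φ) : Prop := ∀ i b, Commute (Φ.d i η) (p.s b)

theorem act_one (p : Proj Φ) : act 1 p = p := by
  ext b
  rw [act_s, Φ.dI_one]; group

theorem act_mul (γ δ : FG) (p : Proj Φ) : act (γ * δ) p = act γ (act δ p) := by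
  ext b
  rw [act_s, act_s, act_s, Φ.dI_mul]; group

theorem act_inv_act (γ : FG) (p : Proj Φ) : act γ⁻¹ (act γ p) = p := by
  rw [← act_mul, inv_mul_cancel, act_one]

theorem act_act_inv (γ : FG) (p : Proj Φ) : act γ (act γ⁻¹ p) = p := by
  rw [← act_mul, mul_inv_cancel, act_one]

theorem act_unit (γ : FG) : act γ (one Φ) = one Φ := by
  ext b
  rw [act_s]
  change _ * Φ.io b * _ = Φ.io b
  rw [← (Φ.io_commute_dI b γ).eq]; group

theorem act_compl (γ : FG) (p : Proj Φ) : act γ p.compl = (act γ p).compl := by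
  ext b
  rw [act_s, compl_s, compl_s, act_s, ← mul_assoc, mul_assoc _ (Φ.io b),
    (Φ.io_commute_dI b γ).inv_right.eq]
  group

theorem Orth.act {p q : Proj Φ} (h : Orth p q) (γ : FG) : Orth (act γ p) (act γ q) := by
  intro a b
  exact (h a b).map (MulAut.conj (Φ.dI Finset.univ γ))

theorem Le.act {p q : Proj Φ} (h : Le p q) (γ : FG) : Le (act γ p) (act γ q) := by
  have := Orth.act h γ
  rwa [act_compl] at this

theorem IsSum.act {r p q : Proj Φ} (h : IsSum r p q) (γ : FG) :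
    IsSum (act γ r) (act γ p) (act γ q) := by
  refine ⟨h.1.act γ, fun a => ?_⟩
  rw [act_s, act_s, act_s, h.2]; group

theorem Comm.act {p q : Proj Φ} (h : Comm p q) (γ : FG) : Comm (act γ p) (act γ q) := by
  obtain ⟨p₁, p₂, h1, h2, h3⟩ := h
  exact ⟨_, _, h1.act γ, h2.act γ, h3.act γ⟩

theorem triv_one (p : Proj Φ) : Triv 1 p := by
  intro i b
  rw [map_one]; exact Commute.one_left _

theorem Triv.mul {η η' : FG} {p : Proj Φ} (h : Triv η p) (h' : Triv η' p) : Triv (η * η') p := by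
  intro i b
  rw [map_mul]; exact (h i b).mul_left (h' i b)

theorem Triv.inv {η : FG} {p : Proj Φ} (h : Triv η p) : Triv η⁻¹ p := by
  intro i b
  rw [map_inv]; exact (h i b).inv_left

theorem Triv.act_eq {η : FG} {p : Proj Φ} (h : Triv η p) : act η p = p := by
  ext b
  have : Commute (Φ.dI Finset.univ η) (p.s b) :=
    (Finset.noncommProd_commute _ _ _ _ fun i _ => (h i b).symm).symm
  rw [act_s, this.eq]; group

theorem Triv.conj {η : FG} {p : Proj Φ} (h : Triv η p) (γ : FG) :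
    Triv (γ * η * γ⁻¹) (act γ p) := by
  intro i b
  rw [← Φ.dI_univ_conj_d]
  exact (h i b).map (MulAut.conj (Φ.dI Finset.univ γ))

theorem Triv.sum {η : FG} {r p q : Proj Φ} (h : IsSum r p q) (hp : Triv η p) (hq : Triv η q) :
    Triv η r := by
  intro i b
  rw [h.2]; exact (hp i b).mul_right (hq i b)

end Proj

end Crest.Agent.R189
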