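import Crest.Agent.R189.Sect

/-!
# Row 189, task Gen: `GI I` is the normal closure of the cell exchanges
-/

set_option autoImplicit false

namespace Crest.Agent.R189

open Equiv

variable {ι : Type} [Fintype ι] [DecidableEq ι]

set_option linter.unusedSectionVars false

section GenAux

variable {Q : Type} {I : Finset ι}

lemma gen_mu_mem {c : Cell ι} (hc : c.1 ∈ I) (t : Ty) (d : Dir) : mu c t d ∈ GI I :=
  ⟨loc_mem c (nu_mem t d), loc_mem_Fix c _ hc⟩

open Classical in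
/-- extension of a homomorphism by `1` -/
noncomputable def genX [Group Q] (χ : GI I →* Q) (g : Perm (ι × Om)) : Q :=
  if h : g ∈ GI I then χ ⟨g, h⟩ else 1

lemma gen_X_eq [Group Q] (χ : GI I →* Q) {g : Perm (ι × Om)} (hg : g ∈ GI I) :
    genX χ g = χ ⟨g, hg⟩ := by
  simp [genX, hg]

lemma gen_X_mul [Group Q] (χ : GI I →* Q) {g h : Perm (ι × Om)} (hg : g ∈ GI I)
    (hh : h ∈ GI I) : genX χ (g * h) = genX χ g * genX χ h := by
  rw [gen_X_eq χ hg, gen_X_eq χ hh, gen_X_eq χ (mul_mem hg hh), ← map_mul]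
  rfl

lemma gen_X_one [Group Q] (χ : GI I →* Q) : genX χ 1 = 1 := by
  rw [gen_X_eq χ (one_mem _)]
  exact map_one χ

lemma gen_X_inv [Group Q] (χ : GI I →* Q) {g : Perm (ι × Om)} (hg : g ∈ GI I) :
    genX χ g⁻¹ = (genX χ g)⁻¹ := by
  rw [gen_X_eq χ hg, gen_X_eq χ (inv_mem hg), ← map_inv]
  rfl

lemma gen_LT_mem {g : Perm (ι × Om)} (hg : g ∈ LT ι) (hg' : g ∈ Fix I) : g ∈ GI I :=
  ⟨LT_le_G hg, hg'⟩

lemma gen_X_level [Group Q] (χ : GI I →* Q)
    (hχ : ∀ g ∈ LT ι, g ∈ Fix I → genX χ g = 1) {c c' : Cell ι} (hc : c.1 ∈ I) (hc' : c'.1 ∈ I)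
    (hl : c'.2.length = c.2.length) (t : Ty) (d : Dir) :
    genX χ (mu c' t d) = genX χ (mu c t d) := by
  have hs : sw c c' ∈ GI I := gen_LT_mem (sw_mem_LT c c') (sw_mem_Fix hc hc')
  have h1 : genX χ (sw c c') = 1 := hχ _ (sw_mem_LT c c') (sw_mem_Fix hc hc')
  have h2 : sw c c' * mu c t d * (sw c c')⁻¹ = mu c' t d := loc_conj (rig_sw_left hl).2 _
  rw [← h2, gen_X_mul χ (mul_mem hs (gen_mu_mem hc t d)) (inv_mem hs),
    gen_X_mul χ hs (gen_mu_mem hc t d), gen_X_inv χ hs, h1]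
  simp

/-- the class of a move of level `n` -/
noncomputable def genM [Group Q] (χ : GI I →* Q) (i₀ : ι) (n : ℕ) (t : Ty) (d : Dir) : Q :=
  genX χ (mu (i₀, List.replicate n true) t d)

lemma gen_X_mu [Group Q] (χ : GI I →* Q)
    (hχ : ∀ g ∈ LT ι, g ∈ Fix I → genX χ g = 1) {i₀ : ι} (hi₀ : i₀ ∈ I) {c : Cell ι}
    (hc : c.1 ∈ I) (t : Ty) (d : Dir) : genX χ (mu c t d) = genM χ i₀ c.2.length t d :=
  gen_X_level χ hχ (c := (i₀, List.replicate c.2.length true)) hi₀ hc (by simp) t d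

lemma gen_M_Ta [Group Q] (χ : GI I →* Q) (i₀ : ι) (n : ℕ) : genM χ i₀ n .T .a = 1 := by
  rw [genM, mu, nu_T_a, map_one, gen_X_one]

lemma gen_M_sq [Group Q] (χ : GI I →* Q)
    (hχ : ∀ g ∈ LT ι, g ∈ Fix I → genX χ g = 1) {i₀ : ι} (hi₀ : i₀ ∈ I) (n : ℕ) {t : Ty}
    {d d' : Dir} (h : valid t d = true) (h' : valid t d' = true) (hne : d ≠ d') :
    genM χ i₀ n t d * genM χ i₀ (n + 1) (ht t d true) (tr t d true d') *
        genM χ i₀ (n + 1) (ht t d false) (tr t d false d') =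
      genM χ i₀ n t d' * genM χ i₀ (n + 1) (ht t d' true) (tr t d' true d) *
        genM χ i₀ (n + 1) (ht t d' false) (tr t d' false d) := by
  set c : Cell ι := (i₀, List.replicate n true) with hc
  have hc1 : c.1 ∈ I := hi₀
  have hch : ∀ β, (child c β).1 ∈ I := fun _ => hi₀
  have hcl : c.2.length = n := by simp [hc]
  have hchl : ∀ β, (child c β).2.length = n + 1 := fun β => by simp [child, hcl]
  have e := congrArg (genX χ) (mu_sq c h h' hne)
  have hs : sw (child (child c true) false) (child (child c false) true) ∈ Fix I :=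
    sw_mem_Fix hi₀ hi₀
  rw [gen_X_mul χ (mul_mem (gen_mu_mem hc1 _ _) (gen_mu_mem (hch _) _ _)) (gen_mu_mem (hch _) _ _),
    gen_X_mul χ (gen_mu_mem hc1 _ _) (gen_mu_mem (hch _) _ _),
    gen_X_mul χ (mul_mem (mul_mem (gen_mu_mem hc1 _ _) (gen_mu_mem (hch _) _ _))
      (gen_mu_mem (hch _) _ _)) (gen_LT_mem (sw_mem_LT _ _) hs),
    gen_X_mul χ (mul_mem (gen_mu_mem hc1 _ _) (gen_mu_mem (hch _) _ _)) (gen_mu_mem (hch _) _ _),
    gen_X_mul χ (gen_mu_mem hc1 _ _) (gen_mu_mem (hch _) _ _), hχ _ (sw_mem_LT _ _) hs, mul_one,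
    gen_X_mu χ hχ hi₀ hc1, gen_X_mu χ hχ hi₀ hc1, gen_X_mu χ hχ hi₀ (hch _),
    gen_X_mu χ hχ hi₀ (hch _), gen_X_mu χ hχ hi₀ (hch _), gen_X_mu χ hχ hi₀ (hch _),
    hcl, hchl, hchl] at e
  exact e

/-- the potential -/
def genPot [CommGroup Q] (m : ℕ → Ty → Dir → Q) : ℕ → Ty → Q
  | _, .T => 1
  | 0, _ => 1
  | n + 1, .Y => m n .T .b
  | n + 1, .Z => m n .T .c
  | 1, .W => 1
  | n + 2, .W => m (n + 1) .Y .c * m n .T .b / m (n + 1) .T .b

lemma gen_pot_T [CommGroup Q] (m : ℕ → Ty → Dir → Q) (n : ℕ) : genPot m n .T = 1 := by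
  cases n <;> rfl

lemma gen_pot_step [CommGroup Q] (m : ℕ → Ty → Dir → Q) (ha : ∀ n, m n .T .a = 1)
    (hsq : ∀ (n : ℕ) {t : Ty} {d d' : Dir}, valid t d = true → valid t d' = true → d ≠ d' →
      m n t d * m (n + 1) (ht t d true) (tr t d true d') *
          m (n + 1) (ht t d false) (tr t d false d') =
        m n t d' * m (n + 1) (ht t d' true) (tr t d' true d) *
          m (n + 1) (ht t d' false) (tr t d' false d))
    {n : ℕ} {t : Ty} {d : Dir} (hn : t.sz ≤ n) (hd : valid t d = true) :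
    m n t d * genPot m n t = genPot m (n + 1) (ht t d true) * genPot m (n + 1) (ht t d false) := by
  have hab : ∀ k, m (k + 1) .T .b = m k .T .b * m (k + 1) .Y .a := fun k => by
    have := hsq k (t := .T) (d := .a) (d' := .b) rfl rfl (by decide)
    simpa [ht, tr, ha] using this
  have hac : ∀ k, m (k + 1) .T .c * m (k + 1) .T .b = m k .T .c * m (k + 1) .Z .a := fun k => by
    have := hsq k (t := .T) (d := .a) (d' := .c) rfl rfl (by decide)
    simpa [ht, tr, ha] using this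
  have hbc : ∀ k, m k .T .b * m (k + 1) .T .c * m (k + 1) .Y .c =
      m k .T .c * m (k + 1) .T .b * m (k + 1) .Z .b := fun k => by
    have := hsq k (t := .T) (d := .b) (d' := .c) rfl rfl (by decide)
    simpa [ht, tr, ha] using this
  have hY : ∀ k, m k .Y .a * m (k + 1) .Y .c =
      m k .Y .c * m (k + 1) .Y .a * m (k + 1) .W .a := fun k => by
    have := hsq k (t := .Y) (d := .a) (d' := .c) rfl rfl (by decide)
    simpa [ht, tr, ha] using this
  cases t <;> cases d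
  · simp [ht, gen_pot_T, ha]
  · simp [ht, gen_pot_T, genPot]
  · simp [ht, gen_pot_T, genPot]
  · obtain ⟨k, rfl⟩ : ∃ k, n = k + 1 := ⟨n - 1, by simp [Ty.sz] at hn; omega⟩
    simp only [ht, genPot, mul_one]
    rw [hab k, mul_comm]
  · simp [valid, Ty.z1] at hd
  · obtain ⟨k, rfl⟩ : ∃ k, n = k + 1 := ⟨n - 1, by simp [Ty.sz] at hn; omega⟩
    simp only [ht, genPot]
    rw [mul_div_cancel]
  · obtain ⟨k, rfl⟩ : ∃ k, n = k + 1 := ⟨n - 1, by simp [Ty.sz] at hn; omega⟩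
    simp only [ht, genPot]
    rw [hac k, mul_comm]
  · obtain ⟨k, rfl⟩ : ∃ k, n = k + 1 := ⟨n - 1, by simp [Ty.sz] at hn; omega⟩
    simp only [ht, genPot]
    have := hbc k
    rw [← mul_div_assoc, eq_div_iff_mul_eq']
    calc m (k + 1) .Z .b * m k .T .c * m (k + 1) .T .b
        = m k .T .c * m (k + 1) .T .b * m (k + 1) .Z .b := by ac_rfl
      _ = m k .T .b * m (k + 1) .T .c * m (k + 1) .Y .c := this.symm
      _ = _ := by ac_rfl
  · simp [valid, Ty.z2] at hd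
  · obtain ⟨k, rfl⟩ : ∃ k, n = k + 2 := ⟨n - 2, by simp [Ty.sz] at hn; omega⟩
    simp only [ht, genPot, mul_one]
    have h1 := hY (k + 1)
    have h2 := hab k
    have h3 := hab (k + 1)
    rw [← mul_div_assoc, div_eq_div_iff_mul_eq_mul]
    calc m (k + 2) .W .a * (m (k + 1) .Y .c * m k .T .b) * m (k + 1 + 1) .T .b
        = (m (k + 1) .Y .c * m (k + 1 + 1) .Y .a * m (k + 1 + 1) .W .a) * m k .T .b *
            m (k + 1) .T .b := by rw [h3]; ac_rfl
      _ = m (k + 1 + 1) .Y .c * (m k .T .b * m (k + 1) .Y .a) * m (k + 1) .T .b := by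
            rw [← h1]; ac_rfl
      _ = _ := by rw [← h2]
  · simp [valid, Ty.z1] at hd
  · simp [valid, Ty.z2] at hd

open Classical in
/-- the type of the piece over a cell -/
noncomputable def genTy (σ : St ι) (c : Cell ι) : Ty :=
  if h : ∃ p : ι × Pc, σ.At c p.1 p.2 then h.choose.2.t else .T

lemma gen_ty_eq {σ : St ι} {c : Cell ι} {i : ι} {x : Pc} (h : σ.At c i x) : genTy σ c = x.t := by
  have h' : ∃ p : ι × Pc, σ.At c p.1 p.2 := ⟨(i, x), h⟩
  rw [genTy, dif_pos h', (St.At.unique h'.choose_spec h).2]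

/-- the potential of a state -/
noncomputable def genPS [CommGroup Q] (pot : ℕ → Ty → Q) (σ : St ι) : Q :=
  ∏ c ∈ σ.cs, pot c.2.length (genTy σ c)

lemma gen_PS_exp [CommGroup Q] (pot : ℕ → Ty → Q) {σ : St ι} (hσ : σ.Valid I) {c : Cell ι}
    {i : ι} {x : Pc} (hx : σ.At c i x) {d : Dir} (hd : valid x.t d = true) :
    genPS pot (σ.exp c x.t d) * pot c.2.length x.t =
      pot (c.2.length + 1) (ht x.t d true) * pot (c.2.length + 1) (ht x.t d false) *
        genPS pot σ := by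
  have hty : ∀ β, genTy (σ.exp c x.t d) (child c β) = ht x.t d β := fun β =>
    gen_ty_eq ((St.at_exp hσ hx hd).2 (Or.inl ⟨β, rfl, rfl, rfl⟩))
  have hn : ∀ β, child c β ∉ σ.cs.erase c := fun β h =>
    hσ.child_notMem hx.1 β (Finset.mem_of_mem_erase h)
  have hne : child c true ≠ child c false := by simp [child]
  have h1 : genPS pot (σ.exp c x.t d) = pot (c.2.length + 1) (ht x.t d true) *
      (pot (c.2.length + 1) (ht x.t d false) *
        ∏ c' ∈ σ.cs.erase c, pot c'.2.length (genTy σ c')) := by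
    have e : (σ.exp c x.t d).cs =
        insert (child c true) (insert (child c false) (σ.cs.erase c)) := rfl
    rw [genPS, e, Finset.prod_insert (by
      rw [Finset.mem_insert, not_or]; exact ⟨hne, hn true⟩), Finset.prod_insert (hn false), hty, hty]
    congr 2
    refine Finset.prod_congr rfl fun c' hc' => ?_
    obtain ⟨i', x', hx'⟩ := hσ.piece c' (Finset.mem_of_mem_erase hc')
    rw [gen_ty_eq hx', gen_ty_eq ((St.at_exp hσ hx hd).2
      (Or.inr ⟨Finset.ne_of_mem_erase hc', hx'⟩))]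
  have h2 : genPS pot σ = pot c.2.length x.t *
      ∏ c' ∈ σ.cs.erase c, pot c'.2.length (genTy σ c') := by
    rw [genPS, ← Finset.mul_prod_erase _ _ hx.1, gen_ty_eq hx]
  rw [h1, h2]
  ac_rfl

lemma gen_PS_perm [CommGroup Q] (pot : ℕ → Ty → Q) {σ : St ι} (hσ : σ.Valid I)
    {g : Perm (ι × Om)} {cs' : Finset (Cell ι)} (h₁ : ∀ c' ∈ cs', ∃ c ∈ σ.cs, Rig g c' c)
    (h₂ : ∀ c ∈ σ.cs, ∃ c' ∈ cs', Rig g c' c) :
    genPS pot (⟨cs', σ.th * g⟩ : St ι) = genPS pot σ := by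
  choose f hf hr using h₁
  refine Finset.prod_bij f hf ?_ ?_ ?_
  · intro a ha b hb hab
    have h1 := (hr a ha).inv
    have h2 := (hr b hb).inv
    rw [hab] at h1
    exact h1.unique h2
  · intro c hc
    obtain ⟨c', hc', hr'⟩ := h₂ c hc
    exact ⟨c', hc', (hr c' hc').unique hr'⟩
  · intro c' hc'
    obtain ⟨i, x, hx⟩ := hσ.piece _ (hf c' hc')
    rw [gen_ty_eq hx, gen_ty_eq ((St.at_perm (hf c' hc') hc' (hr c' hc')).2 hx), (hr c' hc').1]

lemma gen_PS_lmul [CommGroup Q] (pot : ℕ → Ty → Q) {σ : St ι} (hσ : σ.Valid I)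
    {g : Perm (ι × Om)} (hm : σ.Match g) : genPS pot (σ.lmul g) = genPS pot σ := by
  refine Finset.prod_congr rfl fun c hc => ?_
  obtain ⟨i, x, hx⟩ := hσ.piece c hc
  obtain ⟨i', m', h'⟩ := hm c i x hx
  rw [gen_ty_eq hx, gen_ty_eq h']

lemma gen_path [CommGroup Q] (χ : GI I →* Q)
    (hχ : ∀ g ∈ LT ι, g ∈ Fix I → genX χ g = 1) {i₀ : ι} (hi₀ : i₀ ∈ I) {σ σ' : St ι}
    {h : Perm (ι × Om)} (p : Path I (gInterp ι) σ σ' h) (hσ : σ.Valid I) :
    h ∈ GI I ∧ genX χ h * genPS (genPot (genM χ i₀)) σ = genPS (genPot (genM χ i₀)) σ' := by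
  induction p with
  | refl σ => exact ⟨one_mem _, by rw [gen_X_one, one_mul]⟩
  | @exp σ σ' c i x d h hx hd _ ih =>
    obtain ⟨h1, h2⟩ := ih (hσ.exp hx hd)
    have hc : c.1 ∈ I := hσ.mem c hx.1
    have hm : (gInterp ι).mu c x.t d = mu c x.t d := rfl
    rw [hm]
    refine ⟨mul_mem (gen_mu_mem hc _ _) h1, ?_⟩
    have hsz : x.t.sz ≤ c.2.length := by
      have := hx.2.1
      rw [Pc.lvl] at this
      omega
    have h3 := gen_pot_step (genM χ i₀) (gen_M_Ta χ i₀)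
      (fun n _ _ _ a b c => gen_M_sq χ hχ hi₀ n a b c) hsz hd
    have h4 := gen_PS_exp (genPot (genM χ i₀)) hσ hx hd
    rw [← h3] at h4
    rw [gen_X_mul χ (gen_mu_mem hc _ _) h1, gen_X_mu χ hχ hi₀ hc, ← h2]
    have h5 : genPS (genPot (genM χ i₀)) (σ.exp c x.t d) =
        genM χ i₀ c.2.length x.t d * genPS (genPot (genM χ i₀)) σ := by
      apply mul_right_cancel (b := genPot (genM χ i₀) c.2.length x.t)
      rw [h4]
      ac_rfl
    rw [h5]
    ac_rfl
  | @perm σ σ' g cs' h hg h₁ h₂ _ ih =>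
    obtain ⟨h1, h2⟩ := ih (hσ.perm hg h₁ h₂)
    have hm : (gInterp ι).v g = g.1 := rfl
    rw [hm]
    refine ⟨mul_mem (gen_LT_mem g.2 hg) h1, ?_⟩
    rw [gen_X_mul χ (gen_LT_mem g.2 hg) h1, hχ _ g.2 hg, one_mul, ← h2, gen_PS_perm _ hσ h₁ h₂]

lemma gen_comm_trivial [CommGroup Q] (χ : GI I →* Q)
    (hχ : ∀ g ∈ LT ι, g ∈ Fix I → genX χ g = 1) {i₀ : ι} (hi₀ : i₀ ∈ I) {g : Perm (ι × Om)}
    (hg : g ∈ GI I) : genX χ g = 1 := by
  obtain ⟨h, v⟩ := exists_val (gInterp ι) hg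
  have e : h = g := v.lift (MonoidHom.id _) (fun _ => rfl) (fun _ _ _ => rfl)
  obtain ⟨σ, h₁, h₂, p₁, p₂, hm, rfl⟩ := v
  obtain ⟨a1, a2⟩ := gen_path χ hχ hi₀ p₁ (St.valid_root I)
  obtain ⟨b1, b2⟩ := gen_path χ hχ hi₀ p₂ (St.valid_root I)
  rw [gen_PS_lmul _ (p₁.toValid (St.valid_root I)) hm, ← a2] at b2
  rw [← e, gen_X_mul χ b1 (inv_mem a1), gen_X_inv χ a1, mul_right_cancel b2, mul_inv_cancel]

lemma gen_comm [Group Q] (χ : GI I →* Q) (hs : Function.Surjective χ)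
    (hχ : ∀ g ∈ LT ι, g ∈ Fix I → genX χ g = 1) (hI : 2 ≤ I.card) (a b : Q) : a * b = b * a := by
  obtain ⟨i₀, hi₀, i₁, hi₁, hne⟩ := Finset.one_lt_card.1 (show 1 < I.card by omega)
  set S : Set Q := {q | ∃ n t d, q = genM χ i₀ n t d} with hS
  have htop : ∀ q : Q, q ∈ Subgroup.closure S := by
    intro q
    obtain ⟨⟨g, hg⟩, rfl⟩ := hs q
    obtain ⟨h, v⟩ := exists_val (gInterp ι) hg
    have e : h = g := v.lift (MonoidHom.id _) (fun _ => rfl) (fun _ _ _ => rfl)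
    subst e
    have := v.mem (((Subgroup.closure S).comap χ).map (GI I).subtype)
      (fun g hg => ⟨⟨g.1, gen_LT_mem g.2 hg⟩, by
        change χ _ ∈ Subgroup.closure S
        rw [← gen_X_eq χ (gen_LT_mem g.2 hg), hχ _ g.2 hg]
        exact one_mem _, rfl⟩)
      (fun c t d hc => ⟨⟨mu c t d, gen_mu_mem hc t d⟩, by
        change χ _ ∈ Subgroup.closure S
        rw [← gen_X_eq χ (gen_mu_mem hc t d), gen_X_mu χ hχ hi₀ hc]
        exact Subgroup.subset_closure ⟨_, _, _, rfl⟩, rfl⟩)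
    obtain ⟨g', hg', rfl⟩ := this
    exact hg'
  have hcomm : ∀ x ∈ S, ∀ y ∈ S, x * y = y * x := by
    rintro _ ⟨n, t, d, rfl⟩ _ ⟨n', t', d', rfl⟩
    have e : genM χ i₀ n' t' d' = genX χ (mu (i₁, List.replicate n' true) t' d') := by
      rw [gen_X_mu χ hχ hi₀ (c := (i₁, List.replicate n' true)) hi₁]
      simp
    have hd : Disjoint (cset ((i₀, List.replicate n true) : Cell ι))
        (cset ((i₁, List.replicate n' true) : Cell ι)) := by
      rw [Set.disjoint_left]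
      intro x h1 h2
      exact hne ((fst_of_mem_cset h1).symm.trans (fst_of_mem_cset h2))
    have hc : Commute (mu (i₀, List.replicate n true) t d) (mu (i₁, List.replicate n' true) t' d') :=
      (gInterp ι).comm _ _ t t' d d' hd
    rw [e, genM, ← gen_X_mul χ (gen_mu_mem (c := (i₀, _)) hi₀ _ _) (gen_mu_mem (c := (i₁, _)) hi₁ _ _),
      ← gen_X_mul χ (gen_mu_mem (c := (i₁, _)) hi₁ _ _) (gen_mu_mem (c := (i₀, _)) hi₀ _ _), hc.eq]
  have h1 : ∀ y ∈ S, ∀ x : Q, x * y = y * x := by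
    intro y hy x
    have : Subgroup.closure S ≤ Subgroup.centralizer {y} := by
      rw [Subgroup.closure_le]
      intro z hz
      rw [SetLike.mem_coe, Subgroup.mem_centralizer_singleton_iff]
      exact hcomm z hz y hy
    exact Subgroup.mem_centralizer_singleton_iff.1 (this (htop x))
  have : Subgroup.closure S ≤ Subgroup.centralizer {b} := by
    rw [Subgroup.closure_le]
    intro z hz
    rw [SetLike.mem_coe, Subgroup.mem_centralizer_singleton_iff]
    exact (h1 z hz b).symm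
  exact Subgroup.mem_centralizer_singleton_iff.1 (this (htop a))

end GenAux


/-- Proof. Let `Γ = GI I`, `N = M.subgroupOf Γ` (normal), `χ : Γ → Q = Γ ⧸ N`.
(1) `Γ` is generated by the `mu c t d`, `c.1 ∈ I`, and `LT ⊓ Fix I` (`exists_val`, `Val.lift`,
`Val.mem` for `gInterp`).
(2) `χ (mu c t d)` only depends on the level of `c` (`loc_conj` with `sw c c'`): call it
`m n t d`. Taking the cells in two different copies of `I`, all `m n t d` commute, so `Q` is
commutative.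
(3) Potential: `pot n T = 1`, `pot (n+1) Y = m n T b`, `pot (n+1) Z = m n T c`,
`pot (n+2) W = m (n+1) Y c * pot (n+1) Y / pot (n+2) Y`. From `mu_sq` and `nu_T_a`:
`m n t d * pot n t = pot (n+1) (ht t d true) * pot (n+1) (ht t d false)` for `t.sz ≤ n` and valid
`t d` (squares `(T; a, b)`, `(T; a, c)`, `(T; b, c)` at level `n` give `(Y, a)`, `(Z, a)`, `(Z, b)` at
level `n + 1`, the square `(Y; a, c)` at level `n + 1` gives `(W, a)` at level `n + 2`).
(4) With `Pot σ = ∏ c ∈ σ.cs, pot (level of c) (type of the piece at c)`, a path `σ → σ'` of value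
`h` has `h ∈ Γ` and `χ h * Pot σ = Pot σ'`. For `Val I gInterp g h` the two targets have the same
potential (`Match`), so `χ g = 1`. -/
theorem GI_le_of_LT {I : Finset ι} (hI : 2 ≤ I.card) (M : Subgroup (Perm (ι × Om)))
    (hLT : ∀ g ∈ LT ι, g ∈ Fix I → g ∈ M) (hn : ∀ g ∈ GI I, ∀ m ∈ M, g * m * g⁻¹ ∈ M) :
    GI I ≤ M := by
  haveI hN : (M.subgroupOf (GI I)).Normal := ⟨fun m hm g => hn g.1 g.2 m.1 hm⟩
  set χ := QuotientGroup.mk' (M.subgroupOf (GI I)) with hχd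
  have hχ : ∀ g ∈ LT ι, g ∈ Fix I → genX χ g = 1 := fun g hg hg' => by
    rw [gen_X_eq χ (gen_LT_mem hg hg')]
    exact (QuotientGroup.eq_one_iff _).2 (hLT g hg hg')
  have hc := gen_comm χ (QuotientGroup.mk'_surjective _) hχ hI
  letI : CommGroup (GI I ⧸ M.subgroupOf (GI I)) :=
    { (inferInstance : Group (GI I ⧸ M.subgroupOf (GI I))) with mul_comm := hc }
  obtain ⟨i₀, hi₀⟩ : I.Nonempty := Finset.card_pos.1 (by omega)
  intro g hg
  have := gen_comm_trivial χ hχ hi₀ hg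
  rw [gen_X_eq χ hg] at this
  exact (QuotientGroup.eq_one_iff (N := M.subgroupOf (GI I)) ⟨g, hg⟩).1 this

end Crest.Agent.R189
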