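import Crest.Agent.R189.Gen
import Crest.Agent.R189.UC

/-!
# Row 189, task GenFG, auxiliary file: multisections, the class of good sets, words for markings
-/

set_option autoImplicit false

namespace Crest.Agent.R189.GenFG

open Equiv
open scoped commutatorElement

section Ms

variable {κ κ' X : Type}

/-- the sheets `F k` are injective on `S` with disjoint images -/
def Inj (S : Set Om) (F : κ → Om → X) : Prop :=
  ∀ k k' y y', y ∈ S → y' ∈ S → F k y = F k' y' → k = k' ∧ y = y'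

/-- `g` permutes the sheets `F k` over `S` as `π` and fixes the other points -/
def Ms (S : Set Om) (F : κ → Om → X) (π : Perm κ) (g : Perm X) : Prop :=
  (∀ k, ∀ y ∈ S, g (F k y) = F (π k) y) ∧ ∀ x, (∀ k, ∀ y ∈ S, x ≠ F k y) → g x = x

variable {S S' : Set Om} {F F' : κ → Om → X} {π ρ : Perm κ} {g g' : Perm X}

theorem Inj.mono (h : Inj S F) (hS : S' ⊆ S) : Inj S' F :=
  fun k k' y y' hy hy' => h k k' y y' (hS hy) (hS hy')

theorem Inj.comp (h : Inj S F) {e : κ' → κ} (he : Function.Injective e) :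
    Inj S (fun k => F (e k)) := fun _ _ y y' hy hy' hF =>
  ⟨he (h _ _ y y' hy hy' hF).1, (h _ _ y y' hy hy' hF).2⟩

theorem Ms.unique (h : Ms S F π g) (h' : Ms S F π g') : g = g' := by
  ext1 x
  by_cases hx : ∀ k, ∀ y ∈ S, x ≠ F k y
  · rw [h.2 x hx, h'.2 x hx]
  · push Not at hx
    obtain ⟨k, y, hy, rfl⟩ := hx
    rw [h.1 k y hy, h'.1 k y hy]

theorem Ms.mul (h : Ms S F π g) (h' : Ms S F ρ g') : Ms S F (π * ρ) (g * g') :=
  ⟨fun k y hy => by rw [Perm.mul_apply, h'.1 k y hy, h.1 _ y hy, Perm.mul_apply],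
    fun x hx => by rw [Perm.mul_apply, h'.2 x hx, h.2 x hx]⟩

theorem Ms.inv (h : Ms S F π g) : Ms S F π⁻¹ g⁻¹ :=
  ⟨fun k y hy => by
    rw [Perm.inv_eq_iff_eq, h.1 _ y hy]
    simp, fun x hx => by rw [Perm.inv_eq_iff_eq, h.2 x hx]⟩

theorem Inj.exists (h : Inj S F) (π : Perm κ) : ∃ g, Ms S F π g := by
  let φ : κ × S ↪ X := ⟨fun p => F p.1 p.2.1, fun p q hpq => by
    obtain ⟨h1, h2⟩ := h _ _ _ _ p.2.2 q.2.2 hpq
    exact Prod.ext h1 (Subtype.ext h2)⟩
  refine ⟨Perm.viaEmbedding (Equiv.prodCongr π (Equiv.refl S)) φ, fun k y hy => ?_, fun x hx => ?_⟩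
  · exact Perm.viaEmbedding_apply (Equiv.prodCongr π (Equiv.refl S)) φ (k, ⟨y, hy⟩)
  · refine Perm.viaEmbedding_apply_of_notMem _ φ x ?_
    rintro ⟨p, rfl⟩
    exact hx p.1 p.2.1 p.2.2 rfl

theorem Ms.conj (h : Ms S F π g) (a : Perm X) :
    Ms S (fun k y => a (F k y)) π (a * g * a⁻¹) := by
  refine ⟨fun k y hy => ?_, fun x hx => ?_⟩
  · simp [h.1 k y hy]
  · have : g (a⁻¹ x) = a⁻¹ x := h.2 _ fun k y hy e => hx k y hy (Perm.inv_eq_iff_eq.1 e)
    rw [Perm.mul_apply, Perm.mul_apply, this]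
    simp

theorem Ms.congr (h : Ms S F π g) (e : ∀ k, ∀ y ∈ S, F k y = F' k y) : Ms S F' π g :=
  ⟨fun k y hy => by rw [← e k y hy, ← e _ y hy, h.1 k y hy],
    fun x hx => h.2 x fun k y hy => by rw [e k y hy]; exact hx k y hy⟩

theorem Ms.reparam {e : Om → Om} (h : Ms (e '' S) F π g) : Ms S (fun k y => F k (e y)) π g :=
  ⟨fun k y hy => h.1 k _ ⟨y, hy, rfl⟩, fun x hx => h.2 x (by
    rintro k _ ⟨y, hy, rfl⟩
    exact hx k y hy)⟩

theorem Ms.restrict (h : Ms S F π g) {e : κ' → κ} {π' : Perm κ'} (h1 : ∀ k, π (e k) = e (π' k))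
    (h2 : ∀ k, (∀ k', e k' ≠ k) → π k = k) : Ms S (fun k => F (e k)) π' g := by
  refine ⟨fun k y hy => by rw [h.1 _ y hy, h1], fun x hx => ?_⟩
  by_cases hx' : ∀ k, ∀ y ∈ S, x ≠ F k y
  · exact h.2 x hx'
  · push Not at hx'
    obtain ⟨k, y, hy, rfl⟩ := hx'
    rw [h.1 k y hy, h2 k]
    rintro k' rfl
    exact hx k' y hy rfl

theorem Ms.union (hi : Inj (S ∪ S') F) (hd : Disjoint S S') (h : Ms S F π g)
    (h' : Ms S' F π g') : Ms (S ∪ S') F π (g * g') := by
  have key : ∀ k k' y y', y ∈ S → y' ∈ S' → F k y ≠ F k' y' := by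
    intro k k' y y' hy hy' e
    obtain ⟨-, rfl⟩ := hi k k' y y' (Or.inl hy) (Or.inr hy') e
    exact Set.disjoint_left.1 hd hy hy'
  refine ⟨fun k y hy => ?_, fun x hx => ?_⟩
  · rcases hy with hy | hy
    · rw [Perm.mul_apply, h'.2 _ fun k' y' hy' => key k k' y y' hy hy', h.1 k y hy]
    · rw [Perm.mul_apply, h'.1 k y hy, h.2 _ fun k' y' hy' => (key k' _ y' y hy' hy).symm]
  · rw [Perm.mul_apply, h'.2 x fun k y hy => hx k y (Or.inr hy),
      h.2 x fun k y hy => hx k y (Or.inl hy)]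

end Ms

/-! ### words for markings -/

theorem V_add_zero (v : V) : v.add 0 = v := by
  cases v <;> simp [V.add]

theorem Aom_comm (d : Dir) (y : Om) : Aom .a (Aom d y) = Aom d (Aom .a y) := by
  funext n
  cases d
  · rfl
  all_goals
    match n with
    | 0 => simp [Aom, bump, V_add_zero]
    | 1 => simp [Aom, bump, V_add_zero]
    | 2 => simp [Aom, bump, V_add_zero]
    | n + 3 => simp [Aom, bump]

theorem Com_Aom (y : Om) : Com (Aom .a y) = Aom .b (Com y) := by
  funext n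
  match n with
  | 0 => simp [Aom, bump, Com, cons, V_add_zero]
  | 1 => simp [Aom, bump, Com, cons]
  | 2 => simp [Aom, bump, Com, cons, V_add_zero]
  | 3 => simp [Aom, bump, Com, cons, V_add_zero]
  | n + 4 => simp [Aom, bump, Com, cons]

theorem iter_comm (d : Dir) (n : ℕ) (y : Om) :
    (Aom .a)^[n] (Aom d y) = Aom d ((Aom .a)^[n] y) :=
  (Function.Commute.iterate_left (f := Aom .a) (g := Aom d) (Aom_comm d) n) y

theorem iter_comm' (d : Dir) (n : ℕ) (y : Om) :
    (Aom d)^[n] (Aom .a y) = Aom .a ((Aom d)^[n] y) :=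
  (Function.Commute.iterate_left (f := Aom d) (g := Aom .a) (fun y => (Aom_comm d y).symm) n) y

theorem Com_iter (n : ℕ) (y : Om) : Com ((Aom .a)^[n] y) = (Aom .b)^[n] (Com y) :=
  (Function.Semiconj.iterate_right (f := Com) Com_Aom n) y

theorem hat_u_pow (n : ℕ) (z : Om) : (hat .u ^ n) ((Aom .b)^[n] z) = (Aom .a)^[n] z := by
  induction n generalizing z with
  | zero => rfl
  | succ n ih =>
    rw [pow_succ, Perm.mul_apply, Function.iterate_succ_apply', hat_u, ← iter_comm', ih,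
      Function.iterate_succ_apply]

theorem hatF_of (x : Lt) : hatF (FreeGroup.of x) = hat x := FreeGroup.lift_apply_of

/-- `f` is `Aom a ^ n` followed by a word -/
def Rch (n : ℕ) (f : Om → Om) : Prop := ∃ γ : FG, ∀ y, hatF γ ((Aom .a)^[n] y) = f y

theorem Rch.A {n : ℕ} {f : Om → Om} (h : Rch n f) (d : Dir) :
    Rch (n + 1) (fun y => f (Aom d y)) := by
  obtain ⟨γ, h⟩ := h
  have hu : ∀ z, (hat .u)⁻¹ (Aom .a z) = Aom .b z := fun z => by
    rw [Perm.inv_eq_iff_eq, hat_u]
  have hw : ∀ z, (hat .w)⁻¹ (Aom .b z) = Aom .c z := fun z => by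
    rw [Perm.inv_eq_iff_eq, hat_w]
  cases d
  · exact ⟨γ, fun y => by rw [Function.iterate_succ_apply, h]⟩
  · refine ⟨γ * (FreeGroup.of Lt.u)⁻¹, fun y => ?_⟩
    rw [map_mul, map_inv, hatF_of, Perm.mul_apply, Function.iterate_succ_apply', hu, ← iter_comm, h]
  · refine ⟨γ * (FreeGroup.of Lt.w)⁻¹ * (FreeGroup.of Lt.u)⁻¹, fun y => ?_⟩
    rw [map_mul, map_mul, map_inv, map_inv, hatF_of, hatF_of, Perm.mul_apply, Perm.mul_apply,
      Function.iterate_succ_apply', hu, hw, ← iter_comm, h]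

theorem Rch.C {n : ℕ} {f : Om → Om} (h : Rch n f) : Rch (n + 1) (fun y => f (Com y)) := by
  obtain ⟨γ, h⟩ := h
  refine ⟨γ * (FreeGroup.of Lt.u) ^ n * FreeGroup.of Lt.c, fun y => ?_⟩
  rw [map_mul, map_mul, map_pow, hatF_of, hatF_of, Perm.mul_apply, Perm.mul_apply,
    Function.iterate_succ_apply', hat_c_A, Com_iter, hat_u_pow, h]

theorem Rch.Cs {n : ℕ} {f : Om → Om} (h : Rch n f) (k : ℕ) :
    Rch (n + k) (fun y => f (Com^[k] y)) := by
  induction k with
  | zero => exact h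
  | succ k ih => exact ih.C

theorem Rch.he {n : ℕ} {f : Om → Om} (h : Rch n f) (t : Ty) (d : Dir) (β : Bool) :
    Rch (n + dg t d β) (fun y => f (he t d β y)) := by
  cases β
  · cases d
    · exact h.Cs _
    · exact h
    · exact h
  · exact h.A d

theorem rch_desc {x : Pc} (h : Desc Pc.root x) : Rch x.m.deg x.m.app := by
  induction h with
  | refl => exact ⟨1, fun y => by simp [Pc.root, deg_one, app_one]⟩
  | @half y d β _ _ ih =>
    have := ih.he y.t d β
    simp only [← app_hm] at this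
    rw [← deg_hm] at this
    exact this

theorem rch (m : Mk) : Rch m.deg m.app := rch_desc (desc_root ⟨m, .T⟩)

/-! ### the class of good sets -/

variable {ι : Type} [Fintype ι] [DecidableEq ι]

/-- the subgroup `M` contains the generators -/
structure Has (I : Finset ι) (M : Subgroup (Perm (ι × Om))) : Prop where
  card : 5 ≤ I.card
  loc : ∀ i ∈ I, ∀ x, loc (i, []) (hat x) ∈ M
  sig : ∀ o, ∀ π ∈ AI I, sig (bset o) π.1 ∈ M

/-- good sets -/
def Good (I : Finset ι) (M : Subgroup (Perm (ι × Om))) (U : Set Om) : Prop :=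
  ∀ π ∈ AI I, sig U π.1 ∈ M

variable {I : Finset ι} {M : Subgroup (Perm (ι × Om))}

theorem Has.locF (H : Has I M) {i : ι} (hi : i ∈ I) (γ : FG) :
    R189.loc (i, []) (hatF γ) ∈ M := by
  induction γ using FreeGroup.induction_on with
  | C1 => simp only [map_one]; exact one_mem _
  | of x => rw [hatF_of]; exact H.loc i hi x
  | inv_of x ih => rw [map_inv, map_inv]; exact inv_mem ih
  | mul a b ha hb => rw [map_mul, map_mul]; exact mul_mem ha hb

theorem Has.diag (H : Has I M) (γ : ι → FG) (J : Finset ι) (hJ : J ⊆ I) :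
    ∃ h ∈ M, ∀ i y, h (i, y) = (i, if i ∈ J then hatF (γ i) y else y) := by
  induction J using Finset.induction_on with
  | empty => exact ⟨1, one_mem _, fun i y => by simp⟩
  | insert a J ha ih =>
    obtain ⟨h, hM, hh⟩ := ih ((Finset.subset_insert a J).trans hJ)
    refine ⟨R189.loc (a, []) (hatF (γ a)) * h,
      mul_mem (H.locF (hJ (Finset.mem_insert_self a J)) _) hM, fun i y => ?_⟩
    rw [Perm.mul_apply, hh]
    by_cases hi : i = a
    · subst hi
      rw [loc_root_apply]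
      simp [ha]
    · rw [loc_root_apply_of_ne hi]
      simp [hi]

omit [Fintype ι] [DecidableEq ι] in
theorem mem_of_fix {π : Perm ι} (hπ : ∀ i, i ∉ I → π i = i) {i : ι} (hi : i ∈ I) : π i ∈ I := by
  by_contra h
  have := π.injective (hπ _ h)
  exact h (this.symm ▸ hi)

theorem Good.image (H : Has I M) {U : Set Om} (hU : Good I M U) (γ : FG) :
    Good I M (hatF γ '' U) := by
  intro π hπ
  obtain ⟨h, hM, hh⟩ := H.diag (fun _ => γ) I subset_rfl
  have : sig (hatF γ '' U) π.1 = h * sig U π.1 * h⁻¹ := by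
    rw [eq_mul_inv_iff_mul_eq]
    ext1 ⟨i, y⟩
    rw [Perm.mul_apply, Perm.mul_apply, hh, sig_apply, sig_apply, hh]
    by_cases hi : i ∈ I
    · have h1 : π.1 i ∈ I := mem_of_fix hπ hi
      by_cases hy : y ∈ U <;> simp [hi, h1, hy]
    · have h1 : π.1 i = i := hπ i hi
      simp [hi, h1]
  rw [this]
  exact mul_mem (mul_mem hM (hU π hπ)) (inv_mem hM)

theorem Good.compl (H : Has I M) {U : Set Om} (hU : Good I M U) : Good I M Uᶜ := by
  intro π hπ
  have : sig Uᶜ π.1 = sig (bset none) π.1 * (sig U π.1)⁻¹ := by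
    rw [eq_mul_inv_iff_mul_eq]
    ext1 ⟨i, y⟩
    rw [Perm.mul_apply, sig_apply, sig_apply, sig_apply]
    by_cases hy : y ∈ U <;> simp [hy, bset]
  rw [this]
  exact mul_mem (H.sig none π hπ) (inv_mem (hU π hπ))

omit [Fintype ι] [DecidableEq ι] in
theorem sig_commutator (U U' : Set Om) (π ρ : Perm ι) :
    ⁅sig U π, sig U' ρ⁆ = sig (U ∩ U') ⁅π, ρ⁆ := by
  ext1 ⟨i, y⟩
  simp only [commutatorElement_def, ← map_inv, Perm.mul_apply, sig_apply]
  by_cases hy : y ∈ U <;> by_cases hy' : y ∈ U' <;> simp [hy, hy']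

theorem Good.inter (H : Has I M) {U U' : Set Om} (hU : Good I M U) (hU' : Good I M U') :
    Good I M (U ∩ U') := by
  intro π hπ
  have : ⁅AI I, AI I⁆ ≤ M.comap ((sig (U ∩ U')).comp (alternatingGroup ι).subtype) := by
    rw [Subgroup.commutator_le]
    intro a ha b hb
    have e : ((sig (U ∩ U')).comp (alternatingGroup ι).subtype) ⁅a, b⁆ =
        ⁅sig U a.1, sig U' b.1⁆ := by
      rw [sig_commutator]
      rfl
    rw [Subgroup.mem_comap, e, commutatorElement_def]
    exact mul_mem (mul_mem (mul_mem (hU a ha) (hU' b hb)) (inv_mem (hU a ha))) (inv_mem (hU' b hb))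
  rw [commutator_AI H.card] at this
  exact this hπ

theorem iter_ix (n : ℕ) (y : Om) : (Aom .a)^[n] y 1 = y 1 ∧ (Aom .a)^[n] y 2 = y 2 := by
  induction n with
  | zero => exact ⟨rfl, rfl⟩
  | succ n ih =>
    rw [Function.iterate_succ_apply']
    simpa [Aom, bump, V_add_zero] using ih

theorem Has.good_range (H : Has I M) (n : ℕ) : Good I M (Set.range (Aom .a)^[n]) := by
  induction n with
  | zero =>
    have : Set.range (Aom .a)^[0] = bset none := by simp [bset]
    rw [this]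
    exact H.sig none
  | succ n ih =>
    have : Set.range (Aom .a)^[n + 1] =
        hatF (FreeGroup.of Lt.u) '' (bset (some .b) ∩ Set.range (Aom .a)^[n]) := by
      rw [hatF_of]
      ext z
      constructor
      · rintro ⟨y, rfl⟩
        refine ⟨Aom .b ((Aom .a)^[n] y), ⟨?_, Aom .b y, iter_comm _ _ _⟩, ?_⟩
        · rw [← range_Aom]
          exact ⟨_, rfl⟩
        · rw [hat_u, Function.iterate_succ_apply']
      · rintro ⟨_, ⟨h1, y, rfl⟩, rfl⟩
        have h2 : y ∈ bset (some .b) := by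
          have := (iter_ix n y).1
          simp only [bset, Dir.ix, Set.mem_ofPred_eq] at h1 ⊢
          rwa [this] at h1
        rw [← range_Aom] at h2
        obtain ⟨y', rfl⟩ := h2
        exact ⟨y', by rw [iter_comm, hat_u, Function.iterate_succ_apply']⟩
    rw [this]
    exact ((Good.inter H (H.sig _) ih).image H _)

theorem Has.good_ty (H : Has I M) (t : Ty) : Good I M t.set := by
  have hY : Good I M Ty.Y.set := by
    have : Ty.Y.set = (bset (some .b))ᶜ := by
      ext y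
      simp [Ty.set, bset, Dir.ix]
    rw [this]
    exact Good.compl H (H.sig _)
  have hZ : Good I M Ty.Z.set := by
    have : Ty.Z.set = (bset (some .c))ᶜ := by
      ext y
      simp [Ty.set, bset, Dir.ix]
    rw [this]
    exact Good.compl H (H.sig _)
  cases t
  · exact H.sig none
  · exact hY
  · exact hZ
  · exact Good.inter H hY hZ

theorem iter_mem (n : ℕ) (t : Ty) (y : Om) : (Aom .a)^[n] y ∈ t.set ↔ y ∈ t.set := by
  obtain ⟨h1, h2⟩ := iter_ix n y
  cases t <;> simp [Ty.set, h1, h2]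

theorem Has.good_image (H : Has I M) (n : ℕ) (t : Ty) : Good I M ((Aom .a)^[n] '' t.set) := by
  have : (Aom .a)^[n] '' t.set = Set.range (Aom .a)^[n] ∩ t.set := by
    ext z
    constructor
    · rintro ⟨y, hy, rfl⟩
      exact ⟨⟨y, rfl⟩, (iter_mem n t y).2 hy⟩
    · rintro ⟨⟨y, rfl⟩, hy⟩
      exact ⟨y, (iter_mem n t y).1 hy, rfl⟩
  rw [this]
  exact Good.inter H (H.good_range n) (H.good_ty t)

end Crest.Agent.R189.GenFG
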