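import Crest.Agent.R189.Fine

/-!
# Row 189, task Grp: the group `G`
-/

set_option autoImplicit false

namespace Crest.Agent.R189

open Equiv

/-- a relation between two markings passes to halves -/
private theorem grp_half (E : Om → Om → Prop) (s : ℤ) {t : Ty} {d : Dir} (β : Bool) {m m' : Mk}
    (hd : valid t d = true) (h1 : (m'.deg : ℤ) = m.deg + s)
    (h2 : ∀ y ∈ t.set, E (m.app y) (m'.app y)) :
    ((hm t d β m').deg : ℤ) = (hm t d β m).deg + s ∧
      ∀ y ∈ (ht t d β).set, E ((hm t d β m).app y) ((hm t d β m').app y) := by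
  refine ⟨?_, fun y hy => ?_⟩
  · rw [deg_hm, deg_hm]; push_cast; omega
  · rw [app_hm, app_hm]; exact h2 _ (he_mem hd β hy)

/-- pull a cutting back along a relation between markings -/
private theorem grp_pull (E : Om → Om → Prop) (s : ℤ) {ℬ : Pc → Prop} {x : Pc} {m' : Mk}
    (h1 : (m'.deg : ℤ) = x.m.deg + s) (h2 : ∀ y ∈ x.t.set, E (x.m.app y) (m'.app y))
    (h : Fine ℬ ⟨m', x.t⟩) :
    Fine (fun z => ∃ m'' : Mk, ((m''.deg : ℤ) = z.m.deg + s ∧
      ∀ y ∈ z.t.set, E (z.m.app y) (m''.app y)) ∧ ℬ ⟨m'', z.t⟩) x :=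
  Fine.transport
    (fun t n n' => (n'.deg : ℤ) = n.deg + s ∧ ∀ y ∈ t.set, E (n.app y) (n'.app y))
    (fun _ _ β _ _ hd hR => grp_half E s β hd hR.1 hR.2) (m := x.m) h ⟨h1, h2⟩

private theorem grp_mem_root (y : Om) : y ∈ Pc.root.set := by
  rw [root_set]; trivial

private theorem grp_app_mem {x : Pc} {y : Om} (hy : y ∈ x.t.set) : x.m.app y ∈ x.set :=
  ⟨y, hy, rfl⟩

theorem her_can1 (f : Om → Om) (s : ℤ) : Her (Can1 f s) := by
  rintro x d β hd ⟨m', h1, h2⟩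
  exact ⟨hm x.t d β m', grp_half (fun a b => f a = b) s β hd h1 h2⟩

/-- Composition. `Fine.bind` on the first hypothesis; for a leaf `⟨m, t⟩` with image `⟨m', t⟩`
use `Fine.of_subset` and `Fine.transport` with
`R t m m' := deg m' = deg m + s ∧ ∀ y ∈ t.set, f (m.app y) = m'.app y` (keep the leaves inside `x`
with `Fine.and_desc`). -/
theorem fine_can1_comp {f g : Om → Om} {s s' : ℤ} {x x' : Pc} (hf : Fine (Can1 f s) x)
    (hx : ∀ y ∈ x.set, f y ∈ x'.set) (hg : Fine (Can1 g s') x') :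
    Fine (Can1 (fun y => g (f y)) (s + s')) x := by
  refine hf.and_desc.bind ?_
  rintro z ⟨⟨m', h1, h2⟩, hz⟩
  have hsub : (⟨m', z.t⟩ : Pc).set ⊆ x'.set := by
    rintro _ ⟨y, hy, rfl⟩
    have := hx _ (hz.subset (grp_app_mem hy))
    rwa [h2 y hy] at this
  refine (grp_pull (fun a b => f a = b) s h1 h2 (hg.of_subset (her_can1 g s') hsub)).mono ?_
  rintro w ⟨m'', ⟨h3, h4⟩, n, h5, h6⟩
  refine ⟨n, ?_, fun y hy => ?_⟩
  · simp only at h5; omega
  · show g (f (w.m.app y)) = n.app y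
    rw [h4 y hy]; exact h6 y hy

theorem fine_can1_congr {f g : Om → Om} {s : ℤ} {x : Pc} (hf : Fine (Can1 f s) x)
    (h : ∀ y ∈ x.set, f y = g y) : Fine (Can1 g s) x := by
  refine hf.and_desc.mono ?_
  rintro z ⟨⟨m', h1, h2⟩, hz⟩
  exact ⟨m', h1, fun y hy => by rw [← h _ (hz.subset (grp_app_mem hy)), h2 y hy]⟩

theorem fine_can1_mul {f g : Perm Om} (hf : Fine (Can1 f 0) Pc.root)
    (hg : Fine (Can1 g 0) Pc.root) : Fine (Can1 (f * g : Perm Om) 0) Pc.root :=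
  fine_can1_comp (f := g) (g := f) (s := 0) (s' := 0) hg (fun _ _ => grp_mem_root _) hf

theorem fine_can1_one : Fine (Can1 (1 : Perm Om) 0) Pc.root :=
  Fine.base ⟨Pc.root.m, by simp, fun _ _ => rfl⟩

/-- the group of one copy -/
def G1 : Subgroup (Perm Om) where
  carrier := {f | Fine (Can1 f 0) Pc.root ∧ Fine (Can1 (f⁻¹ : Perm Om) 0) Pc.root}
  mul_mem' := fun {f g} hf hg =>
    ⟨fine_can1_mul hf.1 hg.1, by rw [mul_inv_rev]; exact fine_can1_mul hg.2 hf.2⟩
  one_mem' := ⟨fine_can1_one, by rw [inv_one]; exact fine_can1_one⟩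
  inv_mem' := fun {f} hf => ⟨hf.2, by rw [inv_inv]; exact hf.1⟩

theorem Clopen.image {U : Set Om} (h : Clopen U) {f : Perm Om} (hf : f ∈ G1) :
    Clopen (f '' U) := by
  refine Fine.bind hf.2 ?_
  rintro z ⟨m', h1, h2⟩
  refine (grp_pull (fun a b => (f⁻¹ : Perm Om) a = b) 0 h1 h2
    (Fine.of_root (her_respect U) h _)).mono ?_
  rintro w ⟨m'', ⟨-, h4⟩, h5⟩
  rcases h5 with h5 | h5
  · left
    rintro _ ⟨y, hy, rfl⟩
    refine ⟨m''.app y, h5 ⟨y, hy, rfl⟩, ?_⟩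
    rw [← h4 y hy]; simp
  · right
    rw [Set.disjoint_left] at h5 ⊢
    rintro _ ⟨y, hy, rfl⟩ ⟨u, hu, hfu⟩
    refine h5 (a := m''.app y) ⟨y, hy, rfl⟩ ?_
    rw [← h4 y hy, ← hfu]; simpa using hu

variable {ι : Type}

theorem her_can (g : ι × Om → ι × Om) (i : ι) : Her (Can g i) := by
  rintro x d β hd ⟨i', m', h1, h2⟩
  obtain ⟨h3, h4⟩ := grp_half (fun a b => g (i, a) = (i', b)) 0 β hd (by rw [h1, add_zero]) h2
  exact ⟨i', hm x.t d β m', by rw [add_zero] at h3; exact_mod_cast h3, h4⟩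

private theorem grp_can_of_fix {g : ι × Om → ι × Om} {i i' : ι} {x : Pc}
    (h : ∀ y ∈ x.set, g (i, y) = (i', y)) : Can g i x :=
  ⟨i', x.m, rfl, fun _ hy => h _ (grp_app_mem hy)⟩

theorem pc_mul {g h : Perm (ι × Om)} (hg : PC g) (hh : PC h) : PC (g * h : Perm (ι × Om)) := by
  intro i
  refine (hh i).bind ?_
  rintro z ⟨i', m', h1, h2⟩
  refine (grp_pull (fun a b => h (i, a) = (i', b)) 0 (by rw [h1, add_zero]) h2
    (Fine.of_root (her_can g i') (hg i') _)).mono ?_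
  rintro w ⟨m'', ⟨h3, h4⟩, i'', n, h5, h6⟩
  refine ⟨i'', n, ?_, fun y hy => ?_⟩
  · simp only at h5; omega
  · rw [Perm.mul_apply, h4 y hy]; exact h6 y hy

theorem pc_one : PC (1 : Perm (ι × Om)) :=
  fun _ => Fine.base (grp_can_of_fix fun _ _ => rfl)

/-- the group -/
def G (ι : Type) : Subgroup (Perm (ι × Om)) where
  carrier := {g | PC g ∧ PC (g⁻¹ : Perm (ι × Om))}
  mul_mem' := fun {g h} hg hh =>
    ⟨pc_mul hg.1 hh.1, by rw [mul_inv_rev]; exact pc_mul hh.2 hg.2⟩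
  one_mem' := ⟨pc_one, by rw [inv_one]; exact pc_one⟩
  inv_mem' := fun {g} hg => ⟨hg.2, by rw [inv_inv]; exact hg.1⟩

/-- the part of the group living on the copies in `I` -/
def GI (I : Finset ι) : Subgroup (Perm (ι × Om)) := G ι ⊓ Fix I

theorem cf_injective (c : Cell ι) : Function.Injective (cf c) := fun _ _ h =>
  app_injective _ (Prod.ext_iff.1 h).2

/-- a permutation of `Om` acting on a cell -/
noncomputable def loc (c : Cell ι) : Perm Om →* Perm (ι × Om) :=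
  Perm.viaEmbeddingHom ⟨cf c, cf_injective c⟩

theorem loc_apply (c : Cell ι) (f : Perm Om) (y : Om) : loc c f (cf c y) = cf c (f y) :=
  Perm.viaEmbedding_apply f ⟨cf c, cf_injective c⟩ y

theorem loc_apply_of_notMem (c : Cell ι) (f : Perm Om) {x : ι × Om} (hx : x ∉ cset c) :
    loc c f x = x :=
  Perm.viaEmbedding_apply_of_notMem f ⟨cf c, cf_injective c⟩ x hx

theorem loc_root_apply (i : ι) (f : Perm Om) (y : Om) : loc (i, []) f (i, y) = (i, f y) := by
  have h : ∀ z, cf ((i, []) : Cell ι) z = (i, z) := fun z => Prod.ext rfl (app_one z)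
  have := loc_apply ((i, []) : Cell ι) f y
  rwa [h, h] at this

private theorem grp_notMem {c : Cell ι} {x : ι × Om} (h : x.1 ≠ c.1) : x ∉ cset c := by
  rintro ⟨y, rfl⟩
  exact h rfl

theorem loc_root_apply_of_ne {i j : ι} (h : j ≠ i) (f : Perm Om) (y : Om) :
    loc (i, []) f (j, y) = (j, y) :=
  loc_apply_of_notMem _ f (grp_notMem h)

theorem loc_conj {g : Perm (ι × Om)} {c c' : Cell ι} (h : ∀ y, g (cf c y) = cf c' y)
    (f : Perm Om) : g * loc c f * g⁻¹ = loc c' f := by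
  rw [mul_inv_eq_iff_eq_mul]
  ext1 x
  rw [Perm.mul_apply, Perm.mul_apply]
  by_cases hx : x ∈ cset c
  · obtain ⟨y, rfl⟩ := hx
    rw [loc_apply, h, h, loc_apply]
  · rw [loc_apply_of_notMem c f hx, loc_apply_of_notMem c' f]
    rintro ⟨y, hy⟩
    exact hx ⟨y, g.injective (by rw [h, hy])⟩

theorem loc_mem_Fix (c : Cell ι) (f : Perm Om) {I : Finset ι} (hc : c.1 ∈ I) :
    loc c f ∈ Fix I :=
  fun _ hx => loc_apply_of_notMem c f (grp_notMem fun h => hx (h ▸ hc))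

private theorem grp_pc_loc (c : Cell ι) {f : Perm Om} (hf : Fine (Can1 f 0) Pc.root) :
    PC (loc c f) := by
  intro i
  by_cases hi : i = c.1
  swap
  · exact Fine.base (grp_can_of_fix fun y _ => loc_apply_of_notMem c f (grp_notMem hi))
  subst hi
  have h0 : Fine (Can (loc c f) c.1) ⟨cm c.2, .T⟩ := by
    refine (grp_pull (fun a b => a = (cm c.2).app b) (-((cm c.2).deg : ℤ)) (x := ⟨cm c.2, .T⟩)
      (m' := Mk.one) (by rw [deg_one]; simp) (fun y _ => by rw [app_one]) hf).mono ?_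
    rintro w ⟨m'', ⟨h3, h4⟩, n, h5, h6⟩
    obtain ⟨n', h7, h8⟩ := exists_comp (cm c.2) n
    refine ⟨c.1, n', ?_, fun y hy => ?_⟩
    · simp only at h5; omega
    · rw [h4 y hy, h7, ← h6 y hy]
      exact loc_apply c f _
  refine (fine_desc_or_disjoint ⟨cm c.2, .T⟩).bind ?_
  rintro z (hz | hz)
  · exact h0.desc (her_can _ _) hz
  · refine Fine.base (grp_can_of_fix fun y hy => loc_apply_of_notMem c f ?_)
    rintro ⟨u, hu⟩
    exact Set.disjoint_left.mp hz hy ⟨u, trivial, (Prod.ext_iff.1 hu).2⟩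

/-- `fine_desc_or_disjoint` for the piece `⟨cm c.2, T⟩`, `Fine.transport`, `exists_comp`. -/
theorem loc_mem (c : Cell ι) {f : Perm Om} (hf : f ∈ G1) : loc c f ∈ G ι :=
  ⟨grp_pc_loc c hf.1, by rw [← map_inv]; exact grp_pc_loc c hf.2⟩

private theorem grp_pc_sig {U : Set Om} (hU : Clopen U) (π : Perm ι) : PC (sig U π) := by
  intro i
  refine Fine.mono hU ?_
  rintro z (hz | hz)
  · exact grp_can_of_fix (i' := π i) fun y hy => by rw [sig_apply, if_pos (hz hy)]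
  · exact grp_can_of_fix (i' := i) fun y hy => by
      rw [sig_apply, if_neg (Set.disjoint_left.mp hz hy)]

theorem sig_mem {U : Set Om} (hU : Clopen U) (π : Perm ι) : sig U π ∈ G ι :=
  ⟨grp_pc_sig hU π, by rw [← map_inv]; exact grp_pc_sig hU _⟩

theorem sig_mem_Fix (U : Set Om) {π : Perm ι} {I : Finset ι} (hπ : ∀ i, i ∉ I → π i = i) :
    sig U π ∈ Fix I := by
  rintro ⟨i, y⟩ hi
  rw [sig_apply, hπ i hi, ite_self]

/-- permutations with disjoint supports commute -/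
theorem commute_of_disjoint {g h : Perm (ι × Om)} (hd : ∀ x, g x = x ∨ h x = x) :
    Commute g h :=
  Perm.Disjoint.commute hd

/-- the finite table of an element -/
theorem exists_table [Finite ι] {g : Perm (ι × Om)} (hg : g ∈ G ι) :
    ∃ T : Finset (ι × Pc × ι × Mk),
      (∀ l ∈ T, l.2.2.2.deg = l.2.1.m.deg ∧
        ∀ y ∈ l.2.1.t.set, g (l.1, l.2.1.m.app y) = (l.2.2.1, l.2.2.2.app y)) ∧
      ∀ x : ι × Om, ∃ l ∈ T, x.1 = l.1 ∧ x.2 ∈ l.2.1.set := by
  classical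
  have := Fintype.ofFinite ι
  choose T hT1 hT2 using fun i => (hg.1 i).exists_finset
  have h : ∀ (i : ι) (z : Pc), ∃ p : ι × Mk, z ∈ T i → p.2.deg = z.m.deg ∧
      ∀ y ∈ z.t.set, g (i, z.m.app y) = (p.1, p.2.app y) := by
    intro i z
    by_cases hz : z ∈ T i
    · obtain ⟨i', m', h1⟩ := hT1 i z hz
      exact ⟨(i', m'), fun _ => h1⟩
    · exact ⟨(i, z.m), fun h => absurd h hz⟩
  choose p hp using h
  refine ⟨Finset.univ.biUnion fun i => (T i).image fun z => (i, z, p i z), ?_, ?_⟩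
  · intro l hl
    obtain ⟨i, -, hl⟩ := Finset.mem_biUnion.mp hl
    obtain ⟨z, hz, rfl⟩ := Finset.mem_image.mp hl
    exact hp i z hz
  · rintro ⟨i, y⟩
    obtain ⟨z, hz, -, hy⟩ := (hT2 i).exists_mem (grp_mem_root y)
    exact ⟨(i, z, p i z), Finset.mem_biUnion.mpr ⟨i, Finset.mem_univ _,
      Finset.mem_image.mpr ⟨z, hz, rfl⟩⟩, rfl, hy⟩

end Crest.Agent.R189
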