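import Crest.Agent.R189.Model

/-!
# Row 189, task Init: the first model
-/

set_option autoImplicit false

namespace Crest.Agent.R189

open Equiv Proj

variable {ι : Type} [Fintype ι] [DecidableEq ι] {B : Type} [Group B]
variable {κ : B →* alternatingGroup ι}

/-- `h` is a product of at most `n` generators or inverses -/
def init_W {X K : Type} [Group K] (g : X → K) (n : ℕ) (h : K) : Prop :=
  ∃ l : List (X × Bool), l.length ≤ n ∧ FreeGroup.lift g (FreeGroup.mk l) = h

theorem init_W.gen {X K : Type} [Group K] (g : X → K) (x : X) : init_W g 1 (g x) :=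
  ⟨[(x, true)], le_rfl, FreeGroup.lift_apply_of⟩

theorem init_W.mul {X K : Type} [Group K] {g : X → K} {m n : ℕ} {a b : K} (ha : init_W g m a)
    (hb : init_W g n b) : init_W g (m + n) (a * b) := by
  obtain ⟨l, hl, rfl⟩ := ha
  obtain ⟨l', hl', rfl⟩ := hb
  exact ⟨l ++ l', by rw [List.length_append]; omega, by rw [← FreeGroup.mul_mk, map_mul]⟩

theorem init_W.inv {X K : Type} [Group K] {g : X → K} {n : ℕ} {a : K} (ha : init_W g n a) :
    init_W g n a⁻¹ := by
  obtain ⟨l, hl, rfl⟩ := ha
  exact ⟨FreeGroup.invRev l, by rwa [FreeGroup.invRev_length], by rw [← FreeGroup.inv_mk, map_inv]⟩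

theorem init_W.mono {X K : Type} [Group K] {g : X → K} {m n : ℕ} {a : K} (ha : init_W g m a)
    (h : m ≤ n) : init_W g n a := by
  obtain ⟨l, hl, rfl⟩ := ha
  exact ⟨l, hl.trans h, rfl⟩

/-- the group defined by all short relations -/
theorem init_pres {X K : Type} [Finite X] [Group K] (e : X → K) (L : ℕ) :
    ∃ (H : Type) (_ : Group H) (g : X → H) (p : H →* K), (∀ x, p (g x) = e x) ∧
      Subgroup.closure (Set.range g) = ⊤ ∧ Group.IsFinitelyPresented H ∧
      ∀ m n a b, init_W g m a → init_W g n b → m + n ≤ L → p a = p b → a = b := by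
  let S : Set (FreeGroup X) :=
    {r | FreeGroup.lift e r = 1 ∧ ∃ l : List (X × Bool), l.length ≤ L ∧ FreeGroup.mk l = r}
  have hS : S.Finite :=
    ((List.finite_length_le (X × Bool) L).image FreeGroup.mk).subset fun r hr => hr.2
  have : Finite S := hS
  have h1 : ∀ r ∈ S, FreeGroup.lift e r = 1 := fun r hr => hr.1
  have h2 : FreeGroup.lift (PresentedGroup.of : X → PresentedGroup S) = PresentedGroup.mk S :=
    FreeGroup.ext_hom _ _ fun x => FreeGroup.lift_apply_of
  refine ⟨PresentedGroup S, inferInstance, PresentedGroup.of, PresentedGroup.toGroup h1,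
    fun x => PresentedGroup.toGroup.of h1, PresentedGroup.closure_range_of S, inferInstance,
    fun m n a b ha hb hL hp => ?_⟩
  obtain ⟨l, hl, h3⟩ := (ha.mul hb.inv).mono hL
  rw [← mul_inv_eq_one, ← h3, h2]
  refine PresentedGroup.one_of_mem ⟨?_, l, hl, rfl⟩
  have h4 : PresentedGroup.toGroup h1 (a * b⁻¹) = 1 := by rw [map_mul, map_inv, hp, mul_inv_cancel]
  rw [← h3, h2] at h4
  exact h4

theorem init_commute {K : Type} [Group K] {S T : Set K} (h : ∀ a ∈ S, ∀ b ∈ T, Commute a b) :
    ∀ a ∈ Subgroup.closure S, ∀ b ∈ Subgroup.closure T, Commute a b := by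
  intro a ha b hb
  induction ha using Subgroup.closure_induction with
  | mem a ha =>
    induction hb using Subgroup.closure_induction with
    | mem b hb => exact h a ha b hb
    | one => exact Commute.one_right _
    | mul _ _ _ _ h1 h2 => exact h1.mul_right h2
    | inv _ _ h1 => exact h1.inv_right
  | one => exact Commute.one_left _
  | mul _ _ _ _ h1 h2 => exact h1.mul_left h2
  | inv _ _ h1 => exact h1.inv_left

omit [Fintype ι] [DecidableEq ι] in
theorem init_sig_conj (U : Set Om) (π ρ : Perm ι) :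
    sig Set.univ π * sig U ρ * (sig Set.univ π)⁻¹ = sig U (π * ρ * π⁻¹) := by
  rw [← map_inv]
  ext1 ⟨i, y⟩
  by_cases hy : y ∈ U <;>
    simp only [Perm.mul_apply, sig_apply, hy, Set.mem_univ, if_true, if_false, Perm.coe_inv,
      Equiv.apply_symm_apply]

omit [Fintype ι] [DecidableEq ι] in
theorem init_sig_comm (U U' W : Set Om) (hW : W = U ∨ W = U') (π ρ σ : Perm ι) :
    Commute (sig U π * sig U' ρ * (sig U π)⁻¹ * (sig U' ρ)⁻¹) ((sig W σ)⁻¹ * sig Set.univ σ) := by
  rw [← map_inv, ← map_inv, ← map_inv]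
  refine commute_of_disjoint ?_
  rintro ⟨i, y⟩
  by_cases hy : y ∈ W
  · right
    simp only [Perm.mul_apply, sig_apply, hy, Set.mem_univ, if_true, Perm.coe_inv,
      Equiv.symm_apply_apply]
  · left
    by_cases h1 : y ∈ U <;> by_cases h2 : y ∈ U'
    · rcases hW with rfl | rfl <;> contradiction
    all_goals simp only [Perm.mul_apply, sig_apply, h1, h2, if_true, if_false, Perm.coe_inv,
      Equiv.apply_symm_apply]

/-- Proof. Let `A = alternatingGroup ι`, `X = (ι × Lt) ⊕ (Option Dir × A)` (finite),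
`F = FreeGroup X`, `ev : F →* Perm (ι × Om)` with `ev (i, x) = loc (i, []) (hat x)`,
`ev (o, π) = sig (bset o) π`. Let `S` be the set of the elements of `ev.ker` which are products of
at most `L` generators or inverses (`L = 20` say; or the union of the ranges of the finitely many
families below), `H = F ⧸ normalClosure S`, `p` induced by `ev`. The relations needed, all true
under `ev` (`sig_apply`, `loc_root_apply`, `commute_of_disjoint`):
* `(o, π) (o, ρ) = (o, π ρ)`, which gives homomorphisms `u o : A →* H`; `(U o).s = (u o).comp κ`,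
  `io = (u none).comp κ`, `d i = FreeGroup.lift (fun x => mk (i, x))`;
* `(none, π) (o, ρ) (none, π)⁻¹ = (o, π ρ π⁻¹)` and `(none, π) (i, x) (none, π)⁻¹ = (π i, x)`;
* with `HI I` the closure of the `mk (i, x)`, `i ∈ I`, and of the `mk (o, π)`, `π ∈ AI I`: two
  generators which belong to disjoint sets `I`, `J` commute (a relation for every pair of
  generators whose images under `ev` commute);
* `⁅(o, π), (o', ρ)⁆` commutes with `(o, σ)⁻¹ (none, σ)` and `(o', σ)⁻¹ (none, σ)`, which gives
  `U_comm` by `comm_of_rel` (`⁅sig U π, sig U' ρ⁆ = sig (U ∩ U') ⁅π, ρ⁆`,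
  `(sig U σ)⁻¹ * sig univ σ = sig Uᶜ σ`).
Use `kap_mem_AI` for `io_loc` and `loc`, `hκ.surj` for `HI_le`, and
`Group.IsFinitelyPresented.of_surjective` (or the definition) for `fp`. -/
theorem exists_model (hκ : IsUCE κ) (hι : 15 ≤ Fintype.card ι) :
    ∃ (H : Type) (_ : Group H), Nonempty (Model κ H) := by
  obtain ⟨H, _, g, p, hp, hg, hfp, key⟩ := init_pres
    (X := (ι × Lt) ⊕ (Option Dir × alternatingGroup ι)) (K := Perm (ι × Om))
    (Sum.elim (fun z => loc (z.1, []) (hat z.2)) (fun z => sig (bset z.1) z.2.1)) 20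
  have hp1 : ∀ i x, p (g (.inl (i, x))) = loc (i, []) (hat x) := fun i x => hp _
  have hp2 : ∀ o π, p (g (.inr (o, π))) = sig (bset o) π.1 := fun o π => hp _
  have w := init_W.gen g
  let u : Option Dir → alternatingGroup ι →* H := fun o =>
    MonoidHom.mk' (fun π => g (.inr (o, π))) fun π ρ =>
      key _ _ _ _ (w _) ((w _).mul (w _)) (by norm_num)
        (by rw [map_mul, hp2, hp2, hp2, ← map_mul]; rfl)
  have hu : ∀ o π, u o π = g (.inr (o, π)) := fun _ _ => rfl
  let d : ι → FG →* H := fun i => FreeGroup.lift fun x => g (.inl (i, x))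
  have hd : ∀ i x, d i (FreeGroup.of x) = g (.inl (i, x)) := fun _ _ => FreeGroup.lift_apply_of
  let gens : Finset ι → Set H := fun I =>
    {h | ∃ i ∈ I, ∃ x, h = g (.inl (i, x))} ∪ {h | ∃ o π, π ∈ AI I ∧ h = g (.inr (o, π))}
  have hgens : ∀ I, ∀ h ∈ gens I, init_W g 1 h ∧ p h ∈ Fix I := by
    rintro I _ (⟨i, hi, x, rfl⟩ | ⟨o, π, hπ, rfl⟩)
    · exact ⟨w _, by rw [hp1]; exact loc_mem_Fix _ _ hi⟩
    · exact ⟨w _, by rw [hp2]; exact sig_mem_Fix _ hπ⟩
  have huI : ∀ o I b, κ b ∈ AI I → u o (κ b) ∈ Subgroup.closure (gens I) := fun o I b hb =>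
    Subgroup.subset_closure (Or.inr ⟨o, κ b, hb, rfl⟩)
  let Φ : Frame κ H :=
    { uce := hκ
      card := hι
      HI := fun I => Subgroup.closure (gens I)
      mono := fun I J hIJ => Subgroup.closure_mono <| by
        rintro _ (⟨i, hi, x, rfl⟩ | ⟨o, π, hπ, rfl⟩)
        · exact Or.inl ⟨i, hIJ hi, x, rfl⟩
        · exact Or.inr ⟨o, π, AI_mono hIJ hπ, rfl⟩
      comm := fun I J hIJ => init_commute fun a ha b hb => by
        obtain ⟨ha1, ha2⟩ := hgens I a ha
        obtain ⟨hb1, hb2⟩ := hgens J b hb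
        refine key _ _ _ _ (ha1.mul hb1) (hb1.mul ha1) (by norm_num) ?_
        rw [map_mul, map_mul]
        refine (commute_of_disjoint fun x => ?_).eq
        by_cases hx : x.1 ∈ I
        · exact Or.inr (hb2 x (Finset.disjoint_left.1 hIJ hx))
        · exact Or.inl (ha2 x hx)
      io := (u none).comp κ
      io_loc := fun I _ b hb => huI none I b (kap_mem_AI hb)
      d := d
      d_loc := fun i γ => by
        induction γ using FreeGroup.induction_on with
        | C1 => rw [_root_.map_one]; exact one_mem _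
        | of x =>
          rw [hd]
          exact Subgroup.subset_closure (Or.inl ⟨i, Finset.mem_singleton_self i, x, rfl⟩)
        | inv_of x h => rw [map_inv]; exact inv_mem h
        | mul _ _ h1 h2 => rw [map_mul]; exact mul_mem h1 h2
      d_conj := fun b i γ => by
        have : (MulAut.conj (u none (κ b))).toMonoidHom.comp (d i) = d ((κ b).1 i) := by
          refine FreeGroup.ext_hom _ _ fun x => ?_
          change u none (κ b) * d i (FreeGroup.of x) * (u none (κ b))⁻¹ = _
          rw [hd, hd, hu]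
          refine key _ _ _ _ (((w _).mul (w _)).mul (w _).inv) (w _) (by norm_num) ?_
          rw [map_mul, map_mul, map_inv, hp1, hp1, hp2]
          refine loc_conj (fun y => ?_) _
          simp [cf, sig_apply, bset]
        exact DFunLike.congr_fun this γ }
  let U : Option Dir → Proj Φ := fun o =>
    { s := (u o).comp κ
      eqv := fun c b => by
        change u none (κ c) * u o (κ b) * (u none (κ c))⁻¹ = u o (κ (c * b * c⁻¹))
        rw [hu, hu, hu]
        refine key _ _ _ _ (((w _).mul (w _)).mul (w _).inv) (w _) (by norm_num) ?_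
        rw [map_mul, map_mul, map_inv, hp2, hp2, hp2, map_mul, map_mul, map_inv]
        exact init_sig_conj _ _ _
      loc := fun I _ b hb => huI o I b (kap_mem_AI hb) }
  have hrel : ∀ o o' o'', o'' = o ∨ o'' = o' → ∀ a b c,
      Commute ((U o).s a * (U o').s b * ((U o).s a)⁻¹ * ((U o').s b)⁻¹) ((U o'').compl.s c) := by
    intro o o' o'' ho a b c
    change Commute (g (.inr (o, κ a)) * g (.inr (o', κ b)) * (g (.inr (o, κ a)))⁻¹ *
      (g (.inr (o', κ b)))⁻¹) ((g (.inr (o'', κ c)))⁻¹ * g (.inr (none, κ c)))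
    have w1 := (((w (.inr (o, κ a))).mul (w (.inr (o', κ b)))).mul (w (.inr (o, κ a))).inv).mul
      (w (.inr (o', κ b))).inv
    have w2 := (w (.inr (o'', κ c))).inv.mul (w (.inr (none, κ c)))
    refine key _ _ _ _ (w1.mul w2) (w2.mul w1) (by norm_num) ?_
    simp only [map_mul, map_inv, hp2]
    exact (init_sig_comm _ _ _ (ho.imp (congrArg bset) (congrArg bset)) _ _ _).eq
  refine ⟨H, inferInstance, ⟨
    { Φ := Φ
      U := U
      U_none := rfl
      U_loc := huI
      U_comm := fun o o' => comm_of_rel (hrel o o' o (Or.inl rfl)) (hrel o o' o' (Or.inr rfl))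
      p := p
      p_d := fun i γ => ?_
      p_U := fun o b => hp2 o (κ b)
      HI_le := fun I => Subgroup.closure_mono ?_
      HI_univ := ?_
      fp := hfp }⟩⟩
  · have : p.comp (d i) = (loc (i, [])).comp hatF := by
      refine FreeGroup.ext_hom _ _ fun x => ?_
      rw [MonoidHom.comp_apply, MonoidHom.comp_apply, hd, hp1, hatF, FreeGroup.lift_apply_of]
    exact DFunLike.congr_fun this γ
  · rintro _ (⟨i, hi, x, rfl⟩ | ⟨o, π, hπ, rfl⟩)
    · exact Or.inl ⟨i, hi, x, (hd i x).symm⟩
    · obtain ⟨b, rfl⟩ := hκ.surj π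
      exact Or.inr ⟨o, b, hπ, rfl⟩
  · refine top_le_iff.1 (hg.ge.trans (Subgroup.closure_mono ?_))
    rintro _ ⟨⟨i, x⟩ | ⟨o, π⟩, rfl⟩
    · exact Or.inl ⟨i, Finset.mem_univ i, x, rfl⟩
    · exact Or.inr ⟨o, π, fun i hi => (hi (Finset.mem_univ i)).elim, rfl⟩

end Crest.Agent.R189
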