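import Crest.Agent.R189.Defs

/-!
# Row 189, task Pc: elementary facts on markings and pieces

All proofs are case analyses on `t : Ty`, `d : Dir`, `β : Bool` and `funext` with a case
distinction on the coordinate (`0, 1, 2, n + 3`).
-/

set_option autoImplicit false

namespace Crest.Agent.R189

theorem pc_add_zero (v : V) : v.add 0 = v := by
  cases v <;> simp [V.add]

theorem pc_add_add (v : V) (a b : ℕ) : (v.add a).add b = v.add (a + b) := by
  cases v <;> simp [V.add, add_assoc]

theorem pc_add_inj {v w : V} {a : ℕ} (h : v.add a = w.add a) : v = w := by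
  cases v <;> cases w <;> simp_all [V.add]

theorem pc_add_one_ne (v : V) : v.add 1 ≠ .inl 0 := by
  cases v <;> simp [V.add]

theorem pc_exists_pred {v : V} (h : v ≠ .inl 0) : ∃ w : V, w.add 1 = v := by
  rcases v with a | z
  · rcases a with _ | a
    · exact absurd rfl h
    · exact ⟨.inl a, rfl⟩
  · exact ⟨.inr (z - 1), by simp [V.add]⟩

theorem pc_le_of_add {v : V} {a b : ℕ} (h : (Sum.inl a : V) = v.add b) : b ≤ a := by
  cases v <;> simp [V.add] at h
  omega

theorem pc_om_ext {y y' : Om} (h0 : y 0 = y' 0) (h1 : y 1 = y' 1) (h2 : y 2 = y' 2)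
    (h3 : ∀ n, y (n + 3) = y' (n + 3)) : y = y' := by
  funext n
  match n with
  | 0 => exact h0
  | 1 => exact h1
  | 2 => exact h2
  | n + 3 => exact h3 n

theorem pc_bump_zero (y : Om) : bump 0 0 0 y = y :=
  pc_om_ext (pc_add_zero _) (pc_add_zero _) (pc_add_zero _) fun _ => rfl

theorem pc_bump_bump (i j k i' j' k' : ℕ) (y : Om) :
    bump i j k (bump i' j' k' y) = bump (i + i') (j + j') (k + k') y := by
  refine pc_om_ext ?_ ?_ ?_ fun _ => rfl
  · exact (pc_add_add _ _ _).trans (by rw [add_comm]; rfl)
  · exact (pc_add_add _ _ _).trans (by rw [add_comm]; rfl)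
  · exact (pc_add_add _ _ _).trans (by rw [add_comm]; rfl)

theorem pc_bump_inj (i j k : ℕ) : Function.Injective (bump i j k) := fun _ _ h =>
  pc_om_ext (pc_add_inj (congrFun h 0)) (pc_add_inj (congrFun h 1)) (pc_add_inj (congrFun h 2))
    fun n => congrFun h (n + 3)

theorem pc_cons_inj {v v' : V} {y y' : Om} (h : cons v y = cons v' y') : v = v' ∧ y = y' :=
  ⟨congrFun h 0, funext fun n => congrFun h (n + 1)⟩

theorem pc_bump_Com (i j k : ℕ) (y : Om) :
    bump i j k (Com y) = cons (.inl i) (bump j k 0 y) := by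
  refine pc_om_ext ?_ rfl rfl fun n => ?_
  · change Sum.inl (0 + i) = Sum.inl i
    rw [zero_add]
  · rcases n with _ | n
    · exact (pc_add_zero _).symm
    · rfl

theorem pc_pre_append (p q : List ℕ) (y : Om) : pre (p ++ q) y = pre p (pre q y) := by
  induction p with
  | nil => rfl
  | cons a p ih => simp only [List.cons_append, pre, ih]

theorem pc_pre_inj (p : List ℕ) : Function.Injective (pre p) := by
  induction p with
  | nil => exact fun _ _ h => h
  | cons a p ih => exact fun _ _ h => ih (pc_cons_inj h).2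

theorem pc_pre_prefix {p p' : List ℕ} {y y' : Om} {z : ℤ} (h : pre p y = pre p' y')
    (hy : y 0 = .inr z) : p' <+: p := by
  induction p' generalizing p with
  | nil => exact List.nil_prefix
  | cons a p' ih =>
    rcases p with _ | ⟨b, p⟩
    · have h0 : y 0 = .inl a := congrFun h 0
      rw [hy] at h0
      exact absurd h0 (by simp)
    · obtain ⟨h1, h2⟩ := pc_cons_inj h
      obtain rfl : b = a := Sum.inl_injective h1
      exact List.cons_prefix_cons.2 ⟨rfl, ih h2⟩

theorem pc_Aom_inj (d : Dir) : Function.Injective (Aom d) := by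
  cases d <;> exact pc_bump_inj _ _ _

theorem pc_Com_inj : Function.Injective Com := fun _ _ h => (pc_cons_inj h).2

theorem pc_Com_tail {y : Om} (h : y 0 = .inl 0) : y = Com fun n => y (n + 1) := by
  funext n
  rcases n with _ | n
  · exact h
  · rfl

theorem pc_deg_C (m : Mk) : m.C.deg = m.deg + 1 := by
  simp only [Mk.deg, Mk.C, pdeg, List.map_append, List.sum_append, List.map_cons, List.map_nil,
    List.sum_cons, List.sum_nil]
  omega

theorem pc_deg_A (m : Mk) (d : Dir) : (m.A d).deg = m.deg + 1 := by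
  cases d <;> simp only [Mk.deg, Mk.A] <;> omega

theorem pc_deg_iter (n : ℕ) (m : Mk) : (Mk.C^[n] m).deg = m.deg + n := by
  induction n generalizing m with
  | zero => rfl
  | succ n ih => rw [Function.iterate_succ_apply, ih, pc_deg_C]; omega

/-- a point with value `v` at the coordinate `n` and `0` elsewhere -/
def pcPt (n : ℕ) (v : V) : Om := fun l => if l = n then v else .inl 0

theorem pc_pt_mem (t : Ty) (v : V) : pcPt 0 v ∈ t.set := by
  cases t <;> simp [Ty.set, pcPt]

theorem pc_Aom_surj {d : Dir} {y : Om} (h : y d.ix ≠ .inl 0) :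
    ∃ y' : Om, Aom d y' = y ∧ ∀ n, n ≠ d.ix → y' n = y n := by
  obtain ⟨w, hw⟩ := pc_exists_pred h
  refine ⟨Function.update y d.ix w, ?_, fun n hn => Function.update_of_ne hn _ _⟩
  cases d
  · exact pc_om_ext hw (pc_add_zero _) (pc_add_zero _) fun _ => rfl
  · exact pc_om_ext (pc_add_zero _) hw (pc_add_zero _) fun _ => rfl
  · exact pc_om_ext (pc_add_zero _) (pc_add_zero _) hw fun _ => rfl

theorem pc_Aom_ix (d : Dir) (y : Om) : Aom d y d.ix ≠ .inl 0 := by
  cases d <;> exact pc_add_one_ne _

theorem pc_ty_eq {t t' : Ty} (h : t.set = t'.set) : t = t' := by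
  have h1 : pcPt 1 (.inl 1) ∈ t.set ↔ pcPt 1 (.inl 1) ∈ t'.set := by rw [h]
  have h2 : pcPt 2 (.inl 1) ∈ t.set ↔ pcPt 2 (.inl 1) ∈ t'.set := by rw [h]
  clear h
  cases t <;> cases t' <;> simp [Ty.set, pcPt] at h1 h2 ⊢

theorem app_one (y : Om) : Mk.one.app y = y := by
  exact pc_bump_zero y

theorem app_injective (m : Mk) : Function.Injective m.app := by
  exact (pc_pre_inj m.p).comp (pc_bump_inj m.i m.j m.k)

theorem app_A (m : Mk) (d : Dir) (y : Om) : (m.A d).app y = m.app (Aom d y) := by
  cases d <;> simp only [Mk.app, Mk.A, Aom, pc_bump_bump, add_zero]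

theorem app_C (m : Mk) (y : Om) : m.C.app y = m.app (Com y) := by
  simp only [Mk.app, Mk.C, pc_pre_append, pc_bump_Com, pre]

theorem pc_app_iter (n : ℕ) (m : Mk) (y : Om) : (Mk.C^[n] m).app y = m.app (Com^[n] y) := by
  induction n generalizing m with
  | zero => rfl
  | succ n ih => rw [Function.iterate_succ_apply, ih, app_C, Function.iterate_succ_apply']

theorem app_hm (t : Ty) (d : Dir) (β : Bool) (m : Mk) (y : Om) :
    (hm t d β m).app y = m.app (he t d β y) := by
  cases β
  · cases d
    · exact pc_app_iter _ m y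
    · rfl
    · rfl
  · exact app_A m d y

theorem deg_one : Mk.one.deg = 0 := by
  rfl

theorem deg_hm (t : Ty) (d : Dir) (β : Bool) (m : Mk) :
    (hm t d β m).deg = m.deg + dg t d β := by
  cases β
  · cases d
    · exact pc_deg_iter _ m
    · rfl
    · rfl
  · exact pc_deg_A m d

theorem he_injective (t : Ty) (d : Dir) (β : Bool) : Function.Injective (he t d β) := by
  cases β
  · cases d
    · exact pc_Com_inj.iterate _
    · exact fun _ _ h => h
    · exact fun _ _ h => h
  · exact pc_Aom_inj d

theorem dg_add_sz {t : Ty} {d : Dir} (h : valid t d = true) (β : Bool) :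
    dg t d β + (ht t d β).sz = t.sz + 1 := by
  revert h
  cases t <;> cases d <;> cases β <;> decide

theorem lvl_half {x : Pc} {d : Dir} (h : valid x.t d = true) (β : Bool) :
    (x.half d β).lvl = x.lvl + 1 := by
  have h1 := dg_add_sz h β
  simp only [Pc.lvl, Pc.half, deg_hm]
  omega

theorem he_mem {t : Ty} {d : Dir} (h : valid t d = true) (β : Bool) {y : Om}
    (hy : y ∈ (ht t d β).set) : he t d β y ∈ t.set := by
  cases t <;> cases d <;> cases β <;>
    simp_all [valid, Ty.z1, Ty.z2, ht, he, Ty.set, nC, Aom, bump, Com, cons, pc_add_zero]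

theorem he_ix {t : Ty} {d : Dir} (h : valid t d = true) (β : Bool) {y : Om}
    (hy : y ∈ (ht t d β).set) : he t d β y d.ix = .inl 0 ↔ β = false := by
  cases β
  · refine iff_of_true ?_ rfl
    cases t <;> cases d <;>
      simp_all [valid, Ty.z1, Ty.z2, ht, he, Ty.set, nC, Com, cons, Dir.ix]
  · exact iff_of_false (pc_Aom_ix d y) (by simp)

theorem exists_he {t : Ty} {d : Dir} (h : valid t d = true) {y : Om} (hy : y ∈ t.set) :
    ∃ β y', y' ∈ (ht t d β).set ∧ y = he t d β y' := by
  by_cases h0 : y d.ix = .inl 0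
  · refine ⟨false, ?_⟩
    cases d
    · have e1 := pc_Com_tail h0
      cases t
      · exact ⟨_, trivial, e1⟩
      · have e2 := pc_Com_tail (y := fun n => y (n + 1)) hy
        exact ⟨_, trivial, e1.trans (congrArg Com e2)⟩
      · exact ⟨fun n => y (n + 1), hy, e1⟩
      · have e2 := pc_Com_tail (y := fun n => y (n + 1)) hy.1
        have e3 := pc_Com_tail (y := fun n => y (n + 1 + 1)) hy.2
        exact ⟨_, trivial, e1.trans (congrArg Com (e2.trans (congrArg Com e3)))⟩
    · cases t
      · exact ⟨y, h0, rfl⟩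
      · exact absurd h (by decide)
      · exact ⟨y, ⟨h0, hy⟩, rfl⟩
      · exact absurd h (by decide)
    · cases t
      · exact ⟨y, h0, rfl⟩
      · exact ⟨y, ⟨hy, h0⟩, rfl⟩
      · exact absurd h (by decide)
      · exact absurd h (by decide)
  · obtain ⟨y', h1, h2⟩ := pc_Aom_surj h0
    refine ⟨true, y', ?_, h1.symm⟩
    have k1 := h2 1
    have k2 := h2 2
    cases t <;> cases d <;> simp_all [valid, Ty.z1, Ty.z2, ht, Ty.set, Dir.ix]

theorem range_Aom (d : Dir) : Set.range (Aom d) = bset (some d) := by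
  ext y
  constructor
  · rintro ⟨y', rfl⟩
    exact pc_Aom_ix d y'
  · intro h
    obtain ⟨y', h1, -⟩ := pc_Aom_surj h
    exact ⟨y', h1⟩

theorem root_set : Pc.root.set = Set.univ := by
  exact Set.eq_univ_of_forall fun y => ⟨y, trivial, app_one y⟩

theorem set_nonempty (x : Pc) : x.set.Nonempty := by
  exact ⟨_, _, pc_pt_mem x.t (.inl 0), rfl⟩

theorem half_subset {x : Pc} {d : Dir} (h : valid x.t d = true) (β : Bool) :
    (x.half d β).set ⊆ x.set := by
  rintro _ ⟨y, hy, rfl⟩
  exact ⟨_, he_mem h β hy, (app_hm _ _ _ _ _).symm⟩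

theorem half_disjoint {x : Pc} {d : Dir} (h : valid x.t d = true) :
    Disjoint (x.half d true).set (x.half d false).set := by
  rw [Set.disjoint_left]
  rintro _ ⟨y, hy, rfl⟩ ⟨y', hy', e⟩
  have e' : he x.t d false y' = he x.t d true y :=
    app_injective x.m ((app_hm _ _ _ _ _).symm.trans (e.trans (app_hm _ _ _ _ _)))
  have h1 := (he_ix h false hy').2 rfl
  rw [e'] at h1
  exact absurd ((he_ix h true hy).1 h1) (by simp)

theorem half_union {x : Pc} {d : Dir} (h : valid x.t d = true) :
    (x.half d true).set ∪ (x.half d false).set = x.set := by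
  refine Set.Subset.antisymm (Set.union_subset (half_subset h true) (half_subset h false)) ?_
  rintro _ ⟨y, hy, rfl⟩
  obtain ⟨β, y', hy', rfl⟩ := exists_he h hy
  cases β
  · exact Or.inr ⟨y', hy', app_hm _ _ _ _ _⟩
  · exact Or.inl ⟨y', hy', app_hm _ _ _ _ _⟩

theorem valid_tr {t : Ty} {d d' : Dir} (h : valid t d = true) (h' : valid t d' = true)
    (hne : d ≠ d') (β : Bool) : valid (ht t d β) (tr t d β d') = true := by
  revert h h' hne
  cases t <;> cases d <;> cases d' <;> cases β <;> decide

/-- the square relation -/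
theorem half_half {x : Pc} {d d' : Dir} (h : valid x.t d = true) (h' : valid x.t d' = true)
    (hne : d ≠ d') (β β' : Bool) :
    (x.half d β).half (tr x.t d β d') β' = (x.half d' β').half (tr x.t d' β' d) β := by
  obtain ⟨m, t⟩ := x
  cases t <;> cases d <;> cases d' <;> cases β <;> cases β' <;>
    first
    | rfl
    | exact absurd rfl hne
    | exact Bool.noConfusion h
    | exact (Bool.noConfusion h')

theorem half_inter {x : Pc} {d d' : Dir} (h : valid x.t d = true) (h' : valid x.t d' = true)
    (hne : d ≠ d') (β β' : Bool) :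
    (x.half d' β').set ∩ (x.half d β).set = ((x.half d β).half (tr x.t d β d') β').set := by
  have hv : valid (x.half d β).t (tr x.t d β d') = true := valid_tr h h' hne β
  have hsub : ∀ γ, ((x.half d β).half (tr x.t d β d') γ).set ⊆ (x.half d' γ).set := fun γ => by
    rw [half_half h h' hne]
    exact half_subset (x := x.half d' γ) (valid_tr h' h hne.symm γ) β
  refine Set.Subset.antisymm ?_ (Set.subset_inter (hsub β') (half_subset hv β'))
  rintro y ⟨h1, h2⟩
  rw [← half_union hv] at h2
  have hd := Set.disjoint_left.1 (half_disjoint h')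
  cases β'
  · exact h2.elim (fun h3 => absurd h1 (hd (hsub true h3))) id
  · exact h2.elim id fun h3 => absurd (hsub false h3) (hd h1)

/-- A marking is determined by its values on a type. (Test on points of the type whose free
coordinates are infinite: the length of the prefix is the position of the first infinite
coordinate.) -/
theorem mk_eq_of_app {m m' : Mk} {t : Ty} (h : ∀ y ∈ t.set, m.app y = m'.app y) : m = m' := by
  have h1 := h _ (pc_pt_mem t (.inr 0))
  have hp : m.p = m'.p :=
    ((pc_pre_prefix h1.symm rfl).sublist.antisymm (pc_pre_prefix h1 rfl).sublist)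
  unfold Mk.app at h1
  rw [hp] at h1
  have h2 := pc_pre_inj _ h1
  have a0 := congrFun h2 0
  have a1 := congrFun h2 1
  have a2 := congrFun h2 2
  simp [bump, pcPt, V.add] at a0 a1 a2
  exact Mk.ext hp a0 a1 a2

/-- A piece is determined by its set. (The length of the prefix is the first coordinate which can
be infinite; then the point `m.app 0` and the points with one infinite coordinate.) -/
theorem pc_eq_of_set {x x' : Pc} (h : x.set = x'.set) : x = x' := by
  have key₁ : ∀ {x x' : Pc}, x.set ⊆ x'.set → x'.m.p <+: x.m.p := by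
    intro x x' h
    obtain ⟨y, -, e⟩ := h ⟨_, pc_pt_mem x.t (.inr 0), rfl⟩
    exact pc_pre_prefix e.symm rfl
  have key₂ : ∀ {x x' : Pc}, x.set ⊆ x'.set → x.m.p = x'.m.p →
      x'.m.i ≤ x.m.i ∧ x'.m.j ≤ x.m.j ∧ x'.m.k ≤ x.m.k := by
    intro x x' h hp
    obtain ⟨y, -, e⟩ := h ⟨_, pc_pt_mem x.t (.inl 0), rfl⟩
    unfold Mk.app at e
    rw [hp] at e
    have e' := (pc_pre_inj _ e).symm
    have a0 := pc_le_of_add (congrFun e' 0)
    have a1 := pc_le_of_add (congrFun e' 1)
    have a2 := pc_le_of_add (congrFun e' 2)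
    omega
  have hp : x.m.p = x'.m.p := (key₁ h.ge).sublist.antisymm (key₁ h.le).sublist
  have k1 := key₂ h.le hp
  have k2 := key₂ h.ge hp.symm
  have hm : x.m = x'.m := Mk.ext hp (by omega) (by omega) (by omega)
  refine Pc.ext hm (pc_ty_eq ?_)
  unfold Pc.set at h
  rw [hm] at h
  exact (app_injective x'.m).image_injective h

/-- markings are closed under composition (every marking is a product of letters) -/
theorem exists_comp (m m' : Mk) :
    ∃ n : Mk, (∀ y, n.app y = m.app (m'.app y)) ∧ n.deg = m.deg + m'.deg := by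
  have hb : ∀ (i j k : ℕ) (m : Mk), ∃ n : Mk,
      (∀ y, n.app y = m.app (bump i j k y)) ∧ n.deg = m.deg + (i + j + k) := by
    intro i j k m
    refine ⟨⟨m.p, m.i + i, m.j + j, m.k + k⟩, fun y => ?_, ?_⟩
    · simp only [Mk.app, pc_bump_bump]
    · simp only [Mk.deg]; omega
  have hp : ∀ (p : List ℕ) (m : Mk), ∃ n : Mk,
      (∀ y, n.app y = m.app (pre p y)) ∧ n.deg = m.deg + pdeg p := by
    intro p
    induction p with
    | nil => exact fun m => ⟨m, fun _ => rfl, rfl⟩
    | cons a p ih =>
      intro m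
      obtain ⟨n₁, h1, h2⟩ := hb a 0 0 m
      obtain ⟨n₂, h3, h4⟩ := ih n₁.C
      refine ⟨n₂, fun y => ?_, ?_⟩
      · rw [h3, app_C, h1, pc_bump_Com, pc_bump_zero]
        rfl
      · rw [h4, pc_deg_C, h2]
        simp only [pdeg, List.map_cons, List.sum_cons]
        omega
  obtain ⟨n₁, h1, h2⟩ := hp m'.p m
  obtain ⟨n₂, h3, h4⟩ := hb m'.i m'.j m'.k n₁
  refine ⟨n₂, fun y => (h3 y).trans (h1 _), ?_⟩
  rw [h4, h2]
  simp only [Mk.deg]
  omega

/-- every piece is a descendant of the root -/
theorem desc_root (x : Pc) : Desc Pc.root x := by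
  have hb : ∀ p : List ℕ, Desc Pc.root ⟨⟨p, 0, 0, 0⟩, .T⟩ →
      ∀ i j k, Desc Pc.root ⟨⟨p, i, j, k⟩, .T⟩ := by
    intro p h i j k
    induction k with
    | zero =>
      induction j with
      | zero =>
        induction i with
        | zero => exact h
        | succ i ih => exact ih.half .a true rfl
      | succ j ih => exact ih.half .b true rfl
    | succ k ih => exact ih.half .c true rfl
  have hp : ∀ p : List ℕ, Desc Pc.root ⟨⟨p, 0, 0, 0⟩, .T⟩ := by
    intro p
    induction p using List.reverseRecOn with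
    | nil => exact Desc.refl
    | append_singleton p a ih => exact (hb p ih a 0 0).half .a false rfl
  obtain ⟨⟨p, i, j, k⟩, t⟩ := x
  have h := hb p (hp p) i j k
  cases t
  · exact h
  · exact h.half .b false rfl
  · exact h.half .c false rfl
  · exact (h.half .b false rfl).half .c false rfl

end Crest.Agent.R189
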