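import Crest.Agent.R189.Meet
import Crest.Agent.R189.Pc

/-!
# Row 189: the projections of all pieces (definitions), task Lev

In the geometric model `u` maps `A1 y ↦ A0 y`, `w` maps `A2 y ↦ A1 y`, `c` maps `A0 y ↦ C y`;
`P, Q, R` are the images of `A0, A1, A2`; `Pn Q n` is the image of `A0 ^ n`; `gam m` maps
`A0 ^ (deg m) y ↦ m y`; `xh n t d β` maps `A0 ^ (n + dg t d β) y ↦ A0 ^ n (he t d β y)`.
Write `γ ~ δ on q` for `Triv (γ⁻¹ * δ) q`; it implies `act γ q' = act δ q'` for `q' ≤ q`, it is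
transitive, `γ ~ δ on q` gives `η γ ~ η δ on q` and `γ η ~ δ η on q'` if `act η q' ≤ q`
(`Triv.conj`, `Triv.mono`).
-/

set_option autoImplicit false

namespace Crest.Agent.R189

open Equiv Proj

variable {ι : Type} [Fintype ι] [DecidableEq ι] {B : Type} [Group B]
variable {κ : B →* alternatingGroup ι} {H : Type} [Group H] {Φ : Frame κ H}

/-- the letters as words -/
def lc : FG := FreeGroup.of Lt.c
def lu : FG := FreeGroup.of Lt.u
def lw : FG := FreeGroup.of Lt.w

/-- the basic relations -/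
structure Base (P Q R : Proj Φ) : Prop where
  cPQ : Comm P Q
  cQR : Comm Q R
  cPR : Comm P R
  uQ : act lu Q = P
  wR : act lw R = Q
  cP : act lc P = P.compl
  uQR : act lu (meet Q R) = meet P R
  uwQR : act (lu * lw) (meet Q R) = meet P Q
  cPQ' : act lc (meet P Q) = meet P.compl R
  tuw : Triv ((lu * lw)⁻¹ * (lw * lu)) (meet Q R)
  twc : Triv ((lw * lc)⁻¹ * (lc * lu)) (meet P Q)

/-- the image of `A0 ^ n` -/
noncomputable def Pn (Q : Proj Φ) : ℕ → Proj Φ
  | 0 => Proj.one Φ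
  | n + 1 => act lu (meet (Pn Q n) Q)

/-- the image of the type `t` by `A0 ^ n` -/
noncomputable def tau (Q R : Proj Φ) (n : ℕ) : Ty → Proj Φ
  | .T => Pn Q n
  | .Y => meet (Pn Q n) Q.compl
  | .Z => meet (Pn Q n) R.compl
  | .W => meet (meet (Pn Q n) Q.compl) R.compl

/-- `A0 ^ (n + 1) y ↦ A0 ^ n (C y)` -/
def Vw (n : ℕ) : FG := lu ^ n * lc

/-- `A0 y ↦ A2 y` -/
def yw : FG := lw⁻¹ * lu⁻¹

/-- `A0 ^ (a + pdeg p) y ↦ A0 ^ a (pre p y)` -/
def gamp : ℕ → List ℕ → FG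
  | _, [] => 1
  | a, x :: p => Vw (a + x) * gamp (a + x + 1) p

/-- `A0 ^ (deg m) y ↦ m.app y` -/
def gam (m : Mk) : FG := gamp 0 m.p * lu⁻¹ ^ m.j * yw ^ m.k

/-- `A0 ^ (n + dg t d β) y ↦ A0 ^ n (he t d β y)` -/
def xh (n : ℕ) : Ty → Dir → Bool → FG
  | _, .a, true => 1
  | _, .b, true => lu⁻¹
  | _, .c, true => yw
  | t, .a, false => gamp n (List.replicate (nC t) 0)
  | _, _, false => 1

/-- the projection of a piece -/
noncomputable def pr (Q R : Proj Φ) (x : Pc) : Proj Φ := act (gam x.m) (tau Q R x.m.deg x.t)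

variable {P Q R : Proj Φ}

section tools

variable {p q r s x : Proj Φ}

/-- what is below a sum and orthogonal to one term is below the other term -/
theorem lev_le_of_orth (h : IsSum r p q) (hr : Le x r) (hp : Orth x p) : Le x q := by
  intro a b
  have h1 : q.compl.s b = p.s b * r.compl.s b := by
    rw [compl_s, compl_s, h.symm.2 b]
    group
  rw [h1]
  exact (hp a b).mul_right (hr a b)

theorem lev_of_comm_meet (hx : Le x p) (h : Comm p r) (hc : Comm x (meet p r)) :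
    Comm x r ∧ meet x (meet p r) = meet x r := by
  obtain ⟨a, c, hs, ha, hc⟩ := hc
  have h1 : Orth c r := orth_iff_le_compl.2
    ((lev_le_of_orth h.isSum (hs.le_right.trans hx) hc).trans h.compl.meet_le_right)
  have h2 : Le a r := ha.trans h.meet_le_right
  exact ⟨⟨a, c, hs, h2, h1⟩, (meet_eq hs ha hc).trans (meet_eq hs h2 h1).symm⟩

theorem lev_comm_meet (hx : Le x p) (h : Comm p r) (hc : Comm x r) : Comm x (meet p r) :=
  (h.meet (Comm.of_le hx).symm hc.symm).symm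

theorem lev_meet_meet (hx : Le x p) (h : Comm p r) (hc : Comm x r) :
    meet x (meet p r) = meet x r :=
  (lev_of_comm_meet hx h (lev_comm_meet hx h hc)).2

theorem lev_act_eq {γ δ : FG} (h : Triv (γ⁻¹ * δ) q) (hx : Le x q) : act δ x = act γ x := by
  rw [← mul_inv_cancel_left γ δ, act_mul, h.act_eq_of_le hx]

/-- the meet distributes over sums -/
theorem lev_isSum_meet (h : IsSum r p q) (hp : Comm p s) (hq : Comm q s) :
    IsSum (meet r s) (meet p s) (meet q s) := by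
  have hps := hp.isSum
  have hqs := hq.isSum
  have hp₂ : Orth (meet p s.compl) s := orth_iff_le_compl.2 hp.compl.meet_le_right
  have hq₂ : Orth (meet q s.compl) s := orth_iff_le_compl.2 hq.compl.meet_le_right
  have o : ∀ {x y : Proj Φ}, Le x p → Le y q → Orth x y := fun hx hy =>
    hx.orth (hy.orth h.1.symm).symm
  obtain ⟨r₁, hr₁⟩ := (o hps.le_left hqs.le_left).exists_sum
  obtain ⟨r₂, hr₂⟩ := (o hps.le_right hqs.le_right).exists_sum
  have hr : IsSum r r₁ r₂ := by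
    refine ⟨?_, fun a => ?_⟩
    · exact hr₁.orth (hr₂.orth hps.1.symm (o hps.le_left hqs.le_right).symm).symm
        (hr₂.orth (o hps.le_right hqs.le_left) hqs.1.symm).symm
    · rw [h.2 a, hps.2 a, hqs.2 a, hr₁.2 a, hr₂.2 a]
      exact (o hps.le_right hqs.le_left a a).mul_mul_mul_comm _ _
  rw [meet_eq hr (hr₁.le hp.meet_le_right hq.meet_le_right) (hr₂.orth hp₂ hq₂)]
  exact hr₁

/-- a difference is a meet with the complement -/
theorem lev_diff_eq (h : IsSum r p q) : Comm r p.compl ∧ meet r p.compl = q :=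
  ⟨⟨q, p, h.symm, orth_iff_le_compl.1 h.1.symm, orth_compl p⟩,
    meet_eq h.symm (orth_iff_le_compl.1 h.1.symm) (orth_compl p)⟩

theorem lev_comm_diff (h : IsSum r p q) (hr : Comm r s) (hp : Comm p s) : Comm q s := by
  rw [← (lev_diff_eq h).2]
  exact (lev_diff_eq h).1.meet hr hp.symm.compl.symm

theorem lev_comm_one (p : Proj Φ) : Comm (Proj.one Φ) p := (Comm.of_le (le_one p)).symm

theorem lev_one_meet (p : Proj Φ) : meet (Proj.one Φ) p = p := by
  rw [(lev_comm_one p).meet_comm, (le_one p).meet_eq]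

theorem Base.lev_u (b : Base P Q R) (hQ : Comm x Q) (hR : Comm x R) :
    Comm (act lu (meet x Q)) R ∧
      act lu (meet (meet x Q) R) = meet (act lu (meet x Q)) R := by
  have h1 : Comm (meet x Q) R := hQ.meet hR b.cQR
  have h2 : Comm (meet x Q) (meet Q R) := lev_comm_meet hQ.meet_le_right b.cQR h1
  have h3 : Le (act lu (meet x Q)) P := b.uQ ▸ hQ.meet_le_right.act lu
  have h4 := lev_of_comm_meet h3 b.cPR (b.uQR ▸ h2.act lu)
  refine ⟨h4.1, ?_⟩
  rw [← h4.2, ← b.uQR, ← h2.act_meet, lev_meet_meet hQ.meet_le_right b.cQR h1]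

theorem Base.lev_uw (b : Base P Q R) (hQ : Comm x Q) (hR : Comm x R)
    (hw : act lw (meet x R) = meet x Q) :
    Comm (act lu (meet x Q)) Q ∧
      act (lu * lw) (meet (meet x Q) R) = meet (act lu (meet x Q)) Q := by
  have h0 : Comm (meet x Q) R := hQ.meet hR b.cQR
  have h1 : Comm (meet x R) Q := hR.meet hQ b.cQR.symm
  have h2 : Comm (meet x R) (meet Q R) := by
    rw [b.cQR.meet_comm]
    exact lev_comm_meet hR.meet_le_right b.cQR.symm h1
  have h3 : Le (act lu (meet x Q)) P := b.uQ ▸ hQ.meet_le_right.act lu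
  have e : act (lu * lw) (meet x R) = act lu (meet x Q) := by rw [act_mul, hw]
  have h4 := lev_of_comm_meet h3 b.cPQ (by rw [← e, ← b.uwQR]; exact h2.act _)
  refine ⟨h4.1, ?_⟩
  rw [← h4.2, ← b.uwQR, ← e, ← h2.act_meet]
  congr 1
  refine Le.antisymm (h2.le_meet (hR.le_meet (h0.meet_le_left.trans hQ.meet_le_left)
    h0.meet_le_right) (b.cQR.le_meet (h0.meet_le_left.trans hQ.meet_le_right) h0.meet_le_right))
    (h0.le_meet (hQ.le_meet (h2.meet_le_left.trans hR.meet_le_left)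
      (h2.meet_le_right.trans b.cQR.meet_le_left)) (h2.meet_le_left.trans hR.meet_le_right))

theorem Base.lev_le_QR (b : Base P Q R) (hQ : Comm x Q) (hR : Comm x R) :
    Le (meet (meet x Q) R) (meet Q R) := by
  have h0 : Comm (meet x Q) R := hQ.meet hR b.cQR
  exact b.cQR.le_meet (h0.meet_le_left.trans hQ.meet_le_right) h0.meet_le_right

end tools

/-- Induction on `n`. Put `p = Pn Q n`, `p' = Pn Q (n+1) = u • (p Q) ≤ u • Q = P`.
If `p₁ ≤ P` commutes with `meet P R` then it commutes with `R` (write `p₁ = a + b`, `a ≤ P R`,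
`b ⊥ P R`, then `b ≤ P` gives `b ≤ P Rᶜ`), and `meet p₁ (P R) = meet p₁ R`.
`p Q` commutes with `Q R` (`Comm.meet`), so `p' = u • (p Q)` commutes with `P R = u • (Q R)` and
`p' R = u • (p Q R)`. Also `p' = u w • (p R)` commutes with `P Q = u w • (Q R)` and
`p' Q = u w • (p Q R)`. Hence `w • (p' R) = w u • (p Q R) = u w • (p Q R) = p' Q` by `tuw`. -/
theorem Base.levI (b : Base P Q R) (n : ℕ) :
    Comm (Pn Q n) Q ∧ Comm (Pn Q n) R ∧ act lw (meet (Pn Q n) R) = meet (Pn Q n) Q ∧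
      Le (Pn Q (n + 1)) (Pn Q n) := by
  induction n with
  | zero =>
    refine ⟨lev_comm_one Q, lev_comm_one R, ?_, le_one _⟩
    change act lw (meet (Proj.one Φ) R) = meet (Proj.one Φ) Q
    rw [lev_one_meet, lev_one_meet, b.wR]
  | succ n ih =>
    obtain ⟨hQ, hR, hw, hle⟩ := ih
    have h1 := b.lev_u hQ hR
    have h2 := b.lev_uw hQ hR hw
    refine ⟨h2.1, h1.1, ?_, ?_⟩
    · change act lw (meet (act lu (meet (Pn Q n) Q)) R) = meet (act lu (meet (Pn Q n) Q)) Q
      rw [← h1.2, ← h2.2, ← act_mul]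
      exact lev_act_eq b.tuw (b.lev_le_QR hQ hR)
    · exact (hQ.le_meet (h2.1.meet_le_left.trans hle) h2.1.meet_le_right).act lu

theorem Base.pn_one (b : Base P Q R) : Pn Q 1 = P := by
  change act lu (meet (Proj.one Φ) Q) = P
  rw [lev_one_meet, b.uQ]

theorem Base.pn_le (b : Base P Q R) {n n' : ℕ} (h : n ≤ n') : Le (Pn Q n') (Pn Q n) := by
  induction n', h using Nat.le_induction with
  | base => exact le_refl _
  | succ m _ ih => exact (b.levI m).2.2.2.trans ih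

/-- see the proof of `levI` -/
theorem Base.act_u_QR (b : Base P Q R) (n : ℕ) :
    act lu (meet (meet (Pn Q n) Q) R) = meet (Pn Q (n + 1)) R :=
  (b.lev_u (b.levI n).1 (b.levI n).2.1).2

theorem Base.act_uw_QR (b : Base P Q R) (n : ℕ) :
    act (lu * lw) (meet (meet (Pn Q n) Q) R) = meet (Pn Q (n + 1)) Q :=
  (b.lev_uw (b.levI n).1 (b.levI n).2.1 (b.levI n).2.2.1).2

theorem lev_Vw_succ (n : ℕ) : Vw (n + 1) = lu * Vw n := by
  rw [Vw, Vw, pow_succ', mul_assoc]

theorem Base.lev_four (b : Base P Q R) (n : ℕ)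
    (h1 : IsSum (Pn Q n) (Pn Q (n + 1)) (act (Vw n) (Pn Q (n + 1))))
    (h2 : act (Vw n) (meet (Pn Q (n + 1)) Q) = meet (act (Vw n) (Pn Q (n + 1))) R)
    (h3 : Triv ((lw * Vw n)⁻¹ * (Vw n * lu)) (meet (Pn Q (n + 1)) Q)) :
    act (Vw n) (Pn Q (n + 2)) = meet (act (Vw n) (Pn Q (n + 1))) Q := by
  obtain ⟨hQ, hR, hw, -⟩ := b.levI n
  obtain ⟨hQ', hR', hw', -⟩ := b.levI (n + 1)
  have sQ := lev_isSum_meet h1 hQ' (lev_comm_diff h1 hQ hQ')
  have sR := (lev_isSum_meet h1 hR' (lev_comm_diff h1 hR hR')).act lw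
  rw [hw, hw'] at sR
  change act (Vw n) (act lu (meet (Pn Q (n + 1)) Q)) = _
  rw [← act_mul, lev_act_eq h3 (le_refl _), act_mul, h2]
  exact sR.unique_right sQ

/-- Induction on `n`. Write `E n = Vw n • P (n+1)` (`= P n - P (n+1)` by the first claim; it
commutes with `Q` and `R`). The last claim follows from the others:
`V n • P (n+2) = V n u • (P (n+1) Q) = w V n • (P (n+1) Q) = w • (E n R) = E n Q`, because
`w • (P k R) = P k Q` for `k = n, n + 1` and `P n R = P (n+1) R + E n R`.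
Step: `V (n+1) = u V n`, `V (n+1) • P (n+2) = u • (E n Q) = u • (P n Q) - u • (P (n+1) Q)`;
`V (n+1) • (P (n+2) Q) = u • (E n R ∧ E n Q) = u • (Q R) ∧ u • (E n Q) = P R ∧ E (n+1)`;
on `q = P (n+2) Q ≤ P (n+1) Q`: `u V n u ~ u w V n ~ w u V n` since `V n • q ≤ Q R`. -/
theorem Base.levJ (b : Base P Q R) (n : ℕ) :
    IsSum (Pn Q n) (Pn Q (n + 1)) (act (Vw n) (Pn Q (n + 1))) ∧
      act (Vw n) (meet (Pn Q (n + 1)) Q) = meet (act (Vw n) (Pn Q (n + 1))) R ∧
      Triv ((lw * Vw n)⁻¹ * (Vw n * lu)) (meet (Pn Q (n + 1)) Q) ∧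
      act (Vw n) (Pn Q (n + 2)) = meet (act (Vw n) (Pn Q (n + 1))) Q := by
  suffices H : IsSum (Pn Q n) (Pn Q (n + 1)) (act (Vw n) (Pn Q (n + 1))) ∧
      act (Vw n) (meet (Pn Q (n + 1)) Q) = meet (act (Vw n) (Pn Q (n + 1))) R ∧
      Triv ((lw * Vw n)⁻¹ * (Vw n * lu)) (meet (Pn Q (n + 1)) Q) from
    ⟨H.1, H.2.1, H.2.2, b.lev_four n H.1 H.2.1 H.2.2⟩
  induction n with
  | zero =>
    have e : Vw 0 = lc := by rw [Vw, pow_zero, one_mul]
    rw [e, Nat.zero_add, b.pn_one, b.cP]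
    exact ⟨isSum_compl P, b.cPQ', b.twc⟩
  | succ n ih =>
    obtain ⟨h1, h2, h3⟩ := ih
    have h4 := b.lev_four n h1 h2 h3
    obtain ⟨hQ, hR, -, -⟩ := b.levI n
    obtain ⟨hQ', hR', -, hle⟩ := b.levI (n + 1)
    obtain ⟨hQ'', -, -, -⟩ := b.levI (n + 2)
    have eQ := lev_comm_diff h1 hQ hQ'
    have eR := lev_comm_diff h1 hR hR'
    have eQR := eQ.meet eR b.cQR
    have h5 : act (Vw n) (meet (Pn Q (n + 2)) Q) =
        meet (meet (act (Vw n) (Pn Q (n + 1))) Q) R := by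
      rw [← lev_meet_meet hle hQ' hQ'', (lev_comm_meet hle hQ' hQ'').act_meet, h4, h2,
        lev_meet_meet eQ.meet_le_left eR eQR]
    have h6 : act (Vw (n + 1)) (Pn Q (n + 2)) = act lu (meet (act (Vw n) (Pn Q (n + 1))) Q) := by
      rw [lev_Vw_succ, act_mul, h4]
    refine ⟨?_, ?_, ?_⟩
    · rw [h6]
      exact (lev_isSum_meet h1 hQ' eQ).act lu
    · rw [h6, lev_Vw_succ, act_mul, h5]
      exact (b.lev_u eQ eR).2
    · have t1 : Triv ((lw * Vw n)⁻¹ * (Vw n * lu)) (meet (Pn Q (n + 2)) Q) :=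
        h3.mono (hQ'.le_meet (hQ''.meet_le_left.trans hle) hQ''.meet_le_right)
      have t2 : Triv ((lu * lw)⁻¹ * (lw * lu)) (act (Vw n) (meet (Pn Q (n + 2)) Q)) :=
        b.tuw.mono (by rw [h5]; exact b.lev_le_QR eQ eR)
      have t3 := (t2.conj (Vw n)⁻¹).inv
      rw [act_inv_act] at t3
      have t4 := t3.mul t1
      have e : (lw * Vw (n + 1))⁻¹ * (Vw (n + 1) * lu) =
          ((Vw n)⁻¹ * ((lu * lw)⁻¹ * (lw * lu)) * (Vw n)⁻¹⁻¹)⁻¹ *
            ((lw * Vw n)⁻¹ * (Vw n * lu)) := by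
        rw [lev_Vw_succ]
        group
      rw [e]
      exact t4

theorem Base.tau_le (b : Base P Q R) (n : ℕ) (t : Ty) : Le (tau Q R n t) (Pn Q n) := by
  obtain ⟨hQ, hR, -, -⟩ := b.levI n
  cases t with
  | T => exact le_refl _
  | Y => exact hQ.compl.meet_le_left
  | Z => exact hR.compl.meet_le_left
  | W =>
    exact (hQ.compl.meet hR.compl b.cQR.compl.symm.compl.symm).meet_le_left.trans
      hQ.compl.meet_le_left

end Crest.Agent.R189
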