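import Crest.Agent.R189.LiftV
import Crest.Agent.R189.Cube

/-!
# Row 189, task LiftMu: the moves lift
-/

set_option autoImplicit false

namespace Crest.Agent.R189

open Equiv

variable {ι : Type} [Fintype ι] [DecidableEq ι] {H : Type} [Group H]

namespace LiftMuAux

/-- base cells -/
def bs (i : ι) (n : ℕ) : Cell ι := (i, List.replicate n false)

omit [Fintype ι] [DecidableEq ι] in
theorem bs_len (i : ι) (n : ℕ) : (bs i n).2.length = n := List.length_replicate

omit [Fintype ι] [DecidableEq ι] in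
theorem bs_succ (i : ι) (n : ℕ) : bs i (n + 1) = child (bs i n) false := rfl

/-- the properties of the lift of the cell exchanges -/
structure VG (L : LocData ι H) (v : LT ι →* H) : Prop where
  p : ∀ g, L.p (v g) = g.1
  loc : ∀ (I : Finset ι) (g : LT ι), 5 ≤ I.card → I.card ≤ 40 → g.1 ∈ Fix I → v g ∈ L.Loc I
  comm : ∀ (I : Finset ι) (g : LT ι) (h : H), I.card ≤ 35 → h ∈ L.Loc I →
    (∀ x, g.1 x = x ∨ L.p h x = x) → Commute (v g) h

/-- good lifts of the moves -/
structure Good (L : LocData ι H) (v : LT ι →* H) (μ : Cell ι → Ty → Dir → H) : Prop where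
  p : ∀ c t d, L.p (μ c t d) = mu c t d
  loc : ∀ (I : Finset ι) c t d, 5 ≤ I.card → I.card ≤ 40 → c.1 ∈ I → μ c t d ∈ L.Loc I
  conj : ∀ (g : LT ι) (c c' : Cell ι) (t : Ty) (d : Dir), Rig g.1 c c' →
    v g * μ c t d * (v g)⁻¹ = μ c' t d

variable {L : LocData ι H} {v : LT ι →* H} {μ μ' : Cell ι → Ty → Dir → H}

theorem Good.comm (h : Good L v μ) (c c' : Cell ι) (t t' : Ty) (d d' : Dir)
    (hd : Disjoint (cset c) (cset c')) : Commute (μ c t d) (μ c' t' d') := by
  obtain ⟨I, hc, hc', h5⟩ := LiftVAux.exists_I L c c'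
  refine LocData.commute_of_cells (L := L) (I := I) (by omega) (h.loc I c t d h5.ge (by omega) hc)
    (h.loc I c' t' d' h5.ge (by omega) hc') (c := c) (c' := c) (Or.inl rfl) (fun x hx _ => ?_)
    fun x hx => ?_
  · rw [h.p]
    exact loc_apply_of_notMem _ _ hx
  · rw [h.p]
    exact loc_apply_of_notMem _ _ (Set.disjoint_left.1 hd (hx.elim id id))

theorem Good.ext (h : Good L v μ) (h' : Good L v μ') (i : ι) {t : Ty} {d : Dir}
    (e : ∀ n, μ (bs i n) t d = μ' (bs i n) t d) (c : Cell ι) : μ c t d = μ' c t d := by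
  have r : Rig (sw (bs i c.2.length) c) (bs i c.2.length) c := rig_sw_left (bs_len _ _).symm
  rw [← h.conj ⟨_, sw_mem_LT _ _⟩ _ _ t d r, ← h'.conj ⟨_, sw_mem_LT _ _⟩ _ _ t d r, e]

theorem exists_good (hv : VG L v) {I₀ : Finset ι} (h5 : I₀.card = 5) {i : ι} (hi : i ∈ I₀)
    (lam : ℕ → Ty → Dir → H) (h1 : ∀ n t d, lam n t d ∈ L.Loc I₀)
    (h2 : ∀ n t d, L.p (lam n t d) = mu (bs i n) t d) :
    ∃ μ, Good L v μ ∧ ∀ n t d, μ (bs i n) t d = lam n t d := by
  let s : Cell ι → LT ι := fun c => ⟨sw (bs i c.2.length) c, sw_mem_LT _ _⟩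
  have r : ∀ c, Rig (s c).1 (bs i c.2.length) c := fun c => rig_sw_left (bs_len _ _).symm
  have hp : ∀ c t d, L.p (v (s c) * lam c.2.length t d * (v (s c))⁻¹) = mu c t d := by
    intro c t d
    rw [map_mul, map_mul, map_inv, hv.p, h2]
    exact loc_conj (r c).2 _
  refine ⟨fun c t d => v (s c) * lam c.2.length t d * (v (s c))⁻¹,
    ⟨hp, fun I c t d hI hI' hc => ?_, fun g c c' t d hr => ?_⟩, fun n t d => ?_⟩
  · have c1 : I₀.card ≤ (insert c.1 I₀).card := Finset.card_le_card (Finset.subset_insert _ _)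
    have c2 : (insert c.1 I₀).card ≤ I₀.card + 1 := Finset.card_insert_le _ _
    have a1 : v (s c) ∈ L.Loc (insert c.1 I₀) := hv.loc _ _ (by omega) (by omega)
      (sw_mem_Fix (Finset.mem_insert_of_mem hi) (Finset.mem_insert_self _ _))
    refine LocData.reloc (J := insert c.1 I₀) hI (by omega) (mul_mem (mul_mem a1
      (LocData.Loc_mono (Finset.subset_insert _ _) (h1 _ t d))) (inv_mem a1)) ?_
    rw [hp]
    exact loc_mem_Fix _ _ hc
  · have r' : Rig (s c').1 (bs i c.2.length) c' := hr.1 ▸ r c'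
    have ru : Rig ((s c')⁻¹ * g * s c : LT ι).1 (bs i c.2.length) (bs i c.2.length) :=
      Rig.mul (r c) (Rig.mul hr r'.inv)
    have hc : Commute (v ((s c')⁻¹ * g * s c)) (lam c.2.length t d) := by
      refine hv.comm I₀ _ _ (by omega) (h1 _ t d) fun x => ?_
      by_cases hx : x ∈ cset (bs i c.2.length)
      · obtain ⟨y, rfl⟩ := hx
        exact Or.inl (ru.2 y)
      · rw [h2]
        exact Or.inr (loc_apply_of_notMem _ _ hx)
    rw [map_mul, map_mul, map_inv] at hc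
    rw [hr.1]
    generalize lam c.2.length t d = l at hc
    calc v g * (v (s c) * l * (v (s c))⁻¹) * (v g)⁻¹
        = v (s c') * ((v (s c'))⁻¹ * v g * v (s c) * l) * ((v (s c))⁻¹ * (v g)⁻¹) := by group
      _ = v (s c') * (l * ((v (s c'))⁻¹ * v g * v (s c))) * ((v (s c))⁻¹ * (v g)⁻¹) := by
        rw [hc.eq]
      _ = v (s c') * l * (v (s c'))⁻¹ := by group
  · have e : s (bs i n) = 1 := by
      apply Subtype.ext
      change sw (bs i (bs i n).2.length) (bs i n) = 1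
      rw [bs_len, sw_self]
    dsimp only
    rw [e, map_one, bs_len, one_mul, inv_one, mul_one]

/-- the first five types and directions in a square relation -/
def keys (t : Ty) (d d' : Dir) : List (Ty × Dir) :=
  [(t, d), (ht t d true, tr t d true d'), (ht t d false, tr t d false d'), (t, d'),
    (ht t d' true, tr t d' true d)]

/-- the last type and direction in a square relation -/
def key (t : Ty) (d d' : Dir) : Ty × Dir := (ht t d' false, tr t d' false d)

omit [DecidableEq ι] in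
theorem sq_congr {k : Ty × Dir} (e : ∀ c t d, (t, d) ≠ k → μ c t d = μ' c t d) {t : Ty}
    {d d' : Dir} (hk : k ∉ key t d d' :: keys t d d') {c : Cell ι} (h : Sq v μ c t d d') :
    Sq v μ' c t d d' := by
  simp only [key, keys, List.mem_cons, List.not_mem_nil, or_false, not_or] at hk
  obtain ⟨k0, k1, k2, k3, k4, k5⟩ := hk
  unfold Sq mv2 at h ⊢
  rwa [← e _ _ _ (Ne.symm k0), ← e _ _ _ (Ne.symm k1), ← e _ _ _ (Ne.symm k2),
    ← e _ _ _ (Ne.symm k3), ← e _ _ _ (Ne.symm k4), ← e _ _ _ (Ne.symm k5)]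

theorem step (hv : VG L v) {I₀ : Finset ι} (h5 : I₀.card = 5) {i : ι} (hi : i ∈ I₀)
    (h : Good L v μ) {t : Ty} {d d' : Dir} (hd : valid t d = true) (hd' : valid t d' = true)
    (hne : d ≠ d') (hk : key t d d' ∉ keys t d d') :
    ∃ μ', Good L v μ' ∧ (∀ c t₁ d₁, (t₁, d₁) ≠ key t d d' → μ c t₁ d₁ = μ' c t₁ d₁) ∧
      ∀ c, Sq v μ' c t d d' := by
  let sol : ℕ → H := fun n =>
    (μ (bs i n) t d' * μ (child (bs i n) true) (ht t d' true) (tr t d' true d))⁻¹ *
      mv2 μ (bs i n) t d d' * (v (swq (bs i n)))⁻¹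
  have hloc : ∀ (c : Cell ι) t d, c.1 = i → μ c t d ∈ L.Loc I₀ := fun c t d hc =>
    h.loc I₀ c t d h5.ge (by omega) (hc ▸ hi)
  obtain ⟨μ', hg, hμ'⟩ := exists_good hv h5 hi
    (fun n t₁ d₁ => if (t₁, d₁) = key t d d' ∧ n ≠ 0 then sol (n - 1) else μ (bs i n) t₁ d₁)
    (fun n t₁ d₁ => by
      split_ifs
      · exact mul_mem (mul_mem (inv_mem (mul_mem (hloc _ _ _ rfl) (hloc _ _ _ rfl)))
          (mul_mem (mul_mem (hloc _ _ _ rfl) (hloc _ _ _ rfl)) (hloc _ _ _ rfl)))
          (inv_mem (hv.loc I₀ _ h5.ge (by omega) (sw_mem_Fix hi hi)))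
      · exact hloc _ _ _ rfl)
    (fun n t₁ d₁ => by
      split_ifs with hc
      · obtain ⟨h1, h2⟩ := hc
        obtain ⟨n, rfl⟩ := Nat.exists_eq_succ_of_ne_zero h2
        obtain ⟨rfl, rfl⟩ := Prod.ext_iff.1 h1
        simp only [sol, mv2, map_mul, map_inv, h.p, hv.p, Nat.succ_sub_one]
        rw [mu_sq (bs i n) hd hd' hne, bs_succ]
        simp only [swq, key]
        group
      · exact h.p _ _ _)
  have hag : ∀ c t₁ d₁, (t₁, d₁) ≠ key t d d' → μ c t₁ d₁ = μ' c t₁ d₁ := fun c t₁ d₁ hk₁ =>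
    h.ext hg i (fun n => by rw [hμ', if_neg fun hc => hk₁ hc.1]) c
  refine ⟨μ', hg, hag, fun c => Sq.move hg.conj (c := bs i c.2.length) (bs_len _ _).symm ?_⟩
  generalize c.2.length = n
  simp only [keys, List.mem_cons, List.not_mem_nil, or_false, not_or] at hk
  obtain ⟨k1, k2, k3, k4, k5⟩ := hk
  have e : μ' (child (bs i n) false) (ht t d' false) (tr t d' false d) = sol n := by
    rw [← bs_succ, hμ', if_pos ⟨rfl, n.succ_ne_zero⟩, Nat.add_sub_cancel]
  unfold Sq mv2
  rw [e, ← hag _ _ _ (Ne.symm k1), ← hag _ _ _ (Ne.symm k2), ← hag _ _ _ (Ne.symm k3),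
    ← hag _ _ _ (Ne.symm k4), ← hag _ _ _ (Ne.symm k5)]
  simp only [sol, mv2]
  group

end LiftMuAux

open LiftMuAux in

/-- Proof. Take `v` from `exists_v`, `I₀` with `5` elements, `i₀ ∈ I₀`, and the base cells
`b n = (i₀, List.replicate n false)`, so `b (n+1) = child (b n) false`. Call `lam : ℕ → Ty → Dir → H`
*admissible* if `lam n t d ∈ Loc I₀` and `p (lam n t d) = mu (b n) t d`. Put
`ext lam c t d = v (sw (b n) c) * lam n t d * (v (sw (b n) c))⁻¹` with `n = c.2.length`; then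
`ext lam (b n) = lam n`, `ext lam c t d` only depends on `lam n t d`, lifts `mu c t d` (`loc_conj`),
lies in `Loc I` when `c.1 ∈ I`, `5 ≤ I.card ≤ 40` (`reloc`), and satisfies `conj`
(`(sw b c')⁻¹ * g * sw b c` fixes `cset b` pointwise, so its image commutes with `lam n t d`) and
`comm` (`commute_of_cells` with `c = c'`).
The square `Sq v μ (b n) t d d'` can be solved for the term
`μ (b (n+1)) (ht t d' false) (tr t d' false d)`; the solution is again an admissible value
(`mu_sq`). Start with any admissible `lam₁` (`exists_lift`, `loc_mem`, `nu_mem`); get `lam₂` by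
changing the values at `(n+1, Y, a)`, `(n+1, Z, a)`, `(n+1, Z, b)` to solve the squares
`(T; a, b)`, `(T; a, c)`, `(T; b, c)` at `b n` (the other terms have type `T` or are `(Y, c)`); get
`lam₃` by changing the value at `(n+1, W, a)` to solve the square `(Y; a, c)` at `b n`.
Conclude with `Sq.move` and `exists_interp_of_sq`. -/
theorem LocData.exists_interp (L : LocData ι H) : ∃ J : Interp ι H,
    (∀ g, L.p (J.v g) = g.1) ∧ (∀ c t d, L.p (J.mu c t d) = mu c t d) ∧
    (∀ (I : Finset ι) (g : LT ι), I.card = 5 → g.1 ∈ Fix I → J.v g ∈ L.Loc I) ∧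
    (∀ (I : Finset ι) c t d, I.card = 5 → c.1 ∈ I → J.mu c t d ∈ L.Loc I) := by
  obtain ⟨v, hv1, hv2, hv3⟩ := L.exists_v
  have hv : VG L v := ⟨hv1, hv2, hv3⟩
  obtain ⟨I₀, -, h5⟩ := L.exists_five ∅ (by simp)
  obtain ⟨i, hi⟩ : I₀.Nonempty := Finset.card_pos.1 (by omega)
  have hex : ∀ n t d, ∃ h ∈ L.Loc I₀, L.p h = mu (bs i n) t d := fun n t d =>
    LocData.exists_lift h5.ge ⟨loc_mem _ (nu_mem t d), loc_mem_Fix _ _ hi⟩
  choose lam h1 h2 using hex
  obtain ⟨μ₀, g₀, -⟩ := exists_good hv h5 hi lam h1 h2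
  obtain ⟨μ₁, g₁, -, s₁⟩ := step hv h5 hi g₀ (t := .T) (d := .a) (d' := .b) rfl rfl (by decide)
    (by decide)
  obtain ⟨μ₂, g₂, a₂, s₂⟩ := step hv h5 hi g₁ (t := .T) (d := .a) (d' := .c) rfl rfl (by decide)
    (by decide)
  obtain ⟨μ₃, g₃, a₃, s₃⟩ := step hv h5 hi g₂ (t := .T) (d := .b) (d' := .c) rfl rfl (by decide)
    (by decide)
  obtain ⟨μ₄, g₄, a₄, s₄⟩ := step hv h5 hi g₃ (t := .Y) (d := .a) (d' := .c) rfl rfl (by decide)
    (by decide)
  obtain ⟨J, e1, e2⟩ := exists_interp_of_sq v μ₄ g₄.conj g₄.comm L.p hv1 g₄.p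
    (fun c => sq_congr a₄ (by decide) (sq_congr a₃ (by decide) (sq_congr a₂ (by decide) (s₁ c))))
    (fun c => sq_congr a₄ (by decide) (sq_congr a₃ (by decide) (s₂ c)))
    (fun c => sq_congr a₄ (by decide) (s₃ c)) fun c => s₄ _
  refine ⟨J, e1 ▸ hv1, e2 ▸ g₄.p, fun I g hI hg => ?_, fun I c t d hI hc => ?_⟩
  · rw [e1]
    exact hv2 I g hI.ge (by omega) hg
  · rw [e2]
    exact g₄.loc I c t d hI.ge (by omega) hc

end Crest.Agent.R189
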