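import Mathlib

/-!
# Row 189, task SymPres: the presentation of a finite symmetric group by all transpositions
-/

set_option autoImplicit false

namespace Crest.Agent.R189

open Equiv

private theorem sympres_aux {α H : Type*} [DecidableEq α] [Group H] (t : α → α → H)
    (hdiag : ∀ a, t a a = 1) (hsymm : ∀ a b, t a b = t b a) (hsq : ∀ a b, t a b * t a b = 1)
    (hconj : ∀ a b c d, t a b * t c d = t (swap a b c) (swap a b d) * t a b) (S : Finset α) :
    ∃ f : Perm α → H, f 1 = 1 ∧ ∀ σ : Perm α, (∀ x ∉ S, σ x = x) → ∀ a ∈ S, ∀ b ∈ S,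
      f (swap a b * σ) = t a b * f σ := by
  induction S using Finset.induction_on with
  | empty => exact ⟨fun _ => 1, rfl, fun _ _ a ha => absurd ha (Finset.notMem_empty a)⟩
  | insert n S hn ih =>
    obtain ⟨f, h1, hf⟩ := ih
    refine ⟨fun σ => t n (σ n) * f (swap n (σ n) * σ), by simp [hdiag, h1, ← Perm.one_def],
      fun σ hσ => ?_⟩
    have hm : σ n ∈ insert n S := by_contra fun h =>
      h (by rw [σ.injective (hσ _ h)]; exact Finset.mem_insert_self n S)
    have hσ' : ∀ x ∉ S, (swap n (σ n) * σ) x = x := fun x hx => by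
      by_cases h : x = n
      · rw [h, Perm.mul_apply, swap_apply_right]
      · have h2 : x ∉ insert n S := by simp [h, hx]
        rw [Perm.mul_apply, hσ x h2, swap_apply_of_ne_of_ne h fun e => h2 (e ▸ hm)]
    have key : ∀ b ∈ insert n S, t n (swap n b (σ n)) * f (swap n (swap n b (σ n)) *
        (swap n b * σ)) = t n b * (t n (σ n) * f (swap n (σ n) * σ)) := fun b hb => by
      by_cases e1 : σ n = n
      · rw [e1, swap_apply_left, swap_mul_self_mul, hdiag, swap_self, ← Perm.one_def, one_mul,
          one_mul]
      by_cases e2 : σ n = b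
      · rw [e2, swap_apply_right, hdiag, swap_self, ← Perm.one_def, one_mul, one_mul, ← mul_assoc,
          hsq, one_mul]
      by_cases e3 : b = n
      · rw [e3, hdiag, swap_self, ← Perm.one_def, one_mul, one_mul, Perm.one_apply]
      have e4 : swap n (σ n) b = b := swap_apply_of_ne_of_ne e3 (Ne.symm e2)
      have e5 : swap n (σ n) * (swap n b * σ) = swap (σ n) b * (swap n (σ n) * σ) := by
        rw [← mul_assoc, mul_swap_eq_swap_mul, swap_apply_left, e4, mul_assoc]
      rw [swap_apply_of_ne_of_ne e1 e2, e5, hf _ hσ' _ ((Finset.mem_insert.1 hm).resolve_left e1) _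
        ((Finset.mem_insert.1 hb).resolve_left e3), ← mul_assoc, hconj, swap_apply_right, e4,
        mul_assoc]
    intro a ha b hb
    simp only [Perm.mul_apply]
    by_cases e1 : a = n
    · rw [e1]; exact key b hb
    by_cases e2 : b = n
    · rw [e2, swap_comm a n, hsymm a n]; exact key a ha
    have e3 : swap a b n = n := swap_apply_of_ne_of_ne (Ne.symm e1) (Ne.symm e2)
    have e4 : swap n (swap a b (σ n)) * (swap a b * σ) = swap a b * (swap n (σ n) * σ) := by
      rw [← mul_assoc, ← mul_assoc, mul_swap_eq_swap_mul (swap a b), e3]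
    rw [e4, hf _ hσ' _ ((Finset.mem_insert.1 ha).resolve_left e1) _
      ((Finset.mem_insert.1 hb).resolve_left e2), ← mul_assoc, ← mul_assoc, hconj a b, e3]

/-- Proof. For every finset `S` there is `f : Perm α → H` with `f 1 = 1` and
`f (swap a b * σ) = t a b * f σ` for `a ≠ b` in `S` and `σ` fixing the complement of `S`. Induction
on `S`: for `insert n S` put `f' σ = T (σ n) * f (swap n (σ n) * σ)` with `T a = t a n` for
`a ≠ n`, `T n = 1`. Then `f` is multiplicative by `Equiv.Perm.swap_induction_on`. -/
theorem exists_hom_of_swap {α H : Type*} [Finite α] [DecidableEq α] [Group H] (t : α → α → H)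
    (hsymm : ∀ a b, a ≠ b → t a b = t b a) (hsq : ∀ a b, a ≠ b → t a b * t a b = 1)
    (hconj : ∀ a b c d, a ≠ b → c ≠ d →
      t a b * t c d * (t a b)⁻¹ = t (swap a b c) (swap a b d)) :
    ∃ f : Perm α →* H, ∀ a b, a ≠ b → f (swap a b) = t a b := by
  cases nonempty_fintype α
  obtain ⟨f, h1, hf⟩ := sympres_aux (fun a b => if a = b then 1 else t a b) (fun a => if_pos rfl)
    (fun a b => by
      by_cases h : a = b
      · rw [h]
      · rw [if_neg h, if_neg (Ne.symm h), hsymm a b h])
    (fun a b => by
      by_cases h : a = b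
      · rw [if_pos h, one_mul]
      · rw [if_neg h, hsq a b h])
    (fun a b c d => by
      by_cases h : a = b
      · simp [h]
      by_cases h' : c = d
      · simp [h']
      rw [if_neg h, if_neg h', if_neg ((swap a b).injective.ne h'), ← hconj a b c d h h',
        inv_mul_cancel_right]) Finset.univ
  have hf' : ∀ σ a b, a ≠ b → f (swap a b * σ) = t a b * f σ := fun σ a b h => by
    rw [hf σ (fun x hx => absurd (Finset.mem_univ x) hx) a (Finset.mem_univ a) b
      (Finset.mem_univ b), if_neg h]
  refine ⟨MonoidHom.mk' f fun σ τ => ?_, fun a b h => ?_⟩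
  · induction σ using Perm.swap_induction_on with
    | one => rw [h1, one_mul, one_mul]
    | swap_mul σ a b h ih => rw [mul_assoc, hf' _ a b h, hf' _ a b h, ih, mul_assoc]
  · have := hf' 1 a b h
    rwa [mul_one, h1, mul_one] at this

end Crest.Agent.R189
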