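import Crest.Agent.R189.Loc
import Crest.Agent.R189.SymPres

/-!
# Row 189, task LiftV: the cell exchanges lift
-/

set_option autoImplicit false

namespace Crest.Agent.R189

open Equiv
open scoped commutatorElement

variable {ι : Type} [Fintype ι] [DecidableEq ι] {H : Type} [Group H]

namespace LiftVAux

omit [Fintype ι] [DecidableEq ι] in
theorem child_ne {c c' : Cell ι} (h : c ≠ c') (β β' : Bool) : child c β ≠ child c' β' := by
  intro e
  simp only [child, Prod.mk.injEq, List.cons.injEq] at e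
  exact h (Prod.ext e.1 e.2.2)

omit [Fintype ι] [DecidableEq ι] in
theorem child_ne' (c c' : Cell ι) : child c true ≠ child c' false := by
  simp [child]

omit [Fintype ι] [DecidableEq ι] in
theorem child_len {c c' : Cell ι} (h : c'.2.length = c.2.length) (β β' : Bool) :
    (child c' β').2.length = (child c β).2.length := by
  simp [child, h]

omit [Fintype ι] [DecidableEq ι] in
theorem sw_fix {c c' e : Cell ι} (hl : c.2.length = e.2.length)
    (hl' : c'.2.length = e.2.length) (h : e ≠ c) (h' : e ≠ c') {x : ι × Om} (hx : x ∈ cset e) :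
    sw c c' x = x :=
  sw_apply_of_notMem (Set.disjoint_left.1 (cset_disjoint hl h) hx)
    (Set.disjoint_left.1 (cset_disjoint hl' h') hx)

omit [Fintype ι] [DecidableEq ι] in
theorem rig_sw {c c' e : Cell ι} (hl : c.2.length = e.2.length)
    (hl' : c'.2.length = e.2.length) (h : e ≠ c) (h' : e ≠ c') : Rig (sw c c') e e :=
  rig_of_fix fun _ hx => sw_fix hl hl' h h' hx

omit [Fintype ι] in
theorem vL_swap' (n : ℕ) (c c' : CellL ι n) : vL n (swap c c') = sw c.1 c'.1 := by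
  convert vL_swap n c c'

omit [Fintype ι] [DecidableEq ι] in
theorem rig_vL (n : ℕ) (π : Perm (CellL ι n)) (c : CellL ι n) : Rig (vL n π) c.1 (π c).1 :=
  ⟨(π c).2.trans c.2.symm, vL_apply n π c⟩

/-- first entry of the commutator -/
noncomputable def S (c c' : Cell ι) : Perm (ι × Om) := sw (child c true) (child c' true)

/-- second entry of the commutator -/
noncomputable def X (c c' : Cell ι) : Perm (ι × Om) :=
  sw (child c true) (child c false) * sw (child c' true) (child c' false)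

omit [Fintype ι] [DecidableEq ι] in
theorem rig_X_left {c c' : Cell ι} (hl : c'.2.length = c.2.length) (h : c ≠ c') :
    Rig (X c c') (child c true) (child c false) :=
  Rig.mul (rig_sw (child_len hl _ _) (child_len hl _ _) (child_ne h _ _) (child_ne h _ _))
    (rig_sw_left rfl)

omit [Fintype ι] [DecidableEq ι] in
theorem rig_X_right {c c' : Cell ι} (hl : c'.2.length = c.2.length) (h : c ≠ c') :
    Rig (X c c') (child c' true) (child c' false) :=
  Rig.mul (rig_sw_left rfl) (rig_sw (child_len hl.symm _ _) (child_len hl.symm _ _)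
    (child_ne h.symm _ _) (child_ne h.symm _ _))

omit [Fintype ι] [DecidableEq ι] in
theorem X_conj_S {c c' : Cell ι} (hl : c'.2.length = c.2.length) (h : c ≠ c') :
    X c c' * S c c' * (X c c')⁻¹ = sw (child c false) (child c' false) :=
  conj_sw (child_len hl _ _) (rig_X_left hl h) (rig_X_right hl h)

omit [Fintype ι] [DecidableEq ι] in
theorem X_comm {c c' : Cell ι} (hl : c'.2.length = c.2.length) (h : c ≠ c') :
    X c' c = X c c' := by
  refine (commute_of_disjoint fun x => ?_).eq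
  by_cases hx : x ∈ cset c
  · left
    have hd := Set.disjoint_left.1 (cset_disjoint hl h) hx
    exact sw_apply_of_notMem (fun h1 => hd (cset_child_subset _ _ h1))
      fun h1 => hd (cset_child_subset _ _ h1)
  · right
    exact sw_apply_of_notMem (fun h1 => hx (cset_child_subset _ _ h1))
      fun h1 => hx (cset_child_subset _ _ h1)

omit [DecidableEq ι] in
theorem sw_mem_GI {c c' : Cell ι} {I : Finset ι} (h : c.1 ∈ I) (h' : c'.1 ∈ I) :
    sw c c' ∈ GI I :=
  ⟨LT_le_G (sw_mem_LT c c'), sw_mem_Fix h h'⟩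

theorem comm_central {a b k k' : H} (hk : k ∈ Subgroup.center H) (hk' : k' ∈ Subgroup.center H) :
    ⁅a * k, b * k'⁆ = ⁅a, b⁆ := by
  have h1 : ∀ g, g * k = k * g := Subgroup.mem_center_iff.1 hk
  have h2 : ∀ g, g * k' = k' * g := Subgroup.mem_center_iff.1 hk'
  rw [commutatorElement_def, commutatorElement_def]
  calc a * k * (b * k') * (a * k)⁻¹ * (b * k')⁻¹
      = a * (k * (b * k')) * k⁻¹ * a⁻¹ * k'⁻¹ * b⁻¹ := by group
    _ = a * (b * k' * k) * k⁻¹ * a⁻¹ * k'⁻¹ * b⁻¹ := by rw [← h1]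
    _ = a * b * (k' * a⁻¹) * k'⁻¹ * b⁻¹ := by group
    _ = a * b * (a⁻¹ * k') * k'⁻¹ * b⁻¹ := by rw [← h2]
    _ = a * b * a⁻¹ * b⁻¹ := by group

variable (L : LocData ι H)

include L in
theorem exists_I (c c' : Cell ι) : ∃ I : Finset ι, c.1 ∈ I ∧ c'.1 ∈ I ∧ I.card = 5 := by
  obtain ⟨I, hI, h5⟩ := L.exists_five {c.1, c'.1} (Finset.card_le_two.trans (by norm_num))
  exact ⟨I, hI (by simp), hI (by simp), h5⟩

theorem exists_lifts {c c' : Cell ι} {I : Finset ι} (h : c.1 ∈ I) (h' : c'.1 ∈ I)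
    (h5 : 5 ≤ I.card) :
    ∃ h₁ ∈ L.Loc I, ∃ h₂ ∈ L.Loc I, L.p h₁ = S c c' ∧ L.p h₂ = X c c' := by
  obtain ⟨h₁, a₁, b₁⟩ := LocData.exists_lift (L := L) h5 (g := S c c') (sw_mem_GI h h')
  obtain ⟨h₂, a₂, b₂⟩ := LocData.exists_lift (L := L) h5 (g := X c c')
    (mul_mem (sw_mem_GI h h) (sw_mem_GI h' h'))
  exact ⟨h₁, a₁, h₂, a₂, b₁, b₂⟩

theorem exists_T (c c' : Cell ι) : ∃ t : H, ∀ I : Finset ι, I.card ≤ 40 → ∀ h₁ ∈ L.Loc I,
    ∀ h₂ ∈ L.Loc I, L.p h₁ = S c c' → L.p h₂ = X c c' → t = ⁅h₁, h₂⁆ := by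
  obtain ⟨J, hc, hc', h5⟩ := exists_I L c c'
  obtain ⟨h₁, a₁, h₂, a₂, b₁, b₂⟩ := exists_lifts L hc hc' h5.ge
  refine ⟨⁅h₁, h₂⁆, fun I hI g₁ c₁ g₂ c₂ d₁ d₂ => ?_⟩
  obtain ⟨k₁, hk₁, rfl⟩ := LocData.exists_Kc (by omega) a₁ c₁ (b₁.trans d₁.symm)
  obtain ⟨k₂, hk₂, rfl⟩ := LocData.exists_Kc (by omega) a₂ c₂ (b₂.trans d₂.symm)
  exact (comm_central hk₁.2 hk₂.2).symm

/-- the canonical lift of `sw c c'` -/
noncomputable def T (c c' : Cell ι) : H := (exists_T L c c').choose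

variable {L}

theorem T_eq {c c' : Cell ι} {I : Finset ι} (hI : I.card ≤ 40) {h₁ h₂ : H} (a₁ : h₁ ∈ L.Loc I)
    (a₂ : h₂ ∈ L.Loc I) (b₁ : L.p h₁ = S c c') (b₂ : L.p h₂ = X c c') : T L c c' = ⁅h₁, h₂⁆ :=
  (exists_T L c c').choose_spec I hI h₁ a₁ h₂ a₂ b₁ b₂

theorem T_mem {c c' : Cell ι} {I : Finset ι} (h : c.1 ∈ I) (h' : c'.1 ∈ I) (h5 : 5 ≤ I.card)
    (hI : I.card ≤ 40) : T L c c' ∈ L.Loc I := by
  obtain ⟨h₁, a₁, h₂, a₂, b₁, b₂⟩ := exists_lifts L h h' h5
  rw [T_eq hI a₁ a₂ b₁ b₂, commutatorElement_def]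
  exact mul_mem (mul_mem (mul_mem a₁ a₂) (inv_mem a₁)) (inv_mem a₂)

theorem T_symm {c c' : Cell ι} (hl : c'.2.length = c.2.length) (h : c ≠ c') :
    T L c c' = T L c' c := by
  obtain ⟨J, hc, hc', h5⟩ := exists_I L c c'
  obtain ⟨h₁, a₁, h₂, a₂, b₁, b₂⟩ := exists_lifts L hc hc' h5.ge
  rw [T_eq (by omega) a₁ a₂ b₁ b₂, T_eq (c := c') (c' := c) (by omega) a₁ a₂
    (b₁.trans (sw_comm _ _)) (b₂.trans (X_comm hl h).symm)]

theorem p_T {c c' : Cell ι} (hl : c'.2.length = c.2.length) (h : c ≠ c') :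
    L.p (T L c c') = sw c c' := by
  obtain ⟨J, hc, hc', h5⟩ := exists_I L c c'
  obtain ⟨h₁, a₁, h₂, a₂, b₁, b₂⟩ := exists_lifts L hc hc' h5.ge
  have e : (S c c')⁻¹ = S c c' := inv_eq_of_mul_eq_one_right (sw_mul_self _ _)
  rw [T_eq (by omega) a₁ a₂ b₁ b₂, map_commutatorElement, b₁, b₂, commutatorElement_def, e,
    sw_child hl, ← X_conj_S hl h]
  simp only [S, mul_assoc]

theorem conj_T {c c' e e' : Cell ι} (hl : c'.2.length = c.2.length) {I : Finset ι}
    (hI : I.card ≤ 35) {g : H} (hg : g ∈ L.Loc I) (r : Rig (L.p g) c e) (r' : Rig (L.p g) c' e') :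
    g * T L c c' * g⁻¹ = T L e e' := by
  obtain ⟨J, hc, hc', h5⟩ := exists_I L c c'
  obtain ⟨h₁, a₁, h₂, a₂, b₁, b₂⟩ := exists_lifts L hc hc' h5.ge
  have hg' : g ∈ L.Loc (I ∪ J) := LocData.Loc_mono Finset.subset_union_left hg
  have a₁' : h₁ ∈ L.Loc (I ∪ J) := LocData.Loc_mono Finset.subset_union_right a₁
  have a₂' : h₂ ∈ L.Loc (I ∪ J) := LocData.Loc_mono Finset.subset_union_right a₂
  have hcard : (I ∪ J).card ≤ 40 := (Finset.card_union_le I J).trans (by omega)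
  rw [T_eq (by omega) a₁ a₂ b₁ b₂, T_eq (c := e) (c' := e') hcard (h₁ := g * h₁ * g⁻¹)
    (h₂ := g * h₂ * g⁻¹) (mul_mem (mul_mem hg' a₁') (inv_mem hg'))
    (mul_mem (mul_mem hg' a₂') (inv_mem hg')) ?_ ?_]
  · rw [commutatorElement_def, commutatorElement_def]
    group
  · rw [map_mul, map_mul, map_inv, b₁]
    exact conj_sw (child_len hl _ _) (r.child _) (r'.child _)
  · rw [map_mul, map_mul, map_inv, b₂, X, X,
      ← conj_sw (c := child c true) (c' := child c false) rfl (r.child _) (r.child _),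
      ← conj_sw (c := child c' true) (c' := child c' false) rfl (r'.child _) (r'.child _)]
    group

theorem T_sq {c c' : Cell ι} (hl : c'.2.length = c.2.length) (h : c ≠ c') :
    T L c c' * T L c c' = 1 := by
  obtain ⟨J, hc, hc', h5⟩ := exists_I L c c'
  obtain ⟨h₁, a₁, h₂, a₂, b₁, b₂⟩ := exists_lifts L hc hc' h5.ge
  have hb : L.p (h₂ * h₁ * h₂⁻¹) = sw (child c false) (child c' false) := by
    rw [map_mul, map_mul, map_inv, b₁, b₂, X_conj_S hl h]
  have hcomm : Commute h₁ (h₂ * h₁ * h₂⁻¹) := by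
    refine LocData.commute_of_cells (L := L) (I := J) (by omega) a₁
      (mul_mem (mul_mem a₂ a₁) (inv_mem a₂)) (c := child c true) (c' := child c' true)
      (Or.inr (cset_disjoint (child_len hl _ _) (child_ne h _ _))) (fun x hx hx' => ?_)
      fun x hx => ?_
    · rw [b₁]
      exact sw_apply_of_notMem hx hx'
    · rw [hb]
      rcases hx with hx | hx
      · exact sw_fix (c := child c false) (c' := child c' false) (e := child c true) rfl
          (child_len hl _ _) (child_ne' _ _) (child_ne' _ _) hx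
      · exact sw_fix (c := child c false) (c' := child c' false) (e := child c' true)
          (child_len hl.symm _ _) rfl (child_ne' _ _) (child_ne' _ _) hx
  have hk : h₁ * h₁ ∈ L.Kc := LocData.mem_Kc (I := J) (by omega) (mul_mem a₁ a₁) (by
    rw [map_mul, b₁]
    exact sw_mul_self _ _)
  have hk' : h₂ * (h₁ * h₁) = h₁ * h₁ * h₂ := Subgroup.mem_center_iff.1 hk.2 h₂
  have e1 : h₂ * h₁ * h₂⁻¹ * (h₂ * h₁ * h₂⁻¹) = h₁ * h₁ := by
    calc h₂ * h₁ * h₂⁻¹ * (h₂ * h₁ * h₂⁻¹) = h₂ * (h₁ * h₁) * h₂⁻¹ := by group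
      _ = h₁ * h₁ := by rw [hk']; group
  have e2 : ⁅h₁, h₂⁆ = h₁ * (h₂ * h₁ * h₂⁻¹)⁻¹ := by
    rw [commutatorElement_def]
    group
  rw [T_eq (by omega) a₁ a₂ b₁ b₂, e2]
  generalize h₂ * h₁ * h₂⁻¹ = b at hcomm e1
  calc h₁ * b⁻¹ * (h₁ * b⁻¹) = h₁ * (b⁻¹ * h₁) * b⁻¹ := by group
    _ = h₁ * (h₁ * b⁻¹) * b⁻¹ := by rw [hcomm.inv_right.eq]
    _ = h₁ * h₁ * (b * b)⁻¹ := by group
    _ = 1 := by rw [e1, mul_inv_cancel]

theorem T_child {c c' : Cell ι} (hl : c'.2.length = c.2.length) (h : c ≠ c') :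
    T L c c' = T L (child c true) (child c' true) * T L (child c false) (child c' false) := by
  obtain ⟨J, hc, hc', h5⟩ := exists_I L c c'
  obtain ⟨-, -, h₂, a₂, -, b₂⟩ := exists_lifts L hc hc' h5.ge
  have a₁ : T L (child c true) (child c' true) ∈ L.Loc J := T_mem hc hc' h5.ge (by omega)
  have b₁ : L.p (T L (child c true) (child c' true)) = S c c' :=
    p_T (child_len hl _ _) (child_ne h _ _)
  have e := conj_T (L := L) (c := child c true) (c' := child c' true) (child_len hl _ _)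
    (by omega) a₂ (b₂ ▸ rig_X_left hl h) (b₂ ▸ rig_X_right hl h)
  rw [T_eq (by omega) a₁ a₂ b₁ b₂, commutatorElement_def,
    inv_eq_of_mul_eq_one_right (T_sq (child_len hl true true) (child_ne h _ _)), ← e]
  simp only [mul_assoc]

variable (L)

theorem exists_f (n : ℕ) : ∃ f : Perm (CellL ι n) →* H,
    ∀ a b, a ≠ b → f (swap a b) = T L a.1 b.1 := by
  refine exists_hom_of_swap (fun a b : CellL ι n => T L a.1 b.1)
    (fun a b h => T_symm (b.2.trans a.2.symm) fun e => h (Subtype.ext e))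
    (fun a b h => T_sq (b.2.trans a.2.symm) fun e => h (Subtype.ext e)) fun a b c d h _ => ?_
  obtain ⟨J, hc, hc', h5⟩ := exists_I L a.1 b.1
  have e : L.p (T L a.1 b.1) = vL n (swap a b) := by
    rw [p_T (b.2.trans a.2.symm) fun e => h (Subtype.ext e), vL_swap']
  exact conj_T (d.2.trans c.2.symm) (I := J) (by omega) (T_mem hc hc' h5.ge (by omega))
    (e ▸ rig_vL n _ c) (e ▸ rig_vL n _ d)

/-- the lift of the exchanges of the cells of level `n` -/
noncomputable def F (n : ℕ) : Perm (CellL ι n) →* H := (exists_f L n).choose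

variable {L}

theorem F_swap {n : ℕ} {a b : CellL ι n} (h : a ≠ b) : F L n (swap a b) = T L a.1 b.1 :=
  (exists_f L n).choose_spec a b h

theorem p_F (n : ℕ) (π : Perm (CellL ι n)) : L.p (F L n π) = vL n π := by
  induction π using Perm.swap_induction_on with
  | one => simp
  | swap_mul π a b h ih =>
    rw [map_mul, map_mul, map_mul, ih, F_swap h, vL_swap',
      p_T (b.2.trans a.2.symm) fun e => h (Subtype.ext e)]

theorem F_succ (n : ℕ) (π : Perm (CellL ι n)) :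
    ∃ π' : Perm (CellL ι (n + 1)), vL (n + 1) π' = vL n π ∧ F L (n + 1) π' = F L n π := by
  induction π using Perm.swap_induction_on with
  | one => exact ⟨1, by simp, by simp⟩
  | swap_mul π a b h ih =>
    obtain ⟨π', h1, h2⟩ := ih
    have hl : b.1.2.length = a.1.2.length := b.2.trans a.2.symm
    have hne : a.1 ≠ b.1 := fun e => h (Subtype.ext e)
    let ch : CellL ι n → Bool → CellL ι (n + 1) := fun c β =>
      ⟨child c.1 β, by simp [child, c.2]⟩
    have hch : ∀ β, ch a β ≠ ch b β := fun β e => child_ne hne β β (Subtype.ext_iff.1 e)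
    refine ⟨swap (ch a true) (ch b true) * swap (ch a false) (ch b false) * π', ?_, ?_⟩
    · rw [map_mul, map_mul, map_mul, h1, vL_swap', vL_swap', vL_swap', sw_child hl]
    · rw [map_mul, map_mul, map_mul, h2, F_swap (hch _), F_swap (hch _), F_swap h, T_child hl hne]

theorem F_le {n m : ℕ} (h : n ≤ m) (π : Perm (CellL ι n)) (π' : Perm (CellL ι m))
    (e : vL n π = vL m π') : F L n π = F L m π' := by
  induction m, h using Nat.le_induction with
  | base => rw [vL_injective n e]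
  | succ m hm ih =>
    obtain ⟨ρ, hρ⟩ := range_vL_mono hm ⟨π, rfl⟩
    obtain ⟨ρ', h1, h2⟩ := F_succ (L := L) m ρ
    rw [ih ρ hρ.symm, ← h2, vL_injective (m + 1) (h1.trans (hρ.trans e))]

theorem F_congr {n m : ℕ} (π : Perm (CellL ι n)) (π' : Perm (CellL ι m))
    (e : vL n π = vL m π') : F L n π = F L m π' := by
  rcases le_total n m with h | h
  · exact F_le h π π' e
  · exact (F_le h π' π e.symm).symm

theorem exists_v (L : LocData ι H) : ∃ v : LT ι →* H,
    ∀ (g : LT ι) (n : ℕ) (π : Perm (CellL ι n)), vL n π = g.1 → v g = F L n π := by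
  have hex : ∀ g : LT ι, ∃ (n : ℕ) (π : Perm (CellL ι n)), vL n π = g.1 := fun g => g.2
  choose n π hπ using hex
  have key : ∀ (g : LT ι) (m : ℕ) (ρ : Perm (CellL ι m)), vL m ρ = g.1 →
      F L (n g) (π g) = F L m ρ := fun g m ρ e => F_congr _ _ ((hπ g).trans e.symm)
  refine ⟨MonoidHom.mk' (fun g => F L (n g) (π g)) fun g h => ?_, key⟩
  obtain ⟨ρ, hρ⟩ := range_vL_mono (le_max_left (n g) (n h)) ⟨π g, hπ g⟩
  obtain ⟨σ, hσ⟩ := range_vL_mono (le_max_right (n g) (n h)) ⟨π h, hπ h⟩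
  rw [key g _ ρ hρ, key h _ σ hσ, key (g * h) _ (ρ * σ) (by rw [map_mul, hρ, hσ]; rfl), map_mul]

omit [DecidableEq ι] in
theorem mem_of_sw (v : LT ι →* H) (M : Subgroup H) (g : LT ι) (U : Set (ι × Om))
    (hU : ∀ x, x ∉ U → g.1 x = x)
    (h : ∀ c c' : Cell ι, c'.2.length = c.2.length → c ≠ c' → cset c ⊆ U → cset c' ⊆ U →
      v ⟨sw c c', sw_mem_LT c c'⟩ ∈ M) : v g ∈ M := by
  have hle : Subgroup.closure {s | ∃ c c' : Cell ι, 0 ≤ c.2.length ∧ c'.2.length = c.2.length ∧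
      c ≠ c' ∧ cset c ⊆ U ∧ cset c' ⊆ U ∧ s = sw c c'} ≤ (M.comap v).map (LT ι).subtype := by
    rw [Subgroup.closure_le]
    rintro _ ⟨c, c', -, hl, hne, h1, h2, rfl⟩
    exact ⟨⟨sw c c', sw_mem_LT c c'⟩, h c c' hl hne h1 h2, rfl⟩
  obtain ⟨g', hg', e⟩ := hle (mem_closure_sw g.2 U hU 0)
  rwa [← Subtype.ext e]

end LiftVAux

/-- Proof. For cells `c ≠ c'` of the same level put `s = sw c⁺ c'⁺`, `x = sw c⁺ c⁻ * sw c'⁺ c'⁻`
(`c⁺ = child c true`, `c⁻ = child c false`), so that `⁅s, x⁆ = sw c⁺ c'⁺ * sw c⁻ c'⁻ = sw c c'`.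
Say that `t` is *good* for `c, c'` if `t = ⁅h₁, h₂⁆` for lifts `h₁, h₂ ∈ Loc I` of `s`, `x`, for some
`I` with at most `40` elements. A good element exists (`exists_five`, `exists_lift`) and is unique
(`exists_Kc`); call it `t c c'`. It is symmetric, lies in `Loc I` as soon as `c.1, c'.1 ∈ I` and
`5 ≤ I.card ≤ 40` (lift in `Loc I`), and `h * t c c' * h⁻¹ = t e e'` if `h ∈ Loc I`, `I.card ≤ 35`,
`Rig (p h) c e`, `Rig (p h) c' e'` (`conj_sw`, `Rig.child`). `t c c' ^ 2 = 1`: `h₁` and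
`h₂ h₁ h₂⁻¹` commute (`commute_of_cells` with the cells `c⁺, c'⁺`) and `h₁ ^ 2 ∈ Kc`.
`exists_hom_of_swap` gives `f L : Perm (CellL ι L) →* H` with `f L (swap c c') = t c c'`.
Taking `h₁ = t c⁺ c'⁺` one gets `t c c' = t c⁺ c'⁺ * t c⁻ c'⁻`, so `f L π = f (L+1) π'` when
`vL L π = vL (L+1) π'` (`swap_induction_on`, `sw_child`, `vL_swap`, `vL_injective`); glue the `f L`.
Locality and the last property follow from `mem_closure_sw` (with `U` the union of the copies in
`I`, resp. `U = {x | g x ≠ x}` and `rig_of_fix`). -/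
theorem LocData.exists_v (L : LocData ι H) : ∃ v : LT ι →* H,
    (∀ g, L.p (v g) = g.1) ∧
    (∀ (I : Finset ι) (g : LT ι), 5 ≤ I.card → I.card ≤ 40 → g.1 ∈ Fix I → v g ∈ L.Loc I) ∧
    (∀ (I : Finset ι) (g : LT ι) (h : H), I.card ≤ 35 → h ∈ L.Loc I →
      (∀ x, g.1 x = x ∨ L.p h x = x) → Commute (v g) h) := by
  obtain ⟨v, hv⟩ := LiftVAux.exists_v L
  have hsw : ∀ c c' : Cell ι, c'.2.length = c.2.length → c ≠ c' →
      v ⟨sw c c', sw_mem_LT c c'⟩ = LiftVAux.T L c c' := by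
    intro c c' hl hne
    rw [hv _ c.2.length (swap ⟨c, rfl⟩ ⟨c', hl⟩) (LiftVAux.vL_swap' _ _ _),
      LiftVAux.F_swap fun e => hne (Subtype.ext_iff.1 e)]
  refine ⟨v, fun g => ?_, fun I g h5 h40 hg => ?_, fun I g h hI hh hd => ?_⟩
  · obtain ⟨n, π, e⟩ := g.2
    rw [hv g n π e, LiftVAux.p_F, e]
  · refine LiftVAux.mem_of_sw v _ g {x | x.1 ∈ I} hg fun c c' hl hne h1 h2 => ?_
    have key : ∀ e : Cell ι, cset e ⊆ {x | x.1 ∈ I} → e.1 ∈ I := by
      intro e he
      obtain ⟨x, hx⟩ := cset_nonempty e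
      rw [← fst_of_mem_cset hx]
      exact he hx
    rw [hsw c c' hl hne]
    exact LiftVAux.T_mem (key c h1) (key c' h2) h5 h40
  · have hm : v g ∈ Subgroup.centralizer {h} := by
      refine LiftVAux.mem_of_sw v _ g {x | g.1 x ≠ x} (fun x hx => not_not.1 hx)
        fun c c' hl hne h1 h2 => ?_
      rw [hsw c c' hl hne, Subgroup.mem_centralizer_singleton_iff]
      have e := LiftVAux.conj_T hl hI hh (rig_of_fix fun x hx => (hd x).resolve_left (h1 hx))
        (rig_of_fix fun x hx => (hd x).resolve_left (h2 hx))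
      exact (mul_inv_eq_iff_eq_mul.1 e).symm
    exact Subgroup.mem_centralizer_singleton_iff.1 hm

end Crest.Agent.R189
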