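import Crest.Agent.R189.Proj

/-!
# Row 189, task Meet: existence of meets
-/

set_option autoImplicit false

namespace Crest.Agent.R189

open Equiv
open scoped commutatorElement

variable {ι : Type} [Fintype ι] [DecidableEq ι] {B : Type} [Group B]
variable {κ : B →* alternatingGroup ι} {H : Type} [Group H] {Φ : Frame κ H}

/-- a multiplicative map with commutative image out of a perfect group is trivial -/
theorem meet_triv (hB : commutator B = ⊤) (φ : B → H) (hc : ∀ a b, Commute (φ a) (φ b))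
    (hm : ∀ a b, φ (a * b) = φ b * φ a) (a : B) : φ a = 1 := by
  have := ext_of_comm hB (f := MonoidHom.mk' φ fun a b => by rw [hm, (hc a b).eq]) (g := 1)
    fun a b => by
      rw [map_commutatorElement, MonoidHom.one_apply]
      exact commutatorElement_eq_one_iff_commute.2 (hc a b)
  exact DFunLike.congr_fun this a

theorem meet_comm_mul {K₁ K₂ : Subgroup H} (hK : ∀ x ∈ K₁, ∀ y ∈ K₂, Commute x y)
    {x₁ y₁ x₂ y₂ : H} (hx₁ : x₁ ∈ K₁) (hy₁ : y₁ ∈ K₁) (hx₂ : x₂ ∈ K₂) (hy₂ : y₂ ∈ K₂) :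
    ⁅x₁ * x₂, y₁ * y₂⁆ = ⁅x₁, y₁⁆ * ⁅x₂, y₂⁆ := by
  have := map_commutatorElement (MonoidHom.noncommCoprod K₁.subtype K₂.subtype
    fun x y => hK _ x.2 _ y.2) (⟨x₁, hx₁⟩, ⟨x₂, hx₂⟩) (⟨y₁, hy₁⟩, ⟨y₂, hy₂⟩)
  exact this.symm

theorem meet_comm_mem {K : Subgroup H} {x y : H} (hx : x ∈ K) (hy : y ∈ K) : ⁅x, y⁆ ∈ K :=
  mul_mem (mul_mem (mul_mem hx hy) (inv_mem hx)) (inv_mem hy)

/-- if `⁅e t, g⁆` commutes with all `e t'` and `g`, then it is trivial -/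
theorem meet_commute (hB : commutator B = ⊤) (e : B →* H) (g : H) {K : Subgroup H}
    (he : ∀ t, e t ∈ K) (hg : g ∈ K) (h : ∀ t, ∀ y ∈ K, Commute ⁅e t, g⁆ y) (t : B) :
    Commute (e t) g :=
  commutatorElement_eq_one_iff_commute.1 <| meet_triv hB (fun t => ⁅e t, g⁆)
    (fun a b => h a _ (meet_comm_mem (he b) hg)) (fun a b => by
      have := (h b _ (he a)).eq
      calc ⁅e (a * b), g⁆ = e a * ⁅e b, g⁆ * (e a)⁻¹ * ⁅e a, g⁆ := by
            rw [map_mul]; simp only [commutatorElement_def]; group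
        _ = _ := by rw [← this, mul_inv_cancel_right]) t

theorem meet_split (hB : commutator B = ⊤) {K₁ K₂ : Subgroup H}
    (hK : ∀ x ∈ K₁, ∀ y ∈ K₂, Commute x y) (e₁ e₂ : B →* H) (he₁ : ∀ t, e₁ t ∈ K₁)
    (he₂ : ∀ t, e₂ t ∈ K₂) {f₁ f₂ : H} (hf₁ : f₁ ∈ K₁) (hf₂ : f₂ ∈ K₂)
    (h : ∀ t, Commute (f₁ * f₂) (e₁ t * e₂ t)) (t : B) : Commute f₁ (e₁ t) := by
  refine (meet_commute hB e₁ f₁ he₁ hf₁ (fun t y hy => ?_) t).symm
  have h1 := commutatorElement_eq_one_iff_commute.2 (h t).symm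
  rw [meet_comm_mul hK (he₁ t) hf₁ (he₂ t) hf₂, mul_eq_one_iff_eq_inv] at h1
  rw [h1]
  exact (hK _ hy _ (inv_mem (meet_comm_mem (he₂ t) hf₂))).symm

/-- pairs `(h, b)` such that `h` acts on `C` as `i b` -/
def meetS (i : B →* H) (C : Subgroup H) (hC : ∀ b, ∀ g ∈ C, i b * g * (i b)⁻¹ ∈ C) :
    Subgroup (H × B) where
  carrier := {z | ∀ g ∈ C, z.1 * g * z.1⁻¹ = i z.2 * g * (i z.2)⁻¹}
  one_mem' := fun g _ => by simp
  mul_mem' := fun {z w} hz hw g hg => by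
    calc (z * w).1 * g * (z * w).1⁻¹ = z.1 * (w.1 * g * w.1⁻¹) * z.1⁻¹ := by
          rw [Prod.fst_mul]; group
      _ = _ := by rw [hw g hg, hz _ (hC _ g hg), Prod.snd_mul, map_mul]; group
  inv_mem' := fun {z} hz g hg => by
    have := hz _ (hC z.2⁻¹ g hg)
    calc z⁻¹.1 * g * z⁻¹.1⁻¹
        = z.1⁻¹ * (i z.2 * (i z.2⁻¹ * g * (i z.2⁻¹)⁻¹) * (i z.2)⁻¹) * z.1 := by
          rw [Prod.fst_inv, map_inv]; group
      _ = _ := by rw [← this, Prod.snd_inv]; group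

/-- lifting through the universal central extension -/
theorem meet_lift {A : Type} [Group A] {κ : B →* A} (hκ : IsUCE κ) (i : B →* H) (C : Subgroup H)
    (hC : ∀ b, ∀ g ∈ C, i b * g * (i b)⁻¹ ∈ C) (hz : ∀ z ∈ κ.ker, ∀ g ∈ C, Commute (i z) g)
    (hs : ∀ a b : B, ∃ h ∈ C, (h, ⁅a, b⁆) ∈ meetS i C hC) :
    ∃ r : B →* H, ∀ b, r b ∈ C ∧ (r b, b) ∈ meetS i C hC := by
  have hz' : ∀ z ∈ κ.ker, ((1 : H), z) ∈ meetS i C hC := fun z h g hg => by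
    rw [(hz z h g hg).eq]; simp
  set E' : Subgroup (H × B) := meetS i C hC ⊓ C.comap (MonoidHom.fst H B) with hE'
  set E : Subgroup (H × A) := E'.map ((MonoidHom.id H).prodMap κ) with hE
  have hsurj : E'.map (MonoidHom.snd H B) = ⊤ := by
    rw [eq_top_iff, ← hκ.perfect, commutator_def, Subgroup.commutator_le]
    intro a _ b _
    obtain ⟨h, h1, h2⟩ := hs a b
    exact ⟨(h, ⁅a, b⁆), ⟨h2, h1⟩, rfl⟩
  obtain ⟨ψ, hψ⟩ := hκ.lift E ((MonoidHom.snd H A).comp E.subtype) (fun α => by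
    obtain ⟨b, rfl⟩ := hκ.surj α
    obtain ⟨z, hz, rfl⟩ : b ∈ E'.map (MonoidHom.snd H B) := hsurj ▸ Subgroup.mem_top b
    exact ⟨⟨_, z, hz, rfl⟩, rfl⟩) (by
    rintro ⟨_, ⟨h, b⟩, h1, rfl⟩ h2
    rw [Subgroup.mem_center_iff]
    rintro ⟨_, ⟨h', b'⟩, h3, rfl⟩
    have hb : κ b = 1 := h2
    have := h1.1 h' h3.2
    rw [(hz b hb h' h3.2).eq, mul_inv_cancel_right, mul_inv_eq_iff_eq_mul] at this
    exact Subtype.ext (Prod.ext this.symm (by simp [hb])))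
  refine ⟨(MonoidHom.fst H A).comp (E.subtype.comp ψ), fun b => ?_⟩
  obtain ⟨⟨h, b'⟩, h1, h2⟩ := (ψ b).2
  have e1 : (MonoidHom.fst H A).comp (E.subtype.comp ψ) b = h := (congrArg Prod.fst h2).symm
  have e2 : κ b' = κ b := (congrArg Prod.snd h2).trans (DFunLike.congr_fun hψ b)
  rw [e1]
  refine ⟨h1.2, ?_⟩
  simpa using mul_mem h1.1 (hz' (b'⁻¹ * b) (by simp [e2]))

namespace Proj

variable {p q r : Proj Φ}

theorem meet_io (p : Proj Φ) (b : B) : Φ.io b = p.s b * p.compl.s b := by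
  rw [compl_s, mul_inv_cancel_left]

/-- Proof. Let `f a b = ⁅p.s a, q.s b⁆`, `C` the subgroup generated by these elements; it is
normalised by `Φ.io` (`eqv`), and conjugation by `p.s a` or `q.s a` acts on `C` as conjugation by
`Φ.io a`. For `z ∈ ker κ` (central in `B`), `Φ.io z` commutes with all `p.s a`, `q.s b` (`eqv`), so
with `C`. Let `E ≤ H × A` be the group of the `(h, κ b)` with `h ∈ C` acting on `C` as `Φ.io b`.
The projection `E → A` is onto (`(f a b, κ ⁅a, b⁆) ∈ E`, `A` is perfect) with central kernel, so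
`Φ.uce.lift` gives `r : B →* H` with values in `C`, `r b` acting on `C` as `Φ.io b`; so `r` is
equivariant. `x a = p.s a * (r a)⁻¹` and `y b = q.s b * (r b)⁻¹` are homomorphisms centralising `C`,
`f a b = ⁅x a, y b⁆ * r ⁅a, b⁆`, so `⁅x a, y b⁆ ∈ C` commutes with `x`, `y` and is bimultiplicative
with values in a commutative group, hence trivial (`B` is perfect). Thus `r ⁅a, b⁆ = f a b`, which
gives locality (`commutator_Bs`), and `p = r + x` with `r ≤ q`, `x ⊥ q`. -/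
theorem comm_of_rel (hp : ∀ a b c, Commute ⁅p.s a, q.s b⁆ (p.compl.s c))
    (hq : ∀ a b c, Commute ⁅p.s a, q.s b⁆ (q.compl.s c)) : Comm p q := by
  set C : Subgroup H := Subgroup.closure {h | ∃ a b, h = ⁅p.s a, q.s b⁆} with hCd
  have gen : ∀ a b, ⁅p.s a, q.s b⁆ ∈ C := fun a b => Subgroup.subset_closure ⟨a, b, rfl⟩
  have cen : ∀ y : H, (∀ a b, Commute ⁅p.s a, q.s b⁆ y) → ∀ g ∈ C, Commute g y := fun y hy g hg => by
    have : C ≤ Subgroup.centralizer {y} := (Subgroup.closure_le _).2 <| by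
      rintro _ ⟨a, b, rfl⟩
      exact Subgroup.mem_centralizer_singleton_iff.2 (hy a b).eq
    exact Subgroup.mem_centralizer_singleton_iff.1 (this hg)
  have hC : ∀ c, ∀ g ∈ C, Φ.io c * g * (Φ.io c)⁻¹ ∈ C := fun c g hg => by
    have : C ≤ C.comap (MulAut.conj (Φ.io c)).toMonoidHom := (Subgroup.closure_le _).2 <| by
      rintro _ ⟨a, b, rfl⟩
      change (MulAut.conj (Φ.io c)).toMonoidHom ⁅p.s a, q.s b⁆ ∈ C
      rw [map_commutatorElement]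
      change ⁅Φ.io c * p.s a * (Φ.io c)⁻¹, Φ.io c * q.s b * (Φ.io c)⁻¹⁆ ∈ C
      rw [p.eqv, q.eqv]
      exact gen _ _
    exact this hg
  have act : ∀ u : Proj Φ, (∀ a b c, Commute ⁅p.s a, q.s b⁆ (u.compl.s c)) →
      ∀ c, (u.s c, c) ∈ meetS Φ.io C hC := fun u hu c g hg => by
    have := (cen _ (fun a b => hu a b c) g hg).eq
    calc u.s c * g * (u.s c)⁻¹ = u.s c * (g * u.compl.s c * (u.compl.s c)⁻¹) * (u.s c)⁻¹ := by group
      _ = _ := by rw [this, u.meet_io c]; group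
  obtain ⟨r, hr⟩ := meet_lift Φ.uce Φ.io C hC (fun z hz g hg => (cen _ (fun a b => by
      have key : ∀ (u : Proj Φ) (a : B), u.s a ∈ Subgroup.centralizer {Φ.io z} := fun u a => by
        have := u.eqv z a
        rw [← Subgroup.mem_center_iff.1 (Φ.uce.central hz) a, mul_inv_cancel_right,
          mul_inv_eq_iff_eq_mul] at this
        exact Subgroup.mem_centralizer_singleton_iff.2 this.symm
      exact Subgroup.mem_centralizer_singleton_iff.1 (meet_comm_mem (key p a) (key q b))) g hg).symm)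
    fun a b => ⟨_, gen a b, meet_comm_mem (act p hp a) (act q hq b)⟩
  have hK : ∀ x ∈ Subgroup.centralizer (C : Set H), ∀ y ∈ C, Commute x y :=
    fun x hx y hy => (hx y hy).symm
  have res : ∀ u : Proj Φ, (∀ c, (u.s c, c) ∈ meetS Φ.io C hC) → ∃ x : B →* H,
      ∀ a, x a = u.s a * (r a)⁻¹ ∧ x a ∈ Subgroup.centralizer (C : Set H) := fun u hu => by
    have m : ∀ a, u.s a * (r a)⁻¹ ∈ Subgroup.centralizer (C : Set H) := fun a g hg => by
      have := mul_mem (hu a) (inv_mem (hr a).2) g hg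
      simp only [Prod.inv_mk, Prod.mk_mul_mk, mul_inv_cancel, map_one, one_mul, inv_one,
        mul_one] at this
      exact (mul_inv_eq_iff_eq_mul.1 this).symm
    refine ⟨MonoidHom.mk' (fun a => u.s a * (r a)⁻¹) fun a b => ?_, fun a => ⟨rfl, m a⟩⟩
    have := m b _ (inv_mem (hr a).1)
    calc u.s (a * b) * (r (a * b))⁻¹ = u.s a * (u.s b * (r b)⁻¹ * (r a)⁻¹) := by
          rw [map_mul, map_mul]; group
      _ = _ := by rw [← this]; group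
  obtain ⟨x, hx⟩ := res p (act p hp)
  obtain ⟨y, hy⟩ := res q (act q hq)
  have ex : ∀ a, p.s a = x a * r a := fun a => by rw [(hx a).1, inv_mul_cancel_right]
  have ey : ∀ a, q.s a = y a * r a := fun a => by rw [(hy a).1, inv_mul_cancel_right]
  have e : ∀ a b, ⁅p.s a, q.s b⁆ = ⁅x a, y b⁆ * r ⁅a, b⁆ := fun a b => by
    rw [ex, ey, meet_comm_mul hK (hx a).2 (hy b).2 (hr a).1 (hr b).1, map_commutatorElement]
  have xy : ∀ a b, Commute (x a) (y b) := fun a b =>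
    meet_commute Φ.uce.perfect x (y b) (fun t => (hx t).2) (hy b).2 (fun t z hz => by
      rw [← mul_inv_eq_iff_eq_mul.2 (e t b)]
      exact (hK _ hz _ (mul_mem (gen t b) (inv_mem (hr _).1))).symm) a
  have e' : ∀ a b, r ⁅a, b⁆ = ⁅p.s a, q.s b⁆ := fun a b => by
    rw [e, commutatorElement_eq_one_iff_commute.2 (xy a b), one_mul]
  have eqv : ∀ c b, Φ.io c * r b * (Φ.io c)⁻¹ = r (c * b * c⁻¹) := fun c b => by
    rw [map_mul, map_mul, map_inv]; exact ((hr c).2 _ (hr b).1).symm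
  have loc : ∀ I, 5 ≤ I.card → ∀ b ∈ Bs κ I, r b ∈ Φ.HI I := fun I hI b hb => by
    have : ⁅Bs κ I, Bs κ I⁆ ≤ (Φ.HI I).comap r := Subgroup.commutator_le.2 fun a ha b hb => by
      rw [Subgroup.mem_comap, e']
      exact meet_comm_mem (p.loc I hI a ha) (q.loc I hI b hb)
    rw [commutator_Bs Φ.uce hI] at this
    exact this hb
  refine ⟨⟨r, eqv, loc⟩, ⟨x, fun c b => ?_, fun I hI b hb => ?_⟩,
    ⟨fun a b => (hK _ (hx b).2 _ (hr a).1).symm, fun a => ?_⟩,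
    fun a b => cen _ (fun _ _ => hq _ _ b) _ (hr a).1, fun a b => ?_⟩
  · rw [(hx b).1, (hx _).1, ← p.eqv, ← eqv]; group
  · rw [(hx b).1]; exact mul_mem (p.loc I hI b hb) (inv_mem (loc I hI b hb))
  · exact (ex a).trans (hK _ (hx a).2 _ (hr a).1).eq
  · change Commute (x a) (q.s b)
    rw [ey]
    exact (xy a b).mul_right (hK _ (hx a).2 _ (hr b).1)

theorem meet_aux {K₁ K₂ : Subgroup H} (hK : ∀ x ∈ K₁, ∀ y ∈ K₂, Commute x y)
    {p₁ p₂ u₁ u₂ : Proj Φ} (h : IsSum p p₁ p₂) (h' : IsSum p.compl u₁ u₂)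
    (hp₂ : ∀ t, p₂.s t ∈ K₂) (hu₁ : ∀ t, u₁.s t ∈ K₁) (hu₂ : ∀ t, u₂.s t ∈ K₂) {f₁ f₂ : H}
    (hf₁ : f₁ ∈ K₁) (hf₂ : f₂ ∈ K₂) (hc : ∀ t, Commute (f₁ * f₂) (p.compl.s t)) (c : B) :
    Commute f₁ (p₁.compl.s c) := by
  have : p₁.compl.s c = p₂.s c * (u₁.s c * u₂.s c) := by
    rw [compl_s, p.meet_io c, h.2, h'.2]; group
  rw [this]
  exact (hK _ hf₁ _ (hp₂ c)).mul_right ((meet_split Φ.uce.perfect hK u₁.s u₂.s hu₁ hu₂ hf₁ hf₂
    (fun t => h'.2 t ▸ hc t) c).mul_right (hK _ hf₁ _ (hu₂ c)))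

/-- Foulis-Holland. Write `p = p₁ + p₂`, `q = q₁ + q₂` with `p₁, q₁ ≤ r` and `p₂, q₂ ⊥ r`, and the
same for the complements of `p` and `q`. Everything with index `1` commutes with everything with
index `2` (`Le.orth`), so `⁅p a, q b⁆ = f₁ f₂`, `fᵢ = ⁅pᵢ a, qᵢ b⁆`. If `e = e₁ + e₂` commutes with
`f₁ f₂` then `ζ t = f₁⁻¹ e₁(t) f₁ e₁(t)⁻¹ = f₂ e₂(t) f₂⁻¹ e₂(t)⁻¹` commutes with both kinds of
elements, so `t ↦ ζ t` is a homomorphism with commutative image, hence trivial. So `comm_of_rel`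
applies to `pᵢ, qᵢ` (`pᵢ.compl` is the sum of `p.compl` and the other `pⱼ`), and
`meet p q = meet p₁ q₁ + meet p₂ q₂` (`ext_of_comm`). -/
theorem Comm.meet (hpq : Comm p q) (hp : Comm p r) (hq : Comm q r) : Comm (meet p q) r := by
  obtain ⟨u₁, u₂, hu, hu₁, hu₂⟩ := hp.symm.compl.symm
  obtain ⟨v₁, v₂, hv, hv₁, hv₂⟩ := hq.symm.compl.symm
  obtain ⟨p₁, p₂, hp, hp₁, hp₂⟩ := hp
  obtain ⟨q₁, q₂, hq, hq₁, hq₂⟩ := hq
  set K₂ : Subgroup H := Subgroup.centralizer {h | ∃ u : Proj Φ, Le u r ∧ ∃ a, h = u.s a}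
  set K₁ : Subgroup H := Subgroup.centralizer (K₂ : Set H)
  have hK : ∀ x ∈ K₁, ∀ y ∈ K₂, Commute x y := fun x hx y hy => (hx y hy).symm
  have hK' : ∀ y ∈ K₂, ∀ x ∈ K₁, Commute y x := fun y hy x hx => (hK x hx y hy).symm
  have m₁ : ∀ {u : Proj Φ}, Le u r → ∀ a, u.s a ∈ K₁ := fun {u} h a y hy =>
    (hy _ ⟨u, h, a, rfl⟩).symm
  have m₂ : ∀ {u : Proj Φ}, Orth u r → ∀ a, u.s a ∈ K₂ := fun {u} h a => by
    rintro _ ⟨w, hw, b, rfl⟩
    exact (hw.orth h.symm b a).eq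
  have e : ∀ a b, (Proj.meet p q).s ⁅a, b⁆ = ⁅p₁.s a, q₁.s b⁆ * ⁅p₂.s a, q₂.s b⁆ := fun a b => by
    rw [hpq.meet_s, hp.2, hq.2, meet_comm_mul hK (m₁ hp₁ a) (m₁ hq₁ b) (m₂ hp₂ a) (m₂ hq₂ b)]
  have f₁ : ∀ a b, ⁅p₁.s a, q₁.s b⁆ ∈ K₁ := fun a b => meet_comm_mem (m₁ hp₁ a) (m₁ hq₁ b)
  have f₂ : ∀ a b, ⁅p₂.s a, q₂.s b⁆ ∈ K₂ := fun a b => meet_comm_mem (m₂ hp₂ a) (m₂ hq₂ b)
  have e' : ∀ a b, (Proj.meet p q).s ⁅a, b⁆ = ⁅p₂.s a, q₂.s b⁆ * ⁅p₁.s a, q₁.s b⁆ := fun a b =>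
    (e a b).trans (hK _ (f₁ a b) _ (f₂ a b)).eq
  have c₁ : Comm p₁ q₁ := comm_of_rel
    (fun a b => meet_aux hK hp hu (m₂ hp₂) (m₁ hu₁) (m₂ hu₂) (f₁ a b) (f₂ a b)
      fun t => e a b ▸ hpq.meet_le_left _ t)
    (fun a b => meet_aux hK hq hv (m₂ hq₂) (m₁ hv₁) (m₂ hv₂) (f₁ a b) (f₂ a b)
      fun t => e a b ▸ hpq.meet_le_right _ t)
  have c₂ : Comm p₂ q₂ := comm_of_rel
    (fun a b => meet_aux hK' hp.symm hu.symm (m₁ hp₁) (m₂ hu₂) (m₁ hu₁) (f₂ a b) (f₁ a b)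
      fun t => e' a b ▸ hpq.meet_le_left _ t)
    (fun a b => meet_aux hK' hq.symm hv.symm (m₁ hq₁) (m₂ hv₂) (m₁ hv₁) (f₂ a b) (f₁ a b)
      fun t => e' a b ▸ hpq.meet_le_right _ t)
  have l₁ := c₁.meet_le_left.trans hp₁
  have l₂ := c₂.meet_le_left.orth hp₂
  obtain ⟨w, hw⟩ := (l₁.orth l₂.symm).exists_sum
  have : (Proj.meet p q).s = w.s := ext_of_comm Φ.uce.perfect fun a b => by
    rw [e, hw.2, c₁.meet_s, c₂.meet_s]
  exact ⟨_, _, ⟨hw.1, fun a => this ▸ hw.2 a⟩, l₁, l₂⟩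

end Proj

end Crest.Agent.R189
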