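import Crest.Agent.R189.ParA
import Crest.Agent.R189.Cell

/-!
# Row 189, task Par: parametrisations of pieces, the moves `mu`, the generators `hat`
-/

set_option autoImplicit false

namespace Crest.Agent.R189

open Equiv

/-- the chosen parametrisation of a type -/
noncomputable def par (t : Ty) : Om → Om := (exists_par t).choose

theorem isPar_par (t : Ty) : IsPar t (par t) := (exists_par t).choose_spec.1

theorem par_T : par .T = id := (exists_par .T).choose_spec.2 rfl

theorem par_injective (t : Ty) : Function.Injective (par t) := (isPar_par t).1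

theorem par_mem (t : Ty) (y : Om) : par t y ∈ t.set := (isPar_par t).2.1 ▸ Set.mem_range_self y

theorem par_surj {t : Ty} {z : Om} (hz : z ∈ t.set) : ∃ y, par t y = z := by
  rw [← (isPar_par t).2.1] at hz
  exact hz

theorem par_mem_one {t : Ty} {z : Om} (hz : z ∈ t.set) : z ∈ (⟨Mk.one, t⟩ : Pc).set :=
  ⟨z, hz, app_one z⟩

theorem par_ht (β : Bool) : ht .T .a β = .T := by cases β <;> rfl

theorem par_dg (β : Bool) : dg .T .a β = 1 := by cases β <;> rfl

theorem par_pre {p f : Om → Om} {s s' : ℤ} {m : Mk} {u : Ty} (hp : Fine (Can1 p s) ⟨Mk.one, u⟩)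
    (h : ∀ y ∈ u.set, f (m.app y) = p y) (hs : s' = s - m.deg) : Fine (Can1 f s') ⟨m, u⟩ := by
  have h1 : ∀ y, Function.invFun m.app (m.app y) = y := Function.leftInverse_invFun (app_injective m)
  have h2 : Fine (Can1 (Function.invFun m.app) (-(m.deg : ℤ))) ⟨m, u⟩ :=
    .base ⟨Mk.one, by simp [deg_one], fun y _ => by rw [app_one]; exact h1 y⟩
  have h3 := fine_can1_comp h2 (by
    rintro _ ⟨y, hy, rfl⟩
    exact par_mem_one (by rw [h1]; exact hy)) hp
  rw [show s' = -(m.deg : ℤ) + s by omega]
  refine fine_can1_congr h3 ?_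
  rintro _ ⟨y, hy, rfl⟩
  rw [h y hy, h1]

theorem par_post {p : Om → Om} {s : ℤ} {x : Pc} (hp : Fine (Can1 p s) x) (t : Ty) (d : Dir)
    (β : Bool) : Fine (Can1 (fun y => he t d β (p y)) (s + dg t d β)) x := by
  refine hp.mono ?_
  rintro z ⟨m', h1, h2⟩
  obtain ⟨n, h3, h4⟩ := exists_comp (hm t d β Mk.one) m'
  refine ⟨n, ?_, fun y hy => ?_⟩
  · rw [h4, deg_hm, deg_one]
    push_cast
    omega
  · rw [h3, app_hm, app_one]
    exact congrArg _ (h2 y hy)

theorem par_he_inj {t : Ty} {d : Dir} (h : valid t d = true) {β β' : Bool} {y y' : Om}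
    (hy : y ∈ (ht t d β).set) (hy' : y' ∈ (ht t d β').set) (e : he t d β y = he t d β' y') :
    β = β' ∧ y = y' := by
  have h1 := he_ix h β hy
  have h2 := he_ix h β' hy'
  rw [e, h2] at h1
  have h3 : β = β' := by
    cases β <;> cases β' <;> simp_all
  subst h3
  exact ⟨rfl, he_injective t d β e⟩

theorem par_bijT : Function.Bijective fun p : Bool × Om => he .T .a p.1 p.2 := by
  constructor
  · rintro ⟨β, y⟩ ⟨β', y'⟩ e
    obtain ⟨rfl, rfl⟩ := par_he_inj (t := .T) (d := .a) rfl (by rw [par_ht]; trivial)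
      (by rw [par_ht]; trivial) e
    rfl
  · intro y
    obtain ⟨β, y', -, rfl⟩ := exists_he (t := .T) (d := .a) rfl (y := y) trivial
    exact ⟨(β, y'), rfl⟩

theorem par_split {𝒜 : Pc → Prop} {x : Pc} {d : Dir} (hd : valid x.t d = true)
    (h : ∀ β, Fine 𝒜 (x.half d β)) : Fine 𝒜 x := .split d hd (h true) (h false)

/-- Proof. For valid `t d` the map `(β, y) ↦ he t d β (par (ht t d β) y)` is a bijection
`Bool × Om → t.set` (`he_mem`, `he_ix`, `exists_he`), as is `par t : Om → t.set`, and
`(β, y) ↦ he T a β y` is a bijection `Bool × Om → Om`. On the half `root.half a β`, `ν` is the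
composition of `invFun (he T a β)`, `par _`, `he t d β` and the inverse of `par t`
(`fine_can1_comp`; the shifts add up to `0` by `dg_add_sz`). The inverse is `g ∘ par t` where `g`
is piecewise canonical on both halves of `⟨one, t⟩` in the direction `d`. -/
theorem exists_nu (t : Ty) (d : Dir) : ∃ ν ∈ G1, valid t d = true →
    ∀ β y, par t (ν (he .T .a β y)) = he t d β (par (ht t d β) y) := by
  by_cases h : valid t d = true
  swap
  · exact ⟨1, one_mem _, fun h' => absurd h' h⟩
  obtain ⟨-, -, hf, g, hg, hg'⟩ := isPar_par t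
  have h1 : ∀ z ∈ t.set, par t (g z) = z := fun z hz => by
    obtain ⟨y, rfl⟩ := par_surj hz
    rw [hg]
  have h2 : Function.Bijective fun p : Bool × Om => g (he t d p.1 (par (ht t d p.1) p.2)) := by
    constructor
    · rintro ⟨β, y⟩ ⟨β', y'⟩ e
      have e' := congrArg (par t) e
      rw [h1 _ (he_mem h _ (par_mem _ _)), h1 _ (he_mem h _ (par_mem _ _))] at e'
      obtain ⟨rfl, e''⟩ := par_he_inj h (par_mem _ _) (par_mem _ _) e'
      exact Prod.ext rfl (par_injective _ e'')
    · intro y
      obtain ⟨β, y', h3, h4⟩ := exists_he h (par_mem t y)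
      obtain ⟨y'', rfl⟩ := par_surj h3
      exact ⟨(β, y''), by simp only; rw [← h4, hg]⟩
  obtain ⟨ν, hν⟩ : ∃ ν : Perm Om, ∀ β y, ν (he .T .a β y) = g (he t d β (par (ht t d β) y)) :=
    ⟨(Equiv.ofBijective _ par_bijT).symm.trans (Equiv.ofBijective _ h2), fun β y => by
      rw [Equiv.trans_apply]
      exact congrArg _ (Equiv.ofBijective_symm_apply_apply _ par_bijT (β, y))⟩
  refine ⟨ν, ⟨par_split (d := .a) rfl fun β => ?_, ?_⟩, fun _ β y => ?_⟩
  · have h3 := fine_can1_comp (par_post (isPar_par (ht t d β)).2.2.1 t d β)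
      (fun y _ => par_mem_one (he_mem h β (par_mem _ y))) hg'
    have h4 := dg_add_sz h β
    change Fine _ ⟨hm .T .a β Mk.one, ht .T .a β⟩
    rw [par_ht]
    refine par_pre h3 (fun y _ => by rw [app_hm, app_one, hν]) ?_
    rw [deg_hm, deg_one, par_dg]
    omega
  · have h3 : Fine (Can1 (fun z => ν⁻¹ (g z)) (-(t.sz : ℤ))) ⟨Mk.one, t⟩ := by
      refine par_split (d := d) h fun β => ?_
      obtain ⟨-, -, -, g', e1, e2⟩ := isPar_par (ht t d β)
      have h4 := dg_add_sz h β
      refine par_pre (par_post e2 .T .a β) (fun y hy => ?_) ?_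
      · obtain ⟨y, rfl⟩ := par_surj hy
        rw [app_hm, app_one, ← hν, e1]
        exact ν.symm_apply_apply _
      · rw [deg_hm, deg_one, par_dg]
        simp only
        omega
    have h4 := fine_can1_comp hf (fun y _ => par_mem_one (par_mem t y)) h3
    rw [add_neg_cancel] at h4
    exact fine_can1_congr h4 fun y _ => by rw [hg]
  · rw [hν, h1 _ (he_mem h _ (par_mem _ _))]

/-- the move which changes the standard cut into the cut of `t` in the direction `d` -/
noncomputable def nu (t : Ty) (d : Dir) : Perm Om := (exists_nu t d).choose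

theorem nu_mem (t : Ty) (d : Dir) : nu t d ∈ G1 := (exists_nu t d).choose_spec.1

theorem nu_spec {t : Ty} {d : Dir} (h : valid t d = true) (β : Bool) (y : Om) :
    par t (nu t d (he .T .a β y)) = he t d β (par (ht t d β) y) :=
  (exists_nu t d).choose_spec.2 h β y

theorem nu_T_a : nu .T .a = 1 := by
  ext1 y
  obtain ⟨⟨β, y⟩, rfl⟩ := par_bijT.2 y
  have := nu_spec (t := .T) (d := .a) rfl β y
  rw [par_ht, par_T] at this
  exact this

variable {ι : Type}

/-- the move on a cell -/
noncomputable def mu (c : Cell ι) (t : Ty) (d : Dir) : Perm (ι × Om) := loc c (nu t d)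

/-- the parametrisation of a piece -/
noncomputable def kap (i : ι) (x : Pc) (y : Om) : ι × Om := (i, x.m.app (par x.t y))

theorem kap_injective (i : ι) (x : Pc) : Function.Injective (kap i x) := by
  exact fun _ _ h => par_injective _ (app_injective _ (Prod.ext_iff.1 h).2)

theorem range_kap (i : ι) (x : Pc) : Set.range (kap i x) = {p | p.1 = i ∧ p.2 ∈ x.set} := by
  ext ⟨j, z⟩
  constructor
  · rintro ⟨y, hy⟩
    obtain ⟨rfl, rfl⟩ := Prod.ext_iff.1 hy
    exact ⟨rfl, _, par_mem _ _, rfl⟩
  · rintro ⟨rfl, z, hz, rfl⟩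
    obtain ⟨y, rfl⟩ := par_surj hz
    exact ⟨y, rfl⟩

theorem kap_eq {i i' : ι} {x x' : Pc} (h : ∀ y, kap i x y = kap i' x' y) : i = i' ∧ x = x' := by
  have h1 : i = i' := (Prod.ext_iff.1 (h fun _ => .inl 0)).1
  subst h1
  have h2 := range_kap i x
  rw [funext h, range_kap] at h2
  refine ⟨rfl, pc_eq_of_set (Set.ext fun z => ?_)⟩
  simpa using (Set.ext_iff.1 h2 (i, z)).symm

theorem kap_root (i : ι) (y : Om) : kap i Pc.root y = cf (i, []) y := by
  simp only [kap, Pc.root, par_T, cf, cm, id]

theorem par_kap_half (i : ι) {x : Pc} {d : Dir} (hd : valid x.t d = true) (β : Bool) (y : Om) :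
    kap i (x.half d β) y = kap i x (nu x.t d (he .T .a β y)) := by
  simp only [kap, Pc.half]
  rw [nu_spec hd, app_hm]

theorem kap_half {θ : ι × Om → ι × Om} {c : Cell ι} {i : ι} {x : Pc}
    (h : ∀ y, θ (cf c y) = kap i x y) {d : Dir} (hd : valid x.t d = true) (β : Bool) (y : Om) :
    θ (mu c x.t d (cf (child c β) y)) = kap i (x.half d β) y := by
  rw [cf_child, mu, loc_apply, h, par_kap_half i hd]

/-- a map which matches the parametrisations of two pieces of the same type matches those of their
halves -/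
theorem kap_match_half {g : ι × Om → ι × Om} {i i' : ι} {m m' : Mk} {t : Ty}
    (h : ∀ y, g (kap i ⟨m, t⟩ y) = kap i' ⟨m', t⟩ y) {d : Dir} (hd : valid t d = true) (β : Bool)
    (y : Om) :
    g (kap i ((⟨m, t⟩ : Pc).half d β) y) = kap i' ((⟨m', t⟩ : Pc).half d β) y := by
  rw [par_kap_half i (x := ⟨m, t⟩) hd, par_kap_half i' (x := ⟨m', t⟩) hd, h]

theorem par_child_notMem (c : Cell ι) {β β' : Bool} (h : β ≠ β') (y : Om) :
    cf (child c β) y ∉ cset (child c β') := by
  refine Set.disjoint_left.1 (cset_disjoint (c := child c β) (c' := child c β') rfl fun e => h ?_)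
    ⟨y, rfl⟩
  exact (List.cons.inj (Prod.ext_iff.1 e).2).1

theorem par_loc_two (c : Cell ι) (F : Bool → Perm Om) (β : Bool) (y : Om) :
    loc (child c true) (F true) (loc (child c false) (F false) (cf (child c β) y)) =
      cf (child c β) (F β y) := by
  cases β
  · rw [loc_apply, loc_apply_of_notMem _ _ (par_child_notMem c (by simp) _)]
  · rw [loc_apply_of_notMem _ _ (par_child_notMem c (by simp) _), loc_apply]

theorem par_sw (c : Cell ι) (β β' : Bool) (y : Om) :
    sw (child (child c true) false) (child (child c false) true) (cf (child (child c β) β') y) =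
      cf (child (child c β') β) y := by
  cases β <;> cases β'
  · refine sw_apply_of_notMem (fun h => ?_) (par_child_notMem _ (by simp) _)
    have := cset_child_subset _ _ h
    rw [cf_child] at this
    exact par_child_notMem c (by simp) _ this
  · exact (rig_sw_right (c := child (child c true) false) (c' := child (child c false) true)
      rfl).2 y
  · exact (rig_sw_left (c := child (child c true) false) (c' := child (child c false) true)
      rfl).2 y
  · refine sw_apply_of_notMem (par_child_notMem _ (by simp) _) fun h => ?_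
    have := cset_child_subset _ _ h
    rw [cf_child] at this
    exact par_child_notMem c (by simp) _ this

theorem par_three (c : Cell ι) (t : Ty) (d d' : Dir) (β β' : Bool) (y : Om) :
    (mu c t d * mu (child c true) (ht t d true) (tr t d true d') *
        mu (child c false) (ht t d false) (tr t d false d')) (cf (child (child c β) β') y) =
      cf c (nu t d (he .T .a β (nu (ht t d β) (tr t d β d') (he .T .a β' y)))) := by
  rw [Perm.mul_apply, Perm.mul_apply, cf_child (child c β)]
  simp only [mu]
  rw [par_loc_two c (fun β => nu (ht t d β) (tr t d β d')), cf_child, loc_apply]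

/-- The square relation in `G`. Both sides fix the complement of `cset c`; on the quarter
`child (child c β) β'` compose with `θ`, any map with `θ (cf c y) = kap c.1 ⟨one, t⟩ y`
(injective on the cell), and use `kap_half` twice and `half_half`. -/
theorem mu_sq (c : Cell ι) {t : Ty} {d d' : Dir} (h : valid t d = true) (h' : valid t d' = true)
    (hne : d ≠ d') :
    mu c t d * mu (child c true) (ht t d true) (tr t d true d') *
        mu (child c false) (ht t d false) (tr t d false d') =
      mu c t d' * mu (child c true) (ht t d' true) (tr t d' true d) *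
        mu (child c false) (ht t d' false) (tr t d' false d) *
        sw (child (child c true) false) (child (child c false) true) := by
  ext1 x
  by_cases hx : x ∈ cset c
  · obtain ⟨y, rfl⟩ := hx
    obtain ⟨⟨β, y⟩, rfl⟩ := par_bijT.2 y
    obtain ⟨⟨β', y⟩, rfl⟩ := par_bijT.2 y
    simp only
    rw [← cf_child, ← cf_child, Perm.mul_apply _ (sw _ _), par_sw, par_three, par_three]
    congr 1
    apply kap_injective c.1 ⟨Mk.one, t⟩
    have e1 := par_kap_half c.1 (x := (⟨Mk.one, t⟩ : Pc).half d β) (valid_tr h h' hne β) β' y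
    have e2 := par_kap_half c.1 (x := (⟨Mk.one, t⟩ : Pc).half d' β') (valid_tr h' h hne.symm β') β y
    rw [par_kap_half c.1 (x := ⟨Mk.one, t⟩) h] at e1
    rw [par_kap_half c.1 (x := ⟨Mk.one, t⟩) h'] at e2
    refine e1.symm.trans (Eq.trans ?_ e2)
    exact congrArg (fun z => kap c.1 z y) (half_half (x := ⟨Mk.one, t⟩) h h' hne β β')
  · have h1 : ∀ β, x ∉ cset (child c β) := fun β h => hx (cset_child_subset c β h)
    have h2 : ∀ β β', x ∉ cset (child (child c β) β') := fun β β' h =>
      h1 β (cset_child_subset _ β' h)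
    simp only [Perm.mul_apply, mu, sw_apply_of_notMem (h2 _ _) (h2 _ _),
      loc_apply_of_notMem _ _ (h1 _), loc_apply_of_notMem _ _ hx]

/-- the exchange of the two standard halves -/
theorem exists_hatc : ∃ f ∈ G1, (∀ y, f (Aom .a y) = Com y) ∧ ∀ y, f (Com y) = Aom .a y := by
  obtain ⟨f, hf⟩ : ∃ f : Perm Om, ∀ β y, f (he .T .a β y) = he .T .a (!β) y :=
    ⟨(Equiv.ofBijective _ par_bijT).symm.trans
      ((Equiv.prodCongr Equiv.boolNot (Equiv.refl Om)).trans (Equiv.ofBijective _ par_bijT)),
      fun β y => by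
        rw [Equiv.trans_apply]
        exact congrArg _ (Equiv.ofBijective_symm_apply_apply _ par_bijT (β, y))⟩
  have h1 : f⁻¹ = f := by
    ext1 y
    obtain ⟨⟨β, y⟩, rfl⟩ := par_bijT.2 y
    rw [Perm.inv_eq_iff_eq]
    simp only [hf, Bool.not_not]
  have h2 : Fine (Can1 f 0) Pc.root := par_split (d := .a) rfl fun β =>
    .base ⟨hm .T .a (!β) Mk.one, by simp only [Pc.half, Pc.root, deg_hm, par_dg, add_zero],
      fun y _ => by simp only [Pc.half, Pc.root, app_hm, app_one, hf]⟩
  exact ⟨f, ⟨h2, by rw [h1]; exact h2⟩, hf true, hf false⟩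

/-- extensions of the partial maps `c`, `u`, `w` -/
noncomputable def hat : Lt → Perm Om
  | .c => exists_hatc.choose
  | .u => (nu .T .b)⁻¹
  | .w => nu .T .b * (nu .T .c)⁻¹

theorem hat_mem (x : Lt) : hat x ∈ G1 := by
  cases x
  · exact exists_hatc.choose_spec.1
  · exact inv_mem (nu_mem _ _)
  · exact mul_mem (nu_mem _ _) (inv_mem (nu_mem _ _))

theorem hat_c_A (y : Om) : hat .c (Aom .a y) = Com y := exists_hatc.choose_spec.2.1 y

theorem hat_c_C (y : Om) : hat .c (Com y) = Aom .a y := exists_hatc.choose_spec.2.2 y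

theorem par_nu_T (d : Dir) (y : Om) : nu .T d (Aom .a y) = Aom d y := by
  have := nu_spec (t := .T) (d := d) (by cases d <;> rfl) true y
  rw [show ht .T d true = .T from rfl, par_T] at this
  exact this

theorem hat_u (y : Om) : hat .u (Aom .b y) = Aom .a y := by
  rw [← par_nu_T .b]
  exact Equiv.symm_apply_apply _ _

theorem hat_w (y : Om) : hat .w (Aom .c y) = Aom .b y := by
  rw [← par_nu_T .c, ← par_nu_T .b]
  exact congrArg _ (Equiv.symm_apply_apply _ _)

/-- evaluation of words -/
noncomputable def hatF : FG →* Perm Om := FreeGroup.lift hat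

theorem hatF_mem (γ : FG) : hatF γ ∈ G1 := by
  exact FreeGroup.range_lift_le (s := G1) (by rintro _ ⟨x, rfl⟩; exact hat_mem x) ⟨γ, rfl⟩

end Crest.Agent.R189
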