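import Crest.Agent.R189.Lev
import Crest.Agent.R189.Par

/-!
# Row 189: models (finitely presented groups over `G`), task Model: naturality and quotients
-/

set_option autoImplicit false

namespace Crest.Agent.R189

open Equiv Proj
open scoped commutatorElement

variable {ι : Type} [Fintype ι] [DecidableEq ι] {B : Type} [Group B]
variable {κ : B →* alternatingGroup ι} {H H' : Type} [Group H] [Group H']

/-- morphisms of frames -/
structure FHom (Φ : Frame κ H) (Ψ : Frame κ H') where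
  φ : H →* H'
  io : ∀ b, φ (Φ.io b) = Ψ.io b
  d : ∀ i γ, φ (Φ.d i γ) = Ψ.d i γ
  loc : ∀ I, ∀ a ∈ Φ.HI I, φ a ∈ Ψ.HI I

section Nat

variable {Φ : Frame κ H} {Ψ : Frame κ H'}

/-- the image of a projection -/
def Proj.map (f : FHom Φ Ψ) (q : Proj Φ) : Proj Ψ where
  s := f.φ.comp q.s
  eqv := fun c b => by
    simp only [MonoidHom.comp_apply]
    rw [← f.io, ← map_inv, ← map_mul, ← map_mul, q.eqv]
  loc := fun I hI b hb => f.loc I _ (q.loc I hI b hb)

theorem Proj.map_s (f : FHom Φ Ψ) (q : Proj Φ) (b : B) : (q.map f).s b = f.φ (q.s b) := rfl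

variable (f : FHom Φ Ψ) {p q r : Proj Φ}

theorem model_dI (I : Finset ι) (γ : FG) : f.φ (Φ.dI I γ) = Ψ.dI I γ := by
  induction I using Finset.induction_on with
  | empty => rw [Φ.frame_dI_empty, Ψ.frame_dI_empty, map_one]
  | insert i I h ih => rw [Φ.frame_dI_insert h, Ψ.frame_dI_insert h, map_mul, ih, f.d]

theorem Proj.map_one : (Proj.one Φ).map f = Proj.one Ψ := by
  apply Proj.ext
  ext b
  exact f.io b

theorem Proj.map_compl (p : Proj Φ) : p.compl.map f = (p.map f).compl := by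
  apply Proj.ext
  ext b
  rw [Proj.map_s, compl_s, compl_s, Proj.map_s, map_mul, map_inv, f.io]

theorem Proj.map_act (γ : FG) (p : Proj Φ) : (act γ p).map f = act γ (p.map f) := by
  apply Proj.ext
  ext b
  rw [Proj.map_s, act_s, act_s, Proj.map_s, map_mul, map_mul, map_inv, model_dI]

theorem Proj.Orth.map (h : Orth p q) : Orth (p.map f) (q.map f) := by
  intro a b
  exact (h a b).map f.φ

theorem Proj.Le.map (h : Le p q) : Le (p.map f) (q.map f) := by
  have := Proj.Orth.map f h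
  rwa [Proj.map_compl] at this

theorem Proj.IsSum.map (h : IsSum r p q) : IsSum (r.map f) (p.map f) (q.map f) := by
  refine ⟨h.1.map f, fun a => ?_⟩
  rw [Proj.map_s, Proj.map_s, Proj.map_s, h.2, map_mul]

theorem Proj.Comm.map (h : Comm p q) : Comm (p.map f) (q.map f) := by
  obtain ⟨p₁, p₂, h1, h2, h3⟩ := h
  exact ⟨_, _, h1.map f, h2.map f, h3.map f⟩

/-- `meet_eq` -/
theorem Proj.Comm.map_meet (h : Comm p q) :
    (Proj.meet p q).map f = Proj.meet (p.map f) (q.map f) := by
  obtain ⟨p₂, h1, h2, h3⟩ := proj_meet_spec h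
  exact (meet_eq (h1.map f) (h2.map f) (h3.map f)).symm

theorem Proj.Triv.map {η : FG} (h : Triv η p) : Triv η (p.map f) := by
  intro i b
  rw [← f.d]
  exact (h i b).map f.φ

theorem Base.map {P Q R : Proj Φ} (b : Base P Q R) : Base (P.map f) (Q.map f) (R.map f) := by
  have cPR' : Comm P.compl R := b.cPR.symm.compl.symm
  refine ⟨b.cPQ.map f, b.cQR.map f, b.cPR.map f, ?_, ?_, ?_, ?_, ?_, ?_, ?_, ?_⟩
  · rw [← Proj.map_act, b.uQ]
  · rw [← Proj.map_act, b.wR]
  · rw [← Proj.map_act, b.cP, Proj.map_compl]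
  · rw [← b.cQR.map_meet, ← Proj.map_act, b.uQR, b.cPR.map_meet]
  · rw [← b.cQR.map_meet, ← Proj.map_act, b.uwQR, b.cPQ.map_meet]
  · rw [← b.cPQ.map_meet, ← Proj.map_act, b.cPQ', cPR'.map_meet, Proj.map_compl]
  · rw [← b.cQR.map_meet]; exact b.tuw.map f
  · rw [← b.cPQ.map_meet]; exact b.twc.map f

/-- `levI` gives the commutation needed for `map_meet` -/
theorem Base.map_tau {P Q R : Proj Φ} (b : Base P Q R) (n : ℕ) (t : Ty) :
    (tau Q R n t).map f = tau (Q.map f) (R.map f) n t := by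
  have hP : ∀ n, (Pn Q n).map f = Pn (Q.map f) n := fun n => by
    induction n with
    | zero => exact Proj.map_one f
    | succ n ih => rw [Pn, Pn, Proj.map_act, (b.levI n).1.map_meet, ih]
  have hI := b.levI n
  cases t
  · exact hP n
  · rw [tau, tau, hI.1.compl.map_meet, hP, Proj.map_compl]
  · rw [tau, tau, hI.2.1.compl.map_meet, hP, Proj.map_compl]
  · rw [tau, tau, (hI.1.compl.meet hI.2.1 b.cQR.symm.compl.symm).compl.map_meet,
      hI.1.compl.map_meet, hP, Proj.map_compl, Proj.map_compl]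

end Nat

/-- a finitely presented group over the permutations of `ι × Om` -/
structure Model (κ : B →* alternatingGroup ι) (H : Type) [Group H] where
  Φ : Frame κ H
  U : Option Dir → Proj Φ
  U_none : U none = Proj.one Φ
  U_loc : ∀ o I b, κ b ∈ AI I → (U o).s b ∈ Φ.HI I
  U_comm : ∀ o o', Comm (U o) (U o')
  p : H →* Perm (ι × Om)
  p_d : ∀ i γ, p (Φ.d i γ) = loc (i, []) (hatF γ)
  p_U : ∀ o b, p ((U o).s b) = sig (bset o) (κ b).1
  HI_le : ∀ I, Φ.HI I ≤ Subgroup.closure
    ({h | ∃ i ∈ I, ∃ x : Lt, h = Φ.d i (FreeGroup.of x)} ∪ {h | ∃ o b, κ b ∈ AI I ∧ h = (U o).s b})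
  HI_univ : Φ.HI Finset.univ = ⊤
  fp : Group.IsFinitelyPresented H

/-- morphisms of models -/
structure MHom (M : Model κ H) (N : Model κ H') extends FHom M.Φ N.Φ where
  U : ∀ o, (M.U o).map toFHom = N.U o
  p : ∀ h, N.p (φ h) = M.p h

/-- the image of a frame -/
def Frame.modelPush (Φ : Frame κ H) (π : H →* H') : Frame κ H' where
  uce := Φ.uce
  card := Φ.card
  HI := fun I => (Φ.HI I).map π
  mono := fun I J h => Subgroup.map_mono (Φ.mono I J h)
  comm := by
    rintro I J h _ ⟨a, ha, rfl⟩ _ ⟨b, hb, rfl⟩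
    exact (Φ.comm I J h a ha b hb).map π
  io := π.comp Φ.io
  io_loc := fun I hI b hb => ⟨_, Φ.io_loc I hI b hb, rfl⟩
  d := fun i => π.comp (Φ.d i)
  d_loc := fun i γ => ⟨_, Φ.d_loc i γ, rfl⟩
  d_conj := fun b i γ => by
    simp only [MonoidHom.comp_apply]
    rw [← Φ.d_conj, map_mul, map_mul, map_inv]

/-- Quotient by finitely many relations: `H' = H ⧸ normalClosure S`, `HI I` is the image of
`M.Φ.HI I`. -/
theorem Model.exists_quot (M : Model κ H) (S : Set H) (hS : S.Finite) (hp : ∀ s ∈ S, M.p s = 1) :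
    ∃ (H' : Type) (_ : Group H') (N : Model κ H') (f : MHom M N), ∀ s ∈ S, f.φ s = 1 := by
  set K := Subgroup.normalClosure S with hK
  set π : H →* H ⧸ K := QuotientGroup.mk' K with hπ
  have hsurj : Function.Surjective π := QuotientGroup.mk'_surjective K
  have hle : K ≤ M.p.ker := Subgroup.normalClosure_le_normal fun s hs => hp s hs
  let Ψ : Frame κ (H ⧸ K) := M.Φ.modelPush π
  let f : FHom M.Φ Ψ := ⟨π, fun _ => rfl, fun _ _ => rfl, fun I a ha => ⟨a, ha, rfl⟩⟩
  have hfp : Group.IsFinitelyPresented (H ⧸ K) :=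
    haveI := M.fp
    Group.IsFinitelyPresented.quotient K ⟨S, hS, rfl⟩
  let N : Model κ (H ⧸ K) :=
    { Φ := Ψ
      U := fun o => (M.U o).map f
      U_none := by rw [M.U_none, Proj.map_one]
      U_loc := fun o I b hb => ⟨_, M.U_loc o I b hb, rfl⟩
      U_comm := fun o o' => (M.U_comm o o').map f
      p := QuotientGroup.lift K M.p hle
      p_d := fun i γ => M.p_d i γ
      p_U := fun o b => M.p_U o b
      HI_le := fun I => by
        refine (Subgroup.map_mono (M.HI_le I)).trans ?_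
        rw [MonoidHom.map_closure]
        refine Subgroup.closure_mono ?_
        rintro _ ⟨h, ⟨i, hi, x, rfl⟩ | ⟨o, b, hb, rfl⟩, rfl⟩
        · exact Or.inl ⟨i, hi, x, rfl⟩
        · exact Or.inr ⟨o, b, hb, rfl⟩
      HI_univ := by
        change (M.Φ.HI Finset.univ).map π = ⊤
        rw [M.HI_univ]
        exact Subgroup.map_top_of_surjective π hsurj
      fp := hfp }
  refine ⟨H ⧸ K, inferInstance, N, ⟨f, fun _ => rfl, fun _ => rfl⟩, fun s hs => ?_⟩
  exact (QuotientGroup.eq_one_iff s).2 (Subgroup.subset_normalClosure hs)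

/-- Finitely many equalities between projections and trivialities which hold after applying `p`
hold in a quotient (`B` is finitely generated, `exists_finset_closure`). -/
theorem Model.exists_quot' (M : Model κ H) (E : Set (Proj M.Φ × Proj M.Φ)) (hE : E.Finite)
    (hEp : ∀ e ∈ E, ∀ b, M.p (e.1.s b) = M.p (e.2.s b)) (T : Set (FG × Proj M.Φ)) (hT : T.Finite)
    (hTp : ∀ e ∈ T, ∀ i b, Commute (M.p (M.Φ.d i e.1)) (M.p (e.2.s b))) :
    ∃ (H' : Type) (_ : Group H') (N : Model κ H') (f : MHom M N),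
      (∀ e ∈ E, e.1.map f.toFHom = e.2.map f.toFHom) ∧ ∀ e ∈ T, Triv e.1 (e.2.map f.toFHom) := by
  obtain ⟨G, hG⟩ := exists_finset_closure M.Φ.uce
  set S₁ : Set H := (fun z : (Proj M.Φ × Proj M.Φ) × B => z.1.1.s z.2 * (z.1.2.s z.2)⁻¹) ''
    (E ×ˢ (G : Set B)) with hS₁
  set S₂ : Set H := (fun z : (FG × Proj M.Φ) × ι × B => ⁅M.Φ.d z.2.1 z.1.1, z.1.2.s z.2.2⁆) ''
    (T ×ˢ (Set.univ ×ˢ (G : Set B))) with hS₂
  have h1 : S₁.Finite := (hE.prod G.finite_toSet).image _
  have h2 : S₂.Finite := (hT.prod (Set.finite_univ.prod G.finite_toSet)).image _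
  obtain ⟨H', _, N, f, hf⟩ := M.exists_quot (S₁ ∪ S₂) (h1.union h2) (by
    rintro _ (⟨⟨e, b⟩, ⟨he, -⟩, rfl⟩ | ⟨⟨e, i, b⟩, ⟨he, -⟩, rfl⟩)
    · simp only [map_mul, map_inv, hEp e he b, mul_inv_cancel]
    · simp only [map_commutatorElement]
      exact commutatorElement_eq_one_iff_commute.2 (hTp e he i b))
  refine ⟨H', inferInstance, N, f, fun e he => ?_, fun e he i b => ?_⟩
  · apply Proj.ext
    refine MonoidHom.eq_of_eqOn_dense hG fun b hb => ?_
    have := hf _ (Or.inl ⟨(e, b), ⟨he, hb⟩, rfl⟩)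
    rw [map_mul, map_inv, mul_inv_eq_one] at this
    exact this
  · have : (Subgroup.centralizer {N.Φ.d i e.1}).comap (e.2.map f.toFHom).s = ⊤ := by
      rw [eq_top_iff, ← hG, Subgroup.closure_le]
      intro c hc
      have := hf _ (Or.inr ⟨(e, i, c), ⟨he, Set.mem_univ _, hc⟩, rfl⟩)
      rw [map_commutatorElement, f.d] at this
      exact Subgroup.mem_centralizer_singleton_iff.2
        (commutatorElement_eq_one_iff_commute.1 this).symm.eq
    have hb : b ∈ (Subgroup.centralizer {N.Φ.d i e.1}).comap (e.2.map f.toFHom).s :=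
      this ▸ Subgroup.mem_top b
    exact Commute.symm (Subgroup.mem_centralizer_singleton_iff.1 hb)

/-- the basic relations hold in the model -/
def Model.IsBase (M : Model κ H) : Prop := Base (M.U (some .a)) (M.U (some .b)) (M.U (some .c))

/-- the projections `tau` of the model -/
noncomputable def Model.tau (M : Model κ H) (n : ℕ) (t : Ty) : Proj M.Φ :=
  R189.tau (M.U (some .b)) (M.U (some .c)) n t

/-- the word `x` is canonical on the piece `z`, in `G` and in the model -/
def Model.CanW (M : Model κ H) (x : FG) (z : Pc) : Prop :=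
  ∃ m' : Mk, m'.deg = z.m.deg ∧ (∀ y ∈ z.t.set, hatF x (z.m.app y) = m'.app y) ∧
    Triv ((gam m')⁻¹ * (x * gam z.m)) (M.tau z.m.deg z.t)

/-- the tables of the letters hold in the model -/
def Model.Tables (M : Model κ H) : Prop :=
  ∀ x : Lt, Fine (M.CanW (FreeGroup.of x)) Pc.root ∧ Fine (M.CanW (FreeGroup.of x)⁻¹) Pc.root

end Crest.Agent.R189
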