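import Crest.Agent.R189.Grp

/-!
# Row 189, task ParA: every type is piecewise canonically equivalent to the whole space
-/

set_option autoImplicit false

namespace Crest.Agent.R189

/-- `f` is a piecewise canonical parametrisation of the type `t` -/
def IsPar (t : Ty) (f : Om → Om) : Prop :=
  Function.Injective f ∧ Set.range f = t.set ∧ Fine (Can1 f t.sz) Pc.root ∧
    ∃ g : Om → Om, (∀ y, g (f y) = y) ∧ Fine (Can1 g (-(t.sz : ℤ))) ⟨Mk.one, t⟩

/-- piecewise canonical bijections between two pieces -/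
private def Eqv (x x' : Pc) : Prop :=
  ∃ f g : Om → Om, (∀ y ∈ x.set, f y ∈ x'.set ∧ g (f y) = y) ∧
    (∀ y ∈ x'.set, g y ∈ x.set ∧ f (g y) = y) ∧
    Fine (Can1 f ((x'.lvl : ℤ) - x.lvl)) x ∧ Fine (Can1 g ((x.lvl : ℤ) - x'.lvl)) x'

private theorem Eqv.symm {x x' : Pc} (h : Eqv x x') : Eqv x' x := by
  obtain ⟨f, g, h1, h2, h3, h4⟩ := h
  exact ⟨g, f, h2, h1, h4, h3⟩

private theorem Eqv.trans {x x' x'' : Pc} (h : Eqv x x') (h' : Eqv x' x'') : Eqv x x'' := by
  obtain ⟨f, g, h1, h2, h3, h4⟩ := h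
  obtain ⟨f', g', k1, k2, k3, k4⟩ := h'
  refine ⟨fun y => f' (f y), fun y => g (g' y), fun y hy => ⟨(k1 _ (h1 y hy).1).1, ?_⟩,
    fun y hy => ⟨(h2 _ (k2 y hy).1).1, ?_⟩, ?_, ?_⟩
  · simp only [(k1 _ (h1 y hy).1).2, (h1 y hy).2]
  · simp only [(h2 _ (k2 y hy).1).2, (k2 y hy).2]
  · convert fine_can1_comp h3 (fun y hy => (h1 y hy).1) k3 using 2
    ring
  · convert fine_can1_comp k4 (fun y hy => (k2 y hy).1) h4 using 2
    ring

private theorem Eqv.base (m m' : Mk) (t : Ty) : Eqv ⟨m, t⟩ ⟨m', t⟩ := by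
  have hi : ∀ (m : Mk) y, Function.invFun m.app (m.app y) = y := fun m =>
    Function.leftInverse_invFun (app_injective m)
  refine ⟨fun y => m'.app (Function.invFun m.app y), fun y => m.app (Function.invFun m'.app y),
    ?_, ?_, .base ⟨m', ?_, fun y _ => ?_⟩, .base ⟨m, ?_, fun y _ => ?_⟩⟩
  · rintro _ ⟨y, hy, rfl⟩
    simp only [hi]
    exact ⟨⟨y, hy, rfl⟩, trivial⟩
  · rintro _ ⟨y, hy, rfl⟩
    simp only [hi]
    exact ⟨⟨y, hy, rfl⟩, trivial⟩
  · simp only [Pc.lvl]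
    push_cast
    ring
  · simp only [hi]
  · simp only [Pc.lvl]
    push_cast
    ring
  · simp only [hi]

private theorem para_split {𝒜 : Pc → Prop} {x : Pc} {d : Dir} (hd : valid x.t d = true)
    (h : ∀ β, Fine 𝒜 (x.half d β)) : Fine 𝒜 x := .split d hd (h true) (h false)

private theorem para_exists {x : Pc} {d : Dir} (hd : valid x.t d = true) {y : Om}
    (hy : y ∈ x.set) : ∃ β, y ∈ (x.half d β).set := by
  rw [← half_union hd] at hy
  exact hy.elim (fun h => ⟨_, h⟩) fun h => ⟨_, h⟩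

open Classical in
private theorem para_piece {x : Pc} {d : Dir} (hd : valid x.t d = true) (f : Bool → Om → Om) :
    ∃ F : Om → Om, ∀ β, ∀ y ∈ (x.half d β).set, F y = f β y := by
  refine ⟨fun y => if y ∈ (x.half d true).set then f true y else f false y, fun β y hy => ?_⟩
  cases β
  · exact if_neg fun h => Set.disjoint_left.1 (half_disjoint hd) h hy
  · exact if_pos hy

private theorem Eqv.glue {x x' : Pc} {d d' : Dir} (hd : valid x.t d = true)
    (hd' : valid x'.t d' = true) (h : ∀ β, Eqv (x.half d β) (x'.half d' (!β))) : Eqv x x' := by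
  choose f g h1 h2 h3 h4 using h
  obtain ⟨F, hF⟩ := para_piece hd f
  obtain ⟨G, hG⟩ := para_piece hd' fun β => g (!β)
  have hG' : ∀ β, ∀ y ∈ (x'.half d' (!β)).set, G y = g β y := fun β y hy => by
    rw [hG _ y hy, Bool.not_not]
  refine ⟨F, G, fun y hy => ?_, fun y hy => ?_, para_split hd fun β => ?_,
    para_split hd' fun β => ?_⟩
  · obtain ⟨β, hβ⟩ := para_exists hd hy
    rw [hF β y hβ, hG' β _ (h1 β y hβ).1]
    exact ⟨half_subset hd' _ (h1 β y hβ).1, (h1 β y hβ).2⟩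
  · obtain ⟨β, hβ⟩ := para_exists hd' hy
    rw [← Bool.not_not β] at hβ
    rw [hG' _ y hβ, hF _ _ (h2 _ y hβ).1]
    exact ⟨half_subset hd _ (h2 _ y hβ).1, (h2 _ y hβ).2⟩
  · convert fine_can1_congr (h3 β) fun y hy => (hF β y hy).symm using 2
    rw [lvl_half hd, lvl_half hd']
    push_cast
    ring
  · rw [← Bool.not_not β]
    convert fine_can1_congr (h4 (!β)) fun y hy => (hG' _ y hy).symm using 2
    rw [lvl_half hd, lvl_half hd']
    push_cast
    ring

private theorem eqv_Y (m m' : Mk) : Eqv ⟨m, .T⟩ ⟨m', .Y⟩ :=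
  Eqv.glue (d := .b) (d' := .a) rfl rfl fun β => by cases β <;> exact Eqv.base _ _ _

private theorem eqv_Z (m m' : Mk) : Eqv ⟨m, .T⟩ ⟨m', .Z⟩ :=
  Eqv.glue (d := .c) (d' := .a) rfl rfl fun β => by
    cases β
    · exact Eqv.base _ _ _
    · exact eqv_Y _ _

private theorem eqv_W (m m' : Mk) : Eqv ⟨m, .T⟩ ⟨m', .W⟩ :=
  (eqv_Y m m).trans (Eqv.glue (d := .c) (d' := .a) rfl rfl fun β => by
    cases β
    · exact Eqv.base _ _ _
    · exact (eqv_Y _ _).symm)

private theorem Eqv.isPar {t : Ty} (h : Eqv Pc.root ⟨Mk.one, t⟩) : ∃ f, IsPar t f := by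
  obtain ⟨f, g, h1, h2, h3, h4⟩ := h
  have hs : (⟨Mk.one, t⟩ : Pc).set = t.set := by
    ext y
    simp only [Pc.set, app_one, Set.image_id']
  rw [root_set, hs] at h1 h2
  have hl : ∀ y, g (f y) = y := fun y => (h1 y trivial).2
  refine ⟨f, Function.LeftInverse.injective hl, ?_, ?_, g, hl, ?_⟩
  · ext y
    exact ⟨fun ⟨z, hz⟩ => hz ▸ (h1 z trivial).1, fun hy => ⟨g y, (h2 y hy).2⟩⟩
  · simpa [Pc.lvl, Pc.root, deg_one, Ty.sz] using h3
  · simpa [Pc.lvl, Pc.root, deg_one, Ty.sz] using h4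

/-- Write `A0, A1, A2 = Aom a, b, c` and `C = Com`.
* `T`: the identity.
* `Y`: `Om = A1 Om ⊔ Y`, `Y = A0 Y ⊔ C C Om` (the halves of `root` in the direction `b` and of
  `⟨one, Y⟩` in the direction `a`): `ρY (A1 y) = C C y`, `ρY y = A0 y` for `y ∈ Y`.
* `Z`: `Om = A2 Om ⊔ Z`, `Z = A0 Z ⊔ C Y`: `ρZ (A2 y) = C (ρY y)`, `ρZ y = A0 y` for `y ∈ Z`.
* `W`: `Y = A2 Y ⊔ W`, `W = A0 W ⊔ C C C Om`: `ρW = θ ∘ ρY` where `θ : Y → W`,
  `θ (A2 y) = C C C (ρY⁻¹ y)` for `y ∈ Y`, `θ y = A0 y` for `y ∈ W`.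
It is convenient to prove a gluing lemma: if `x` is cut in the direction `d`, `x'` in the direction
`d'`, and there are piecewise canonical bijections (with piecewise canonical inverses, same shift
`s`) between the halves, then there is one between `x.set` and `x'.set`
(`fine_can1_congr`, `fine_can1_comp`, `Function.invFun` for the inverse of `m.app`). -/
theorem exists_par (t : Ty) : ∃ f, IsPar t f ∧ (t = .T → f = id) := by
  cases t
  · exact ⟨id, ⟨Function.injective_id, Set.range_id, .base ⟨Mk.one, rfl, fun _ _ => rfl⟩, id,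
      fun _ => rfl, .base ⟨Mk.one, rfl, fun _ _ => rfl⟩⟩, fun _ => rfl⟩
  · exact (eqv_Y _ _).isPar.imp fun f hf => ⟨hf, nofun⟩
  · exact (eqv_Z _ _).isPar.imp fun f hf => ⟨hf, nofun⟩
  · exact (eqv_W _ _).isPar.imp fun f hf => ⟨hf, nofun⟩

end Crest.Agent.R189
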