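import Crest.Agent.R189.Par

/-!
# Row 189: states, paths and interpretations (definitions), task Path: elementary properties
-/

set_option autoImplicit false

namespace Crest.Agent.R189

open Equiv

/-- an interpretation of the cell exchanges and of the moves in a group `H` -/
structure Interp (ι : Type) [Finite ι] (H : Type) [Group H] where
  v : LT ι →* H
  mu : Cell ι → Ty → Dir → H
  conj : ∀ (g : LT ι) (c c' : Cell ι) (t : Ty) (d : Dir), Rig g.1 c c' →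
    v g * mu c t d * (v g)⁻¹ = mu c' t d
  comm : ∀ (c c' : Cell ι) (t t' : Ty) (d d' : Dir), Disjoint (cset c) (cset c') →
    Commute (mu c t d) (mu c' t' d')
  sq : ∀ (c : Cell ι) (t : Ty) (d d' : Dir), t.sz ≤ c.2.length → valid t d = true →
    valid t d' = true → d ≠ d' →
    mu c t d * mu (child c true) (ht t d true) (tr t d true d') *
        mu (child c false) (ht t d false) (tr t d false d') =
      mu c t d' * mu (child c true) (ht t d' true) (tr t d' true d) *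
        mu (child c false) (ht t d' false) (tr t d' false d) *
        v ⟨sw (child (child c true) false) (child (child c false) true), sw_mem_LT _ _⟩

variable {ι : Type} [Fintype ι] [DecidableEq ι] {H : Type} [Group H]

/-- the standard interpretation -/
noncomputable def gInterp (ι : Type) [Finite ι] : Interp ι (Perm (ι × Om)) where
  v := (LT ι).subtype
  mu := mu
  conj := fun _ _ _ _ _ h => loc_conj h.2 _
  comm := by
    intro c c' t t' d d' h
    refine commute_of_disjoint fun x => ?_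
    by_cases hx : x ∈ cset c
    · exact Or.inr (loc_apply_of_notMem _ _ (Set.disjoint_left.1 h hx))
    · exact Or.inl (loc_apply_of_notMem _ _ hx)
  sq := fun c _ _ _ _ h h' hne => mu_sq c h h' hne

/-- a state: a finite set of cells and a permutation mapping them onto pieces -/
@[ext] structure St (ι : Type) where
  cs : Finset (Cell ι)
  th : Perm (ι × Om)

namespace St

/-- the cell `c` of the state is mapped onto the piece `x` of the copy `i` -/
def At (σ : St ι) (c : Cell ι) (i : ι) (x : Pc) : Prop :=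
  c ∈ σ.cs ∧ x.lvl = c.2.length ∧ ∀ y, σ.th (cf c y) = kap i x y

/-- the cells form a partition of the copies in `I` and are mapped onto pieces -/
structure Valid (I : Finset ι) (σ : St ι) : Prop where
  disj : ∀ c ∈ σ.cs, ∀ c' ∈ σ.cs, c ≠ c' → Disjoint (cset c) (cset c')
  mem : ∀ c ∈ σ.cs, c.1 ∈ I
  cover : ∀ x : ι × Om, x.1 ∈ I → ∃ c ∈ σ.cs, x ∈ cset c
  fix : σ.th ∈ Fix I
  piece : ∀ c ∈ σ.cs, ∃ i x, σ.At c i x

/-- cut the piece over the cell `c` -/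
noncomputable def exp (σ : St ι) (c : Cell ι) (t : Ty) (d : Dir) : St ι :=
  ⟨insert (child c true) (insert (child c false) (σ.cs.erase c)), σ.th * mu c t d⟩

/-- the initial state -/
def root (I : Finset ι) : St ι := ⟨I.image (fun i => (i, [])), 1⟩

/-- compose with a permutation -/
def lmul (g : Perm (ι × Om)) (σ : St ι) : St ι := ⟨σ.cs, g * σ.th⟩

/-- `g` maps the pieces of the state canonically onto pieces -/
def Match (g : Perm (ι × Om)) (σ : St ι) : Prop :=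
  ∀ c i x, σ.At c i x → ∃ i' m', (σ.lmul g).At c i' ⟨m', x.t⟩

end St

/-- paths between states, with their value in an interpretation -/
inductive Path (I : Finset ι) (J : Interp ι H) : St ι → St ι → H → Prop
  | refl (σ : St ι) : Path I J σ σ 1
  | exp {σ σ' : St ι} {c : Cell ι} {i : ι} {x : Pc} {d : Dir} {h : H} : σ.At c i x →
      valid x.t d = true → Path I J (σ.exp c x.t d) σ' h → Path I J σ σ' (J.mu c x.t d * h)
  | perm {σ σ' : St ι} (g : LT ι) (cs' : Finset (Cell ι)) {h : H} : g.1 ∈ Fix I →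
      (∀ c' ∈ cs', ∃ c ∈ σ.cs, Rig g.1 c' c) → (∀ c ∈ σ.cs, ∃ c' ∈ cs', Rig g.1 c' c) →
      Path I J ⟨cs', σ.th * g.1⟩ σ' h → Path I J σ σ' (J.v g * h)

variable {I : Finset ι} {J : Interp ι H} {σ σ' σ'' : St ι} {h h' : H}

theorem St.At.unique {c : Cell ι} {i i' : ι} {x x' : Pc} (h : σ.At c i x) (h' : σ.At c i' x') :
    i = i' ∧ x = x' :=
  kap_eq fun y => (h.2.2 y).symm.trans (h'.2.2 y)

omit [Fintype ι] [DecidableEq ι] in
theorem path_fix_mem {g : Perm (ι × Om)} (hg : g ∈ Fix I) {p : ι × Om} (hp : p.1 ∈ I) :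
    (g p).1 ∈ I := by
  by_contra hc
  have h1 : g (g p) = g p := hg _ hc
  have h2 : g p = p := g.injective h1
  rw [h2] at hc
  exact hc hp

theorem St.At.mem {c : Cell ι} {i : ι} {x : Pc} (hσ : σ.Valid I) (h : σ.At c i x) : i ∈ I := by
  have h1 := path_fix_mem hσ.fix (p := cf c (fun _ => .inl 0)) (hσ.mem c h.1)
  rw [h.2.2] at h1
  exact h1

theorem St.At.image {c : Cell ι} {i : ι} {x : Pc} (h : σ.At c i x) :
    σ.th '' cset c = {p | p.1 = i ∧ p.2 ∈ x.set} := by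
  rw [← range_kap, cset, ← Set.range_comp]
  congr 1
  funext y
  exact h.2.2 y

/-- the pieces of a valid state are pairwise disjoint -/
theorem St.Valid.disj_piece (hσ : σ.Valid I) {c c' : Cell ι} {i : ι} {x x' : Pc}
    (h : σ.At c i x) (h' : σ.At c' i x') (hne : c ≠ c') : Disjoint x.set x'.set := by
  rw [Set.disjoint_left]
  intro y hy hy'
  have h1 : (i, y) ∈ σ.th '' cset c := by rw [h.image]; exact ⟨rfl, hy⟩
  have h2 : (i, y) ∈ σ.th '' cset c' := by rw [h'.image]; exact ⟨rfl, hy'⟩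
  obtain ⟨p, hp, e⟩ := h1
  obtain ⟨p', hp', e'⟩ := h2
  have : p = p' := σ.th.injective (e.trans e'.symm)
  subst this
  exact Set.disjoint_left.1 (hσ.disj c h.1 c' h'.1 hne) hp hp'

/-- the pieces of a valid state cover -/
theorem St.Valid.cover_piece (hσ : σ.Valid I) {i : ι} (hi : i ∈ I) (y : Om) :
    ∃ c x, σ.At c i x ∧ y ∈ x.set := by
  have h1 := path_fix_mem (inv_mem hσ.fix) (p := (i, y)) hi
  obtain ⟨c, hc, hp⟩ := hσ.cover _ h1
  obtain ⟨i', x, hx⟩ := hσ.piece c hc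
  have h2 : (i, y) ∈ σ.th '' cset c := ⟨_, hp, by simp⟩
  rw [hx.image] at h2
  obtain ⟨h3, h4⟩ := h2
  have h3' : i = i' := h3
  subst h3'
  exact ⟨c, x, hx, h4⟩

omit [Fintype ι] [DecidableEq ι] in
theorem path_child_ne (c : Cell ι) (β : Bool) : child c β ≠ c := by
  intro h
  have := congrArg (fun c : Cell ι => c.2.length) h
  simp [child] at this

theorem St.Valid.child_notMem (hσ : σ.Valid I) {c : Cell ι} (hc : c ∈ σ.cs) (β : Bool) :
    child c β ∉ σ.cs := by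
  intro hc'
  obtain ⟨p, hp⟩ := cset_nonempty (child c β)
  exact Set.disjoint_left.1 (hσ.disj _ hc' c hc (path_child_ne c β)) hp (cset_child_subset c β hp)

theorem path_at_root {i : ι} (hi : i ∈ I) : (St.root I).At (i, []) i Pc.root :=
  ⟨Finset.mem_image.2 ⟨i, hi, rfl⟩, rfl, fun y => (kap_root i y).symm⟩

theorem St.valid_root (I : Finset ι) : (St.root I).Valid I := by
  refine ⟨?_, ?_, ?_, one_mem _, ?_⟩
  · intro c hc c' hc' hne
    obtain ⟨i, -, rfl⟩ := Finset.mem_image.1 hc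
    obtain ⟨i', -, rfl⟩ := Finset.mem_image.1 hc'
    exact cset_disjoint rfl hne
  · intro c hc
    obtain ⟨i, hi, rfl⟩ := Finset.mem_image.1 hc
    exact hi
  · intro x hx
    refine ⟨(x.1, []), Finset.mem_image.2 ⟨x.1, hx, rfl⟩, ?_⟩
    rw [cset_root]
    rfl
  · intro c hc
    obtain ⟨i, hi, rfl⟩ := Finset.mem_image.1 hc
    exact ⟨i, Pc.root, path_at_root hi⟩

theorem St.at_root {c : Cell ι} {i : ι} {x : Pc} :
    (St.root I).At c i x ↔ i ∈ I ∧ c = (i, []) ∧ x = Pc.root := by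
  constructor
  · intro h
    obtain ⟨j, hj, rfl⟩ := Finset.mem_image.1 h.1
    obtain ⟨rfl, rfl⟩ := h.unique (path_at_root hj)
    exact ⟨hj, rfl, rfl⟩
  · rintro ⟨hi, rfl, rfl⟩
    exact path_at_root hi

theorem path_at_child {c : Cell ι} {i : ι} {x : Pc} (hx : σ.At c i x) {d : Dir}
    (hd : valid x.t d = true) (β : Bool) : (σ.exp c x.t d).At (child c β) i (x.half d β) := by
  refine ⟨?_, ?_, fun y => kap_half hx.2.2 hd β y⟩
  · cases β
    · exact Finset.mem_insert_of_mem (Finset.mem_insert_self _ _)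
    · exact Finset.mem_insert_self _ _
  · rw [lvl_half hd, hx.2.1]
    rfl

theorem path_exp_th {c c' : Cell ι} (hd : Disjoint (cset c') (cset c)) (t : Ty) (d : Dir)
    (y : Om) : (σ.exp c t d).th (cf c' y) = σ.th (cf c' y) := by
  show σ.th (mu c t d (cf c' y)) = _
  rw [mu, loc_apply_of_notMem _ _ (Set.disjoint_left.1 hd ⟨y, rfl⟩)]

theorem path_at_other {c c' : Cell ι} (hd : Disjoint (cset c') (cset c)) (hne : c' ≠ c) (t : Ty)
    (d : Dir) {i' : ι} {x' : Pc} (h : σ.At c' i' x') : (σ.exp c t d).At c' i' x' :=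
  ⟨Finset.mem_insert_of_mem (Finset.mem_insert_of_mem (Finset.mem_erase.2 ⟨hne, h.1⟩)), h.2.1,
    fun y => (path_exp_th hd t d y).trans (h.2.2 y)⟩

theorem path_mem_exp {c c' : Cell ι} {t : Ty} {d : Dir} :
    c' ∈ (σ.exp c t d).cs ↔ (∃ β, c' = child c β) ∨ (c' ≠ c ∧ c' ∈ σ.cs) := by
  simp only [St.exp, Finset.mem_insert, Finset.mem_erase, Bool.exists_bool]
  tauto

/-- the entries of an expanded state -/
theorem St.at_exp (hσ : σ.Valid I) {c : Cell ι} {i : ι} {x : Pc} (hx : σ.At c i x) {d : Dir}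
    (hd : valid x.t d = true) {c' : Cell ι} {i' : ι} {x' : Pc} :
    (σ.exp c x.t d).At c' i' x' ↔
      (∃ β, c' = child c β ∧ i' = i ∧ x' = x.half d β) ∨ (c' ≠ c ∧ σ.At c' i' x') := by
  constructor
  · intro h
    rcases path_mem_exp.1 h.1 with ⟨β, rfl⟩ | ⟨hne, hc'⟩
    · obtain ⟨h1, h2⟩ := h.unique (path_at_child hx hd β)
      exact Or.inl ⟨β, rfl, h1, h2⟩
    · exact Or.inr ⟨hne, hc', h.2.1, fun y =>
        (path_exp_th (hσ.disj _ hc' _ hx.1 hne) _ d y).symm.trans (h.2.2 y)⟩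
  · rintro (⟨β, rfl, rfl, rfl⟩ | ⟨hne, h⟩)
    · exact path_at_child hx hd β
    · exact path_at_other (hσ.disj _ h.1 _ hx.1 hne) hne _ d h

theorem St.Valid.exp (hσ : σ.Valid I) {c : Cell ι} {i : ι} {x : Pc} (hx : σ.At c i x) {d : Dir}
    (hd : valid x.t d = true) : (σ.exp c x.t d).Valid I := by
  refine ⟨?_, ?_, ?_, mul_mem hσ.fix (loc_mem_Fix _ _ (hσ.mem c hx.1)), ?_⟩
  · intro c₁ h₁ c₂ h₂ hne
    rcases path_mem_exp.1 h₁ with ⟨β, rfl⟩ | ⟨n₁, m₁⟩ <;>
      rcases path_mem_exp.1 h₂ with ⟨β', rfl⟩ | ⟨n₂, m₂⟩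
    · exact cset_disjoint rfl hne
    · exact (hσ.disj _ hx.1 _ m₂ n₂.symm).mono_left (cset_child_subset c β)
    · exact (hσ.disj _ m₁ _ hx.1 n₁).mono_right (cset_child_subset c β')
    · exact hσ.disj _ m₁ _ m₂ hne
  · intro c₁ h₁
    rcases path_mem_exp.1 h₁ with ⟨β, rfl⟩ | ⟨n₁, m₁⟩
    · exact hσ.mem c hx.1
    · exact hσ.mem _ m₁
  · intro p hp
    obtain ⟨c₁, h₁, hp₁⟩ := hσ.cover p hp
    by_cases e : c₁ = c
    · subst e
      rw [← cset_child_union] at hp₁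
      rcases hp₁ with h | h
      · exact ⟨_, path_mem_exp.2 (Or.inl ⟨true, rfl⟩), h⟩
      · exact ⟨_, path_mem_exp.2 (Or.inl ⟨false, rfl⟩), h⟩
    · exact ⟨c₁, path_mem_exp.2 (Or.inr ⟨e, h₁⟩), hp₁⟩
  · intro c₁ h₁
    rcases path_mem_exp.1 h₁ with ⟨β, rfl⟩ | ⟨n₁, m₁⟩
    · exact ⟨_, _, path_at_child hx hd β⟩
    · obtain ⟨i₁, x₁, h⟩ := hσ.piece _ m₁
      exact ⟨i₁, x₁, path_at_other (hσ.disj _ m₁ _ hx.1 n₁) n₁ _ d h⟩

theorem St.at_perm {g : Perm (ι × Om)} {cs' : Finset (Cell ι)} {c c' : Cell ι}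
    (hc : c ∈ σ.cs) (hc' : c' ∈ cs') (hr : Rig g c' c) {i : ι} {x : Pc} :
    (⟨cs', σ.th * g⟩ : St ι).At c' i x ↔ σ.At c i x := by
  have e : ∀ y, (σ.th * g) (cf c' y) = σ.th (cf c y) := fun y => by
    rw [Perm.mul_apply, hr.2]
  constructor
  · intro h
    exact ⟨hc, h.2.1.trans hr.1.symm, fun y => (e y).symm.trans (h.2.2 y)⟩
  · intro h
    exact ⟨hc', h.2.1.trans hr.1, fun y => (e y).trans (h.2.2 y)⟩

theorem St.Valid.perm (hσ : σ.Valid I) {g : Perm (ι × Om)} {cs' : Finset (Cell ι)}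
    (hg : g ∈ Fix I) (h₁ : ∀ c' ∈ cs', ∃ c ∈ σ.cs, Rig g c' c)
    (h₂ : ∀ c ∈ σ.cs, ∃ c' ∈ cs', Rig g c' c) : (⟨cs', σ.th * g⟩ : St ι).Valid I := by
  refine ⟨?_, ?_, ?_, mul_mem hσ.fix hg, ?_⟩
  · intro c₁' m₁ c₂' m₂ hne
    obtain ⟨c₁, k₁, r₁⟩ := h₁ c₁' m₁
    obtain ⟨c₂, k₂, r₂⟩ := h₁ c₂' m₂
    have hne' : c₁ ≠ c₂ := by
      rintro rfl
      exact hne (r₁.inv.unique r₂.inv)
    rw [Set.disjoint_left]
    rintro p ⟨y₁, e₁⟩ ⟨y₂, e₂⟩
    have a₁ : g p ∈ cset c₁ := ⟨y₁, by rw [← e₁, r₁.2]⟩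
    have a₂ : g p ∈ cset c₂ := ⟨y₂, by rw [← e₂, r₂.2]⟩
    exact Set.disjoint_left.1 (hσ.disj _ k₁ _ k₂ hne') a₁ a₂
  · intro c' m
    obtain ⟨c, k, r⟩ := h₁ c' m
    have h1 := path_fix_mem (inv_mem hg) (p := cf c (fun _ => .inl 0)) (hσ.mem c k)
    rw [r.inv.2] at h1
    exact h1
  · intro p hp
    obtain ⟨c, k, y, e⟩ := hσ.cover _ (path_fix_mem hg hp)
    obtain ⟨c', m, r⟩ := h₂ c k
    exact ⟨c', m, y, g.injective ((r.2 y).trans e)⟩
  · intro c' m
    obtain ⟨c, k, r⟩ := h₁ c' m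
    obtain ⟨i, x, hx⟩ := hσ.piece c k
    exact ⟨i, x, (St.at_perm k m r).2 hx⟩

theorem St.Valid.lmul (hσ : σ.Valid I) {g : Perm (ι × Om)} (hg : g ∈ Fix I) (hm : σ.Match g) :
    (σ.lmul g).Valid I := by
  refine ⟨hσ.disj, hσ.mem, hσ.cover, mul_mem hg hσ.fix, fun c hc => ?_⟩
  obtain ⟨i, x, hx⟩ := hσ.piece c hc
  obtain ⟨i', m', h⟩ := hm c i x hx
  exact ⟨i', _, h⟩

theorem Path.toValid (p : Path I J σ σ' h) (hσ : σ.Valid I) : σ'.Valid I := by
  induction p with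
  | refl => exact hσ
  | exp hx hd _ ih => exact ih (hσ.exp hx hd)
  | perm g cs' hg h₁ h₂ _ ih => exact ih (hσ.perm hg h₁ h₂)

theorem Path.trans (p : Path I J σ σ' h) (p' : Path I J σ' σ'' h') : Path I J σ σ'' (h * h') := by
  induction p with
  | refl => rw [one_mul]; exact p'
  | exp hx hd _ ih => rw [mul_assoc]; exact Path.exp hx hd (ih p')
  | perm g cs' hg h₁ h₂ _ ih => rw [mul_assoc]; exact Path.perm g cs' hg h₁ h₂ (ih p')

/-- every piece of the source is cut into pieces of the target -/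
theorem Path.fine (p : Path I J σ σ' h) (hσ : σ.Valid I) {c : Cell ι} {i : ι} {x : Pc}
    (hx : σ.At c i x) : Fine (fun z => ∃ c', σ'.At c' i z) x := by
  induction p generalizing c i x with
  | refl => exact Fine.base ⟨c, hx⟩
  | @exp σ σ' c₀ i₀ x₀ d h hx₀ hd _ ih =>
    by_cases e : c = c₀
    · subst e
      obtain ⟨rfl, rfl⟩ := hx.unique hx₀
      exact Fine.split d hd (ih (hσ.exp hx hd) (path_at_child hx hd true))
        (ih (hσ.exp hx hd) (path_at_child hx hd false))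
    · exact ih (hσ.exp hx₀ hd) (path_at_other (hσ.disj _ hx.1 _ hx₀.1 e) e _ d hx)
  | perm g cs' hg h₁ h₂ _ ih =>
    obtain ⟨c', m, r⟩ := h₂ c hx.1
    exact ih (hσ.perm hg h₁ h₂) ((St.at_perm hx.1 m r).2 hx)

/-- every piece of the target is a descendant of a piece of the source -/
theorem Path.desc (p : Path I J σ σ' h) (hσ : σ.Valid I) {c' : Cell ι} {i : ι} {z : Pc}
    (hz : σ'.At c' i z) : ∃ c x, σ.At c i x ∧ Desc x z := by
  induction p with
  | refl => exact ⟨c', z, hz, Desc.refl⟩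
  | @exp σ σ' c₀ i₀ x₀ d h hx₀ hd _ ih =>
    obtain ⟨c₁, x₁, h₁, hD⟩ := ih (hσ.exp hx₀ hd) hz
    rcases (St.at_exp hσ hx₀ hd).1 h₁ with ⟨β, rfl, rfl, rfl⟩ | ⟨-, h₂⟩
    · exact ⟨c₀, x₀, hx₀, (Desc.half d β hd Desc.refl).trans hD⟩
    · exact ⟨c₁, x₁, h₂, hD⟩
  | perm g cs' hg h₁ h₂ _ ih =>
    obtain ⟨c₁', x₁, h₃, hD⟩ := ih (hσ.perm hg h₁ h₂) hz
    obtain ⟨c₁, k, r⟩ := h₁ c₁' h₃.1
    exact ⟨c₁, x₁, (St.at_perm k h₃.1 r).1 h₃, hD⟩

theorem path_exp_lmul (g : Perm (ι × Om)) (c : Cell ι) (t : Ty) (d : Dir) :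
    (σ.exp c t d).lmul g = (σ.lmul g).exp c t d :=
  St.ext rfl (mul_assoc _ _ _).symm

omit [Fintype ι] [DecidableEq ι] in
theorem path_perm_lmul (g g₀ : Perm (ι × Om)) (cs' : Finset (Cell ι)) :
    (⟨cs', σ.th * g₀⟩ : St ι).lmul g = ⟨cs', (σ.lmul g).th * g₀⟩ :=
  St.ext rfl (mul_assoc _ _ _).symm

/-- transport of a path by a permutation which is canonical on the pieces (`kap_match_half`) -/
theorem Path.lmul (p : Path I J σ σ' h) (hσ : σ.Valid I) {g : Perm (ι × Om)} (hm : σ.Match g) :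
    Path I J (σ.lmul g) (σ'.lmul g) h ∧ σ'.Match g := by
  induction p with
  | refl => exact ⟨Path.refl _, hm⟩
  | @exp σ σ' c₀ i₀ x₀ d h hx₀ hd _ ih =>
    obtain ⟨i', m', h'⟩ := hm _ _ _ hx₀
    have hm' : (σ.exp c₀ x₀.t d).Match g := by
      intro c₁ i₁ x₁ h₁
      rw [path_exp_lmul]
      rcases (St.at_exp hσ hx₀ hd).1 h₁ with ⟨β, rfl, rfl, rfl⟩ | ⟨hne, h₂⟩
      · exact ⟨i', _, path_at_child h' hd β⟩
      · obtain ⟨i'', m'', h₃⟩ := hm _ _ _ h₂
        exact ⟨i'', m'', path_at_other (hσ.disj _ h₂.1 _ hx₀.1 hne) hne _ d h₃⟩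
    obtain ⟨q, hq⟩ := ih (hσ.exp hx₀ hd) hm'
    rw [path_exp_lmul] at q
    exact ⟨Path.exp (x := ⟨m', x₀.t⟩) h' hd q, hq⟩
  | @perm σ σ' g₀ cs' h hg h₁ h₂ _ ih =>
    have hm' : (⟨cs', σ.th * g₀.1⟩ : St ι).Match g := by
      intro c₁' i₁ x₁ h₃
      obtain ⟨c₁, k, r⟩ := h₁ c₁' h₃.1
      obtain ⟨i'', m'', h₄⟩ := hm _ _ _ ((St.at_perm k h₃.1 r).1 h₃)
      rw [path_perm_lmul]
      exact ⟨i'', m'', (St.at_perm (σ := σ.lmul g) k h₃.1 r).2 h₄⟩
    obtain ⟨q, hq⟩ := ih (hσ.perm hg h₁ h₂) hm'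
    rw [path_perm_lmul] at q
    exact ⟨Path.perm (σ := σ.lmul g) g₀ cs' hg h₁ h₂ q, hq⟩

/-- the value of a path lifts the change of the permutation -/
theorem Path.th (p : Path I J σ σ' h) (π : H →* Perm (ι × Om)) (hv : ∀ g, π (J.v g) = g.1)
    (hmu : ∀ c t d, π (J.mu c t d) = mu c t d) : σ'.th = σ.th * π h := by
  induction p with
  | refl => rw [map_one, mul_one]
  | exp hx hd _ ih => rw [ih, map_mul, hmu, ← mul_assoc]; rfl
  | perm g cs' hg h₁ h₂ _ ih => rw [ih, map_mul, hv, ← mul_assoc]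

theorem Path.mem (p : Path I J σ σ' h) (hσ : σ.Valid I) (M : Subgroup H)
    (hv : ∀ g : LT ι, g.1 ∈ Fix I → J.v g ∈ M) (hmu : ∀ c t d, c.1 ∈ I → J.mu c t d ∈ M) :
    h ∈ M := by
  induction p with
  | refl => exact one_mem _
  | exp hx hd _ ih => exact mul_mem (hmu _ _ _ (hσ.mem _ hx.1)) (ih (hσ.exp hx hd))
  | perm g cs' hg h₁ h₂ _ ih => exact mul_mem (hv g hg) (ih (hσ.perm hg h₁ h₂))

end Crest.Agent.R189
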