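import Crest.Agent.R189.Frame

/-!
# Row 189, task Proj: the calculus of projections
-/

set_option autoImplicit false

namespace Crest.Agent.R189

open Equiv
open scoped commutatorElement

variable {ι : Type} [Fintype ι] [DecidableEq ι] {B : Type} [Group B]
variable {κ : B →* alternatingGroup ι} {H : Type} [Group H] {Φ : Frame κ H}

namespace Proj

variable {p q r s p₁ p₂ : Proj Φ}

theorem compl_compl (p : Proj Φ) : p.compl.compl = p := by
  apply Proj.ext
  ext b
  have h := p.eqv b⁻¹ b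
  rw [compl_s, compl_s, mul_inv_rev, inv_inv]
  simpa using h

theorem Orth.symm (h : Orth p q) : Orth q p := fun a b => (h b a).symm

theorem orth_compl (p : Proj Φ) : Orth p p.compl := by
  intro a b
  exact p.commute_compl b a

theorem le_refl (p : Proj Φ) : Le p p := by
  exact orth_compl p

theorem le_one (p : Proj Φ) : Le p (one Φ) := by
  intro a b
  have h : (one Φ).compl.s b = 1 := inv_mul_cancel _
  rw [h]
  exact Commute.one_right _

theorem isSum_compl (p : Proj Φ) : IsSum (one Φ) p p.compl := by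
  refine ⟨orth_compl p, fun a => ?_⟩
  rw [compl_s, mul_inv_cancel_left]
  rfl

theorem orth_iff_le_compl : Orth p q ↔ Le p q.compl := by
  unfold Le
  rw [compl_compl]

theorem Le.compl (h : Le p q) : Le q.compl p.compl := by
  exact orth_iff_le_compl.1 (Orth.symm h)

/-- on a smaller projection, `p.s a` acts as the constant `a` -/
theorem Le.conj (h : Le q p) (a b : B) : p.s a * q.s b * (p.s a)⁻¹ = q.s (a * b * a⁻¹) := by
  have h1 : Commute (q.s b) ((p.s a)⁻¹ * Φ.io a) := h b a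
  rw [← q.eqv a b]
  have h2 : (p.s a)⁻¹ * Φ.io a * q.s b * ((p.s a)⁻¹ * Φ.io a)⁻¹ = q.s b := by
    rw [← h1.eq, mul_inv_cancel_right]
  calc p.s a * q.s b * (p.s a)⁻¹
      = p.s a * ((p.s a)⁻¹ * Φ.io a * q.s b * ((p.s a)⁻¹ * Φ.io a)⁻¹) * (p.s a)⁻¹ := by rw [h2]
    _ = Φ.io a * q.s b * (Φ.io a)⁻¹ := by group

theorem Le.comm_eq (h : Le q p) (a b : B) : ⁅p.s a, q.s b⁆ = q.s ⁅a, b⁆ := by
  rw [commutatorElement_def, h.conj, commutatorElement_def, map_mul q.s (a * b * a⁻¹), map_inv]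

/-- `ext_of_comm` -/
theorem Le.antisymm (h : Le p q) (h' : Le q p) : p = q := by
  apply Proj.ext
  apply ext_of_comm Φ.uce.perfect
  intro a b
  rw [← h.comm_eq, ← commutatorElement_inv b a, map_inv, ← h'.comm_eq, commutatorElement_inv]

/-- The locality lemma. It is enough to show that `s.s z`, `z ∈ Bs κ J`, `J.card = 5`, commutes
with all `r.s b` (`eq_top_of_Bs`). With `I = Jᶜ`, `r.s ⁅x, y⁆ = ⁅q.s x, r.s y⁆` for `y ∈ Bs κ I`
commutes with `s.s z`; these commutators generate (`eq_top_of_comm`). -/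
theorem Le.orth (h : Le r q) (h' : Orth q s) : Orth r s := by
  have key : ∀ J : Finset ι, J.card = 5 → ∀ z ∈ Bs κ J, ∀ a, Commute (r.s a) (s.s z) := by
    intro J hJ z hz a
    have hI : 5 ≤ Jᶜ.card := by
      have := Φ.card
      rw [Finset.card_compl]; omega
    have hM : (Subgroup.centralizer {s.s z}).comap r.s = ⊤ := by
      apply eq_top_of_comm Φ.uce hI
      intro x y hy
      rw [Subgroup.mem_comap, Subgroup.mem_centralizer_singleton_iff, ← h.comm_eq]
      have h1 : Commute (q.s x) (s.s z) := h' x z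
      have h2 : Commute (r.s y) (s.s z) :=
        Φ.comm Jᶜ J disjoint_compl_left _ (r.loc _ hI y hy) _ (s.loc _ hJ.ge z hz)
      exact (((h1.mul_left h2).mul_left h1.inv_left).mul_left h2.inv_left).eq
    have ha : a ∈ (Subgroup.centralizer {s.s z}).comap r.s := hM ▸ Subgroup.mem_top a
    rw [Subgroup.mem_comap, Subgroup.mem_centralizer_singleton_iff] at ha
    exact ha
  intro a z
  have hM : (Subgroup.centralizer {r.s a}).comap s.s = ⊤ := by
    apply eq_top_of_Bs Φ.uce (by have := Φ.card; omega)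
    intro J hJ z hz
    rw [Subgroup.mem_comap, Subgroup.mem_centralizer_singleton_iff]
    exact (key J hJ z hz a).symm.eq
  have hz : z ∈ (Subgroup.centralizer {r.s a}).comap s.s := hM ▸ Subgroup.mem_top z
  rw [Subgroup.mem_comap, Subgroup.mem_centralizer_singleton_iff] at hz
  exact Commute.symm hz

theorem Le.trans (h : Le p q) (h' : Le q r) : Le p r := by
  exact h.orth h'

/-- as `Le.orth`, with `y ∈ Bs κ {i}ᶜ` -/
theorem Triv.mono {η : FG} (h : Triv η p) (hq : Le q p) : Triv η q := by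
  intro i b
  have hI : 5 ≤ ({i}ᶜ : Finset ι).card := by
    have := Φ.card
    rw [Finset.card_compl, Finset.card_singleton]; omega
  have hM : (Subgroup.centralizer {Φ.d i η}).comap q.s = ⊤ := by
    apply eq_top_of_comm Φ.uce hI
    intro x y hy
    rw [Subgroup.mem_comap, Subgroup.mem_centralizer_singleton_iff, ← hq.comm_eq]
    have h1 : Commute (p.s x) (Φ.d i η) := (h i x).symm
    have h2 : Commute (q.s y) (Φ.d i η) :=
      Φ.comm {i}ᶜ {i} disjoint_compl_left _ (q.loc _ hI y hy) _ (Φ.d_loc i η)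
    exact (((h1.mul_left h2).mul_left h1.inv_left).mul_left h2.inv_left).eq
  have hb : b ∈ (Subgroup.centralizer {Φ.d i η}).comap q.s := hM ▸ Subgroup.mem_top b
  rw [Subgroup.mem_comap, Subgroup.mem_centralizer_singleton_iff] at hb
  exact Commute.symm hb

theorem Triv.act_eq_of_le {η : FG} (h : Triv η p) (hq : Le q p) : act η q = q :=
  (h.mono hq).act_eq

theorem IsSum.symm (h : IsSum r p q) : IsSum r q p := by
  exact ⟨h.1.symm, fun a => by rw [h.2 a, (h.1 a a).eq]⟩

theorem IsSum.le_left (h : IsSum r p q) : Le p r := by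
  intro a b
  rw [compl_s, h.2 b, mul_inv_rev, mul_assoc]
  exact (h.1 a b).inv_right.mul_right (p.commute_compl b a)

theorem IsSum.le_right (h : IsSum r p q) : Le q r := by
  exact h.symm.le_left

theorem IsSum.orth (h : IsSum r p q) (hp : Orth p s) (hq : Orth q s) : Orth r s := by
  intro a b
  rw [h.2 a]
  exact (hp a b).mul_left (hq a b)

theorem IsSum.le (h : IsSum r p q) (hp : Le p s) (hq : Le q s) : Le r s := by
  exact h.orth hp hq

theorem IsSum.unique_right (h : IsSum r p q) (h' : IsSum r p s) : q = s := by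
  apply Proj.ext
  ext a
  exact mul_left_cancel ((h.2 a).symm.trans (h'.2 a))

theorem IsSum.unique (h : IsSum r p q) (h' : IsSum s p q) : r = s := by
  apply Proj.ext
  ext a
  exact (h.2 a).trans (h'.2 a).symm

theorem Orth.exists_sum (h : Orth p q) : ∃ r, IsSum r p q := by
  refine ⟨⟨MonoidHom.mk' (fun a => p.s a * q.s a) ?_, ?_, ?_⟩, h, fun _ => rfl⟩
  · intro a b
    rw [map_mul, map_mul]
    exact (h b a).mul_mul_mul_comm _ _
  · intro c b
    change Φ.io c * (p.s b * q.s b) * (Φ.io c)⁻¹ = p.s (c * b * c⁻¹) * q.s (c * b * c⁻¹)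
    rw [← p.eqv, ← q.eqv]
    group
  · intro I hI b hb
    exact mul_mem (p.loc I hI b hb) (q.loc I hI b hb)

theorem Le.exists_diff (h : Le p r) : ∃ q, IsSum r p q := by
  obtain ⟨t, ht⟩ := Orth.exists_sum (show Orth p r.compl from h)
  refine ⟨t.compl, ht.le_left, fun a => ?_⟩
  have h1 : r.s a = (r.compl.s a)⁻¹ * Φ.io a := by
    rw [← compl_s, compl_compl]
  rw [compl_s, ht.symm.2 a, h1]
  group

theorem proj_zero_s (b : B) : (one Φ).compl.s b = 1 := inv_mul_cancel _

theorem proj_zero_orth (q : Proj Φ) : Orth (one Φ).compl q := fun a b => by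
  rw [proj_zero_s]
  exact Commute.one_left _

theorem proj_isSum_zero (p : Proj Φ) : IsSum p p (one Φ).compl :=
  ⟨(proj_zero_orth p).symm, fun a => by rw [proj_zero_s, mul_one]⟩

theorem Comm.of_le (h : Le p q) : Comm p q := by
  exact ⟨p, (one Φ).compl, proj_isSum_zero p, h, proj_zero_orth q⟩

theorem Comm.of_orth (h : Orth p q) : Comm p q := by
  exact ⟨(one Φ).compl, p, (proj_isSum_zero p).symm, proj_zero_orth _, h⟩

/-- `q = p₁ + (q - p₁)` -/
theorem Comm.symm (h : Comm p q) : Comm q p := by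
  obtain ⟨p₁, p₂, hs, h₁, h₂⟩ := h
  obtain ⟨q₂, hq⟩ := h₁.exists_diff
  exact ⟨p₁, q₂, hq, hs.le_left, (hs.orth hq.1 (hq.le_right.orth h₂.symm).symm).symm⟩

theorem Comm.compl (h : Comm p q) : Comm p q.compl := by
  obtain ⟨p₁, p₂, hs, h₁, h₂⟩ := h
  exact ⟨p₂, p₁, hs.symm, orth_iff_le_compl.1 h₂, h₁⟩

theorem Comm.sum (h : IsSum r p q) (hp : Comm p s) (hq : Comm q s) : Comm r s := by
  obtain ⟨p₁, p₂, hps, hp₁, hp₂⟩ := hp
  obtain ⟨q₁, q₂, hqs, hq₁, hq₂⟩ := hq
  have o : ∀ {x y : Proj Φ}, Le x p → Le y q → Orth x y := fun hx hy =>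
    hx.orth (hy.orth h.1.symm).symm
  obtain ⟨r₁, hr₁⟩ := (o hps.le_left hqs.le_left).exists_sum
  obtain ⟨r₂, hr₂⟩ := (o hps.le_right hqs.le_right).exists_sum
  refine ⟨r₁, r₂, ⟨?_, fun a => ?_⟩, hr₁.le hp₁ hq₁, hr₂.orth hp₂ hq₂⟩
  · exact hr₁.orth (hr₂.orth hps.1.symm (o hps.le_left hqs.le_right).symm).symm
      (hr₂.orth (o hps.le_right hqs.le_left) hqs.1.symm).symm
  · rw [h.2 a, hps.2 a, hqs.2 a, hr₁.2 a, hr₂.2 a]
    exact (o hps.le_right hqs.le_left a a).mul_mul_mul_comm _ _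

theorem proj_meet_spec (h : Comm p q) :
    ∃ p₂, IsSum p (meet p q) p₂ ∧ Le (meet p q) q ∧ Orth p₂ q := by
  have h1 : meet p q = h.choose := dif_pos h
  rw [h1]
  exact h.choose_spec

theorem proj_comm_s (h : IsSum p p₁ p₂) (h₁ : Le p₁ q) (h₂ : Orth p₂ q) (a b : B) :
    p₁.s ⁅a, b⁆ = ⁅p.s a, q.s b⁆ := by
  rw [← commutatorElement_inv b a, map_inv, ← h₁.comm_eq, commutatorElement_inv, h.2 a,
    commutatorElement_def, commutatorElement_def]
  have h3 : p₂.s a * q.s b * (p₂.s a)⁻¹ = q.s b := by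
    rw [(h₂ a b).eq, mul_inv_cancel_right]
  calc p₁.s a * q.s b * (p₁.s a)⁻¹ * (q.s b)⁻¹
      = p₁.s a * (p₂.s a * q.s b * (p₂.s a)⁻¹) * (p₁.s a)⁻¹ * (q.s b)⁻¹ := by rw [h3]
    _ = _ := by group

theorem meet_eq (h : IsSum p p₁ p₂) (h₁ : Le p₁ q) (h₂ : Orth p₂ q) : meet p q = p₁ := by
  have hc : Comm p q := ⟨p₁, p₂, h, h₁, h₂⟩
  obtain ⟨p₃, h', h₁', h₂'⟩ := proj_meet_spec hc
  apply Proj.ext
  apply ext_of_comm Φ.uce.perfect
  intro a b
  rw [proj_comm_s h h₁ h₂, proj_comm_s h' h₁' h₂']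

theorem Comm.meet_s (h : Comm p q) (a b : B) : (meet p q).s ⁅a, b⁆ = ⁅p.s a, q.s b⁆ := by
  obtain ⟨p₃, h', h₁', h₂'⟩ := proj_meet_spec h
  exact proj_comm_s h' h₁' h₂' a b

theorem Comm.meet_le_left (h : Comm p q) : Le (meet p q) p := by
  obtain ⟨p₃, h', -, -⟩ := proj_meet_spec h
  exact h'.le_left

theorem Comm.meet_le_right (h : Comm p q) : Le (meet p q) q := by
  obtain ⟨p₃, -, h', -⟩ := proj_meet_spec h
  exact h'

theorem Comm.isSum (h : Comm p q) : IsSum p (meet p q) (meet p q.compl) := by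
  obtain ⟨p₃, h', h₁', h₂'⟩ := proj_meet_spec h
  rw [meet_eq h'.symm (orth_iff_le_compl.1 h₂') h₁']
  exact h'

/-- the complement of `meet p q` is the sum of `p.compl` and `meet p q.compl` -/
theorem Comm.le_meet (h : Comm p q) (hp : Le r p) (hq : Le r q) : Le r (meet p q) := by
  obtain ⟨p₃, h', -, h₂'⟩ := proj_meet_spec h
  intro a b
  have h1 : (meet p q).compl.s b = p₃.s b * p.compl.s b := by
    rw [compl_s, compl_s, h'.2 b]
    group
  rw [h1]
  exact (hq.orth h₂'.symm a b).mul_right (hp a b)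

theorem Comm.meet_comm (h : Comm p q) : meet p q = meet q p := by
  exact (h.symm.le_meet h.meet_le_right h.meet_le_left).antisymm
    (h.le_meet h.symm.meet_le_right h.symm.meet_le_left)

theorem Le.meet_eq (h : Le p q) : meet p q = p := by
  exact Proj.meet_eq (proj_isSum_zero p) h (proj_zero_orth q)

theorem Comm.act_meet (h : Comm p q) (γ : FG) :
    Proj.act γ (meet p q) = meet (Proj.act γ p) (Proj.act γ q) := by
  obtain ⟨p₃, h', h₁', h₂'⟩ := proj_meet_spec h
  exact (meet_eq (h'.act γ) (h₁'.act γ) (h₂'.act γ)).symm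

theorem Comm.triv_meet (h : Comm p q) {η : FG}
    (hη : ∀ i a b, Commute (Φ.d i η) ⁅p.s a, q.s b⁆) : Triv η (meet p q) := by
  intro i b
  have hI : 5 ≤ (Finset.univ : Finset ι).card := by
    have := Φ.card
    rw [Finset.card_univ]; omega
  have hM : (Subgroup.centralizer {Φ.d i η}).comap (meet p q).s = ⊤ := by
    apply eq_top_of_comm Φ.uce hI
    intro x y _
    rw [Subgroup.mem_comap, Subgroup.mem_centralizer_singleton_iff, h.meet_s]
    exact (hη i x y).symm.eq
  have hb : b ∈ (Subgroup.centralizer {Φ.d i η}).comap (meet p q).s := hM ▸ Subgroup.mem_top b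
  rw [Subgroup.mem_comap, Subgroup.mem_centralizer_singleton_iff] at hb
  exact Commute.symm hb

end Proj

end Crest.Agent.R189
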