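import Crest.Agent.R189.Gen

/-!
# Row 189, task Simple: `G` is infinite and simple
-/

set_option autoImplicit false

namespace Crest.Agent.R189

open Equiv

variable {ι : Type} [Fintype ι] [DecidableEq ι]

theorem simple_exists_cm (p : List ℕ) (i : ℕ) : ∃ w, cm w = ⟨p, i, 0, 0⟩ := by
  have step : ∀ p : List ℕ, (∃ w, cm w = ⟨p, 0, 0, 0⟩) → ∀ i, ∃ w, cm w = ⟨p, i, 0, 0⟩ := by
    intro p h i
    induction i with
    | zero => exact h
    | succ i ih =>
      obtain ⟨w, hw⟩ := ih
      exact ⟨true :: w, by rw [cm, hw]; rfl⟩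
  induction p using List.reverseRecOn generalizing i with
  | nil => exact step [] ⟨[], rfl⟩ i
  | append_singleton p a ih =>
    obtain ⟨w, hw⟩ := ih a
    exact step _ ⟨false :: w, by rw [cm, hw]; rfl⟩ i

theorem simple_C_injective : Function.Injective Mk.C := by
  rintro ⟨p, i, j, k⟩ ⟨p', i', j', k'⟩ h
  simp only [Mk.C, Mk.mk.injEq, List.append_singleton_inj] at h
  obtain ⟨⟨h1, h2⟩, h3, h4, -⟩ := h
  rw [h1, h2, h3, h4]

theorem simple_deg_C (m : Mk) : m.C.deg = m.deg + 1 := deg_hm .T .a false m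

theorem simple_Com_mem (t : Ty) (y : Om) : Com (Com (Com y)) ∈ t.set := by
  cases t
  · trivial
  · rfl
  · rfl
  · exact ⟨rfl, rfl⟩

/-- A non-trivial element moves a cell rigidly to another cell. Take an entry
`(i, ⟨m, t⟩, i', m')` of `exists_table`. The point `Com (Com (Com y))` lies in every type, and
`m.app (Com (Com (Com y))) = n.app y` with `n = m.C.C.C = ⟨m.p ++ [m.i, m.j, m.k], 0, 0, 0⟩`. Every
marking with `j = k = 0` is `cm w` (with `w.length = deg`), so `g` maps the cell of `n` rigidly to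
the cell of `n' = m'.C.C.C`; if the two cells coincide then `i = i'`, `m = m'` and `g` is the identity
on the piece. -/
theorem exists_rig_ne {g : Perm (ι × Om)} (hg : g ∈ G ι) (h1 : g ≠ 1) :
    ∃ c c' : Cell ι, c ≠ c' ∧ Rig g c c' := by
  obtain ⟨x, hx⟩ : ∃ x, g x ≠ x := by
    by_contra h
    push Not at h
    exact h1 (Equiv.ext h)
  obtain ⟨T, hT, hcov⟩ := exists_table hg
  obtain ⟨⟨i, ⟨m, t⟩, i', m'⟩, hl, hi, y₀, hy₀, hxy⟩ := hcov x
  obtain ⟨hdeg, happ⟩ := hT _ hl
  dsimp only at hi hy₀ hxy hdeg happ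
  obtain ⟨w, hw⟩ : ∃ w, cm w = m.C.C.C := simple_exists_cm _ _
  obtain ⟨w', hw'⟩ : ∃ w, cm w = m'.C.C.C := simple_exists_cm _ _
  refine ⟨(i, w), (i', w'), fun h => hx ?_, ?_, fun y => ?_⟩
  · obtain ⟨h2, h3⟩ := Prod.ext_iff.1 h
    dsimp only at h2 h3
    have h4 : m = m' :=
      simple_C_injective (simple_C_injective (simple_C_injective (by rw [← hw, ← hw', h3])))
    have e : x = (i, m.app y₀) := Prod.ext hi hxy.symm
    rw [e, happ y₀ hy₀, h2, h4]
  · dsimp only
    rw [← deg_cm, ← deg_cm, hw, hw']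
    simp only [simple_deg_C, hdeg]
  · simp only [cf, hw, hw', app_C]
    exact happ _ (simple_Com_mem t y)

omit [Fintype ι] [DecidableEq ι] in
theorem simple_cset_append (c : Cell ι) (w : List Bool) : cset (c.1, w ++ c.2) ⊆ cset c := by
  induction w with
  | nil => exact subset_rfl
  | cons β w ih => exact (cset_child_subset (c.1, w ++ c.2) β).trans ih

omit [Fintype ι] [DecidableEq ι] in
theorem simple_child_ne (c : Cell ι) : child c true ≠ child c false := by
  simp [child]

omit [Fintype ι] [DecidableEq ι] in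
theorem simple_sw_fix {c e e' : Cell ι} (h : cset e ⊆ cset c) (h' : cset e' ⊆ cset c)
    (x : ι × Om) (hx : x ∉ cset c) : sw e e' x = x :=
  sw_apply_of_notMem (fun h1 => hx (h h1)) fun h1 => hx (h' h1)

theorem infinite_G [Nonempty ι] : Infinite (G ι) := by
  obtain ⟨i⟩ := ‹Nonempty ι›
  let c : ℕ → Cell ι := fun n => (i, List.replicate n false)
  have key : ∀ n m, n < m →
      sw (child (c n) true) (child (c n) false) ≠ sw (child (c m) true) (child (c m) false) := by
    intro n m hnm h
    obtain ⟨x, y, rfl⟩ := cset_nonempty (child (c n) true)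
    have hd := cset_disjoint (c := child (c n) true) (c' := child (c n) false) rfl
      (simple_child_ne _)
    have hsub : cset (c m) ⊆ cset (child (c n) false) := by
      have e : c m = ((child (c n) false).1,
          List.replicate (m - (n + 1)) false ++ (child (c n) false).2) := by
        simp only [c, child, ← List.replicate_succ, List.replicate_append_replicate]
        congr 2
        omega
      rw [e]
      exact simple_cset_append _ _
    have h1 : cf (child (c n) true) y ∉ cset (child (c n) false) :=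
      Set.disjoint_left.1 hd ⟨y, rfl⟩
    have h2 := simple_sw_fix (cset_child_subset (c m) true) (cset_child_subset (c m) false) _
      fun h3 => h1 (hsub h3)
    rw [← h, (rig_sw_left (c := child (c n) true) (c' := child (c n) false) rfl).2 y] at h2
    exact h1 ⟨y, h2⟩
  refine Infinite.of_injective
    (fun n => (⟨sw (child (c n) true) (child (c n) false), LT_le_G (sw_mem_LT _ _)⟩ : G ι))
    fun n m h => ?_
  have h' := Subtype.ext_iff.1 h
  rcases lt_trichotomy n m with h1 | h1 | h1
  · exact absurd h' (key n m h1)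
  · exact h1
  · exact absurd h'.symm (key m n h1)

omit [Fintype ι] [DecidableEq ι] in
theorem simple_comm_mem {M : Subgroup (Perm (ι × Om))}
    (hn : ∀ g ∈ G ι, ∀ m ∈ M, g * m * g⁻¹ ∈ M) {g : Perm (ι × Om)} (hg : g ∈ M) {c c' : Cell ι}
    (hne : c ≠ c') (hr : Rig g c c') {a b : Perm (ι × Om)} (ha : a ∈ G ι) (hb : b ∈ G ι)
    (ha' : ∀ x, x ∉ cset c → a x = x) (hb' : ∀ x, x ∉ cset c → b x = x) :
    a * b * a⁻¹ * b⁻¹ ∈ M := by
  have hd := cset_disjoint hr.1 hne
  have hc : Commute (g * a⁻¹ * g⁻¹) b := by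
    refine commute_of_disjoint fun x => ?_
    by_cases hx : x ∈ cset c
    · left
      have h1 : g⁻¹ x ∉ cset c := by
        rintro ⟨y, hy⟩
        refine Set.disjoint_left.1 hd hx ⟨y, ?_⟩
        rw [← hr.2 y, hy]
        simp
      have h2 : a⁻¹ (g⁻¹ x) = g⁻¹ x := by rw [Perm.inv_eq_iff_eq, ha' _ h1]
      rw [Perm.mul_apply, Perm.mul_apply, h2]
      simp
    · exact Or.inr (hb' x hx)
  have h1 : a * (g * a⁻¹ * g⁻¹) ∈ M := by
    have := M.mul_mem (hn a ha g hg) (M.inv_mem hg)
    simpa only [mul_assoc] using this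
  have h2 := M.mul_mem h1 (hn b hb _ (M.inv_mem h1))
  have e : a * (g * a⁻¹ * g⁻¹) * (b * (a * (g * a⁻¹ * g⁻¹))⁻¹ * b⁻¹) = a * b * a⁻¹ * b⁻¹ := by
    generalize g * a⁻¹ * g⁻¹ = u at hc
    calc a * u * (b * (a * u)⁻¹ * b⁻¹) = a * (u * b) * u⁻¹ * a⁻¹ * b⁻¹ := by group
      _ = a * (b * u) * u⁻¹ * a⁻¹ * b⁻¹ := by rw [hc.eq]
      _ = a * b * a⁻¹ * b⁻¹ := by group
  rwa [e] at h2

omit [Fintype ι] [DecidableEq ι] in
theorem simple_rig_sw {c c' e : Cell ι} (hl : c.2.length = e.2.length)
    (hl' : c'.2.length = e.2.length) (h : e ≠ c) (h' : e ≠ c') : Rig (sw c c') e e :=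
  rig_of_fix fun _ hx => sw_apply_of_notMem (Set.disjoint_left.1 (cset_disjoint hl h) hx)
    (Set.disjoint_left.1 (cset_disjoint hl' h') hx)

omit [DecidableEq ι] in
theorem simple_sw_child_mem {M : Subgroup (Perm (ι × Om))}
    (hn : ∀ g ∈ G ι, ∀ m ∈ M, g * m * g⁻¹ ∈ M) {g : Perm (ι × Om)} (hg : g ∈ M) {c c' : Cell ι}
    (hne : c ≠ c') (hr : Rig g c c') : sw (child c true) (child c false) ∈ M := by
  have hsub : ∀ β β', cset (child (child c β) β') ⊆ cset c := fun β β' =>
    (cset_child_subset _ _).trans (cset_child_subset _ _)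
  have hG : ∀ e e' : Cell ι, sw e e' ∈ G ι := fun e e' => LT_le_G (sw_mem_LT e e')
  have h := simple_comm_mem hn hg hne hr
    (a := sw (child (child c true) true) (child (child c false) true))
    (b := sw (child (child c true) true) (child (child c true) false) *
      sw (child (child c false) true) (child (child c false) false))
    (hG _ _) (mul_mem (hG _ _) (hG _ _)) (simple_sw_fix (hsub _ _) (hsub _ _)) fun x hx => by
      rw [Perm.mul_apply, simple_sw_fix (hsub _ _) (hsub _ _) x hx,
        simple_sw_fix (hsub _ _) (hsub _ _) x hx]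
  have r1 : Rig (sw (child (child c true) true) (child (child c true) false) *
      sw (child (child c false) true) (child (child c false) false) : Perm (ι × Om))
      (child (child c true) true) (child (child c true) false) :=
    Rig.mul (simple_rig_sw rfl rfl (by simp [child]) (by simp [child])) (rig_sw_left rfl)
  have r2 : Rig (sw (child (child c true) true) (child (child c true) false) *
      sw (child (child c false) true) (child (child c false) false) : Perm (ι × Om))
      (child (child c false) true) (child (child c false) false) :=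
    Rig.mul (rig_sw_left rfl) (simple_rig_sw rfl rfl (by simp [child]) (by simp [child]))
  have e := conj_sw (c := child (child c true) true) (c' := child (child c false) true) rfl r1 r2
  rw [inv_eq_of_mul_eq_one_right (sw_mul_self _ _)] at h
  rw [sw_child (c := child c true) (c' := child c false) rfl, ← e]
  simpa only [mul_assoc] using h

theorem simple_sw_mem {M : Subgroup (Perm (ι × Om))}
    (hn : ∀ g ∈ G ι, ∀ m ∈ M, g * m * g⁻¹ ∈ M) {e e' f f' : Cell ι} (he : e ≠ e') (hf : f ≠ f')
    (h1 : e'.2.length = e.2.length) (h2 : f.2.length = e.2.length)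
    (h3 : f'.2.length = e.2.length) (h : sw e e' ∈ M) : sw f f' ∈ M := by
  have hv : ∀ c c' : CellL ι e.2.length, vL e.2.length (swap c c') = sw c.1 c'.1 := by
    intro c c'
    convert vL_swap e.2.length c c'
  obtain ⟨π, hπ⟩ := isConj_iff.1 (Perm.isConj_swap
    (w := (⟨e, rfl⟩ : CellL ι e.2.length)) (x := ⟨e', h1⟩) (y := ⟨f, h2⟩) (z := ⟨f', h3⟩)
    (fun h => he (Subtype.ext_iff.1 h)) fun h => hf (Subtype.ext_iff.1 h))
  have h4 := congrArg (vL (ι := ι) e.2.length) hπ
  rw [map_mul, map_mul, map_inv, hv, hv] at h4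
  have h5 := hn _ (LT_le_G ⟨e.2.length, π, rfl⟩) _ h
  rwa [h4] at h5

/-- Let `N` be a non-trivial normal subgroup, `g ∈ N` with `Rig g c c'`, `c ≠ c'`. For `a, b`
supported in `cset c`: `⁅a, b⁆ = ⁅⁅a, g⁆, b⁆ ∈ N`. For subcells `e ≠ e'` of `c` of the same level,
`sw e e' = ⁅sw e⁺ e'⁺, x⁆` with `x = sw e⁺ e⁻ * sw e'⁺ e'⁻` (`sw_child`, `conj_sw`), so
`sw e e' ∈ N`. All exchanges of two cells of that level are conjugate in `LT` (`vL`,
`Equiv.Perm.isConj_swap`), those of deeper levels likewise, so `LT ≤ N` by `mem_closure_sw`, and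
`GI_le_of_LT` with `I = univ` concludes. -/
theorem isSimpleGroup_G (hι : 2 ≤ Fintype.card ι) : IsSimpleGroup (G ι) := by
  have : Nonempty ι := Fintype.card_pos_iff.1 (by omega)
  have := infinite_G (ι := ι)
  refine ⟨fun H hH => ?_⟩
  by_cases hbot : H = ⊥
  · exact Or.inl hbot
  right
  obtain ⟨⟨g, hgH⟩, hg1⟩ := Subgroup.ne_bot_iff_exists_ne_one.1 hbot
  have hn : ∀ a ∈ G ι, ∀ m ∈ H.map (G ι).subtype, a * m * a⁻¹ ∈ H.map (G ι).subtype := by
    rintro a ha _ ⟨m, hm, rfl⟩
    exact ⟨_, hH.conj_mem m hm ⟨a, ha⟩, rfl⟩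
  have hgM : g.1 ∈ H.map (G ι).subtype := ⟨g, hgH, rfl⟩
  obtain ⟨c, c', hne, hr⟩ := exists_rig_ne g.2 fun h => hg1 (Subtype.ext (Subtype.ext h))
  have hLT : ∀ a ∈ LT ι, a ∈ H.map (G ι).subtype := by
    intro a ha
    refine (Subgroup.closure_le _).2 ?_
      (mem_closure_sw ha Set.univ (fun x hx => absurd trivial hx) (c.2.length + 1))
    rintro _ ⟨f, f', hn1, hl, hf, -, -, rfl⟩
    have hd := simple_sw_child_mem hn hgM
      (c := (c.1, List.replicate (f.2.length - (c.2.length + 1)) true ++ c.2))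
      (c' := (c'.1, List.replicate (f.2.length - (c.2.length + 1)) true ++ c'.2))
      (fun h => hne (Prod.ext (Prod.ext_iff.1 h).1 (List.append_cancel_left (Prod.ext_iff.1 h).2)))
      (hr.append _)
    have hlen : f.2.length = (child (c.1, List.replicate (f.2.length - (c.2.length + 1)) true ++ c.2)
        true).2.length := by
      simp only [child, List.length_cons, List.length_append, List.length_replicate]
      omega
    exact simple_sw_mem hn (simple_child_ne _) hf rfl hlen (hl.trans hlen) hd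
  have hle := GI_le_of_LT (I := Finset.univ) (by rwa [Finset.card_univ]) _
    (fun a ha _ => hLT a ha) fun a ha => hn a ha.1
  rw [eq_top_iff]
  intro a _
  obtain ⟨b, hb, hba⟩ := hle (show a.1 ∈ GI Finset.univ from
    ⟨a.2, fun x hx => absurd (Finset.mem_univ _) hx⟩)
  rwa [← Subtype.ext hba]

end Crest.Agent.R189
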