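import Crest.Agent.R189.Grp

/-!
# Row 189: singular points (definitions), task Sing: the action and the two cocycles

A point with an infinite coordinate has the form `pre p (ω + z, v₁, v₂, …)`. We remember the copy,
the finite prefix `p` and the values `v₁, v₂` (`none` for an infinite value). The cocycles `D₁, D₂`
are the increments of `v₁, v₂` (in `ℤ`, also when they are infinite).
-/

set_option autoImplicit false

namespace Crest.Agent.R189

open Equiv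

/-- classes of singular points -/
@[ext] structure Sg (ι : Type) where
  i : ι
  p : List ℕ
  x : Option ℕ
  y : Option ℕ

/-- add a natural number -/
def oadd (o : Option ℕ) (n : ℕ) : Option ℕ := o.map (· + n)

variable {ι : Type}

/-- The effect of the canonical map `(i, m y) ↦ (i', m' y)`, `y ∈ t.set`, on the singular points
of the piece, according to the position `0, 1, 2, ≥ 3` of the first infinite coordinate of `y`. -/
inductive Ent (i : ι) (m : Mk) (t : Ty) (i' : ι) (m' : Mk) : Sg ι → Sg ι → ℤ → ℤ → Prop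
  | r0 (x y : Option ℕ) (hx : t.z1 = true → x = some 0) (hy : t.z2 = true → y = some 0) :
      Ent i m t i' m' ⟨i, m.p, oadd x m.j, oadd y m.k⟩ ⟨i', m'.p, oadd x m'.j, oadd y m'.k⟩
        ((m'.j : ℤ) - m.j) ((m'.k : ℤ) - m.k)
  | r1 (a : ℕ) (x y : Option ℕ) (hx : t.z1 = false) (hy : t.z2 = true → x = some 0) :
      Ent i m t i' m' ⟨i, m.p ++ [a + m.i], oadd x m.k, y⟩ ⟨i', m'.p ++ [a + m'.i], oadd x m'.k, y⟩
        ((m'.k : ℤ) - m.k) 0
  | r2 (a b : ℕ) (x y : Option ℕ) (hx : t.z1 = true → b = 0) (hy : t.z2 = false) :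
      Ent i m t i' m' ⟨i, m.p ++ [a + m.i, b + m.j], x, y⟩ ⟨i', m'.p ++ [a + m'.i, b + m'.j], x, y⟩
        0 0
  | r3 (a b c : ℕ) (q : List ℕ) (x y : Option ℕ) (hx : t.z1 = true → b = 0)
      (hy : t.z2 = true → c = 0) :
      Ent i m t i' m' ⟨i, m.p ++ ([a + m.i, b + m.j, c + m.k] ++ q), x, y⟩
        ⟨i', m'.p ++ ([a + m'.i, b + m'.j, c + m'.k] ++ q), x, y⟩ 0 0

/-- `g` is the canonical map `(i, m y) ↦ (i', m' y)` on the piece `⟨m, t⟩` of the copy `i` -/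
def CanE (g : G ι) (i : ι) (m : Mk) (t : Ty) (i' : ι) (m' : Mk) : Prop :=
  m'.deg = m.deg ∧ ∀ y ∈ t.set, g.1 (i, m.app y) = (i', m'.app y)

/-- the class of a value -/
private def sing_cls : V → Option ℕ
  | .inl n => some n
  | .inr _ => none

/-- the integer value -/
private def sing_val : V → ℤ
  | .inl n => n
  | .inr z => z

private theorem sing_cls_add (v : V) (n : ℕ) : sing_cls (v.add n) = oadd (sing_cls v) n := by
  cases v <;> rfl

private theorem sing_val_add (v : V) (n : ℕ) : sing_val (v.add n) = sing_val v + n := by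
  cases v <;> simp [V.add, sing_val]

private theorem sing_exists_sub {v : V} {x : Option ℕ} {n : ℕ} (h : sing_cls v = oadd x n) :
    ∃ v₀ : V, v = v₀.add n ∧ sing_cls v₀ = x := by
  rcases v with a | z <;> rcases x with _ | b
  · simp [sing_cls, oadd] at h
  · have h1 : a = b + n := by simpa [sing_cls, oadd] using h
    exact ⟨.inl b, by rw [h1]; rfl, rfl⟩
  · exact ⟨.inr (z - n), by simp [V.add], rfl⟩
  · simp [sing_cls, oadd] at h

private theorem sing_eq_inl {v : V} {n : ℕ} (h : sing_cls v = some n) : v = .inl n := by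
  rcases v with a | z
  · have h1 : a = n := by simpa [sing_cls] using h
    rw [h1]
  · simp [sing_cls] at h

private theorem sing_eq_inr {v : V} (h : sing_cls v = none) : ∃ z, v = .inr z := by
  rcases v with a | z
  · simp [sing_cls] at h
  · exact ⟨z, rfl⟩

private theorem sing_inl_sub {v : V} {c n : ℕ} (h : (Sum.inl c : V) = v.add n) :
    ∃ a, v = .inl a ∧ c = a + n := by
  rcases v with a | z
  · exact ⟨a, rfl, by simpa [V.add] using h⟩
  · simp [V.add] at h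

private theorem sing_exists_cls (x : Option ℕ) : ∃ v : V, sing_cls v = x := by
  rcases x with _ | a
  · exact ⟨.inr 0, rfl⟩
  · exact ⟨.inl a, rfl⟩

private theorem sing_bump (i j k : ℕ) (a b c : V) (y : Om) :
    bump i j k (cons a (cons b (cons c y))) = cons (a.add i) (cons (b.add j) (cons (c.add k) y)) :=
  pc_om_ext rfl rfl rfl fun _ => rfl

private theorem sing_exists_cons (y : Om) :
    ∃ a b c y', y = cons a (cons b (cons c y')) :=
  ⟨y 0, y 1, y 2, fun n => y (n + 3), pc_om_ext rfl rfl rfl fun _ => rfl⟩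

private theorem sing_mem {t : Ty} {a b c : V} {y : Om} :
    cons a (cons b (cons c y)) ∈ t.set ↔
      (t.z1 = true → b = .inl 0) ∧ (t.z2 = true → c = .inl 0) := by
  cases t <;> simp [Ty.set, Ty.z1, Ty.z2, cons]

/-- the point `z` represents `s` with the values `n₁, n₂` -/
private def sing_Rep (z : ι × Om) (s : Sg ι) (n₁ n₂ : ℤ) : Prop :=
  ∃ v₀ v₁ v₂ y, z = (s.i, pre s.p (cons v₀ (cons v₁ (cons v₂ y)))) ∧ sing_cls v₀ = none ∧
    sing_cls v₁ = s.x ∧ sing_cls v₂ = s.y ∧ sing_val v₁ = n₁ ∧ sing_val v₂ = n₂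

private theorem sing_rep_exists (s : Sg ι) : ∃ z n₁ n₂, sing_Rep z s n₁ n₂ := by
  obtain ⟨v₁, h₁⟩ := sing_exists_cls s.x
  obtain ⟨v₂, h₂⟩ := sing_exists_cls s.y
  exact ⟨_, _, _, .inr 0, v₁, v₂, fun _ => .inl 0, rfl, rfl, h₁, h₂, rfl, rfl⟩

private theorem sing_rep_unique {z : ι × Om} {s s' : Sg ι} {n₁ n₂ n₁' n₂' : ℤ}
    (h : sing_Rep z s n₁ n₂) (h' : sing_Rep z s' n₁' n₂') : s = s' ∧ n₁ = n₁' ∧ n₂ = n₂' := by
  obtain ⟨v₀, v₁, v₂, y, rfl, a0, a1, a2, rfl, rfl⟩ := h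
  obtain ⟨w₀, w₁, w₂, y', e, b0, b1, b2, rfl, rfl⟩ := h'
  obtain ⟨e1, e2⟩ := Prod.mk.inj e
  obtain ⟨a, rfl⟩ := sing_eq_inr a0
  obtain ⟨b, rfl⟩ := sing_eq_inr b0
  have e3 : s.p = s'.p :=
    List.IsPrefix.eq_of_length_le (pc_pre_prefix e2.symm rfl) (pc_pre_prefix e2 rfl).length_le
  rw [← e3] at e2
  obtain ⟨-, e4⟩ := pc_cons_inj (pc_pre_inj _ e2)
  obtain ⟨rfl, e5⟩ := pc_cons_inj e4
  obtain ⟨rfl, -⟩ := pc_cons_inj e5
  exact ⟨Sg.ext e1 e3 (a1.symm.trans b1) (a2.symm.trans b2), rfl, rfl⟩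

private theorem sing_rep_ent {z : ι × Om} {s : Sg ι} {n₁ n₂ : ℤ} (h : sing_Rep z s n₁ n₂)
    (x : Pc) (hx : z.2 ∈ x.set) (i' : ι) (m' : Mk) :
    ∃ s' e₁ e₂, Ent s.i x.m x.t i' m' s s' e₁ e₂ := by
  obtain ⟨i, p, sx, sy⟩ := s
  obtain ⟨m, t⟩ := x
  obtain ⟨v₀, v₁, v₂, y, rfl, a0, a1, a2, -, -⟩ := h
  obtain ⟨u, hu, e⟩ := hx
  obtain ⟨u₀, u₁, u₂, u', rfl⟩ := sing_exists_cons u
  obtain ⟨h₁, h₂⟩ := sing_mem.1 hu
  obtain ⟨a, rfl⟩ := sing_eq_inr a0
  dsimp only at e a1 a2 h₁ h₂ ⊢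
  subst a1 a2
  unfold Mk.app at e
  obtain ⟨r, rfl⟩ := pc_pre_prefix e.symm rfl
  rw [pc_pre_append, sing_bump] at e
  have e' := (pc_pre_inj _ e).symm
  rcases r with _ | ⟨c₀, _ | ⟨c₁, _ | ⟨c₂, q⟩⟩⟩
  · obtain ⟨-, e4⟩ := pc_cons_inj e'
    obtain ⟨rfl, e5⟩ := pc_cons_inj e4
    obtain ⟨rfl, -⟩ := pc_cons_inj e5
    rw [List.append_nil, sing_cls_add, sing_cls_add]
    exact ⟨_, _, _, Ent.r0 _ _ (fun h => by rw [h₁ h]; rfl) (fun h => by rw [h₂ h]; rfl)⟩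
  · obtain ⟨e3, e4⟩ := pc_cons_inj e'
    obtain ⟨e5, e6⟩ := pc_cons_inj e4
    obtain ⟨rfl, -⟩ := pc_cons_inj e6
    obtain ⟨b₀, rfl, rfl⟩ := sing_inl_sub e3
    rw [sing_cls_add]
    refine ⟨_, _, _, Ent.r1 _ _ _ ?_ (fun h => by rw [h₂ h]; rfl)⟩
    by_contra h
    rw [h₁ (by simpa using h)] at e5
    simp [V.add] at e5
  · obtain ⟨e3, e4⟩ := pc_cons_inj e'
    obtain ⟨e5, e6⟩ := pc_cons_inj e4
    obtain ⟨e7, -⟩ := pc_cons_inj e6
    obtain ⟨b₀, rfl, rfl⟩ := sing_inl_sub e3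
    obtain ⟨b₁, rfl, rfl⟩ := sing_inl_sub e5
    refine ⟨_, _, _, Ent.r2 _ _ _ _ (fun h => Sum.inl_injective (h₁ h)) ?_⟩
    by_contra h
    rw [h₂ (by simpa using h)] at e7
    simp [V.add] at e7
  · obtain ⟨e3, e4⟩ := pc_cons_inj e'
    obtain ⟨e5, e6⟩ := pc_cons_inj e4
    obtain ⟨e7, -⟩ := pc_cons_inj e6
    obtain ⟨b₀, rfl, rfl⟩ := sing_inl_sub e3
    obtain ⟨b₁, rfl, rfl⟩ := sing_inl_sub e5
    obtain ⟨b₂, rfl, rfl⟩ := sing_inl_sub e7
    exact ⟨_, _, _, Ent.r3 b₀ b₁ b₂ q _ _ (fun h => Sum.inl_injective (h₁ h))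
      (fun h => Sum.inl_injective (h₂ h))⟩

private theorem sing_ent_rep {i i' : ι} {m m' : Mk} {t : Ty} {s s' : Sg ι} {e₁ e₂ : ℤ}
    (he : Ent i m t i' m' s s' e₁ e₂) {z : ι × Om} {n₁ n₂ : ℤ} (h : sing_Rep z s n₁ n₂) :
    ∃ y ∈ t.set, z = (i, m.app y) ∧ sing_Rep (i', m'.app y) s' (n₁ + e₁) (n₂ + e₂) := by
  obtain ⟨v₀, v₁, v₂, y, rfl, a0, a1, a2, rfl, rfl⟩ := h
  have hz : ∀ {v : V} (n : ℕ), sing_cls v = none → sing_cls (v.add n) = none := fun n h => by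
    rw [sing_cls_add, h]; rfl
  cases he with
  | r0 x y' hx hy =>
    obtain ⟨u₀, rfl, b0⟩ := sing_exists_sub (x := none) (n := m.i) a0
    obtain ⟨u₁, rfl, b1⟩ := sing_exists_sub a1
    obtain ⟨u₂, rfl, b2⟩ := sing_exists_sub a2
    refine ⟨cons u₀ (cons u₁ (cons u₂ y)), sing_mem.2 ⟨fun h => sing_eq_inl (b1.trans (hx h)),
      fun h => sing_eq_inl (b2.trans (hy h))⟩, by rw [Mk.app, sing_bump],
      u₀.add m'.i, u₁.add m'.j, u₂.add m'.k, y, by rw [Mk.app, sing_bump], hz _ b0,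
      by rw [sing_cls_add, b1], by rw [sing_cls_add, b2], ?_, ?_⟩
    · rw [sing_val_add, sing_val_add]; ring
    · rw [sing_val_add, sing_val_add]; ring
  | r1 a x y' hx hy =>
    obtain ⟨u₀, rfl, b0⟩ := sing_exists_sub (x := none) (n := m.j) a0
    obtain ⟨u₁, rfl, b1⟩ := sing_exists_sub a1
    refine ⟨cons (.inl a) (cons u₀ (cons u₁ (cons v₂ y))), sing_mem.2 ⟨fun h => by simp [hx] at h,
      fun h => sing_eq_inl (b1.trans (hy h))⟩, by rw [Mk.app, sing_bump, pc_pre_append]; rfl,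
      u₀.add m'.j, u₁.add m'.k, v₂, y, by rw [Mk.app, sing_bump, pc_pre_append]; rfl, hz _ b0,
      by rw [sing_cls_add, b1], a2, ?_, by rw [add_zero]⟩
    rw [sing_val_add, sing_val_add]; ring
  | r2 a b x y' hx hy =>
    obtain ⟨u₀, rfl, b0⟩ := sing_exists_sub (x := none) (n := m.k) a0
    exact ⟨cons (.inl a) (cons (.inl b) (cons u₀ (cons v₁ (cons v₂ y)))),
      sing_mem.2 ⟨fun h => by rw [hx h], fun h => by simp [hy] at h⟩,
      by rw [Mk.app, sing_bump, pc_pre_append]; rfl,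
      u₀.add m'.k, v₁, v₂, y, by rw [Mk.app, sing_bump, pc_pre_append]; rfl, hz _ b0,
      a1, a2, by rw [add_zero], by rw [add_zero]⟩
  | r3 a b c q x y' hx hy =>
    exact ⟨cons (.inl a) (cons (.inl b) (cons (.inl c) (pre q (cons v₀ (cons v₁ (cons v₂ y)))))),
      sing_mem.2 ⟨fun h => by rw [hx h], fun h => by rw [hy h]⟩,
      by rw [Mk.app, sing_bump, pc_pre_append]; rfl,
      v₀, v₁, v₂, y, by rw [Mk.app, sing_bump, pc_pre_append]; rfl, a0,
      a1, a2, by rw [add_zero], by rw [add_zero]⟩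

/-- `g` maps the points representing `s` to points representing `s'` -/
private def sing_Step (g : G ι) (s s' : Sg ι) (e₁ e₂ : ℤ) : Prop :=
  ∀ z n₁ n₂, sing_Rep z s n₁ n₂ → sing_Rep (g.1 z) s' (n₁ + e₁) (n₂ + e₂)

private theorem sing_step_unique {g : G ι} {s s' s'' : Sg ι} {e₁ e₂ e₁' e₂' : ℤ}
    (h : sing_Step g s s' e₁ e₂) (h' : sing_Step g s s'' e₁' e₂') :
    s' = s'' ∧ e₁ = e₁' ∧ e₂ = e₂' := by
  obtain ⟨z, n₁, n₂, hz⟩ := sing_rep_exists s
  obtain ⟨h1, h2, h3⟩ := sing_rep_unique (h z n₁ n₂ hz) (h' z n₁ n₂ hz)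
  exact ⟨h1, add_left_cancel h2, add_left_cancel h3⟩

private theorem sing_step_of_ent {g : G ι} {i i' : ι} {m m' : Mk} {t : Ty}
    (h : CanE g i m t i' m') {s s' : Sg ι} {e₁ e₂ : ℤ} (he : Ent i m t i' m' s s' e₁ e₂) :
    sing_Step g s s' e₁ e₂ := by
  intro z n₁ n₂ hz
  obtain ⟨y, hy, rfl, hr⟩ := sing_ent_rep he hz
  rw [h.2 y hy]
  exact hr

private theorem sing_step_exists [Finite ι] (g : G ι) (s : Sg ι) :
    ∃ s' e₁ e₂, sing_Step g s s' e₁ e₂ := by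
  obtain ⟨T, hT, hc⟩ := exists_table g.2
  obtain ⟨z, n₁, n₂, hz⟩ := sing_rep_exists s
  obtain ⟨l, hl, h1, h2⟩ := hc z
  obtain ⟨s', e₁, e₂, he⟩ := sing_rep_ent hz l.2.1 h2 l.2.2.1 l.2.2.2
  have h3 : s.i = l.1 := by
    obtain ⟨v₀, v₁, v₂, y, rfl, -⟩ := hz
    exact h1
  rw [h3] at he
  exact ⟨s', e₁, e₂, sing_step_of_ent (hT l hl) he⟩

/-- Take the point `pre s.p (ω, v₁, v₂, 0, 0, …)`; if it is `m.app y` then `m.p` is a prefix of
`s.p`; distinguish the cases `s.p.length - m.p.length = 0, 1, 2, ≥ 3`. -/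
theorem exists_ent (s : Sg ι) : ∃ z : Om, ∀ x : Pc, z ∈ x.set → ∀ (i' : ι) (m' : Mk),
    ∃ s' e₁ e₂, Ent s.i x.m x.t i' m' s s' e₁ e₂ := by
  obtain ⟨z, n₁, n₂, hz⟩ := sing_rep_exists s
  exact ⟨z.2, fun x hx => sing_rep_ent hz x hx⟩

/-- Proof. Say that `z : ι × Om` *represents* `s` with values `n₁ n₂ : ℤ` if
`z = (s.i, pre s.p (cons (inr a) (cons v₁ (cons v₂ y))))`, `s.x`, `s.y` are the classes of `v₁`, `v₂`
(`inl n ↦ some n`, `inr _ ↦ none`) and `n₁, n₂` are their values (`inl n ↦ n`, `inr n ↦ n`).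
`s, n₁, n₂` are determined by `z`. If `Ent i m t i' m' s s' e₁ e₂` and `z` represents `s` with
`n₁, n₂`, then `z = (i, m.app y)` with `y ∈ t.set`, and `(i', m'.app y)` represents `s'` with
`n₁ + e₁, n₂ + e₂`. By `exists_table` and `exists_ent`, for all `g`, `s` there are (unique)
`s', e₁, e₂` such that `g` maps every point representing `s` with `n₁, n₂` to a point representing
`s'` with `n₁ + e₁, n₂ + e₂`. -/
theorem exists_sing (ι : Type) [Finite ι] :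
    ∃ (a : G ι →* Perm (Sg ι)) (D : (G ι → Sg ι → ℤ) × (G ι → Sg ι → ℤ)),
      (∀ g h s, D.1 (g * h) s = D.1 g (a h s) + D.1 h s) ∧
      (∀ g h s, D.2 (g * h) s = D.2 g (a h s) + D.2 h s) ∧
      ∀ g i m t i' m', CanE g i m t i' m' → ∀ s s' e₁ e₂, Ent i m t i' m' s s' e₁ e₂ →
        a g s = s' ∧ D.1 g s = e₁ ∧ D.2 g s = e₂ := by
  choose f D₁ D₂ hf using fun (g : G ι) (s : Sg ι) => sing_step_exists g s
  have h1 : ∀ s, f 1 s = s := fun s =>
    (sing_step_unique (hf 1 s) (e₁' := 0) (e₂' := 0) fun z n₁ n₂ hz => by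
      rw [add_zero, add_zero]; exact hz).1
  have hmul : ∀ g h s, f (g * h) s = f g (f h s) ∧ D₁ (g * h) s = D₁ g (f h s) + D₁ h s ∧
      D₂ (g * h) s = D₂ g (f h s) + D₂ h s := fun g h s =>
    sing_step_unique (hf (g * h) s) fun z n₁ n₂ hz => by
      have h2 := hf g (f h s) _ _ _ (hf h s z n₁ n₂ hz)
      rw [add_comm (D₁ g _), add_comm (D₂ g _), ← add_assoc, ← add_assoc]
      exact h2
  let A : MulAction (G ι) (Sg ι) :=
    { smul := f
      one_smul := h1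
      mul_smul := fun g h s => (hmul g h s).1 }
  exact ⟨@MulAction.toPermHom _ _ _ A, (D₁, D₂), fun g h s => (hmul g h s).2.1,
    fun g h s => (hmul g h s).2.2, fun g i m t i' m' hc s s' e₁ e₂ he =>
      sing_step_unique (hf g s) (sing_step_of_ent hc he)⟩

variable [Finite ι]

/-- the action on singular points -/
noncomputable instance sgAction : MulAction (G ι) (Sg ι) :=
  MulAction.compHom (Sg ι) (exists_sing ι).choose

/-- the first cocycle -/
noncomputable def D1 : G ι → Sg ι → ℤ := (exists_sing ι).choose_spec.choose.1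

/-- the second cocycle -/
noncomputable def D2 : G ι → Sg ι → ℤ := (exists_sing ι).choose_spec.choose.2

theorem D1_mul (g h : G ι) (s : Sg ι) : D1 (g * h) s = D1 g (h • s) + D1 h s :=
  (exists_sing ι).choose_spec.choose_spec.1 g h s

theorem D2_mul (g h : G ι) (s : Sg ι) : D2 (g * h) s = D2 g (h • s) + D2 h s :=
  (exists_sing ι).choose_spec.choose_spec.2.1 g h s

theorem CanE.ent {g : G ι} {i i' : ι} {m m' : Mk} {t : Ty} (h : CanE g i m t i' m') {s s' : Sg ι}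
    {e₁ e₂ : ℤ} (he : Ent i m t i' m' s s' e₁ e₂) : g • s = s' ∧ D1 g s = e₁ ∧ D2 g s = e₂ :=
  (exists_sing ι).choose_spec.choose_spec.2.2 g i m t i' m' h s s' e₁ e₂ he

/-- the table of `g` on singular points -/
theorem exists_sg_table (g : G ι) : ∃ T : Finset (ι × Pc × ι × Mk),
    (∀ l ∈ T, CanE g l.1 l.2.1.m l.2.1.t l.2.2.1 l.2.2.2) ∧
    ∀ s : Sg ι, ∃ l ∈ T, Ent l.1 l.2.1.m l.2.1.t l.2.2.1 l.2.2.2 s (g • s) (D1 g s) (D2 g s) := by
  obtain ⟨T, hT, hc⟩ := exists_table g.2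
  refine ⟨T, hT, fun s => ?_⟩
  obtain ⟨z, hz⟩ := exists_ent s
  obtain ⟨l, hl, h1, h2⟩ := hc (s.i, z)
  obtain ⟨s', e₁, e₂, he⟩ := hz l.2.1 h2 l.2.2.1 l.2.2.2
  have h1' : s.i = l.1 := h1
  rw [h1'] at he
  obtain ⟨r1, r2, r3⟩ := CanE.ent (g := g) (hT l hl) he
  exact ⟨l, hl, by rw [r1, r2, r3]; exact he⟩

theorem Ent.isSome {i i' : ι} {m m' : Mk} {t : Ty} {s s' : Sg ι} {e₁ e₂ : ℤ}
    (he : Ent i m t i' m' s s' e₁ e₂) : s'.x.isSome = s.x.isSome ∧ s'.y.isSome = s.y.isSome := by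
  cases he <;> simp [oadd]

/-- the four invariant sets: `x` (resp. `y`) is finite iff the type forces the coordinate `1`
(resp. `2`) to vanish -/
def Orb (ι : Type) [Finite ι] (t : Ty) : SubMulAction (G ι) (Sg ι) where
  carrier := {s | s.x.isSome = t.z1 ∧ s.y.isSome = t.z2}
  smul_mem' := fun g s hs => by
    obtain ⟨T, -, h⟩ := exists_sg_table g
    obtain ⟨l, -, he⟩ := h s
    exact ⟨he.isSome.1.trans hs.1, he.isSome.2.trans hs.2⟩

theorem mem_Orb {t : Ty} {s : Sg ι} : s ∈ Orb ι t ↔ s.x.isSome = t.z1 ∧ s.y.isSome = t.z2 :=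
  Iff.rfl

/-- the offset `j` is not changed on pieces of type `t` -/
def Jz (t : Ty) (g : G ι) : Prop := ∀ i m i' m', CanE g i m t i' m' → m'.j = m.j

/-- the offset `k` is not changed on pieces of type `t` -/
def Kz (t : Ty) (g : G ι) : Prop := ∀ i m i' m', CanE g i m t i' m' → m'.k = m.k

end Crest.Agent.R189
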