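import Crest.Agent.R189.Sing

/-!
# Row 189, task SingFin: the cocycles are finitely supported

All proofs: take `exists_sg_table g`; a point `s` of the set with a nonzero cocycle is the point
`⟨l.1, m.p, if t.z1 then some m.j else none, if t.z2 then some m.k else none⟩` for an entry `l` of
the table (case `r0` with an entry of type `t`); all other cases are excluded by the hypotheses.
-/

set_option autoImplicit false

namespace Crest.Agent.R189

open Equiv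

variable {ι : Type} [Finite ι] {g : G ι}

/-- test on the point `r0` with `x = if t.z1 then some 0 else none`, and similarly `y` -/
theorem jz_of_D1 {t : Ty} (h : ∀ s ∈ Orb ι t, D1 g s = 0) : Jz t g := by
  intro i m i' m' hc
  have he := (hc.ent (Ent.r0 (if t.z1 = true then some 0 else none)
    (if t.z2 = true then some 0 else none) (fun h => if_pos h) (fun h => if_pos h))).2.1
  rw [h _ (by cases t <;> simp [mem_Orb, oadd, Ty.z1, Ty.z2])] at he
  omega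

theorem kz_of_D2 {t : Ty} (h : ∀ s ∈ Orb ι t, D2 g s = 0) : Kz t g := by
  intro i m i' m' hc
  have he := (hc.ent (Ent.r0 (if t.z1 = true then some 0 else none)
    (if t.z2 = true then some 0 else none) (fun h => if_pos h) (fun h => if_pos h))).2.2
  rw [h _ (by cases t <;> simp [mem_Orb, oadd, Ty.z1, Ty.z2])] at he
  omega

theorem singfin_ent {i i' : ι} {m m' : Mk} {t t' : Ty} {s s' : Sg ι} {e₁ e₂ : ℤ}
    (he : Ent i m t' i' m' s s' e₁ e₂) (hs : s ∈ Orb ι t) :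
    s = ⟨i, m.p, if t.z1 = true then some m.j else none, if t.z2 = true then some m.k else none⟩ ∨
    (t' ≠ t ∧ (t'.z1 = true → t.z1 = true) ∧ (t'.z2 = true → t.z2 = true) ∧
      e₁ = (m'.j : ℤ) - m.j ∧ e₂ = (m'.k : ℤ) - m.k) ∨
    (t'.z1 = false ∧ (t'.z2 = true → t.z1 = true) ∧ e₁ = (m'.k : ℤ) - m.k ∧ e₂ = 0) ∨
    (e₁ = 0 ∧ e₂ = 0) := by
  rw [mem_Orb] at hs
  cases he with
  | r0 x y hx hy =>
    obtain ⟨h1, h2⟩ := hs
    simp only [oadd, Option.isSome_map] at h1 h2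
    by_cases ht : t' = t
    · subst ht
      left
      congr 1
      · cases h : t'.z1
        · rw [h] at h1
          cases x <;> simp_all [oadd]
        · simp [hx h, oadd]
      · cases h : t'.z2
        · rw [h] at h2
          cases y <;> simp_all [oadd]
        · simp [hy h, oadd]
    · refine Or.inr (Or.inl ⟨ht, fun h => ?_, fun h => ?_, rfl, rfl⟩)
      · rw [← h1, hx h]; rfl
      · rw [← h2, hy h]; rfl
  | r1 a x y hx hy =>
    obtain ⟨h1, h2⟩ := hs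
    simp only [oadd, Option.isSome_map] at h1
    refine Or.inr (Or.inr (Or.inl ⟨hx, fun h => ?_, rfl, rfl⟩))
    rw [← h1, hy h]; rfl
  | r2 => exact Or.inr (Or.inr (Or.inr ⟨rfl, rfl⟩))
  | r3 => exact Or.inr (Or.inr (Or.inr ⟨rfl, rfl⟩))

theorem singfin_fin (t : Ty) (T : Finset (ι × Pc × ι × Mk)) {S : Set (Orb ι t)}
    (h : ∀ s ∈ S, ∃ l ∈ T, s.1 = ⟨l.1, l.2.1.m.p, if t.z1 = true then some l.2.1.m.j else none,
      if t.z2 = true then some l.2.1.m.k else none⟩) : S.Finite := by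
  refine Set.Finite.of_finite_image (f := Subtype.val) ?_ Subtype.val_injective.injOn
  refine (T.finite_toSet.image fun l : ι × Pc × ι × Mk =>
    (⟨l.1, l.2.1.m.p, if t.z1 = true then some l.2.1.m.j else none,
      if t.z2 = true then some l.2.1.m.k else none⟩ : Sg ι)).subset ?_
  rintro _ ⟨s, hs, rfl⟩
  obtain ⟨l, hl, e⟩ := h s hs
  exact ⟨l, hl, e.symm⟩

theorem singfin_D2 (t : Ty) (h : ∀ t', t' ≠ t → (t'.z1 = true → t.z1 = true) →
    (t'.z2 = true → t.z2 = true) → Kz t' g) : {s : Orb ι t | D2 g s.1 ≠ 0}.Finite := by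
  obtain ⟨T, hT, hc⟩ := exists_sg_table g
  refine singfin_fin t T fun s hs => ?_
  obtain ⟨l, hl, he⟩ := hc s.1
  refine ⟨l, hl, ?_⟩
  rcases singfin_ent he s.2 with h1 | ⟨h0, h1, h2, -, h4⟩ | ⟨-, -, -, h4⟩ | ⟨-, h4⟩
  · exact h1
  · refine absurd ?_ hs
    rw [h4, h _ h0 h1 h2 _ _ _ _ (hT l hl), sub_self]
  · exact absurd h4 hs
  · exact absurd h4 hs

theorem singfin_D1 (t : Ty) (h : ∀ t', t' ≠ t → (t'.z1 = true → t.z1 = true) →
    (t'.z2 = true → t.z2 = true) → Jz t' g)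
    (h' : ∀ t', t'.z1 = false → (t'.z2 = true → t.z1 = true) → Kz t' g) :
    {s : Orb ι t | D1 g s.1 ≠ 0}.Finite := by
  obtain ⟨T, hT, hc⟩ := exists_sg_table g
  refine singfin_fin t T fun s hs => ?_
  obtain ⟨l, hl, he⟩ := hc s.1
  refine ⟨l, hl, ?_⟩
  rcases singfin_ent he s.2 with h1 | ⟨h0, h1, h2, h4, -⟩ | ⟨h1, h2, h4, -⟩ | ⟨h4, -⟩
  · exact h1
  · refine absurd ?_ hs
    rw [h4, h _ h0 h1 h2 _ _ _ _ (hT l hl), sub_self]
  · refine absurd ?_ hs
    rw [h4, h' _ h1 h2 _ _ _ _ (hT l hl), sub_self]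
  · exact absurd h4 hs

theorem fin_D2_T (g : G ι) : {s : Orb ι .T | D2 g s.1 ≠ 0}.Finite := by
  refine singfin_D2 _ fun t' h0 h1 h2 => ?_
  cases t' <;> simp_all [Ty.z1, Ty.z2]

theorem fin_D1_T (kT : Kz .T g) : {s : Orb ι .T | D1 g s.1 ≠ 0}.Finite := by
  refine singfin_D1 _ (fun t' h0 h1 h2 => ?_) fun t' h1 h2 => ?_ <;>
    cases t' <;> simp_all [Ty.z1, Ty.z2]

theorem fin_D2_Z (kT : Kz .T g) : {s : Orb ι .Z | D2 g s.1 ≠ 0}.Finite := by
  refine singfin_D2 _ fun t' h0 h1 h2 => ?_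
  cases t' <;> simp_all [Ty.z1, Ty.z2]

theorem fin_D1_Z (jT : Jz .T g) (kT : Kz .T g) : {s : Orb ι .Z | D1 g s.1 ≠ 0}.Finite := by
  refine singfin_D1 _ (fun t' h0 h1 h2 => ?_) fun t' h1 h2 => ?_ <;>
    cases t' <;> simp_all [Ty.z1, Ty.z2]

theorem fin_D2_Y (kT : Kz .T g) : {s : Orb ι .Y | D2 g s.1 ≠ 0}.Finite := by
  refine singfin_D2 _ fun t' h0 h1 h2 => ?_
  cases t' <;> simp_all [Ty.z1, Ty.z2]

theorem fin_D1_Y (jT : Jz .T g) (kT : Kz .T g) (kZ : Kz .Z g) :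
    {s : Orb ι .Y | D1 g s.1 ≠ 0}.Finite := by
  refine singfin_D1 _ (fun t' h0 h1 h2 => ?_) fun t' h1 h2 => ?_ <;>
    cases t' <;> simp_all [Ty.z1, Ty.z2]

theorem fin_D2_W (kT : Kz .T g) (kY : Kz .Y g) (kZ : Kz .Z g) :
    {s : Orb ι .W | D2 g s.1 ≠ 0}.Finite := by
  refine singfin_D2 _ fun t' h0 h1 h2 => ?_
  cases t' <;> simp_all [Ty.z1, Ty.z2]

theorem fin_D1_W (jT : Jz .T g) (jY : Jz .Y g) (jZ : Jz .Z g) (kT : Kz .T g) (kZ : Kz .Z g) :
    {s : Orb ι .W | D1 g s.1 ≠ 0}.Finite := by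
  refine singfin_D1 _ (fun t' h0 h1 h2 => ?_) fun t' h1 h2 => ?_ <;>
    cases t' <;> simp_all [Ty.z1, Ty.z2]

end Crest.Agent.R189
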