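import Crest.Agent.R189.Sing
import Crest.Agent.R189.Cell
import Crest.Agent.R189.Amen1

/-!
# Row 189, task Tail: the last kernel is locally finite
-/

set_option autoImplicit false

namespace Crest.Agent.R189

open Equiv Crest.GroupTheory

variable {ι : Type} [Finite ι]

theorem tail_exists_cm (p : List ℕ) (i : ℕ) : ∃ w, cm w = ⟨p, i, 0, 0⟩ := by
  have step : ∀ p : List ℕ, (∃ w, cm w = ⟨p, 0, 0, 0⟩) → ∀ i, ∃ w, cm w = ⟨p, i, 0, 0⟩ := by
    intro p h i
    induction i with
    | zero => exact h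
    | succ i ih =>
      obtain ⟨w, hw⟩ := ih
      exact ⟨true :: w, by rw [cm, hw]; rfl⟩
  induction p using List.reverseRecOn generalizing i with
  | nil => exact step [] ⟨[], rfl⟩ i
  | append_singleton p a ih =>
    obtain ⟨w, hw⟩ := ih a
    exact step _ ⟨false :: w, by rw [cm, hw]; rfl⟩ i

theorem tail_add_zero (v : V) : v.add 0 = v := by
  cases v <;> simp [V.add]

theorem tail_app (m : Mk) (y : Om) :
    m.app y = (⟨m.p, m.i, 0, 0⟩ : Mk).app (bump 0 m.j m.k y) := by
  unfold Mk.app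
  congr 1
  funext n
  match n with
  | 0 => simp [bump, tail_add_zero]
  | 1 => simp [bump, tail_add_zero]
  | 2 => simp [bump, tail_add_zero]
  | n + 3 => simp [bump]

/-- Take `exists_table` and `L₀` above all degrees. If `cf c y = (i, m.app y₀)` with `y₀ ∈ t.set`
then `m.app y₀ = n.app z`, `m'.app y₀ = n'.app z` with `n = ⟨m.p, m.i, 0, 0⟩`,
`n' = ⟨m'.p, m'.i, 0, 0⟩`, `z = bump 0 m.j m.k y₀`. Every marking with `j = k = 0` is `cm w` with
`w.length` its degree (induction along the prefix), and `deg n = deg n'`; use `exists_subcell` and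
`cf_eq`. -/
theorem exists_tail {g : G ι} (h : ∀ t, Jz t g ∧ Kz t g) : ∃ L₀, ∀ L, L₀ ≤ L →
    ∀ (c : CellL ι L) (y : Om), ∃ c' : CellL ι L, g.1 (cf c.1 y) = cf c'.1 y := by
  obtain ⟨T, hT, hcov⟩ := exists_table g.2
  refine ⟨T.sup fun l => l.2.1.m.deg, fun L hL c y => ?_⟩
  obtain ⟨⟨i, ⟨m, t⟩, i', m'⟩, hl, hi, y₀, hy₀, hxy⟩ := hcov (cf c.1 y)
  have hcan : CanE g i m t i' m' := hT _ hl
  have hdeg : m.deg ≤ L := (Finset.le_sup (f := fun l : ι × Pc × ι × Mk => l.2.1.m.deg) hl).trans hL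
  have hj : m'.j = m.j := (h t).1 i m i' m' hcan
  have hk : m'.k = m.k := (h t).2 i m i' m' hcan
  obtain ⟨w, hw⟩ := tail_exists_cm m.p m.i
  obtain ⟨w', hw'⟩ := tail_exists_cm m'.p m'.i
  have h1 := deg_cm w
  have h2 := deg_cm w'
  have h3 := hcan.1
  rw [hw] at h1
  rw [hw'] at h2
  simp only [Mk.deg] at h1 h2 h3 hdeg
  obtain ⟨u, y', hu, huc⟩ := exists_subcell (ι := ι) (L - w.length) (bump 0 m.j m.k y₀)
  have e : cf c.1 y = (i, m.app y₀) := Prod.ext hi hxy.symm
  have e1 : (i, m.app y₀) = cf (i, u ++ w) y' := by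
    rw [← huc (i, w), tail_app, ← hw]
    rfl
  have e2 : (i', m'.app y₀) = cf (i', u ++ w') y' := by
    rw [← huc (i', w'), tail_app, ← hw', hj, hk]
    rfl
  have hy : y = y' := (cf_eq (by simp only [List.length_append, c.2]; omega) (e.trans e1)).2
  refine ⟨⟨(i', u ++ w'), by simp only [List.length_append]; omega⟩, ?_⟩
  rw [e, hcan.2 y₀ hy₀, e2, hy]

/-- permutations of the cells of level `L` which depend on the tail -/
noncomputable def tailHom (ι : Type) (L : ℕ) : (Om → Perm (CellL ι L)) →* Perm (ι × Om) :=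
  MonoidHom.mk' (fun π => (decL ι L).permCongr (Equiv.prodCongrLeft π)) fun π ρ => by
    ext1 x
    simp [Equiv.prodCongrLeft]

omit [Finite ι] in
theorem tailHom_apply (L : ℕ) (π : Om → Perm (CellL ι L)) (c : CellL ι L) (y : Om) :
    tailHom ι L π (cf c.1 y) = cf (π y c).1 y := by
  have e : cf c.1 y = decL ι L (c, y) := rfl
  rw [e]
  simp only [tailHom, MonoidHom.mk'_apply, Equiv.permCongr_apply, Equiv.symm_apply_apply]
  rfl

theorem tail_mem_range {L : ℕ} {g : Perm (ι × Om)}
    (h : ∀ (c : CellL ι L) (y : Om), ∃ c' : CellL ι L, g (cf c.1 y) = cf c'.1 y) :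
    ∃ π, tailHom ι L π = g := by
  choose f hf using h
  have hinj : ∀ y, Function.Injective fun c => f c y := by
    intro y c c' e
    have e' : f c y = f c' y := e
    have h1 : cf c.1 y = cf c'.1 y := g.injective (by rw [hf, hf, e'])
    exact Subtype.ext (cf_eq (c'.2.trans c.2.symm) h1).1
  refine ⟨fun y => Equiv.ofBijective _ (Finite.injective_iff_bijective.1 (hinj y)), ?_⟩
  ext1 x
  obtain ⟨c, y, hc, rfl⟩ := exists_cell L x
  rw [tailHom_apply L _ ⟨c, hc⟩ y, hf ⟨c, hc⟩ y]
  rfl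

/-- For fixed `L` the permutations `g` with `∀ c y, ∃ c', g (cf c y) = cf c' y` form a subgroup
which embeds in `Om → Perm (CellL ι L)` (it is the range of the injective homomorphism
`π ↦ (decL ι L).permCongr (Equiv.prodCongrLeft π)`); use `finite_closure_pi`, `amen_locfin`. -/
theorem amen_of_tail (Γ : Subgroup (G ι)) (h : ∀ g ∈ Γ, ∀ t, Jz t g ∧ Kz t g) : Amenable Γ := by
  classical
  refine amen_locfin fun S => ?_
  choose L₀ hL₀ using fun g : Γ => exists_tail (h g.1 g.2)
  have hex : ∀ g : S, ∃ π, tailHom ι (S.sup L₀) π = g.1.1.1 := fun g =>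
    tail_mem_range (hL₀ g.1 _ (Finset.le_sup g.2))
  choose π hπ using hex
  let ψ : Γ →* Perm (ι × Om) := (G ι).subtype.comp Γ.subtype
  have hψ : Function.Injective ψ := Subtype.val_injective.comp Subtype.val_injective
  have hfin := (finite_closure_pi (Finset.univ.image π)).image (tailHom ι (S.sup L₀))
  refine (hfin.preimage hψ.injOn).subset ?_
  have hle : Subgroup.closure (S : Set Γ) ≤ ((Subgroup.closure
      ((Finset.univ.image π : Finset _) : Set _)).map (tailHom ι (S.sup L₀))).comap ψ := by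
    rw [Subgroup.closure_le]
    intro g hg
    exact ⟨π ⟨g, hg⟩, Subgroup.subset_closure (by simp), hπ ⟨g, hg⟩⟩
  exact hle

end Crest.Agent.R189
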