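import Crest.Agent.R189.Path

/-!
# Row 189, task Uniq: the value of a path only depends on its end points
-/

set_option autoImplicit false

namespace Crest.Agent.R189

open Equiv

variable {ι : Type} [Fintype ι] [DecidableEq ι] {H : Type} [Group H]
variable {I : Finset ι} {J : Interp ι H} {σ σ' : St ι} {h h' : H}

/-- paths with the number of `exp` steps -/
inductive PathN (I : Finset ι) (J : Interp ι H) : ℕ → St ι → St ι → H → Prop
  | refl (σ : St ι) : PathN I J 0 σ σ 1
  | exp {n : ℕ} {σ σ' : St ι} {c : Cell ι} {i : ι} {x : Pc} {d : Dir} {h : H} : σ.At c i x →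
      valid x.t d = true → PathN I J n (σ.exp c x.t d) σ' h →
      PathN I J (n + 1) σ σ' (J.mu c x.t d * h)
  | perm {n : ℕ} {σ σ' : St ι} (g : LT ι) (cs' : Finset (Cell ι)) {h : H} : g.1 ∈ Fix I →
      (∀ c' ∈ cs', ∃ c ∈ σ.cs, Rig g.1 c' c) → (∀ c ∈ σ.cs, ∃ c' ∈ cs', Rig g.1 c' c) →
      PathN I J n ⟨cs', σ.th * g.1⟩ σ' h → PathN I J n σ σ' (J.v g * h)

theorem PathN.toPath {n : ℕ} (p : PathN I J n σ σ' h) : Path I J σ σ' h := by
  induction p with
  | refl σ => exact Path.refl σ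
  | exp hx hd _ ih => exact Path.exp hx hd ih
  | perm g cs' hg h₁ h₂ _ ih => exact Path.perm g cs' hg h₁ h₂ ih

theorem Path.toN (p : Path I J σ σ' h) : ∃ n, PathN I J n σ σ' h := by
  induction p with
  | refl σ => exact ⟨0, PathN.refl σ⟩
  | exp hx hd _ ih => obtain ⟨n, ih⟩ := ih; exact ⟨n + 1, PathN.exp hx hd ih⟩
  | perm g cs' hg h₁ h₂ _ ih => obtain ⟨n, ih⟩ := ih; exact ⟨n, PathN.perm g cs' hg h₁ h₂ ih⟩

theorem PathN.zero_aux {n : ℕ} (p : PathN I J n σ σ' h) (hn : n = 0) :
    ∃ g : LT ι, (∀ c ∈ σ.cs, ∃ c' ∈ σ'.cs, Rig g.1 c' c) ∧ σ'.th = σ.th * g.1 ∧ h = J.v g := by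
  induction p with
  | refl σ =>
    exact ⟨1, fun c hc => ⟨c, hc, rig_of_fix fun _ _ => rfl⟩, by simp, by simp⟩
  | exp hx hd _ ih => omega
  | perm g cs' hg h₁ h₂ _ ih =>
    obtain ⟨g', hr, hth, hv⟩ := ih hn
    refine ⟨g * g', fun c hc => ?_, ?_, ?_⟩
    · obtain ⟨c', hc', r⟩ := h₂ c hc
      obtain ⟨c'', hc'', r'⟩ := hr c' hc'
      exact ⟨c'', hc'', Rig.mul r' r⟩
    · rw [hth]; simp [mul_assoc]
    · rw [hv, map_mul]

theorem PathN.inv_aux {m : ℕ} (p : PathN I J m σ σ' h) (hσ : σ.Valid I) {n : ℕ} (hn : m = n + 1) :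
    ∃ c i x d h₁, σ.At c i x ∧ valid x.t d = true ∧ PathN I J n (σ.exp c x.t d) σ' h₁ ∧
      h = J.mu c x.t d * h₁ := by
  induction p with
  | refl σ => omega
  | exp hx hd p _ =>
    obtain rfl := Nat.add_right_cancel hn
    exact ⟨_, _, _, _, _, hx, hd, p, rfl⟩
  | @perm m σ σ' g cs' h hg h₁ h₂ p ih =>
    obtain ⟨c', i, x, d, h', hx, hd, q, rfl⟩ := ih (hσ.perm hg h₁ h₂) hn
    obtain ⟨c, hc, r⟩ := h₁ c' hx.1
    refine ⟨c, i, x, d, J.v g * h', (St.at_perm hc hx.1 r).1 hx, hd, ?_, ?_⟩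
    · have e : (⟨((⟨cs', σ.th * g.1⟩ : St ι).exp c' x.t d).cs, (σ.exp c x.t d).th * g.1⟩ : St ι) =
          (⟨cs', σ.th * g.1⟩ : St ι).exp c' x.t d := by
        refine St.ext rfl ?_
        have := (gInterp ι).conj g c' c x.t d r
        change g.1 * mu c' x.t d * (g.1)⁻¹ = mu c x.t d at this
        change σ.th * mu c x.t d * g.1 = σ.th * g.1 * mu c' x.t d
        rw [← this]
        group
      refine PathN.perm g ((⟨cs', σ.th * g.1⟩ : St ι).exp c' x.t d).cs hg ?_ ?_ (e ▸ q)
      · intro e' he'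
        simp only [St.exp, Finset.mem_insert, Finset.mem_erase] at he' ⊢
        rcases he' with rfl | rfl | ⟨hne, he'⟩
        · exact ⟨_, Or.inl rfl, r.child true⟩
        · exact ⟨_, Or.inr (Or.inl rfl), r.child false⟩
        · obtain ⟨e, he, r'⟩ := h₁ e' he'
          refine ⟨e, Or.inr (Or.inr ⟨?_, he⟩), r'⟩
          rintro rfl
          exact hne (r'.inv.unique r.inv)
      · intro e he
        simp only [St.exp, Finset.mem_insert, Finset.mem_erase] at he ⊢
        rcases he with rfl | rfl | ⟨hne, he⟩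
        · exact ⟨_, Or.inl rfl, r.child true⟩
        · exact ⟨_, Or.inr (Or.inl rfl), r.child false⟩
        · obtain ⟨e', he', r'⟩ := h₂ e he
          refine ⟨e', Or.inr (Or.inr ⟨?_, he'⟩), r'⟩
          rintro rfl
          exact hne (r'.unique r)
    · rw [← J.conj g c' c x.t d r]
      group

theorem uniq_not_subset_half {x : Pc} {d : Dir} (hd : valid x.t d = true) (β : Bool) :
    ¬ x.set ⊆ (x.half d β).set := by
  intro hs
  obtain ⟨y, hy⟩ := set_nonempty (x.half d (!β))
  have h1 := hs (half_subset hd _ hy)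
  cases β
  · exact Set.disjoint_left.1 (half_disjoint hd) hy h1
  · exact Set.disjoint_left.1 (half_disjoint hd) h1 hy

theorem uniq_exp_comm (hσ : σ.Valid I) {c c₁ : Cell ι} (hc : c ∈ σ.cs) (hc₁ : c₁ ∈ σ.cs)
    (hne : c ≠ c₁) (t t₁ : Ty) (d d₁ : Dir) :
    (σ.exp c₁ t₁ d₁).exp c t d = (σ.exp c t d).exp c₁ t₁ d₁ := by
  have a1 : ∀ β, child c β ≠ c₁ := fun β e => hσ.child_notMem hc β (e ▸ hc₁)
  have a2 : ∀ β, child c₁ β ≠ c := fun β e => hσ.child_notMem hc₁ β (e ▸ hc)
  refine St.ext ?_ ?_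
  · simp only [St.exp]
    rw [Finset.erase_insert_of_ne (a2 true), Finset.erase_insert_of_ne (a2 false),
      Finset.erase_insert_of_ne (a1 true), Finset.erase_insert_of_ne (a1 false),
      Finset.erase_right_comm]
    ext e
    simp only [Finset.mem_insert]
    tauto
  · have := (gInterp ι).comm c c₁ t t₁ d d₁ (hσ.disj c hc c₁ hc₁ hne)
    change Commute (mu c t d) (mu c₁ t₁ d₁) at this
    change σ.th * mu c₁ t₁ d₁ * mu c t d = σ.th * mu c t d * mu c₁ t₁ d₁
    rw [mul_assoc, mul_assoc, this.eq]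

theorem uniq_rig_sw (hσ : σ.Valid I) {a b : Cell ι} (ha : a ∈ σ.cs) (hb : b ∈ σ.cs)
    (hl : b.2.length = a.2.length) {e : Cell ι} (he : e ∈ σ.cs) :
    ∃ e' ∈ σ.cs, Rig (sw a b) e e' ∧ Rig (sw a b) e' e := by
  by_cases h1 : e = a
  · subst h1
    exact ⟨b, hb, rig_sw_left hl, rig_sw_right hl⟩
  by_cases h2 : e = b
  · subst h2
    exact ⟨a, ha, rig_sw_right hl, rig_sw_left hl⟩
  have : Rig (sw a b) e e := rig_of_fix fun x hx =>
    sw_apply_of_notMem (Set.disjoint_left.1 (hσ.disj e he a ha h1) hx)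
      (Set.disjoint_left.1 (hσ.disj e he b hb h2) hx)
  exact ⟨e, he, this, this⟩

theorem uniq_child_ne (c : Cell ι) : child c false ≠ child c true := by
  simp [child]

/-- the square: two successive expansions of both halves -/
theorem uniq_square (hσ : σ.Valid I) {c : Cell ι} {i : ι} {x : Pc} (hx : σ.At c i x) {d d₁ : Dir}
    (hd : valid x.t d = true) (hd₁ : valid x.t d₁ = true) (hne : d₁ ≠ d) {k : ℕ}
    (q : PathN I J k (((σ.exp c x.t d₁).exp (child c true) (ht x.t d₁ true) (tr x.t d₁ true d)).exp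
      (child c false) (ht x.t d₁ false) (tr x.t d₁ false d)) σ' h) :
    ∃ h₁, PathN I J (k + 1 + 1) (σ.exp c x.t d) σ' h₁ ∧
      J.mu c x.t d₁ * (J.mu (child c true) (ht x.t d₁ true) (tr x.t d₁ true d) *
        (J.mu (child c false) (ht x.t d₁ false) (tr x.t d₁ false d) * h)) = J.mu c x.t d * h₁ := by
  have v1 := hσ.exp hx hd
  have x1 : ∀ β, (σ.exp c x.t d).At (child c β) i (x.half d β) := fun β =>
    (St.at_exp hσ hx hd).2 (Or.inl ⟨β, rfl, rfl, rfl⟩)
  have w1 : valid (x.half d true).t (tr x.t d true d₁) = true := valid_tr hd hd₁ hne.symm true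
  have w2 : valid (x.half d false).t (tr x.t d false d₁) = true := valid_tr hd hd₁ hne.symm false
  have v2 := v1.exp (x1 true) w1
  have x2 := (St.at_exp v1 (x1 true) w1).2 (Or.inr ⟨uniq_child_ne c, x1 false⟩)
  have x2' := (St.at_exp v1 (x1 true) w1).2 (Or.inl ⟨false, rfl, rfl, rfl⟩)
  have v3 := v2.exp x2 w2
  have xa := (St.at_exp v2 x2 w2).2 (Or.inr ⟨by simp [child], x2'⟩)
  have xb := (St.at_exp v2 x2 w2).2 (Or.inl ⟨true, rfl, rfl, rfl⟩)
  have hI : c.1 ∈ I := hσ.mem c hx.1
  have hsz : x.t.sz ≤ c.2.length := by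
    have := hx.2.1
    unfold Pc.lvl at this
    omega
  have e : (⟨(((σ.exp c x.t d).exp (child c true) (x.half d true).t (tr x.t d true d₁)).exp
        (child c false) (x.half d false).t (tr x.t d false d₁)).cs,
      (((σ.exp c x.t d).exp (child c true) (x.half d true).t (tr x.t d true d₁)).exp
        (child c false) (x.half d false).t (tr x.t d false d₁)).th *
        sw (child (child c true) false) (child (child c false) true)⟩ : St ι) =
      ((σ.exp c x.t d₁).exp (child c true) (ht x.t d₁ true) (tr x.t d₁ true d)).exp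
        (child c false) (ht x.t d₁ false) (tr x.t d₁ false d) := by
    refine St.ext rfl ?_
    have := mu_sq c hd₁ hd hne
    change σ.th * mu c x.t d * mu (child c true) (ht x.t d true) (tr x.t d true d₁) *
        mu (child c false) (ht x.t d false) (tr x.t d false d₁) *
        sw (child (child c true) false) (child (child c false) true) =
      σ.th * mu c x.t d₁ * mu (child c true) (ht x.t d₁ true) (tr x.t d₁ true d) *
        mu (child c false) (ht x.t d₁ false) (tr x.t d₁ false d)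
    simp only [mul_assoc] at this ⊢
    rw [this]
  have hl : (child (child c false) true).2.length = (child (child c true) false).2.length := by
    simp [child]
  have q3 := PathN.perm (I := I) (J := J)
    (σ := ((σ.exp c x.t d).exp (child c true) (x.half d true).t (tr x.t d true d₁)).exp
        (child c false) (x.half d false).t (tr x.t d false d₁))
    ⟨sw (child (child c true) false) (child (child c false) true), sw_mem_LT _ _⟩ _
    (sw_mem_Fix hI hI)
    (fun e he => by
      obtain ⟨e', he', r, -⟩ := uniq_rig_sw v3 xa.1 xb.1 hl he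
      exact ⟨e', he', r⟩)
    (fun e he => by
      obtain ⟨e', he', -, r⟩ := uniq_rig_sw v3 xa.1 xb.1 hl he
      exact ⟨e', he', r⟩)
    (e ▸ q)
  refine ⟨_, PathN.exp (x1 true) w1 (PathN.exp x2 w2 q3), ?_⟩
  have := J.sq c x.t d₁ d hsz hd₁ hd hne
  simp only [← mul_assoc]
  rw [this]
  rfl

theorem PathN.rc {i : ι} (A : Set Om)
    (hA : ∀ c' z, σ'.At c' i z → z.set ⊆ A ∨ Disjoint z.set A) (n : ℕ) :
    ∀ {σ : St ι} {h : H} {c : Cell ι} {x : Pc} {d : Dir}, PathN I J n σ σ' h → σ.Valid I →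
      σ.At c i x → valid x.t d = true → A ∩ x.set = (x.half d true).set →
      ∃ m h₁, n = m + 1 ∧ PathN I J m (σ.exp c x.t d) σ' h₁ ∧ h = J.mu c x.t d * h₁ := by
  induction n using Nat.strong_induction_on with
  | _ n ih =>
  intro σ h c x d p hσ hx hd hxA
  rcases n with _ | n
  · exfalso
    obtain ⟨g, hr, hth, -⟩ := p.zero_aux rfl
    obtain ⟨c', hc', r⟩ := hr c hx.1
    have hx' : σ'.At c' i x := by
      have := (St.at_perm (σ := σ) hx.1 hc' r).2 hx
      rwa [← hth] at this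
    rcases hA c' x hx' with hs | hs
    · refine uniq_not_subset_half hd true ?_
      rw [← hxA]
      exact Set.subset_inter hs subset_rfl
    · obtain ⟨y, hy⟩ := set_nonempty (x.half d true)
      rw [← hxA] at hy
      exact Set.disjoint_left.1 hs hy.2 hy.1
  obtain ⟨c₁, i₁, x₁, d₁, h₁, hx₁, hd₁, q, rfl⟩ := p.inv_aux hσ rfl
  have v1 := hσ.exp hx₁ hd₁
  by_cases hc : c = c₁
  · subst hc
    obtain ⟨rfl, rfl⟩ := hx.unique hx₁
    by_cases hdd : d₁ = d
    · subst hdd
      exact ⟨n, h₁, rfl, q, rfl⟩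
    have x1 : ∀ β, (σ.exp c x.t d₁).At (child c β) i (x.half d₁ β) := fun β =>
      (St.at_exp hσ hx hd₁).2 (Or.inl ⟨β, rfl, rfl, rfl⟩)
    have w : ∀ β, valid (x.half d₁ β).t (tr x.t d₁ β d) = true := fun β => valid_tr hd₁ hd hdd β
    have hAβ : ∀ β, A ∩ (x.half d₁ β).set = ((x.half d₁ β).half (tr x.t d₁ β d) true).set := by
      intro β
      rw [← half_inter hd₁ hd hdd β true, ← hxA, Set.inter_assoc,
        Set.inter_eq_self_of_subset_right (half_subset hd₁ β)]
    obtain ⟨m, h₂, rfl, q₂, rfl⟩ := ih n (by omega) q v1 (x1 true) (w true) (hAβ true)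
    have v2 := v1.exp (x1 true) (w true)
    have x2 := (St.at_exp v1 (x1 true) (w true)).2 (Or.inr ⟨uniq_child_ne c, x1 false⟩)
    obtain ⟨k, h₃, rfl, q₃, rfl⟩ := ih m (by omega) q₂ v2 x2 (w false) (hAβ false)
    obtain ⟨h₄, q₄, e⟩ := uniq_square hσ hx hd hd₁ hdd q₃
    exact ⟨_, h₄, rfl, q₄, e⟩
  · have x1 := (St.at_exp hσ hx₁ hd₁).2 (Or.inr ⟨hc, hx⟩)
    obtain ⟨m, h₂, rfl, q₂, rfl⟩ := ih n (by omega) q v1 x1 hd hxA
    rw [uniq_exp_comm hσ hx.1 hx₁.1 hc] at q₂
    have x2 := (St.at_exp hσ hx hd).2 (Or.inr ⟨Ne.symm hc, hx₁⟩)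
    refine ⟨m + 1, _, rfl, PathN.exp x2 hd₁ q₂, ?_⟩
    rw [← mul_assoc, ← mul_assoc, (J.comm c c₁ x.t x₁.t d d₁ (hσ.disj c hx.1 c₁ hx₁.1 hc)).eq]

/-- Change of the first cut.

Use an auxiliary predicate `PathN n` (number of `exp` steps) or the measure
`σ'.cs.card - σ.cs.card`.
*Inversion*: a path from a valid state is either made of `perm` steps only, or has the form
`J.mu c₁ x₁.t d₁ * h₁` with a path `h₁` (one `exp` step less) from `σ.exp c₁ x₁.t d₁`: to move an
`exp` at `c'` in front of a `perm` step `g` with `Rig g c' c`, use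
`v g * mu c' = mu c * v g` (`J.conj`, `loc_conj`) and the `perm` step `g` from `σ.exp c ..` to
`(⟨cs', σ.th * g⟩).exp c' ..` (`Rig.child`).
*Strong induction on `n`*, for all `σ c x d` (the set `A` is fixed). If there is no `exp` step then
`x` is a piece of `σ'`, against `hA` (both halves are nonempty). If `c₁ ≠ c`: induction hypothesis in
`σ.exp c₁ ..`, the two expansions commute as states (`gInterp.comm`) and in `H` (`J.comm`).
If `c₁ = c`, `d₁ = d`: done. Otherwise apply the induction hypothesis twice (at `child c true`,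
then at `child c false`, directions `tr x.t d₁ β d`, `half_inter`), rewrite with `J.sq`, and build
the path `exp, exp, perm (sw ..)` using `mu_sq` for the equality of states. -/
theorem Path.rc (p : Path I J σ σ' h) (hσ : σ.Valid I) {c : Cell ι} {i : ι} {x : Pc}
    (hx : σ.At c i x) {d : Dir} (hd : valid x.t d = true) (A : Set Om)
    (hxA : A ∩ x.set = (x.half d true).set)
    (hA : ∀ c' z, σ'.At c' i z → z.set ⊆ A ∨ Disjoint z.set A) :
    ∃ h₁, Path I J (σ.exp c x.t d) σ' h₁ ∧ h = J.mu c x.t d * h₁ := by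
  obtain ⟨n, q⟩ := p.toN
  obtain ⟨m, h₁, -, q₁, e⟩ := PathN.rc A hA n q hσ hx hd hxA
  exact ⟨h₁, q₁.toPath, e⟩

/-- Induction on the first path, for all second paths.
`exp`: the pieces of `σ'` respect `A = (x.half d true).set` (`Path.desc`, `St.at_exp`,
`St.Valid.disj_piece`), apply `Path.rc` to the second path. `perm g`: prefix the second path by the
`perm` step `g⁻¹`. `refl`: a path from `σ` to itself has no `exp` step (cardinality, or because a
piece of `σ` would be contained in a half of itself), hence has the value `v g` with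
`σ.th = σ.th * g`. -/
theorem Path.unique (p : Path I J σ σ' h) (p' : Path I J σ σ' h') (hσ : σ.Valid I) : h = h' := by
  induction p generalizing h' with
  | refl σ =>
    obtain ⟨n, q⟩ := p'.toN
    rcases n with _ | n
    · obtain ⟨g, -, hth, rfl⟩ := q.zero_aux rfl
      have : g = 1 := Subtype.ext (by simpa using hth)
      rw [this, map_one]
    · exfalso
      obtain ⟨c, i, x, d, h₁, hx, hd, q₁, -⟩ := q.inv_aux hσ rfl
      obtain ⟨c₀, x₀, hx₀, hdesc⟩ := q₁.toPath.desc (hσ.exp hx hd) hx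
      rcases (St.at_exp hσ hx hd).1 hx₀ with ⟨β, -, -, rfl⟩ | ⟨hne, hx₀⟩
      · exact uniq_not_subset_half hd β hdesc.subset
      · obtain ⟨y, hy⟩ := set_nonempty x
        exact Set.disjoint_left.1 (hσ.disj_piece hx₀ hx hne) (hdesc.subset hy) hy
  | @exp σ σ' c i x d h hx hd p ih =>
    have v1 := hσ.exp hx hd
    obtain ⟨h₁, q, rfl⟩ := p'.rc hσ hx hd (x.half d true).set
      (Set.inter_eq_self_of_subset_left (half_subset hd true)) (by
        intro c' z hz
        obtain ⟨c₀, x₀, hx₀, hdesc⟩ := p.desc v1 hz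
        rcases (St.at_exp hσ hx hd).1 hx₀ with ⟨β, -, -, rfl⟩ | ⟨hne, hx₀⟩
        · cases β
          · exact Or.inr ((half_disjoint hd).symm.mono_left hdesc.subset)
          · exact Or.inl hdesc.subset
        · exact Or.inr ((hσ.disj_piece hx₀ hx hne).mono hdesc.subset (half_subset hd true)))
    rw [ih q v1]
  | @perm σ σ' g cs' h hg h₁ h₂ p ih =>
    have e : (⟨σ.cs, (⟨cs', σ.th * g.1⟩ : St ι).th * (g⁻¹ : LT ι).1⟩ : St ι) = σ :=
      St.ext rfl (by simp)
    have q := Path.perm (I := I) (J := J) (σ := ⟨cs', σ.th * g.1⟩) g⁻¹ σ.cs (inv_mem hg)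
      (fun c hc => by
        obtain ⟨c', hc', r⟩ := h₂ c hc
        exact ⟨c', hc', r.inv⟩)
      (fun c' hc' => by
        obtain ⟨c, hc, r⟩ := h₁ c' hc'
        exact ⟨c, hc, r.inv⟩)
      (e.symm ▸ p')
    rw [ih q (hσ.perm hg h₁ h₂), map_inv, mul_inv_cancel_left]

end Crest.Agent.R189
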